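import Vale.Agent.P240.R2.H775.GB4

/-! Golod–Shafarevich with a free ratio `x`:
some class `G` has `(1 - x - 1/(b x)) x^(n-1) |G| < t(G)`. -/

namespace Vale.Agent.P240.R2.H775.X

open Vale.Agent.P240.R2 Vale.Agent.P240.R2.H775 Vale.Agent.P240.R2.H775.B

universe u

variable {L : Type u} [DecidableEq L] [Fintype L]

/-- the constant -/
def tau (b n : ℕ) (x : ℚ) : ℚ := (1 - x - 1 / (b * x)) * x ^ (n - 1)

/-- the growth property -/
def P (x : ℚ) (n : ℕ) (F : Finset (List L)) : Prop := x * (A n 1 F : ℚ) ≤ A n 0 F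

theorem A_le {x : ℚ} (hx : 0 < x) (n : ℕ) : ∀ (j : ℕ) (F : Finset (List L)),
    (∀ g : List L, g ≠ [] → P x n (quot F g)) → x ^ j * (A n (j + 1) F : ℚ) ≤ A n 1 F := by
  intro j
  induction j with
  | zero => intro F _; simp
  | succ j ih =>
    intro F hP
    have h1 : ∀ l : L, x * (A n (j + 1) (quot F [l]) : ℚ) ≤ A n j (quot F [l]) := by
      intro l
      clear ih
      have hP' : ∀ g : List L, P x n (quot (quot F [l]) g) := by
        intro g
        rw [quot_quot]
        exact hP _ (by simp)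
      generalize quot F [l] = F' at hP'
      clear hP
      induction j generalizing F' with
      | zero => simpa [P, quot_nil] using hP' []
      | succ j ih2 =>
        rw [A, A]
        push_cast
        rw [Finset.mul_sum]
        refine Finset.sum_le_sum fun m _ => ih2 _ ?_
        intro g
        rw [quot_quot]
        exact hP' _
    have h2 : x * (A n (j + 1 + 1) F : ℚ) ≤ A n (j + 1) F := by
      have e1 : A n (j + 1 + 1) F = ∑ l, A n (j + 1) (quot F [l]) := rfl
      have e2 : A n (j + 1) F = ∑ l, A n j (quot F [l]) := rfl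
      rw [e1, e2]
      push_cast
      rw [Finset.mul_sum]
      exact Finset.sum_le_sum fun l _ => h1 l
    calc x ^ (j + 1) * (A n (j + 1 + 1) F : ℚ) = x ^ j * (x * (A n (j + 1 + 1) F : ℚ)) := by ring
      _ ≤ x ^ j * (A n (j + 1) F : ℚ) := mul_le_mul_of_nonneg_left h2 (by positivity)
      _ ≤ A n 1 F := ih F hP

/-- all `t` are small -/
def Small (b n : ℕ) (x : ℚ) (F : Finset (List L)) : Prop :=
  ∀ h g : List L, g.length = n → (quot F (g ++ h)).Nonempty →
    (t (cls n (quot F h) (quot F (g ++ h))) : ℚ) ≤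
      tau b n x * (cls n (quot F h) (quot F (g ++ h))).card

theorem Small.quot {b n : ℕ} {x : ℚ} {F : Finset (List L)} (h : Small b n x F) (q : List L) :
    Small b n x (quot F q) := by
  intro p g hg hne
  rw [quot_quot, quot_quot, List.append_assoc] at *
  exact h (p ++ q) g hg hne

/-- the main growth step -/
theorem growth {b n : ℕ} {x : ℚ} (hb : 1 ≤ b) (hx : 0 < x) (hc : 0 ≤ 1 - x - 1 / (b * x))
    (hn : 2 ≤ n) :
    ∀ (k : ℕ) (F : Finset (List L)), 1 ≤ k → B.Good b k F → Small b n x F → P x n F := by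
  intro k
  induction k using Nat.strong_induction_on with
  | _ k ih =>
    intro F hk hF hS
    have hP : ∀ g : List L, g ≠ [] → P x n (H775.quot F g) := by
      intro g hg
      have hg1 : 1 ≤ g.length := List.length_pos_iff.mpr hg
      rcases Nat.lt_or_ge g.length k with h1 | h1
      · exact ih (k - g.length) (by omega) _ (by omega) (hF.quot g h1.le) (hS.quot g)
      · have : A n 1 (H775.quot F g) = 0 := by
          simp only [A]
          refine Finset.sum_eq_zero fun l _ => ?_
          rw [quot_quot, B.quot_long hF (by simp; omega), us_empty]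
        simp [P, this]
    have h1 := B.gs_ineq (n := n) (by omega) hF
    have h2 := B.pairs_le (n := n) hF
    have h3 := A_le hx n 1 F hP
    have h4 : (∑ X ∈ Xn n F, (us n X : ℚ) * t (cls n F X)) ≤ tau b n x * A n n F := by
      rw [← sum_cls]
      push_cast
      rw [Finset.mul_sum]
      refine Finset.sum_le_sum fun X hX => ?_
      rcases Finset.eq_empty_or_nonempty X with rfl | hne
      · simp [us_empty]
      · obtain ⟨g, -, hg⟩ := Finset.mem_image.mp hX
        have h5 := hS [] (List.ofFn g) (by simp) (by rw [List.append_nil, hg]; exact hne)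
        rw [List.append_nil, hg, quot_nil] at h5
        calc (us n X : ℚ) * t (cls n F X) = (t (cls n F X) : ℚ) * us n X := by ring
          _ ≤ (tau b n x * (cls n F X).card) * us n X :=
              mul_le_mul_of_nonneg_right h5 (by positivity)
          _ = tau b n x * ((cls n F X).card * us n X) := by ring
    obtain ⟨m, rfl⟩ : ∃ m, n = m + 1 := ⟨n - 1, by omega⟩
    have h5 := A_le hx (m + 1) m F hP
    have e0 : ∑ l, Module.finrank ℚ (S (m + 1) (H775.quot F [l])) = A (m + 1) 1 F := rfl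
    have e1 : ∑ X ∈ X2 F, Module.finrank ℚ (S (m + 1) X) = ∑ X ∈ X2 F, us (m + 1) X := rfl
    have e2 : ∑ X ∈ Xn (m + 1) F, Module.finrank ℚ (S (m + 1) X) * t (cls (m + 1) F X) =
        ∑ X ∈ Xn (m + 1) F, us (m + 1) X * t (cls (m + 1) F X) := rfl
    have e3 : Module.finrank ℚ (S (m + 1) F) = A (m + 1) 0 F := rfl
    rw [e0, e1, e2, e3] at h1
    unfold P
    have h1' : (A (m + 1) 1 F : ℚ) ≤ A (m + 1) 0 F + (∑ X ∈ X2 F, us (m + 1) X : ℕ) +
        ∑ X ∈ Xn (m + 1) F, (us (m + 1) X : ℚ) * t (cls (m + 1) F X) := by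
      exact_mod_cast h1
    have h2' : (b : ℚ) * (∑ X ∈ X2 F, us (m + 1) X : ℕ) ≤ A (m + 1) 2 F := by exact_mod_cast h2
    generalize (A (m + 1) 1 F : ℚ) = a1 at *
    generalize (A (m + 1) 0 F : ℚ) = a0 at *
    generalize (A (m + 1) 2 F : ℚ) = a2 at *
    generalize (A (m + 1) (m + 1) F : ℚ) = an at *
    generalize ((∑ X ∈ X2 F, us (m + 1) X : ℕ) : ℚ) = s2 at *
    generalize ∑ X ∈ Xn (m + 1) F, (us (m + 1) X : ℚ) * t (cls (m + 1) F X) = sn at *
    have hb' : (0 : ℚ) < b := by exact_mod_cast hb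
    have hbx : (0 : ℚ) < b * x := mul_pos hb' hx
    have h6 : s2 ≤ a1 / (b * x) := by
      rw [le_div_iff₀ hbx]
      rw [pow_one] at h3
      calc s2 * (b * x) = x * (b * s2) := by ring
        _ ≤ x * a2 := mul_le_mul_of_nonneg_left h2' hx.le
        _ ≤ a1 := h3
    have h7 : sn ≤ (1 - x - 1 / (b * x)) * a1 := by
      calc sn ≤ tau b (m + 1) x * an := h4
        _ = (1 - x - 1 / (b * x)) * (x ^ m * an) := by
            rw [tau, Nat.add_sub_cancel]; ring
        _ ≤ (1 - x - 1 / (b * x)) * a1 := mul_le_mul_of_nonneg_left h5 hc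
    have h8 : a1 / (b * x) = (1 / (b * x)) * a1 := by ring
    rw [h8] at h6
    linarith

theorem card_le_us {b n : ℕ} {x : ℚ} (hb : 1 ≤ b) (hx : 0 < x) (hc : 0 ≤ 1 - x - 1 / (b * x))
    (hn : 2 ≤ n) : ∀ (k : ℕ) (F : Finset (List L)), B.Good b k F →
    Small b n x F → x ^ k * (F.card : ℚ) ≤ us n F := by
  intro k
  induction k with
  | zero =>
    intro F hF _
    rcases Finset.eq_empty_or_nonempty F with rfl | ⟨w, hw⟩
    · simp
    · have hw0 : w = [] := List.length_eq_zero_iff.mp (hF.len w hw)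
      have hFs : F = {[]} := by
        ext x
        simp only [Finset.mem_singleton]
        constructor
        · intro hx; exact List.length_eq_zero_iff.mp (hF.len x hx)
        · rintro rfl; rw [← hw0]; exact hw
      subst hFs
      have : 1 ≤ us n ({[]} : Finset (List L)) := by simpa using us_nil (L := L) (n := n) (by omega)
      simpa using this
  | succ k ih =>
    intro F hF hS
    have h1 : P x n F := growth hb hx hc hn (k + 1) F (by omega) hF hS
    have h2 : (F.card : ℚ) ≤ ∑ l, ((H775.quot F [l]).card : ℚ) := by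
      exact_mod_cast B.card_le_sum hF
    have h3 : x ^ k * (F.card : ℚ) ≤ A n 1 F := by
      calc x ^ k * (F.card : ℚ) ≤ x ^ k * ∑ l, ((H775.quot F [l]).card : ℚ) :=
            mul_le_mul_of_nonneg_left h2 (by positivity)
        _ = ∑ l, x ^ k * ((H775.quot F [l]).card : ℚ) := by rw [Finset.mul_sum]
        _ ≤ ∑ l, (us n (H775.quot F [l]) : ℚ) := by
            refine Finset.sum_le_sum fun l _ => ih _ ?_ (hS.quot [l])
            have := hF.quot [l] (by simp)
            simpa using this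
        _ = (A n 1 F : ℚ) := by
            have : A n 1 F = ∑ l, us n (H775.quot F [l]) := rfl
            rw [this]; push_cast; rfl
    calc x ^ (k + 1) * (F.card : ℚ) = x * (x ^ k * F.card) := by ring
      _ ≤ x * A n 1 F := mul_le_mul_of_nonneg_left h3 hx.le
      _ ≤ A n 0 F := h1
      _ = us n F := rfl

/-- the conclusion from (c) and the numerics -/
theorem gs_of {b n k C B' : ℕ} {x : ℚ} (hb : 1 ≤ b) (hx : 0 < x) (hc0 : 0 ≤ 1 - x - 1 / (b * x))
    (hn : 2 ≤ n) (hB : 1 ≤ B' * x)
    {F : Finset (List L)} (hF : B.Good b k F) (hne : F.Nonempty)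
    (hc : k.factorial * us n F ≤ F.card * C) (hnum : B' ^ k * C < k.factorial) :
    ∃ h g : List L, g.length = n ∧ (H775.quot F (g ++ h)).Nonempty ∧
      tau b n x * (cls n (H775.quot F h) (H775.quot F (g ++ h))).card <
        (t (cls n (H775.quot F h) (H775.quot F (g ++ h))) : ℚ) := by
  by_contra hcon
  push Not at hcon
  have hS : Small b n x F := fun h g hg hq => hcon h g hg hq
  have h1 := card_le_us hb hx hc0 hn k F hF hS
  have h2 : 0 < F.card := hne.card_pos
  have hBx : 1 ≤ (B' : ℚ) ^ k * x ^ k := by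
    rw [← mul_pow]
    exact one_le_pow₀ hB
  have h1' : F.card ≤ B' ^ k * us n F := by
    have : (F.card : ℚ) ≤ (B' : ℚ) ^ k * us n F := by
      calc (F.card : ℚ) = 1 * F.card := (one_mul _).symm
        _ ≤ ((B' : ℚ) ^ k * x ^ k) * F.card := mul_le_mul_of_nonneg_right hBx (by positivity)
        _ = (B' : ℚ) ^ k * (x ^ k * F.card) := by ring
        _ ≤ (B' : ℚ) ^ k * us n F := mul_le_mul_of_nonneg_left h1 (by positivity)
    exact_mod_cast this
  have h3 : F.card * k.factorial ≤ F.card * (B' ^ k * C) := by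
    calc F.card * k.factorial ≤ (B' ^ k * us n F) * k.factorial := Nat.mul_le_mul_right _ h1'
      _ = B' ^ k * (k.factorial * us n F) := by ring
      _ ≤ B' ^ k * (F.card * C) := Nat.mul_le_mul_left _ hc
      _ = F.card * (B' ^ k * C) := by ring
  have h4 := Nat.le_of_mul_le_mul_left h3 h2
  omega

/-- **M1 with `b` pairs per plane and a free ratio `x`**: for `0 < x` with `x + 1/(b x) ≤ 1`
some class `G` of words of length `n` satisfies `(1 - x - 1/(b x)) x^(n-1) |G| < t(G)` -/
theorem gsX (b n : ℕ) (x : ℚ) (hb : 1 ≤ b) (hn : 2 ≤ n) (hx : 0 < x)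
    (hc : 0 ≤ 1 - x - 1 / (b * x)) : ∃ k0 : ℕ, ∀ (L : Type u) [DecidableEq L]
    [Fintype L] (F : Finset (List L)) (k : ℕ), k0 ≤ k → B.Good b k F → F.Nonempty →
    ∃ g : List L, g.length = n ∧ (∃ w, w ++ g ∈ F) ∧
      (1 - x - 1 / (b * x)) * x ^ (n - 1) * ((AS.cls F g).card : ℚ) < (AS.t (AS.cls F g) : ℚ) := by
  obtain ⟨B', hB⟩ := exists_nat_ge (1 / x)
  have hBx : 1 ≤ (B' : ℚ) * x := by
    rw [div_le_iff₀ hx] at hB
    exact hB
  have hB0 : 0 < B' := by
    rcases Nat.eq_zero_or_pos B' with h | h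
    · subst h; simp at hBx; linarith
    · exact h
  obtain ⟨K0, hK0⟩ := H986.exists_small n B' hB0
  refine ⟨K0, ?_⟩
  intro L _ _ F k hk hF hne
  obtain ⟨h, g, hg, hq, hlt⟩ := gs_of (C := H986.c n k) hb hx hc hn hBx hF hne
    (B.us_le (by omega) hF) (hK0 k hk)
  have hq' := hq
  obtain ⟨u, hu⟩ := hq'
  rw [mem_quot] at hu
  refine ⟨g, hg, ⟨u ++ h, ?_⟩, ?_⟩
  · refine hF.perm _ _ ?_ hu
    rw [List.append_assoc]
    exact List.Perm.append_left u List.perm_append_comm
  · subst hg
    rw [B.cls_eq hF hq, t_eq] at hlt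
    · exact hlt
    · intro w hw w' hww
      rw [AS.mem_cls] at hw ⊢
      refine ⟨by rw [← hww.length_eq, hw.1], fun x => ?_⟩
      rw [← hw.2 x]
      exact ⟨fun h => hF.perm _ _ (hww.symm.append_left x) h,
        fun h => hF.perm _ _ (hww.append_left x) h⟩
    · intro h0
      have := (AS.mem_cls.mp h0).1
      simp at this
      omega

/-- in particular some class has `t > 0` -/
theorem gsX_pos (b n : ℕ) (x : ℚ) (hb : 1 ≤ b) (hn : 2 ≤ n) (hx : 0 < x)
    (hc : 0 ≤ 1 - x - 1 / (b * x)) : ∃ k0 : ℕ, ∀ (L : Type u) [DecidableEq L]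
    [Fintype L] (F : Finset (List L)) (k : ℕ), k0 ≤ k → B.Good b k F → F.Nonempty →
    ∃ g : List L, g.length = n ∧ (∃ w, w ++ g ∈ F) ∧ 0 < AS.t (AS.cls F g) := by
  obtain ⟨k0, h0⟩ := gsX b n x hb hn hx hc
  refine ⟨k0, ?_⟩
  intro L _ _ F k hk hF hne
  obtain ⟨g, h1, h2, h3⟩ := h0 L F k hk hF hne
  refine ⟨g, h1, h2, ?_⟩
  have : (0 : ℚ) ≤ (1 - x - 1 / (b * x)) * x ^ (n - 1) * ((AS.cls F g).card : ℚ) := by
    positivity
  have h4 : (0 : ℚ) < (AS.t (AS.cls F g) : ℚ) := lt_of_le_of_lt this h3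
  exact_mod_cast h4

end Vale.Agent.P240.R2.H775.X
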