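import Vale.Agent.P240.R2.H775.Top1
import Vale.Agent.P240.R2.H275.M4c2

/-!
`Comb` transported along injective homomorphisms; `Comb` for `ε ∘ sW` (`PSUHom`);
T1: a top cycle in `L`.
-/

set_option autoImplicit false

namespace Vale.Agent.P240.R2.H775

open Subgroup Matrix
open Vale.Agent.P240.R2 Vale.Agent.P240.R2.AS

universe u v w

section transport

variable {G : Type*} [Group G] {H : Type*} [Group H] {X : Type*}

/-- only the values on the words below `F` matter -/
theorem SS_congr {e e' : List X → G} {w : List X} (h : ∀ x ∈ w, e [x] = e' [x]) :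
    SS e w = SS e' w := by
  unfold SS
  congr 1
  ext y
  constructor
  · rintro ⟨x, hx, rfl⟩; exact ⟨x, hx, h x hx⟩
  · rintro ⟨x, hx, rfl⟩; exact ⟨x, hx, (h x hx).symm⟩

/-- a hereditary set of words -/
structure Her (F : Finset (List X)) (O : List X → Prop) : Prop where
  mem : ∀ w ∈ F, O w
  left : ∀ u v : List X, O (u ++ v) → O u
  right : ∀ u v : List X, O (u ++ v) → O v
  perm : ∀ u v : List X, u.Perm v → O u → O v

theorem Her.single {F : Finset (List X)} {O : List X → Prop} (h : Her F O) {w : List X}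
    (hw : O w) {x : X} (hx : x ∈ w) : O [x] := by
  obtain ⟨a, b, rfl⟩ := List.append_of_mem hx
  exact h.left [x] b (h.right a ([x] ++ b) (by simpa using hw))

theorem Comb.congr {p n : ℕ} {F : Finset (List X)} {e e' : List X → G} {O : List X → Prop}
    (hc : Comb p n F e) (hO : Her F O) (h : ∀ w, O w → e w = e' w) (hnil : e [] = e' []) :
    Comb p n F e' where
  len := hc.len
  nodup := hc.nodup
  perm := hc.perm
  plane := by
    intro u a b c d v w h1 h2
    have e1 : O (u ++ a :: b :: v) := hO.left _ w (by simpa using hO.mem _ h1)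
    have e2 : O (u ++ c :: d :: v) := hO.left _ w (by simpa using hO.mem _ h2)
    rw [← h _ e1, ← h _ e2]
    exact hc.plane u a b c d v w h1 h2
  comm := by
    intro u v w h1
    have e1 : O (u ++ v) := hO.left _ w (by simpa using hO.mem _ h1)
    have e2 : O u := hO.left _ v e1
    rw [← h _ e1, ← h _ e2]
    exact hc.comm u v w h1
  pow := by
    intro u v h1
    rw [← h _ (hO.left _ v (hO.mem _ h1))]
    exact hc.pow u v h1
  nil := by rw [← hnil]; exact hc.nil
  full := by
    intro w hw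
    rw [← h _ (hO.mem _ hw)]
    exact hc.full w hw
  card := by
    intro w hw
    have h1 : {y | ∃ u v, w = u ++ v ∧ y = e' u} = {y | ∃ u v, w = u ++ v ∧ y = e u} := by
      ext y
      constructor
      · rintro ⟨u, v, rfl, rfl⟩
        exact ⟨u, v, rfl, (h _ (hO.left _ v (hO.mem _ hw))).symm⟩
      · rintro ⟨u, v, rfl, rfl⟩
        exact ⟨u, v, rfl, h _ (hO.left _ v (hO.mem _ hw))⟩
    rw [h1]
    exact hc.card w hw
  sep := by
    intro A u v B l g h1 h2 hu hv
    have e1 : O (A ++ (u ++ v) ++ B) := hO.mem _ h1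
    have e2 : O (A ++ (l :: g) ++ B) := hO.mem _ h2
    have e3 : O (A ++ u) := by
      have : O ((A ++ u) ++ (v ++ B)) := by simpa using e1
      exact hO.left _ _ this
    have e4 : O [l] := hO.single e2 (by simp)
    have e5 : SS e (A ++ B) = SS e' (A ++ B) := by
      refine SS_congr fun x hx => h _ (hO.single e1 ?_)
      simp only [List.mem_append] at hx ⊢
      tauto
    rw [← e5, ← h _ e3, ← h _ e4]
    exact hc.sep A u v B l g h1 h2 hu hv

theorem map_SS (f : G →* H) (e : List X → G) (w : List X) :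
    SS (fun u => f (e u)) w = (SS e w).map f := by
  unfold SS
  rw [MonoidHom.map_closure]
  congr 1
  ext y
  constructor
  · rintro ⟨x, hx, rfl⟩; exact ⟨_, ⟨x, hx, rfl⟩, rfl⟩
  · rintro ⟨_, ⟨x, hx, rfl⟩, rfl⟩; exact ⟨x, hx, rfl⟩

theorem map_pfx (f : G →* H) (e : List X → G) (w : List X) :
    closure {y | ∃ u v, w = u ++ v ∧ y = f (e u)} =
      (closure {y | ∃ u v, w = u ++ v ∧ y = e u}).map f := by
  rw [MonoidHom.map_closure]
  congr 1
  ext y
  constructor
  · rintro ⟨u, v, h, rfl⟩; exact ⟨_, ⟨u, v, h, rfl⟩, rfl⟩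
  · rintro ⟨_, ⟨u, v, h, rfl⟩, rfl⟩; exact ⟨u, v, h, rfl⟩

theorem Comb.map_iff {p n : ℕ} {F : Finset (List X)} {e : List X → G} {f : G →* H}
    (hf : Function.Injective f) : Comb p n F (fun u => f (e u)) ↔ Comb p n F e := by
  have hcard : ∀ S : Subgroup G, Nat.card (S.map f) = Nat.card S := fun S =>
    Nat.card_congr (S.equivMapOfInjective f hf).symm.toEquiv
  have hs : ∀ (S : Subgroup G) (x y : G), (S.map f ⊔ zpowers (f x) = S.map f ⊔ zpowers (f y)) ↔
      (S ⊔ zpowers x = S ⊔ zpowers y) := by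
    intro S x y
    rw [← MonoidHom.map_zpowers, ← MonoidHom.map_zpowers, ← Subgroup.map_sup,
      ← Subgroup.map_sup]
    exact (Subgroup.map_injective hf).eq_iff
  constructor
  · intro hc
    exact
    { len := hc.len
      nodup := hc.nodup
      perm := hc.perm
      plane := fun u a b c d v w h1 h2 => hf (hc.plane u a b c d v w h1 h2)
      comm := fun u v w h1 => hf (by rw [map_mul, map_mul]; exact hc.comm u v w h1)
      pow := fun u v h1 => hf (by rw [map_pow, map_one]; exact hc.pow u v h1)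
      nil := hf (by rw [map_one]; exact hc.nil)
      full := fun w hw => hf (by rw [map_one]; exact hc.full w hw)
      card := fun w hw => by
        rw [← hc.card w hw, map_pfx, hcard]
      sep := fun A u v B l g h1 h2 hu hv => by
        rw [← hc.sep A u v B l g h1 h2 hu hv, map_SS, hs] }
  · intro hc
    exact
    { len := hc.len
      nodup := hc.nodup
      perm := hc.perm
      plane := fun u a b c d v w h1 h2 => congrArg f (hc.plane u a b c d v w h1 h2)
      comm := fun u v w h1 => by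
        rw [← map_mul, ← map_mul, hc.comm u v w h1]
      pow := fun u v h1 => by rw [← map_pow, hc.pow u v h1, map_one]
      nil := by rw [hc.nil, map_one]
      full := fun w hw => by rw [hc.full w hw, map_one]
      card := fun w hw => by
        rw [map_pfx, hcard]; exact hc.card w hw
      sep := fun A u v B l g h1 h2 hu hv => by
        rw [map_SS, hs]; exact hc.sep A u v B l g h1 h2 hu hv }

/-- two homomorphisms with the same kernel -/
theorem Comb.of_ker {S : Type*} [Group S] {p n : ℕ} {F : Finset (List X)} {e : List X → S}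
    {f : S →* G} {g : S →* H} (h : f.ker = g.ker) (hc : Comb p n F (fun u => f (e u))) :
    Comb p n F (fun u => g (e u)) := by
  have h1 : Comb p n F (fun u => (QuotientGroup.mk (e u) : S ⧸ f.ker)) := by
    have := (Comb.map_iff (p := p) (n := n) (F := F)
      (e := fun u => (QuotientGroup.mk (e u) : S ⧸ f.ker))
      (QuotientGroup.kerLift_injective f)).1
    exact this hc
  have h2 : Function.Injective (QuotientGroup.lift f.ker g (by
      intro x hx; rw [h] at hx; exact hx)) := by
    rw [← MonoidHom.ker_eq_bot_iff, eq_bot_iff]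
    intro x
    refine QuotientGroup.induction_on x fun s hs => ?_
    rw [MonoidHom.mem_ker, QuotientGroup.lift_mk] at hs
    rw [Subgroup.mem_bot, QuotientGroup.eq_one_iff, h]
    exact hs
  exact (Comb.map_iff (p := p) (n := n) (F := F)
      (e := fun u => (QuotientGroup.mk (e u) : S ⧸ f.ker)) h2).2 h1

end transport

section unitary

open Vale.Agent.P240.R2.H275 Vale.Agent.P240.R2.H38

variable {K : Type u} [Field K] [Fintype K] [StarRing K] {n : ℕ}

omit [Fintype K] in
lemma det_letter (ζ : K) (P : Ln K n) : (1 + (ζ - 1) • P.1).det = ζ := by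
  obtain ⟨P, x, hx, rfl⟩ := P
  show (1 + (ζ - 1) • vecMulVec x (star x)).det = ζ
  have h1 : (ζ - 1) • vecMulVec x (star x) =
      replicateCol Unit ((ζ - 1) • x) * replicateRow Unit (star x) := by
    rw [← vecMulVec_eq, smul_vecMulVec]
  rw [h1, det_one_add_replicateCol_mul_replicateRow, dotProduct_smul, hx]
  simp

lemma det_word (ζ : K) {w : List (Ln K n)} (hw : Orth w) :
    (1 + (ζ - 1) • sm w).det = ζ ^ w.length := by
  induction w with
  | nil => simp [H275.sm_nil]
  | cons a w ih =>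
    have h0 : Orth ([a] ++ w) := hw
    have h1 : a.1 * sm w = 0 := by
      have := o_ss h0
      simpa using this
    have h2 : 1 + (ζ - 1) • sm (a :: w) = (1 + (ζ - 1) • a.1) * (1 + (ζ - 1) • sm w) := by
      rw [H275.sm_cons]
      simp only [mul_add, add_mul, mul_one, one_mul, smul_mul_smul_comm, h1, smul_zero, add_zero]
      module
    rw [h2, det_mul, det_letter, ih (List.pairwise_cons.1 hw).2, List.length_cons, pow_succ, mul_comm]

/-- the matrix `sM` is in `SU` -/
theorem exists_sM {ζ c : K} (hζ : ζ * star ζ = 1) (hc : c * star c = 1) (hcn : c ^ n * ζ = 1)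
    {w : List (Ln K n)} (hw : Orth w) : ∃ g : SU K n, mt g = sM ζ c w := by
  have h1 : (1 + (ζ - 1) • sm w) ∈ Matrix.unitaryGroup (Fin n) K :=
    eU_aux ⟨sm_star w, o_idem hw, hζ⟩
  have hck : c ^ w.length * star (c ^ w.length) = 1 := by
    rw [star_pow, ← mul_pow, hc, one_pow]
  have h2 : sM ζ c w ∈ Matrix.unitaryGroup (Fin n) K := by
    rw [Matrix.mem_unitaryGroup_iff] at h1 ⊢
    rw [sM, star_smul, smul_mul_smul_comm, hck, one_smul, h1]
  refine ⟨⟨⟨_, h2⟩, ?_⟩, rfl⟩
  show (sM ζ c w).det = 1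
  rw [sM, det_smul, det_word ζ hw, Fintype.card_fin, ← pow_mul, mul_comm w.length n, pow_mul,
    ← mul_pow, hcn, one_pow]

/-- **the matrix of `sW`** -/
theorem mt_sW {ζ c : K} (hζ : ζ * star ζ = 1) (hc : c * star c = 1) (hcn : c ^ n * ζ = 1)
    {w : List (Ln K n)} (hw : Orth w) : mt (sW ζ c w) = sM ζ c w := by
  have h := exists_sM hζ hc hcn hw
  unfold sW
  rw [dif_pos h]
  exact h.choose_spec

/-- the class map on `SU` -/
def cl : SU K n →* PGU K n := (QuotientGroup.mk' _).comp (SU K n).subtype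

/-- the class of `sW` is `eW` -/
theorem cl_sW {ζ c : K} (h1 : ζ ≠ 1) (hζ : ζ * star ζ = 1) (hc : c * star c = 1)
    (hcn : c ^ n * ζ = 1) {w : List (Ln K n)} (hw : Orth w) : cl (sW ζ c w) = eW ζ w := by
  have h2 := mt_sW hζ hc hcn hw
  show (QuotientGroup.mk (sW ζ c w).1 : PGU K n) = QuotientGroup.mk (eU ζ (sm w))
  rw [QuotientGroup.eq]
  have hc0 : c ≠ 0 := left_ne_zero_of_mul_eq_one hc
  rw [H296.mem_center_iff h1 hζ]
  refine ⟨star (c ^ w.length), ?_⟩
  have h3 : (((sW ζ c w).1⁻¹ * eU ζ (sm w) : GU K n) : Matrix (Fin n) (Fin n) K) =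
      star (mt (sW ζ c w)) * (1 + (ζ - 1) • sm w) := by
    rw [UnitaryGroup.mul_val, eU_coe hζ (o_isP hw)]
    rfl
  have h4 : (1 + (ζ - 1) • sm w) ∈ Matrix.unitaryGroup (Fin n) K :=
    eU_aux ⟨sm_star w, o_idem hw, hζ⟩
  rw [Matrix.mem_unitaryGroup_iff'] at h4
  rw [h3, h2, sM, star_smul, smul_mul_assoc, h4]

theorem her_orth : Her (Fr K n) (Orth (K := K) (n := n)) where
  mem w hw := ((mem_Fr K).1 hw).2
  left u v h := (o_append.1 h).1
  right u v h := (o_append.1 h).2.1
  perm u v huv h := o_perm h huv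

variable {G : Type v} [Group G]

/-- **`Comb` for `ε ∘ sW`** -/
theorem comb_ep {p : ℕ} [Fact p.Prime] {ε : SU K n →* G} {ζ c : K}
    (hε : ∀ g : SU K n, ε g = 1 ↔ ∃ c : K, mt g = c • (1 : Matrix (Fin n) (Fin n) K))
    (hζp : ζ ^ p = 1) (h1 : ζ ≠ 1) (hζ : ζ * star ζ = 1) (hc : c * star c = 1)
    (hcn : c ^ n * ζ = 1) (hn : 1 ≤ n) :
    Comb p n (Fr K n) (fun w => ε (sW ζ c w)) := by
  have hker : (cl (K := K) (n := n)).ker = ε.ker := by
    ext g
    rw [MonoidHom.mem_ker, MonoidHom.mem_ker, hε]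
    exact mk_one_iff h1 hζ g.1
  refine Comb.of_ker hker ?_
  refine Comb.congr (O := Orth) (comb_eW hζp h1 hζ hn) her_orth
    (fun w hw => (cl_sW h1 hζ hc hcn hw).symm) ?_
  exact (cl_sW h1 hζ hc hcn (w := []) List.Pairwise.nil).symm

/-- **T1.** a top cycle in `L` -/
theorem T1 {p : ℕ} [Fact p.Prime] [Finite G] {L : Subgroup G} {ε : SU K n →* G}
    (hL : PSUHom p n L ε) {ζ c : K}
    (hζp : ζ ^ p = 1) (h1 : ζ ≠ 1) (hζ : ζ * star ζ = 1) (hc : c * star c = 1)
    (hcn : c ^ n * ζ = 1) (hn : 1 ≤ n) (ht : 0 < t (Fr K n)) (𝕜 : Type w) [Field 𝕜] :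
    ∃ w ∈ Fr K n, ∃ (α : Vale.Agent.P240.K.Ch 𝕜 (Subgroup G)) (φ : List (Subgroup G)),
      Vale.Agent.P240.K.TopCycle 𝕜 p L (De (fun u => ε (sW ζ c u)) w) α φ :=
  top_of_comb hn (comb_ep hL.ker hζp h1 hζ hc hcn hn) ht 𝕜 L
    (fun u v _ => by rw [← hL.range]; exact ⟨_, rfl⟩)

end unitary

end Vale.Agent.P240.R2.H775
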