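import Vale.Agent.P240.R2.H775.RG7

/-!
Rigidity of the BN-pairs of the classical groups, part 8: `RigidBN` and `RigidLie`.
-/

set_option autoImplicit false
set_option linter.all false

namespace Vale.Agent.P240.R2.H775.RG

open Subgroup Matrix Vale.Agent.P240.H195 Vale.Agent.P240.R2.H487.CG Vale.Agent.P240.K

section
variable {F : Type*} [Field F] [Finite F] {m : ℕ} {σ : F ≃+* F}

/-- the longest element is an opposite element -/
lemma opp_rev {p : ℕ} [hp : Fact p.Prime] [CharP F p] (hm : 0 < m) (hσ : ∀ x, σ (σ x) = x)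
    (hodd : m % 2 = 1 ∨ (∃ x, σ x ≠ x) ∨ (2 : F) ≠ 0) {n : ↥(GJ (m + 1) σ)}
    (hn : Mon n.1 Fin.revPerm) :
    ∀ x ∈ (UG σ).map (pg m σ), pg m σ n * x * (pg m σ n)⁻¹ ∈ (UG σ).map (pg m σ) → x = 1 := by
  have hB : ∀ x, pg m σ x ∈ (BG σ).map (pg m σ) ↔ x ∈ BG σ :=
    fun x => pi_mem (cg_SB (p := p) hm hσ hodd) hp.out
  rintro _ ⟨u, hu, rfl⟩ ⟨v, hv, hve⟩
  have hu' : u.1 ∈ UU m F := hu
  have h1 : pg m σ (n * u * n⁻¹) ∈ (BG σ).map (pg m σ) := by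
    rw [map_mul, map_mul, map_inv, ← hve]
    exact ⟨v, hv.1, rfl⟩
  rw [hB] at h1
  have h2 : IsUp (n * u * n⁻¹).1 := h1
  have h3 : LoU (n * u * n⁻¹).1 := by
    rw [lou_iff hn]
    have : n.1⁻¹ * (n * u * n⁻¹).1 * n.1 = u.1 := by
      change n.1⁻¹ * (n.1 * u.1 * n.1⁻¹) * n.1 = u.1
      group
    rw [this]
    exact hu'
  have h4 : (n * u * n⁻¹).1 = 1 := by
    refine sl_ext fun i j => ?_
    rw [sl_one]
    rcases lt_trichotomy i j with h | h | h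
    · rw [if_neg h.ne, h3.1 i j h]
    · rw [if_pos h, h, h3.2]
    · rw [if_neg h.ne', h2 i j h]
  have h5 : n * u * n⁻¹ = 1 := Subtype.ext h4
  have h6 : u = 1 := by
    calc u = n⁻¹ * (n * u * n⁻¹) * n := by group
      _ = 1 := by rw [h5]; group
  rw [h6, map_one]

/-- **rigidity** of the split BN-pairs of `PSp_n(F)` and `PSU_n(F)` in the characteristic of `F` -/
theorem pg_rigid {p : ℕ} [hp : Fact p.Prime] [CharP F p] (hm : 0 < m) (hσ : ∀ x, σ (σ x) = x)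
    (hodd : m % 2 = 1 ∨ ∃ x, σ x ≠ x)
    (hsmall : m % 2 = 1 ∨ (∃ k, σ k = k ∧ k ≠ 0 ∧ k ≠ 1) ∨ 2 < m)
    (hsimple : IsSimpleGroup (PGJ (m + 1) σ)) :
    RigidBN p ((BG σ).map (pg m σ)) ((NG σ).map (pg m σ)) ((UG σ).map (pg m σ))
      (pg m σ '' SG σ) := by
  have hodd' : m % 2 = 1 ∨ (∃ x, σ x ≠ x) ∨ (2 : F) ≠ 0 := by
    rcases hodd with h | h
    · exact Or.inl h
    · exact Or.inr (Or.inl h)
  have h := pg_SB (p := p) hm hσ hodd'
  have hr := hp.out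
  have hker : ∀ k, pg m σ k = 1 → k ∈ BG σ ∧ k ∈ NG σ := by
    intro k hk
    have h1 : k ∈ center ↥(GJ (m + 1) σ) := (QuotientGroup.eq_one_iff k).1 hk
    exact center_le_T (cg_SB (p := p) hm hσ hodd') hr fun g => (mem_center_iff.1 h1 g).symm
  have hB : ∀ x, pg m σ x ∈ (BG σ).map (pg m σ) ↔ x ∈ BG σ :=
    fun x => map_mem_iff fun k hk => (hker k hk).1
  have hN : ∀ x, pg m σ x ∈ (NG σ).map (pg m σ) ↔ x ∈ NG σ :=
    fun x => map_mem_iff fun k hk => (hker k hk).2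
  refine { toSB := h, comm := ?_, rigid := ?_ }
  · intro x hxB hxN y hyB hyN
    obtain ⟨x, rfl⟩ := QuotientGroup.mk'_surjective _ x
    obtain ⟨y, rfl⟩ := QuotientGroup.mk'_surjective _ y
    have hx : Mon x.1 1 := mem_T.1 (mem_inf.2 ⟨(hB x).1 hxB, (hN x).1 hxN⟩)
    have hy : Mon y.1 1 := mem_T.1 (mem_inf.2 ⟨(hB y).1 hyB, (hN y).1 hyN⟩)
    have hxy : x * y = y * x := Subtype.ext (diag_comm hx hy)
    rw [← map_mul, ← map_mul, hxy]
  · intro n hnN hopp f hfp hfQ hfC hfT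
    obtain ⟨n₀, hn₀⟩ := exists_NG (F := F) (σ := σ) (w := Fin.revPerm) (cr_of fun x => by
      rw [Fin.revPerm_apply, Fin.revPerm_apply])
    have hn₀N : pg m σ n₀ ∈ (NG σ).map (pg m σ) := ⟨n₀, ⟨_, hn₀⟩, rfl⟩
    have hopp₀ := opp_rev (p := p) hm hσ hodd' hn₀
    have hnn : n⁻¹ * pg m σ n₀ ∈ (BG σ).map (pg m σ) :=
      h.long_unique (h.long_of_opp hr hnN hopp) (h.long_of_opp hr hn₀N hopp₀)
    have hfC' : am f (cj (pg m σ n₀) ((BG σ).map (pg m σ))) =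
        cj (pg m σ n₀) ((BG σ).map (pg m σ)) := by
      rw [← (h.cj_B_eq_iff hr).2 hnn]
      exact hfC
    have hfB : am f ((BG σ).map (pg m σ)) = (BG σ).map (pg m σ) := hfQ _ le_rfl
    have hfT' : ∀ t : ↥(GJ (m + 1) σ), Mon t.1 1 → f (pg m σ t) = pg m σ t := by
      intro t ht
      have h2 := mem_inf.1 (mem_T.2 ht)
      exact hfT _ ⟨t, h2.1, rfl⟩ ⟨t, h2.2, rfl⟩
    refine h.eq_one_of_roots hsimple hr hfB (fun s hs => hfQ _ le_Par) hn₀N hopp₀ hfC' ?_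
    rintro _ ⟨s, ⟨τ, hτ, hs⟩, rfl⟩ y hyP hyU
    -- the subgroup
    obtain ⟨X, hXdef⟩ : ∃ X : Subgroup (PGJ (m + 1) σ), X =
        cj (pg m σ n₀) ((UG σ).map (pg m σ)) ⊓ Par ((BG σ).map (pg m σ)) (pg m σ s) := ⟨_, rfl⟩
    have hX : ∀ y, y ∈ X ↔ ∃ A : ↥(GJ (m + 1) σ), y = pg m σ A ∧ LoU A.1 ∧ Pt τ A.1 := by
      intro y
      rw [hXdef, mem_inf]
      exact mem_X_iff (p := p) hm hσ hodd' hn₀ hτ hs
    have hinv : ∀ g : MulAut (PGJ (m + 1) σ),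
        am g (cj (pg m σ n₀) ((BG σ).map (pg m σ))) = cj (pg m σ n₀) ((BG σ).map (pg m σ)) →
        am g (Par ((BG σ).map (pg m σ)) (pg m σ s)) = Par ((BG σ).map (pg m σ)) (pg m σ s) →
        ∀ y ∈ X, g y ∈ X := by
      intro g hg1 hg2 y hy
      rw [hXdef, mem_inf] at hy ⊢
      refine ⟨?_, ?_⟩
      · have h1 := hy.1
        rw [mem_cj] at h1 ⊢
        obtain ⟨k, hk⟩ := h.exists_pow h1
        have h2 : g y ∈ cj (pg m σ n₀) ((BG σ).map (pg m σ)) := by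
          rw [← hg1]
          refine apply_mem_am ?_
          rw [mem_cj]
          exact h.le h1
        rw [mem_cj] at h2
        refine h.mem_U hr h2 (k := k) ?_
        have h3 : y ^ p ^ k = 1 := by
          have e : y = pg m σ n₀ * ((pg m σ n₀)⁻¹ * y * pg m σ n₀) * (pg m σ n₀)⁻¹ := by group
          rw [e, conj_pow, hk, mul_one, mul_inv_cancel]
        have h4 : ((pg m σ n₀)⁻¹ * g y * pg m σ n₀) ^ p ^ k = 1 := by
          have h5 := conj_pow (i := p ^ k) (a := (pg m σ n₀)⁻¹) (b := g y)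
          rw [inv_inv] at h5
          rw [h5, ← map_pow, h3, map_one, mul_one, inv_mul_cancel]
        exact h4
      · have := apply_mem_am (f := g) hy.2
        rwa [hg2] at this
    have hfP := hfQ _ (le_Par (B := (BG σ).map (pg m σ)) (s := pg m σ s))
    have hfX := hinv f hfC' hfP
    have hfX' := hinv f⁻¹ (am_inv_eq hfC') (am_inv_eq hfP)
    have hyX : y ∈ X := by
      rw [hXdef, mem_inf, mem_cj]
      exact ⟨hyU, hyP⟩
    have hfA : ∀ A : ↥(GJ (m + 1) σ), LoU A.1 → Pt τ A.1 →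
        ∃ A' : ↥(GJ (m + 1) σ), f (pg m σ A) = pg m σ A' ∧ LoU A'.1 ∧ Pt τ A'.1 :=
      fun A h1 h2 => (hX _).1 (hfX _ ((hX _).2 ⟨A, rfl, h1, h2⟩))
    rcases hτ with ⟨i, h1, h2⟩ | ⟨i, hi⟩
    · by_cases h3 : 2 * i.val + 1 = m
      · obtain ⟨A, rfl, hA1, hA2⟩ := (hX y).1 hyX
        exact fix_A (p := p) hm hσ hodd' h3 hfp hfT' hfA A hA1 hA2
      · have h4 : 2 * i.val + 2 = m := by omega
        have hne : ∃ x, σ x ≠ x := hodd.resolve_left (by omega)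
        exact fix_B (p := p) hm hσ hne h4 (hsmall.resolve_left (by omega)) hfp hfT' hX hfX hfX'
          y hyX
    · obtain ⟨A, rfl, hA1, hA2⟩ := (hX y).1 hyX
      exact fix_C (p := p) hm hσ hodd' hi hfp hfT' hfA A hA1 hA2

/-- simple groups `PSp_n(F)` and `PSU_n(F)` satisfy `RigidLie p` in the characteristic `p` of `F` -/
theorem pg_rigidLie {p : ℕ} [hp : Fact p.Prime] [CharP F p] (hm : 0 < m)
    (hσ : ∀ x, σ (σ x) = x) (hodd : m % 2 = 1 ∨ ∃ x, σ x ≠ x)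
    (hsmall : m % 2 = 1 ∨ (∃ k, σ k = k ∧ k ≠ 0 ∧ k ≠ 1) ∨ 2 < m)
    (hs : IsSimpleGroup (PGJ (m + 1) σ))
    (hZ : ∀ x : PGJ (m + 1) σ, (∀ y, x * y = y * x) → x = 1) : RigidLie p (PGJ (m + 1) σ) :=
  ⟨hs, hZ, _, _, _, _, pg_rigid hm hσ hodd hsmall hs⟩

end

end Vale.Agent.P240.R2.H775.RG
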