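import Vale.Agent.P240.R2.H775.GS4
import Vale.Agent.P240.R2.AS.Defs

/-! M1: the abstract Golod–Shafarevich theorem in the form `AS.StmtM1`. -/

namespace Vale.Agent.P240.R2.H775

open Vale.Agent.P240.R2

universe u

theorem Br_ev {L : Type*} (z : List L → ℚ) (g : List L) (hg : g ≠ []) : ∀ u v : List L,
    Br u g v z = H986.ev z g u v := by
  induction g with
  | nil => exact absurd rfl hg
  | cons l M ih =>
    intro u v
    by_cases hM : M = []
    · subst hM; rw [Br_one, H986.ev_single]
    · rw [Br_cons _ _ _ _ hM, H986.ev_cons _ _ hM, ih hM, ih hM]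

theorem ofs {L : Type u} [DecidableEq L] [Fintype L] {F : Finset (List L)} {k : ℕ}
    (h : AS.Good F k) : Good k F where
  len := h.len
  nodup := h.nodup
  perm := fun w w' hp hw => h.perm w hw w' hp
  rect := h.rect
  six := by
    intro u a b hab
    have := h.six u a b hab
    refine this.trans (le_of_eq ?_)
    congr 1
    ext x
    simp

/-- (c'): bound for `S n F` -/
theorem us_le {L : Type u} [DecidableEq L] [Fintype L] {F : Finset (List L)} {k n : ℕ}
    (hn : 1 ≤ n) (hF : Good k F) : k.factorial * us n F ≤ F.card * H986.c n k := by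
  classical
  have hord : ∀ (f : Finset L) (w : List L), H986.IsOrd f w ↔ w ∈ Wd f := by
    intro f w
    constructor
    · intro h
      refine ⟨H986.isOrd_nodup h, ?_⟩
      ext a
      rw [List.mem_toFinset]
      exact H986.isOrd_mem h a
    · rintro ⟨h1, h2⟩
      subst h2
      show (w : Multiset L) = w.toFinset.val
      rw [List.toFinset_val, h1.dedup]
  let Fam : Finset (Finset L) := F.image List.toFinset
  have hcardf : ∀ f ∈ Fam, f.card = k := by
    intro f hf
    obtain ⟨w, hw, rfl⟩ := Finset.mem_image.mp hf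
    rw [List.toFinset_card_of_nodup (hF.nodup w hw), hF.len w hw]
  have h1 : Module.finrank ℚ (S n F) ≤ Fam.card * H986.c n k := by
    refine H986.finrank_le_of_family hn Fam hcardf (S n F) ?_ ?_
    · intro z hz w hw
      refine hz.1.1 w fun hwF => ?_
      refine hw w.toFinset (Finset.mem_image_of_mem _ hwF) ?_
      rw [hord]
      exact ⟨hF.nodup w hwF, rfl⟩
    · intro z hz g u v hg
      rw [← Br_ev z g (by rintro rfl; simp at hg; omega)]
      exact hz.2 u g v hg
  have h2 : F.card = Fam.card * k.factorial := by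
    rw [Finset.card_eq_sum_card_image List.toFinset F]
    rw [show Fam.card * k.factorial = ∑ f ∈ Fam, k.factorial by simp]
    refine Finset.sum_congr rfl fun f hf => ?_
    have : F.filter (fun w => w.toFinset = f) = WdF f := by
      ext w
      rw [mem_WdF, Finset.mem_filter]
      constructor
      · rintro ⟨h3, h4⟩
        exact ⟨hF.nodup w h3, h4⟩
      · rintro ⟨h3, h4⟩
        refine ⟨?_, h4⟩
        obtain ⟨w', hw', rfl⟩ := Finset.mem_image.mp hf
        refine hF.perm w' w ?_ hw'
        exact (List.perm_of_nodup_nodup_toFinset_eq (hF.nodup _ hw') h3 h4.symm)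
    rw [this, card_WdF, hcardf f hf]
  rw [h2]
  calc k.factorial * us n F ≤ k.factorial * (Fam.card * H986.c n k) :=
        Nat.mul_le_mul_left _ h1
    _ = Fam.card * k.factorial * H986.c n k := by ring

theorem cls_eq {L : Type u} [DecidableEq L] [Fintype L] {F : Finset (List L)} {k : ℕ}
    (hF : Good k F) {g h : List L} (hne : (quot F (g ++ h)).Nonempty) :
    cls g.length (quot F h) (quot F (g ++ h)) = AS.cls F g := by
  obtain ⟨u, hu⟩ := hne
  rw [mem_quot] at hu
  have hp : ∀ w x : List L, w ++ (x ++ h) ∈ F ↔ (w ++ h) ++ x ∈ F := by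
    intro w x
    have : (w ++ (x ++ h)).Perm ((w ++ h) ++ x) := by
      rw [List.append_assoc]
      exact List.Perm.append_left w List.perm_append_comm
    exact ⟨fun hw => hF.perm _ _ this hw, fun hw => hF.perm _ _ this.symm hw⟩
  ext g'
  rw [mem_cls, AS.mem_cls, quot_quot]
  constructor
  · rintro ⟨h1, h2⟩
    refine ⟨h1, ?_⟩
    have h3 : u ++ (g' ++ h) ∈ F := by
      rw [← mem_quot, h2, mem_quot]; exact hu
    have h4 := quot_rect hF h1 ((hp u g').mp h3) ((hp u g).mp hu)
    intro w
    rw [← mem_quot, ← mem_quot, h4]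
  · rintro ⟨h1, h2⟩
    refine ⟨h1, ?_⟩
    ext w
    rw [mem_quot, mem_quot, hp, hp]
    exact h2 _

theorem SOL_eq {L : Type u} [DecidableEq L] [Fintype L] (G : Finset (List L)) :
    SOL G = AS.SOL G := by
  ext z
  constructor
  · rintro ⟨h1, h2⟩
    refine ⟨h1, fun u v => ?_⟩
    have := h2 u v
    rw [← Fintype.sum_prod_type' (fun a b => z (u ++ [a, b] ++ v))] at this
    simpa using this
  · rintro ⟨h1, h2⟩
    refine ⟨h1, fun u v => ?_⟩
    rw [← Fintype.sum_prod_type' (fun a b => z (u ++ [a, b] ++ v))]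
    simpa using h2 u v

theorem t_eq {L : Type u} [DecidableEq L] [Fintype L] {G : Finset (List L)}
    (hperm : ∀ w ∈ G, ∀ w', w.Perm w' → w' ∈ G) (hnil : ([] : List L) ∉ G) :
    t G = AS.t G := by
  have : T G = (AS.SOL G).map (AS.bm L) := by
    rw [T, SOL_eq]
    ext y
    simp only [Submodule.mem_map]
    refine exists_congr fun z => and_congr_right fun hz => ?_
    have : bmap G z = AS.bm L z := by
      funext g
      simp only [bmap, AS.bm, LinearMap.coe_mk, AddHom.coe_mk]
      split_ifs with hg
      · exact Br_ev z g (by rintro rfl; exact hnil hg) [] []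
      · refine (H986.ev_eq_zero g [] [] fun w hw => hz.1 w fun hwG => hg ?_).symm
        exact hperm w hwG g (by simpa using hw)
    rw [this]
  rw [t, AS.t, this]

/-- **M1** -/
theorem stmtM1 : AS.StmtM1.{u} := by
  classical
  intro n hn
  obtain ⟨K0, hK0⟩ := H986.exists_small n 2 (by norm_num)
  refine ⟨K0, ?_⟩
  intro L _ F k hk hG hne
  have hF : Good k F := ofs hG
  obtain ⟨h, g, hg, hq, hlt⟩ := gs_of (C := H986.c n k) hn hF hne (us_le (by omega) hF)
    (hK0 k hk)
  have hq' := hq
  obtain ⟨u, hu⟩ := hq'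
  rw [mem_quot] at hu
  refine ⟨g, hg, ⟨u ++ h, ?_⟩, ?_⟩
  · refine hG.perm _ hu _ ?_
    rw [List.append_assoc]
    exact List.Perm.append_left u List.perm_append_comm
  · subst hg
    rw [cls_eq hF hq, t_eq] at hlt
    · exact hlt
    · intro w hw w' hww
      rw [AS.mem_cls] at hw ⊢
      refine ⟨by rw [← hww.length_eq, hw.1], fun x => ?_⟩
      rw [← hw.2 x]
      exact ⟨fun h => hF.perm _ _ (hww.symm.append_left x) h,
        fun h => hF.perm _ _ (hww.append_left x) h⟩
    · intro h0
      have := (AS.mem_cls.mp h0).1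
      simp at this
      omega

end Vale.Agent.P240.R2.H775
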