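import Vale.Agent.P240.R2.H775.RG1

/-!
Rigidity of the BN-pairs of the classical groups, part 2: diagonal elements and the action on the
root groups that are fields.
-/

set_option autoImplicit false

namespace Vale.Agent.P240.R2.H775.RG

open Subgroup Matrix Vale.Agent.P240.H195 Vale.Agent.P240.R2.H487.CG Vale.Agent.P240.K

/-- automorphisms of order `p` of an additive group of a field that commute with squares -/
lemma lin_fix {K : Type*} [Field K] [Finite K] {p : ℕ} [hp : Fact p.Prime] [CharP K p]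
    {M : Type*} [Group M] (x : K → M) (hinj : Function.Injective x)
    (hadd : ∀ a b, x (a + b) = x a * x b) {f : MulAut M} (hf : f ^ p = 1)
    (hfx : ∀ c, ∃ d, f (x c) = x d)
    (hT : ∀ a : K, a ≠ 0 → ∃ t, f t = t ∧ ∀ c, t * x c * t⁻¹ = x (a ^ 2 * c)) :
    ∀ c, f (x c) = x c := by
  choose φ hφ using hfx
  have hadd' : ∀ a b, φ (a + b) = φ a + φ b := by
    intro a b
    apply hinj
    rw [← hφ, hadd, map_mul, hadd, hφ, hφ]
  have hsq : ∀ a c : K, a ≠ 0 → φ (a ^ 2 * c) = a ^ 2 * φ c := by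
    intro a c ha
    obtain ⟨t, ht, htx⟩ := hT a ha
    apply hinj
    rw [← hφ, ← htx, ← htx, map_mul, map_mul, map_inv, ht, hφ]
  have hlin := linear_of_sq hadd' hsq
  have hpow : ∀ k : ℕ, ∀ c, (f ^ k) (x c) = x (c * φ 1 ^ k) := by
    intro k
    induction k with
    | zero => intro c; simp
    | succ k ih =>
      intro c
      rw [pow_succ', MulAut.mul_apply, ih, hφ, hlin, mul_assoc, ← pow_succ]
  have h1 : φ 1 ^ p = 1 := by
    have h2 := hpow p 1
    rw [hf, MulAut.one_apply, one_mul] at h2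
    exact (hinj h2).symm
  have h2 : φ 1 = 1 := by
    have h3 : (φ 1 - 1) ^ p = 0 := by
      rw [sub_pow_char, one_pow, h1, sub_self]
    exact sub_eq_zero.1 (pow_eq_zero_iff hp.out.ne_zero |>.1 h3)
  intro c
  rw [hφ, hlin, h2, mul_one]

section
variable {F : Type*} [Field F] [Finite F] {m : ℕ} {σ : F ≃+* F}

lemma diag_comm {x y : SLm m F} (hx : Mon x 1) (hy : Mon y 1) : x * y = y * x := by
  refine sl_ext fun i j => ?_
  have hxy := mon_mul hx hy
  have hyx := mon_mul hy hx
  rw [mul_one] at hxy hyx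
  by_cases hij : i = j
  · subst hij
    rw [up_mul_diag (mem_T' hx) (mem_T' hy), up_mul_diag (mem_T' hy) (mem_T' hx), mul_comm]
  · rw [mon_eq hxy (by rw [Equiv.Perm.one_apply]; exact hij),
      mon_eq hyx (by rw [Equiv.Perm.one_apply]; exact hij)]

lemma mon_th_one {e : SLm m F} (he : Mon e 1) : Mon (th σ e) 1 := by
  have := mon_th σ he
  have e1 : rv (1 : Equiv.Perm (Fin (m + 1))) = 1 := cr_one
  rwa [e1] at this

lemma th_diag {e : SLm m F} (he : Mon e 1) (k : Fin (m + 1)) :
    (th σ e).1 k k = (σ (e.1 (Fin.rev k) (Fin.rev k)))⁻¹ := by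
  rw [th_apply, up_inv_diag (mem_T' he), sg_sq, one_mul, map_inv₀]

/-- the fixed diagonal element `e θ(e)` -/
lemma th_norm (hσ : ∀ x, σ (σ x) = x) {e : SLm m F} (he : Mon e 1) :
    th σ (e * th σ e) = e * th σ e := by
  rw [map_mul, th_th σ hσ, diag_comm (mon_th_one he) he]

lemma mon_norm {e : SLm m F} (he : Mon e 1) : Mon (e * th σ e) 1 := by
  have := mon_mul he (mon_th_one (σ := σ) he)
  rwa [one_mul] at this

lemma norm_diag {e : SLm m F} (he : Mon e 1) (k : Fin (m + 1)) :
    (e * th σ e).1 k k = e.1 k k * (σ (e.1 (Fin.rev k) (Fin.rev k)))⁻¹ := by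
  rw [up_mul_diag (mem_T' he) (mem_T' (mon_th_one he)), th_diag he]

/-- conjugation by a diagonal matrix -/
lemma diag_conj_apply {t : SLm m F} (ht : Mon t 1) (A : SLm m F) (i j : Fin (m + 1)) :
    (t * A * t⁻¹).1 i j = t.1 i i * A.1 i j * (t.1 j j)⁻¹ := mon_conj ht A i j

lemma diag2n_mon' {i j : Fin (m + 1)} (hij : i ≠ j) {a : F} (ha : a ≠ 0) :
    Mon (Matrix.SpecialLinearGroup.diag2n hij a ha : SLm m F) 1 := by
  intro u v huv
  by_contra hne
  apply huv
  rw [Matrix.SpecialLinearGroup.diag2n_coe, Matrix.diagonal_apply_ne]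
  exact hne

lemma diag2n_diag {i j : Fin (m + 1)} (hij : i ≠ j) {a : F} (ha : a ≠ 0) (k : Fin (m + 1)) :
    (Matrix.SpecialLinearGroup.diag2n hij a ha : SLm m F).1 k k =
      if k = i then a else if k = j then a⁻¹ else 1 := by
  rw [Matrix.SpecialLinearGroup.diag2n_coe, Matrix.diagonal_apply_eq]

end

end Vale.Agent.P240.R2.H775.RG
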