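import Vale.Agent.P240.R2.AS.Defs2

/-!
(B) AUTOMORPHISMS OF `PSU_n(q)`: exact statements of the rows.
-/

set_option autoImplicit false

namespace Vale.Agent.P240.R2.H775.Aut

open Matrix Vale.Agent.P240.R2.AS
open scoped Classical

universe u

noncomputable section

variable {K : Type u} [Field K] [StarRing K] {n : ℕ}

/-- the matrix `[[x, y], [-star y, star x]]` in the coordinates `i, j`, identity elsewhere -/
def gm (i j : Fin n) (x y : K) : Matrix (Fin n) (Fin n) K :=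
  1 + single i i (x - 1) + single i j y - single j i (star y) + single j j (star x - 1)

/-- the coordinate subgroup `SU_2(K)` in the coordinates `i, j` -/
def LLs (i j : Fin n) : Set (GU K n) :=
  {g | ∃ x y : K, x * star x + y * star y = 1 ∧ g.1 = gm i j x y}

/-- the class in `PGU` of a diagonal unitary matrix -/
def dg (c : Fin n → K) : PGU K n :=
  if h : Matrix.diagonal c ∈ Matrix.unitaryGroup (Fin n) K then QuotientGroup.mk ⟨_, h⟩ else 1

/-- field of `q ^ 2` elements with `star x = x ^ q` -/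
structure Fld (K : Type u) [Field K] [StarRing K] (q : ℕ) : Prop where
  card : Nat.card K = q ^ 2
  star : ∀ x : K, star x = x ^ q

/-- ROW B2a: automorphisms of `SU_2(K)` that preserve the diagonal torus -/
def StmtB2a : Prop := ∀ (K : Type u) [Field K] [Fintype K] [StarRing K] (q : ℕ), 4 ≤ q →
  Fld K q → ∀ f : MulAut ↥(SU K 2), (∀ g : ↥(SU K 2), g.1.1 0 1 = 0 → (f g).1.1 0 1 = 0) →
  ∃ (a : K) (τ : SA K), a * star a = 1 ∧ ∀ g : ↥(SU K 2),
    (f g).1.1 0 0 = τ.1 (g.1.1 0 0) ∧ (f g).1.1 0 1 = a * τ.1 (g.1.1 0 1)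

/-- ROW B2b: `SU_2(K)` is generated by its elements of order `r = char K` -/
def StmtB2b : Prop := ∀ (K : Type u) [Field K] [Fintype K] [StarRing K] (q r : ℕ), 3 ≤ q →
  Fld K q → r.Prime → CharP K r → ∀ H : Subgroup (GU K 2),
  (∀ g ∈ SU K 2, g ^ r = 1 → g ∈ H) → SU K 2 ≤ H

/-- ROW B2c: uniqueness of `a`, `τ` -/
def StmtB2c : Prop := ∀ (K : Type u) [Field K] [Fintype K] [StarRing K] (q : ℕ), 3 ≤ q →
  Fld K q → ∀ (a b : K) (τ σ : SA K),
  (∀ x y : K, x * star x + y * star y = 1 → τ.1 x = σ.1 x ∧ a * τ.1 y = b * σ.1 y) →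
  τ = σ ∧ a = b

/-- ROW B4: `SU_n(K)` is generated by the coordinate subgroups -/
def StmtB4 : Prop := ∀ (K : Type u) [Field K] [Fintype K] [StarRing K] (q : ℕ), 4 ≤ q →
  Fld K q → ∀ (n : ℕ) (H : Subgroup (GU K n)), 3 ≤ n → (∀ i j : Fin n, i ≠ j → ∀ g ∈ LLs i j, g ∈ H) →
  SU K n ≤ H

/-- the automorphism `f` of `PSU_n` fixes the diagonal elements of exponent `p` -/
def FixD (p n : ℕ) (f : MulAut ↥(PSU K n)) : Prop :=
  ∀ x : ↥(PSU K n), (∃ c : Fin n → K, (∀ i, c i ^ p = 1) ∧ x.1 = dg c) → f x = x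

/-- ROW B1: `f` preserves the images of the coordinate subgroups and of their diagonal parts -/
def StmtB1 : Prop := ∀ (K : Type u) [Field K] [Fintype K] [StarRing K] (q : ℕ), 4 ≤ q →
  Fld K q → ∀ (p : ℕ) [Fact p.Prime], p ∣ q + 1 → ∀ n : ℕ, 3 ≤ n → (p = 2 → n ≠ 4) →
  (p = 3 → n ≠ 3) → ∀ f : MulAut ↥(PSU K n), FixD p n f → ∀ i j : Fin n, i ≠ j →
  ∀ (x : ↥(PSU K n)), ∀ g ∈ LLs i j, x.1 = QuotientGroup.mk g →
  ∃ g' ∈ LLs i j, (f x).1 = QuotientGroup.mk g' ∧ (g.1 i j = 0 → g'.1 i j = 0)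

/-- the result (B) -/
def StmtAut : Prop := ∀ (K : Type u) [Field K] [Fintype K] [StarRing K] (q : ℕ), 4 ≤ q →
  Fld K q → ∀ (p : ℕ) [Fact p.Prime], p ∣ q + 1 → ∀ n : ℕ, 3 ≤ n → (p = 2 → n ≠ 4) →
  (p = 3 → n ≠ 3) → ∀ f : MulAut ↥(PSU K n), FixD p n f →
  ∃ (a : Fin n → K) (τ : SA K), (∀ i, a i * star (a i) = 1) ∧
    ∀ (x : ↥(PSU K n)) (g : GU K n), x.1 = QuotientGroup.mk g →
      (f x).1 = dg a * QuotientGroup.mk (mapGU τ g) * (dg a)⁻¹

end

end Vale.Agent.P240.R2.H775.Aut
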