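import Vale.Agent.P240.R2.H938.Comb4
import Vale.Agent.P240.R2.H945.SemiE
import Vale.Agent.P240.R2.H38.UDefs

/-!
NL1a: top cycles from `AS.Comb` data with `0 < t F`, over every field.
-/

set_option autoImplicit false

namespace Vale.Agent.P240.R2.H775

open Finsupp hiding cons
open Subgroup Vale.Agent.P240.K Vale.Agent.P240.H195
open Vale.Agent.P240.R2 Vale.Agent.P240.R2.H938

universe u v w

section
variable {G : Type u} [Group G]

/-- in a group of order `p ^ k` a strictly decreasing chain of `k` nontrivial subgroups starts with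
the whole group -/
theorem head_chain {p : ℕ} [hp : Fact p.Prime] {D : Subgroup G} :
    ∀ (l : List (Subgroup G)), l.Pairwise (· > ·) → (∀ t ∈ l, ⊥ < t ∧ t ≤ D) →
    (∃ k, Nat.card D = p ^ k) → ∀ a ∈ l.head?, p ^ l.length ∣ Nat.card a := by
  intro l
  induction l with
  | nil => intro _ _ _ a ha; simp at ha
  | cons x l ih =>
    intro h1 h2 h3 a ha
    simp only [List.head?_cons, Option.mem_def, Option.some.injEq] at ha
    subst ha
    obtain ⟨k, hk⟩ := h3
    have hfin : Finite D := Nat.finite_of_card_ne_zero (by rw [hk]; exact pow_ne_zero _ hp.out.ne_zero)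
    have hxD := (h2 x (by simp)).2
    obtain ⟨a, -, ha⟩ := (Nat.dvd_prime_pow hp.out).1 (hk ▸ card_dvd_of_le hxD)
    have key : ∀ y : Subgroup G, y < x → y ≤ D → p * Nat.card y ∣ Nat.card x := by
      intro y hyx hyD
      obtain ⟨b, hb1, hb⟩ := (Nat.dvd_prime_pow hp.out).1 (ha ▸ card_dvd_of_le hyx.le)
      have hne : b ≠ a := by
        rintro rfl
        have hfx : Finite x := Finite.of_injective (Subgroup.inclusion hxD)
          (Subgroup.inclusion_injective hxD)
        exact hyx.ne (Subgroup.eq_of_le_of_card_ge hyx.le (by rw [ha, hb]))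
      rw [ha, hb, ← pow_succ']
      exact pow_dvd_pow p (by omega)
    cases l with
    | nil =>
      have := key ⊥ (h2 x (by simp)).1 bot_le
      simpa using this
    | cons y l =>
      have h4 := ih (List.pairwise_cons.1 h1).2 (fun t ht => h2 t (List.mem_cons_of_mem _ ht))
        ⟨k, hk⟩ y (by simp)
      have h5 := key y ((List.pairwise_cons.1 h1).1 y (by simp)) (h2 y (by simp)).2
      rw [List.length_cons, pow_succ']
      exact (Nat.mul_dvd_mul_left p h4).trans h5

end

section
variable {𝕜 : Type v} [Field 𝕜] {G : Type u} [Group G] {p : ℕ}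

/-- **The chain `mu`** consists of strictly decreasing chains of elementary abelian groups. -/
theorem mu_head [Finite G] [hp : Fact p.Prime] {X : Type*} {n : ℕ} (hn : 2 ≤ n) (e : List X → G)
    (F : Finset (List X)) (z : List X → 𝕜) (H : Subgroup G)
    (hH : ∀ u v : List X, u ++ v ∈ F → e u ∈ H)
    (hlen : ∀ m ∈ F, m.length = n)
    (hcom : ∀ u v w : List X, u ++ (v ++ w) ∈ F → e u * e (u ++ v) = e (u ++ v) * e u)
    (hpow : ∀ u v : List X, u ++ v ∈ F → e u ^ p = 1) (hnil : e [] = 1)
    (hfull : ∀ w ∈ F, e w = 1)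
    (hcard : ∀ w ∈ F, Nat.card (closure {y | ∃ u v, w = u ++ v ∧ y = e u}) = p ^ (n - 1)) :
    mu (fun w => zpowers (e w)) F z ∈
      Sp 𝕜 (fun l : List (Subgroup G) => (st (Ain p H) l ∧ l.length = n - 1) ∧
        ∃ B ∈ {B : Subgroup G | ∃ w ∈ F, B = Dm e w}, l.head? = some B) := by
  rw [mu]
  refine Submodule.sum_mem _ fun m hm => Submodule.smul_mem _ _ ?_
  have hDc := Dm_comm (e := e) (m := m) (fun u v w h => hcom u v w (h ▸ hm))
  have hDp := Dm_pow (p := p) hDc (fun u v h => hpow u v (h ▸ hm))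
  have hDH : Dm e m ≤ H := by
    rw [Dm, closure_le]
    rintro _ ⟨u, v, h1, rfl⟩
    exact hH u v (h1 ▸ hm)
  have hlenp : (pre (fun w => zpowers (e w)) m).length = n - 1 := by
    rw [pre_length, hlen m hm]
  have h1 := AL_mem (𝕜 := 𝕜) (p := p) hDc (n - 1) ⊥ (pre (fun w => zpowers (e w)) m) hlenp bot_le
    (fun s hs => by
      obtain ⟨u, hu, rfl⟩ := List.mem_map.1 hs
      obtain ⟨v, h1, h2, h3⟩ := mem_pfx.1 hu
      exact ⟨e u, subset_closure ⟨u, v, h1, rfl⟩, hpow u v (h1 ▸ hm), rfl⟩) (by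
      rw [Subgroup.card_bot, one_mul, bot_sup_eq, ← hcard m hm]
      refine Nat.card_mono (Set.toFinite _) ?_
      have h2 : closure {y | ∃ u v, m = u ++ v ∧ y = e u} ≤
          (pre (fun w => zpowers (e w)) m).foldr (· ⊔ ·) ⊥ := by
        rw [closure_le]
        rintro _ ⟨u, v, h1, rfl⟩
        rw [SetLike.mem_coe]
        by_cases hu : u = []
        · rw [hu, hnil]
          exact one_mem _
        · by_cases hv : v = []
          · rw [hv, List.append_nil] at h1
            rw [← h1, hfull m hm]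
            exact one_mem _
          · have h3 : zpowers (e u) ∈ pre (fun w => zpowers (e w)) m :=
              List.mem_map.2 ⟨u, mem_pfx.2 ⟨v, h1, hu, hv⟩, rfl⟩
            have h4 : ∀ (S : List (Subgroup G)), zpowers (e u) ∈ S →
                zpowers (e u) ≤ S.foldr (· ⊔ ·) ⊥ := by
              intro S
              induction S with
              | nil => intro h; simp at h
              | cons s S ih =>
                intro h
                rcases List.mem_cons.1 h with h | h
                · rw [List.foldr_cons, ← h]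
                  exact le_sup_left
                · exact (ih h).trans le_sup_right
            exact h4 _ h3 (mem_zpowers (e u))
      exact h2)
  have h2 : (fun t : Subgroup G => ⊥ ⊔ t) = id := funext fun t => bot_sup_eq t
  rw [h2] at h1
  have h3 : mp (id : Subgroup G → Subgroup G) (AL 𝕜 (pre (fun w => zpowers (e w)) m)) =
      AL 𝕜 (pre (fun w => zpowers (e w)) m) := by
    have := lin_ext_apply (f := mp (𝕜 := 𝕜) (id : Subgroup G → Subgroup G)) (g := LinearMap.id)
      (fun l => by simp) (AL 𝕜 (pre (fun w => zpowers (e w)) m))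
    simpa using this
  rw [h3] at h1
  refine Sp_mono (fun l hl => ⟨⟨⟨hl.2.1, fun t ht => ?_⟩, hl.1⟩, ?_⟩) h1
  · obtain ⟨h4, h5⟩ := hl.2.2 t ht
    exact ⟨⟨(bot_lt_iff_ne_bot.1 h4), fun x hx y hy => hDc x (h5 hx) y (h5 hy),
      fun x hx => hDp x (h5 hx)⟩, h5.trans hDH⟩
  · cases l with
    | nil => simp at hl; omega
    | cons t l =>
      refine ⟨Dm e m, ⟨m, hm, rfl⟩, ?_⟩
      have h6 := head_chain (p := p) (D := Dm e m) (t :: l) hl.2.1 hl.2.2
        ⟨n - 1, hcard m hm⟩ t (by simp)
      rw [hl.1] at h6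
      have h7 : t = Dm e m := by
        refine Subgroup.eq_of_le_of_card_ge (hl.2.2 t (by simp)).2 ?_
        have h8 : Nat.card (Dm e m) = p ^ (n - 1) := hcard m hm
        rw [h8]
        exact Nat.le_of_dvd Nat.card_pos h6
      simp [h7]



end

open scoped Classical in
/-- **NL1a.** -/
theorem top_of_comb {p n : ℕ} [hp : Fact p.Prime] {G : Type u} [Group G] [Finite G] {X : Type v}
    [Fintype X] {F : Finset (List X)} {e : List X → G} (hn : 1 ≤ n) (hc : AS.Comb p n F e)
    (ht : 0 < AS.t F) (𝕜 : Type w) [Field 𝕜] (H : Subgroup G)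
    (hH : ∀ u v : List X, u ++ v ∈ F → e u ∈ H) :
    ∃ w ∈ F, ∃ (α : Ch 𝕜 (Subgroup G)) (φ : List (Subgroup G)),
      TopCycle 𝕜 p H (H38.De e w) α φ := by
  obtain ⟨z, hz, g, hg⟩ : ∃ z ∈ AS.SOL F, ∃ g : List X, H986.ev z g [] [] ≠ 0 := by
    by_contra hcon
    push Not at hcon
    have h0 : (AS.SOL F).map (AS.bm X) = ⊥ := by
      rw [eq_bot_iff]
      rintro _ ⟨z, hz, rfl⟩
      rw [Submodule.mem_bot]
      funext g
      exact hcon z hz g
    rw [AS.t, h0] at ht
    simp at ht
  have hz' : (∀ w, w ∉ F → z w = 0) ∧ ∀ u v : List X, ∑ x : X × X, z (u ++ x.1 :: x.2 :: v) = 0 :=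
    hz
  have hgF : g ∈ F := by
    by_contra hgF
    refine hg (H986.ev_eq_zero g [] [] fun w hw => hz'.1 w fun hwF => hgF ?_)
    exact hc.perm w hwF g (by simpa using hw)
  rcases Nat.lt_or_ge n 2 with h1 | h2
  · have hn1 : n = 1 := by omega
    subst hn1
    refine ⟨g, hgF, single [] 1, [], ?_⟩
    have hcard := hc.card g hgF
    have hbot : H38.De e g = ⊥ := by
      rw [← Subgroup.card_eq_one]
      have h3 : Nat.card (H38.De e g) = p ^ (1 - 1) := hcard
      rw [h3, Nat.sub_self, pow_zero]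
    refine ⟨?_, by simp, by simp, Or.inl ⟨rfl, hbot⟩, by simp [hbot]⟩
    refine single_mem_Sp (𝕜 := 𝕜) (P := fun l : List (Subgroup G) => st (Ain p H) l ∧
      l.length = ([] : List (Subgroup G)).length) ?_ 1
    exact ⟨⟨List.Pairwise.nil, by simp⟩, rfl⟩
  · have hmem := mu_head (𝕜 := ℚ) (p := p) h2 e F z H hH hc.len hc.comm hc.pow hc.nil hc.full
      hc.card
    obtain ⟨B, ⟨w, hw, hB⟩, α, φ, hT, -, -⟩ := H945.topCycle_of_rat 𝕜 (m := n - 1)
      (T := {B : Subgroup G | ∃ w ∈ F, B = H938.Dm e w}) (by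
        rintro B ⟨w, hw, rfl⟩
        exact hc.card w hw) hmem (H938.comb_bd hc z hz'.1 hz'.2)
      (H938.comb_ne hc h2 z hz'.1 hgF hg)
    refine ⟨w, hw, α, φ, ?_⟩
    rw [hB] at hT
    exact hT

end Vale.Agent.P240.R2.H775
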