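import Vale.Agent.P240.R2.H775.RT2

/-!
Rigidity of the BN-pairs of groups of type 2D, part 3: the main result.
-/

set_option autoImplicit false
set_option linter.all false

namespace Vale.Agent.P240.R2.H775.RT

open Subgroup Matrix Vale.Agent.P240.H195 Vale.Agent.P240.R2.H487.CG
open Vale.Agent.P240.K (cj mem_cj)
open Vale.Agent.P240.R2.H38.DD
open Vale.Agent.P240.R2.H775.RG (Pt LoU pt_of_dc pt_of_up lin_fix diag_comm lou_mul)
open Vale.Agent.P240.R2.H775.RD (tx_iso lo_mid gm_lou xr_lou xr_mul tau_form BH UH mem_BH' mem_UH'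
  anti' pi_inj)

section
variable {n : ℕ} {F : Type*} [Field F] [Finite F] {σ : F ≃+* F}
  {H : Subgroup (SLm (2 * n + 1) F)}

omit [Finite F] in
lemma mon_pp (hg : GoodT n σ H) {w : ↥H} {τ : Equiv.Perm (VI n)} (hτ : Mon w.1 τ) (j : VI n) :
    τ (pp n j) = pp n (τ j) := by
  have h1 : w.1.1 (τ j) j ≠ 0 := mon_ne hτ j
  have h2 := hg.fix _ w.2 (τ j) j
  have h3 : w.1.1 (pp n (τ j)) (pp n j) ≠ 0 := by
    rw [h2]
    exact (map_ne_zero σ).2 h1
  exact (hτ _ _ h3).symm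

omit [Finite F] in
lemma mid_iff (hg : GoodT n σ H) {w : ↥H} {τ : Equiv.Perm (VI n)} (hτ : Mon w.1 τ) (j : VI n) :
    Mid (τ j) ↔ Mid j := by
  have h1 := mon_pp hg hτ j
  constructor
  · intro h
    by_contra hj
    rw [pp_fix hj] at h1
    rcases h with h | h
    · rw [h, pp_c0] at h1
      exact c0_ne h1
    · rw [h, pp_c1] at h1
      exact c0_ne h1.symm
  · intro h
    by_contra hj
    rw [pp_fix hj] at h1
    have h2 := τ.injective h1
    rcases h with h | h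
    · rw [h, pp_c0] at h2
      exact c0_ne h2.symm
    · rw [h, pp_c1] at h2
      exact c0_ne h2

lemma nmid_lt {a : VI n} (h : ¬ Mid a) : a.val < n ∨ n + 1 < a.val := by
  have h1 : a.val ≠ n := fun h2 => h (Or.inl (Fin.ext h2))
  have h2 : a.val ≠ n + 1 := fun h2 => h (Or.inr (Fin.ext h2))
  omega

lemma mid_val {a : VI n} (h : Mid a) : a.val = n ∨ a.val = n + 1 := by
  rcases h with h | h
  · exact Or.inl (congrArg Fin.val h)
  · exact Or.inr (congrArg Fin.val h)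

section
variable {L : Type*} [Group L] {π : ↥H →* L}

lemma opp_mon (hker : ∀ x : ↥H, π x = 1 → Mon x.1 1) {w x : ↥H}
    (hopp : ∀ x ∈ (UH H).map π, π w * x * (π w)⁻¹ ∈ (UH H).map π → x = 1)
    (h1 : x.1 ∈ UU (2 * n + 1) F) (h2 : w.1 * x.1 * w.1⁻¹ ∈ UU (2 * n + 1) F) : Mon x.1 1 := by
  refine hker _ (hopp _ ⟨_, mem_UH'.2 h1, rfl⟩ ?_)
  rw [← map_inv, ← map_mul, ← map_mul]
  exact ⟨_, mem_UH'.2 h2, rfl⟩

lemma anti_short (hg : GoodT n σ H) (hker : ∀ x : ↥H, π x = 1 → Mon x.1 1) {w : ↥H}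
    {τ : Equiv.Perm (VI n)} (hτ : Mon w.1 τ)
    (hopp : ∀ x ∈ (UH H).map π, π w * x * (π w)⁻¹ ∈ (UH H).map π → x = 1) {a : VI n}
    (ha : a.val < n) : n + 1 < (τ a).val := by
  have hm : ¬ Mid a := by
    intro h
    rcases mid_val h with h | h <;> omega
  have hm' : ¬ Mid (τ a) := fun h => hm ((mid_iff hg hτ a).1 h)
  rcases nmid_lt hm' with h | h
  swap
  · exact h
  exfalso
  obtain ⟨h0, h0'⟩ := mid_ne hm
  have h2 : a ≠ c1 n := fun h5 => hm (Or.inr h5)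
  have l0 : a < c0 n := ha
  have l1 : a < c1 n := Nat.lt_succ_of_lt ha
  have m0 : Mid (τ (c0 n)) := (mid_iff hg hτ _).2 (Or.inl rfl)
  have m1 : Mid (τ (c1 n)) := (mid_iff hg hτ _).2 (Or.inr rfl)
  have k0 : τ a < τ (c0 n) := by
    rw [Fin.lt_def]
    rcases mid_val m0 with h | h <;> omega
  have k1 : τ a < τ (c1 n) := by
    rw [Fin.lt_def]
    rcases mid_val m1 with h | h <;> omega
  have hx := hg.sr a hm 1
  have hmon := opp_mon (x := ⟨_, hx⟩) hker hopp ?_ ?_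
  · have h4 := mon_eq hmon (i := a) (j := c0 n) (by
      rw [Equiv.Perm.one_apply]; exact l0.ne)
    change (xr a (c0 n) 1 * xr a (c1 n) (σ 1)).1 a (c0 n) = 0 at h4
    have h5 := ys_apply h0 h0' (1 : F) (σ 1) a (c0 n)
    have h6 : c0 n ≠ Fin.rev a := fun h5 => h0' (by rw [h5, Fin.rev_rev])
    rw [rev_c0] at h5
    rw [h5, if_neg l0.ne, if_pos ⟨rfl, rfl⟩, if_neg (fun h => h6 h.2), if_neg (fun h => c0_ne h.2),
      if_neg (fun h => h6 h.2), if_neg (fun h => h6 h.2)] at h4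
    simp at h4
  · exact mul_mem (show xr a (c0 n) 1 ∈ UU (2 * n + 1) F from ⟨xr_up l0 1, xr_diag l0.ne 1⟩)
      (show xr a (c1 n) (σ 1) ∈ UU (2 * n + 1) F from ⟨xr_up l1 _, xr_diag l1.ne _⟩)
  · change w.1 * (xr a (c0 n) 1 * xr a (c1 n) (σ 1)) * w.1⁻¹ ∈ _
    have e : w.1 * (xr a (c0 n) 1 * xr a (c1 n) (σ 1)) * w.1⁻¹ =
        (w.1 * xr a (c0 n) 1 * w.1⁻¹) * (w.1 * xr a (c1 n) (σ 1) * w.1⁻¹) := by group
    rw [e, xr_conj (hg.le w.2) hτ l0.ne, xr_conj (hg.le w.2) hτ l1.ne]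
    exact mul_mem (show _ ∈ UU (2 * n + 1) F from ⟨xr_up k0 _, xr_diag k0.ne _⟩)
      (show _ ∈ UU (2 * n + 1) F from ⟨xr_up k1 _, xr_diag k1.ne _⟩)

/-- opposite elements reverse the order -/
lemma antiT (hg : GoodT n σ H) (hker : ∀ x : ↥H, π x = 1 → Mon x.1 1) {w : ↥H}
    {τ : Equiv.Perm (VI n)} (hτ : Mon w.1 τ)
    (hopp : ∀ x ∈ (UH H).map π, π w * x * (π w)⁻¹ ∈ (UH H).map π → x = 1) {a b : VI n}
    (hab : a < b) (hab' : a ≠ Fin.rev b) : τ b < τ a := by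
  have hr := mon_rev (hg.le w.2) hτ
  by_cases hma : Mid a
  · by_cases hmb : Mid b
    · exfalso
      have h1 := mid_val hma
      have h2 := mid_val hmb
      rw [Fin.lt_def] at hab
      have h3 : a = c0 n := Fin.ext (show a.val = n by omega)
      have h4 : b = c1 n := Fin.ext (show b.val = n + 1 by omega)
      exact hab' (by rw [h3, h4, rev_c1])
    · have h1 := mid_val hma
      have h2 := nmid_lt hmb
      rw [Fin.lt_def] at hab
      have h3 := rv_val b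
      have h4 := anti_short hg hker hτ hopp (a := Fin.rev b) (by omega)
      rw [hr] at h4
      have h5 := rv_val (τ b)
      have h6 := mid_val ((mid_iff hg hτ a).2 hma)
      rw [Fin.lt_def]
      omega
  · by_cases hmb : Mid b
    · have h1 := mid_val hmb
      have h2 := nmid_lt hma
      rw [Fin.lt_def] at hab
      have h4 := anti_short hg hker hτ hopp (a := a) (by omega)
      have h6 := mid_val ((mid_iff hg hτ b).2 hmb)
      rw [Fin.lt_def]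
      omega
    · by_contra hcon
      have hlt : τ a < τ b := lt_of_le_of_ne (not_lt.1 hcon) fun h1 => hab.ne (τ.injective h1)
      have hx := hg.lr a b hab.ne hab' hma hmb 1 (map_one σ)
      have h3 := opp_mon (x := ⟨_, hx⟩) hker hopp
        (show xr a b 1 ∈ UU (2 * n + 1) F from ⟨xr_up hab 1, xr_diag hab.ne 1⟩) (by
          change w.1 * xr a b 1 * w.1⁻¹ ∈ _
          rw [xr_conj (hg.le w.2) hτ hab.ne]
          exact ⟨xr_up hlt _, xr_diag hlt.ne _⟩)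
      have h4 := mon_eq h3 (i := a) (j := b) (by
        rw [Equiv.Perm.one_apply]; exact hab.ne)
      change (xr a b (1 : F)).1 a b = 0 at h4
      rw [xr_apply hab.ne, if_neg hab.ne, if_pos ⟨rfl, rfl⟩, if_neg, zero_add, add_zero] at h4
      · exact one_ne_zero h4
      · rintro ⟨h5, -⟩
        exact hab' h5

lemma lou_conjT (hg : GoodT n σ H) {w u : ↥H} {τ : Equiv.Perm (VI n)} (hτ : Mon w.1 τ)
    (hanti : ∀ {a b : VI n}, a < b → ¬ (a = c0 n ∧ b = c1 n) → τ b < τ a)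
    (hu' : u.1 ∈ UU (2 * n + 1) F) : LoU (w.1 * u.1 * w.1⁻¹) := by
  have hσs : ∀ x, τ (τ.symm x) = x := fun x => τ.apply_symm_apply x
  refine ⟨fun i j hij => ?_, fun i => ?_⟩
  · by_contra hne
    have h1 := (mon_conj_ne hτ u.1 (τ.symm i) (τ.symm j)).1 (by
      rw [hσs, hσs]
      exact hne)
    rcases lt_trichotomy (τ.symm i) (τ.symm j) with h2 | h2 | h2
    · by_cases h3 : τ.symm i = c0 n ∧ τ.symm j = c1 n
      · rw [h3.1, h3.2] at h1
        exact h1 (up_mid (hg.le u.2) hu'.1)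
      · have h4 := hanti h2 h3
        rw [hσs, hσs] at h4
        exact lt_asymm h4 hij
    · exact hij.ne (τ.symm.injective h2)
    · exact h1 (hu'.1 _ _ h2)
  · have h1 := mon_conj hτ u.1 (τ.symm i) (τ.symm i)
    rw [hσs] at h1
    rw [h1, hu'.2, mul_one]
    have h2 := mon_ne hτ (τ.symm i)
    rw [hσs] at h2
    exact mul_inv_cancel₀ h2

/-- the elements of `w U w⁻¹ ∩ P_s` -/
lemma X_form (hg : GoodT n σ H) (hB : ∀ x, π x ∈ (BH H).map π ↔ x ∈ BH H) {s : ↥H}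
    {ρ : Equiv.Perm (VI n)} (hs : Mon s.1 ρ)
    (hPar : ∀ {y}, y ∈ Par ((BH H).map π) (π s) → y ∈ (BH H).map π ∨ DC ((BH H).map π) (π s) y)
    {w : ↥H} {τ : Equiv.Perm (VI n)} (hτ : Mon w.1 τ)
    (hanti : ∀ {a b : VI n}, a < b → ¬ (a = c0 n ∧ b = c1 n) → τ b < τ a) {y : L}
    (hyP : y ∈ Par ((BH H).map π) (π s)) (hyU : (π w)⁻¹ * y * π w ∈ (UH H).map π) :
    ∃ A : ↥H, y = π A ∧ LoU A.1 ∧ Pt ρ A.1 := by
  obtain ⟨u, hu, hue⟩ := hyU
  obtain ⟨A, hA⟩ : ∃ A, A = w * u * w⁻¹ := ⟨_, rfl⟩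
  have hyA : y = π A := by
    rw [hA, map_mul, map_mul, map_inv, hue]
    group
  have hlo : LoU A.1 := by
    rw [hA]
    exact lou_conjT hg hτ hanti (mem_UH'.1 hu)
  refine ⟨A, hyA, hlo, ?_⟩
  rcases hPar hyP with hyP | ⟨a', ⟨x, hx, rfl⟩, b', ⟨z, hz, rfl⟩, hxz⟩
  · rw [hyA, hB] at hyP
    exact pt_of_up (mem_BH'.1 hyP)
  · rw [hyA, ← map_mul, ← map_mul] at hxz
    have h1 : π ((x * s * z)⁻¹ * A) ∈ (BH H).map π := by
      rw [map_mul, hxz, map_inv, inv_mul_cancel]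
      exact one_mem _
    have h2 : z * ((x * s * z)⁻¹ * A) ∈ BH H := mul_mem hz ((hB _).1 h1)
    have e : A = x * s * (z * ((x * s * z)⁻¹ * A)) := by group
    have e' : A.1 = x.1 * s.1 * (z * ((x * s * z)⁻¹ * A)).1 := congrArg Subtype.val e
    rw [e']
    exact pt_of_dc hs (mem_BH'.1 hx) (mem_BH'.1 h2)

lemma X_in {s w x : ↥H} (h1 : IsUp (s.1⁻¹ * x.1 * s.1))
    (h2 : w.1⁻¹ * x.1 * w.1 ∈ UU (2 * n + 1) F) :
    π x ∈ Par ((BH H).map π) (π s) ∧ (π w)⁻¹ * π x * π w ∈ (UH H).map π := by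
  constructor
  · have h3 : s⁻¹ * x * s ∈ BH H := h1
    have e : π x = π s * π (s⁻¹ * x * s) * (π s)⁻¹ := by
      rw [← map_inv, ← map_mul, ← map_mul]
      congr 1
      group
    rw [e]
    exact mul_mem (mul_mem self_mem_Par (le_Par ⟨_, h3, rfl⟩)) (inv_mem self_mem_Par)
  · rw [← map_inv, ← map_mul, ← map_mul]
    exact ⟨_, mem_UH'.2 h2, rfl⟩

lemma xr_down (hg : GoodT n σ H) {w : ↥H} {τ : Equiv.Perm (VI n)} (hτ : Mon w.1 τ)
    (hanti : ∀ {a b : VI n}, a < b → a ≠ Fin.rev b → τ b < τ a) {a b : VI n} (hab : a < b)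
    (hab' : a ≠ Fin.rev b) (c : F) : w.1⁻¹ * xr b a c * w.1 ∈ UU (2 * n + 1) F := by
  have hnS : w.1 ∈ SOD n F := hg.le w.2
  obtain ⟨d, hd⟩ := xr_conj' hnS hτ hab.ne' c
  have hσi : ∀ x, τ (τ⁻¹ x) = x := fun x => τ.apply_symm_apply x
  have h1 : τ⁻¹ b < τ⁻¹ a := by
    by_contra hcon
    have h2 : τ⁻¹ a ≠ τ⁻¹ b := fun h3 => hab.ne (τ⁻¹.injective h3)
    have h3 : τ⁻¹ a < τ⁻¹ b := lt_of_le_of_ne (not_lt.1 hcon) h2
    have h4 := hanti h3 (by
      intro h5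
      apply hab'
      have h6 := congrArg τ h5
      rwa [hσi, mon_rev hnS hτ, hσi] at h6)
    rw [hσi, hσi] at h4
    exact lt_asymm hab h4
  rw [hd]
  exact ⟨xr_up h1 d, xr_diag h1.ne d⟩

/-- the long roots -/
lemma fix_long {p : ℕ} [hp : Fact p.Prime] [CharP F p] (hg : GoodT n σ H)
    (hker : ∀ x : ↥H, π x = 1 → Mon x.1 1) (hB : ∀ x, π x ∈ (BH H).map π ↔ x ∈ BH H) {s : ↥H}
    {i : Fin n} (hi : i.val + 1 < n) (hs : Mon s.1 (tau i))
    (hPar : ∀ {y}, y ∈ Par ((BH H).map π) (π s) → y ∈ (BH H).map π ∨ DC ((BH H).map π) (π s) y)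
    {w : ↥H} {τ : Equiv.Perm (VI n)} (hτ : Mon w.1 τ)
    (hanti : ∀ {a b : VI n}, a < b → a ≠ Fin.rev b → τ b < τ a)
    (hanti' : ∀ {a b : VI n}, a < b → ¬ (a = c0 n ∧ b = c1 n) → τ b < τ a)
    {f : MulAut L} (hfp : f ^ p = 1) (hfT : ∀ t : ↥H, Mon t.1 1 → f (π t) = π t)
    (hfX : ∀ y ∈ Par ((BH H).map π) (π s), (π w)⁻¹ * y * π w ∈ (UH H).map π →
      f y ∈ Par ((BH H).map π) (π s) ∧ (π w)⁻¹ * f y * π w ∈ (UH H).map π)
    {y : L} (hyP : y ∈ Par ((BH H).map π) (π s)) (hyU : (π w)⁻¹ * y * π w ∈ (UH H).map π) :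
    f y = y := by
  let K : Subfield F := (σ : F →+* F).eqLocusField (RingHom.id F)
  have hK : ∀ x : K, σ x.1 = x.1 := fun x => x.2
  have : CharP K p := RingHom.charP K.subtype Subtype.val_injective p
  obtain ⟨a, ha⟩ : ∃ a, a = ia i := ⟨_, rfl⟩
  obtain ⟨b, hb⟩ : ∃ b, b = ib i := ⟨_, rfl⟩
  have hav : a.val = i.val := by rw [ha]; rfl
  have hbv : b.val = i.val + 1 := by rw [hb]; rfl
  have hma : ¬ Mid a := fun h => by
    rcases mid_val h with h | h <;> omega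
  have hmb : ¬ Mid b := fun h => by
    rcases mid_val h with h | h <;> omega
  have hab : a < b := by rw [ha, hb]; exact ia_lt i
  have hab' : a ≠ Fin.rev b := by rw [ha, hb]; exact ia_ne' i
  have hba' : b ≠ Fin.rev a := fun h5 => hab' (by rw [h5, Fin.rev_rev])
  have hxm : ∀ c : K, xr b a c.1 ∈ H := fun c => hg.lr b a hab.ne' hba' hmb hma c.1 (hK c)
  have hX : ∀ y, y ∈ Par ((BH H).map π) (π s) → (π w)⁻¹ * y * π w ∈ (UH H).map π →
      ∃ c : K, y = π ⟨xr b a c.1, hxm c⟩ := by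
    intro y h1 h2
    obtain ⟨A, rfl, hl, hpt⟩ := X_form hg hB hs hPar hτ hanti' h1 h2
    have h3 := tau_form (hg.le A.2) hl hpt
    rw [← ha, ← hb] at h3
    have h4 := hg.fix _ A.2 b a
    rw [pp_fix hma, pp_fix hmb] at h4
    exact ⟨⟨A.1.1 b a, h4.symm⟩, congrArg π (Subtype.ext h3)⟩
  have hX' : ∀ c : K, π ⟨xr b a c.1, hxm c⟩ ∈ Par ((BH H).map π) (π s) ∧
      (π w)⁻¹ * π ⟨xr b a c.1, hxm c⟩ * π w ∈ (UH H).map π := by
    intro c
    refine X_in ?_ (xr_down hg hτ hanti hab hab' c.1)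
    obtain ⟨d, hd⟩ := xr_conj' (hg.le s.2) hs hab.ne' c.1
    rw [tau_iv, ha, hb, tau_a, tau_b] at hd
    change IsUp (s.1⁻¹ * xr b a c.1 * s.1)
    rw [ha, hb, hd]
    exact xr_up (ia_lt i) d
  have key := lin_fix (K := K) (p := p) (M := L) (fun c => π ⟨xr b a c.1, hxm c⟩) ?_ ?_ hfp ?_ ?_
  · obtain ⟨c, rfl⟩ := hX y hyP hyU
    exact key c
  · intro c d hcd
    have h1 := pi_inj hker (x := ⟨xr b a c.1, hxm c⟩) (y := ⟨xr b a d.1, hxm d⟩) (xr_lou hab c.1)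
      (xr_lou hab d.1) hcd
    have h2 := congrArg (fun B : ↥H => B.1.1 b a) h1
    have h3 : (xr b a c.1).1 b a = (xr b a d.1).1 b a := h2
    rw [xr_apply hab.ne', xr_apply hab.ne', if_neg hab.ne',
      if_neg (fun h4 : b = Fin.rev a ∧ a = Fin.rev b => hba' h4.1),
      if_neg (fun h4 : b = Fin.rev a ∧ a = Fin.rev b => hba' h4.1)] at h3
    exact Subtype.ext (by simpa using h3)
  · intro c d
    rw [← map_mul]
    congr 1
    exact Subtype.ext (xr_add hab.ne' hba' c.1 d.1).symm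
  · intro c
    have h1 := hfX _ (hX' c).1 (hX' c).2
    exact hX _ h1.1 h1.2
  · intro c hc
    have hc' : c.1 ≠ 0 := fun h => hc (Subtype.ext h)
    obtain ⟨htM, ht⟩ := Wr_torus hab.ne hab' hc'
    have hW : ∀ c : K, Wr a b c.1 ∈ H := fun c => by
      have h5 := hg.lr a b hab.ne hab' hma hmb (-c.1⁻¹) (by rw [map_neg, map_inv₀, hK])
      exact mul_mem h5 (mul_mem (hxm c) h5)
    have htH : Wr a b c.1 * (Wr a b 1)⁻¹ ∈ H := mul_mem (hW c) (inv_mem (hW 1))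
    refine ⟨π ⟨_, htH⟩, hfT ⟨_, htH⟩ htM, fun d => ?_⟩
    rw [← map_inv, ← map_mul, ← map_mul]
    congr 1
    exact Subtype.ext (ht d.1)

/-- the short roots -/
lemma fix_short {p : ℕ} [hp : Fact p.Prime] [CharP F p] (hg : GoodT n σ H)
    (hσ : ∀ x, σ (σ x) = x)
    (hker : ∀ x : ↥H, π x = 1 → Mon x.1 1) (hB : ∀ x, π x ∈ (BH H).map π ↔ x ∈ BH H) {s : ↥H}
    {i : Fin n} (hi : i.val + 1 = n) (hs : Mon s.1 (tau i * (pp n * tau i * pp n)))
    (hPar : ∀ {y}, y ∈ Par ((BH H).map π) (π s) → y ∈ (BH H).map π ∨ DC ((BH H).map π) (π s) y)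
    {w : ↥H} {τ : Equiv.Perm (VI n)} (hτ : Mon w.1 τ)
    (hanti : ∀ {a b : VI n}, a < b → a ≠ Fin.rev b → τ b < τ a)
    (hanti' : ∀ {a b : VI n}, a < b → ¬ (a = c0 n ∧ b = c1 n) → τ b < τ a)
    {f : MulAut L} (hfp : f ^ p = 1) (hfT : ∀ t : ↥H, Mon t.1 1 → f (π t) = π t)
    (hfX : ∀ y ∈ Par ((BH H).map π) (π s), (π w)⁻¹ * y * π w ∈ (UH H).map π →
      f y ∈ Par ((BH H).map π) (π s) ∧ (π w)⁻¹ * f y * π w ∈ (UH H).map π)
    {y : L} (hyP : y ∈ Par ((BH H).map π) (π s)) (hyU : (π w)⁻¹ * y * π w ∈ (UH H).map π) :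
    f y = y := by
  have hm := last_nm hi
  obtain ⟨h0, h0'⟩ := mid_ne hm
  have hav : (ia i).val = i.val := rfl
  have hrv := rv_val (ia i)
  have l0 : ia i < c0 n := by
    rw [Fin.lt_def, hav]
    change i.val < n
    omega
  have l1 : ia i < c1 n := by
    rw [Fin.lt_def, hav]
    change i.val < n + 1
    omega
  have h1' : ia i ≠ Fin.rev (c1 n) := by rw [rev_c1]; exact h0
  have k0 : c0 n ≠ Fin.rev (ia i) := fun h5 => h0' (by rw [h5, Fin.rev_rev])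
  have k1 : c1 n ≠ Fin.rev (ia i) := fun h5 => h1' (by rw [h5, Fin.rev_rev])
  have hxm : ∀ c : F, xs σ (ia i) c ∈ H := fun c => xs_mem hg hσ hm c
  have hx0 : ∀ c : F, (xs σ (ia i) c).1 (c0 n) (ia i) = c := by
    intro c
    unfold xs
    rw [xr_mul h0.symm k0, if_pos rfl, if_neg k0, xr_diag l1.ne', xr_apply l1.ne', if_neg h0.symm,
      if_neg (fun h => c0_ne h.1), if_neg (fun h => k0 h.1)]
    ring
  have hx1 : ∀ c : F, (xs σ (ia i) c).1 (c1 n) (ia i) = σ c := by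
    intro c
    unfold xs
    rw [xr_mul h0.symm k0, if_neg c0_ne.symm, if_neg k1, xr_apply l1.ne', if_neg l1.ne',
      if_pos ⟨rfl, rfl⟩, if_neg (fun h => k1 h.1)]
    ring
  have hxp : ∀ c : F, ∀ u v : VI n, v < u → (xs σ (ia i) c).1 u v ≠ 0 →
      i.val ≤ v.val ∧ u.val ≤ n + 2 := by
    intro c u v huv hne
    unfold xs at hne
    have e1 : (c0 n).val = n := rfl
    have e2 : (c1 n).val = n + 1 := rfl
    rw [xr_mul h0.symm k0, xr_apply l1.ne', xr_apply l1.ne', xr_apply l1.ne', if_neg huv.ne'] at hne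
    by_contra hcon
    apply hne
    have t1 : ¬ (u = c1 n ∧ v = ia i) := by
      rintro ⟨rfl, rfl⟩
      omega
    have t2 : ¬ (u = Fin.rev (ia i) ∧ v = Fin.rev (c1 n)) := by
      rintro ⟨rfl, rfl⟩
      rw [rev_c1] at hcon
      omega
    have t3 : u = c0 n → ia i ≠ v := by
      rintro rfl rfl
      omega
    have t4 : u = c0 n → ¬ (ia i = Fin.rev (ia i) ∧ v = Fin.rev (c1 n)) := by
      rintro rfl ⟨h, -⟩
      exact rv_ne _ h.symm
    have t5 : u = Fin.rev (ia i) → Fin.rev (c0 n) ≠ v := by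
      rintro rfl rfl
      rw [rev_c0] at hcon
      omega
    have t6 : u = Fin.rev (ia i) → ¬ (Fin.rev (c0 n) = c1 n ∧ v = ia i) := by
      rintro rfl ⟨-, rfl⟩
      omega
    have t7 : ¬ (Fin.rev (c0 n) = Fin.rev (ia i) ∧ v = Fin.rev (c1 n)) := by
      rintro ⟨h, -⟩
      exact h0 (Fin.rev_injective h).symm
    rw [if_neg t1, if_neg t2, if_neg t7]
    by_cases hu : u = c0 n
    · rw [if_pos hu, if_neg (t3 hu), if_neg (fun h : ia i = c1 n ∧ _ => l1.ne h.1), if_neg (t4 hu),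
        if_neg (fun h : u = Fin.rev (ia i) => k0 (hu ▸ h))]
      ring
    · rw [if_neg hu]
      by_cases hu' : u = Fin.rev (ia i)
      · rw [if_pos hu', if_neg (t5 hu'), if_neg (t6 hu')]
        ring
      · rw [if_neg hu']
        ring
  have hX : ∀ y, y ∈ Par ((BH H).map π) (π s) → (π w)⁻¹ * y * π w ∈ (UH H).map π →
      ∃ c : F, y = π ⟨xs σ (ia i) c, hxm c⟩ := by
    intro y h1 h2
    obtain ⟨A, rfl, hl, hpt⟩ := X_form hg hB hs hPar hτ hanti' h1 h2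
    refine ⟨A.1.1 (c0 n) (ia i), congrArg π (Subtype.ext ?_)⟩
    refine last_eq hi (hg.le A.2) hl (fun u v huv h => last_pt hi hpt huv h)
      (hg.le (hxm _)) (xs_lou l0 _) (hxp _) (hx0 _).symm ?_
    rw [hx1]
    have h4 := hg.fix _ A.2 (c0 n) (ia i)
    rwa [pp_c0, pp_fix hm] at h4
  have hX' : ∀ c : F, π ⟨xs σ (ia i) c, hxm c⟩ ∈ Par ((BH H).map π) (π s) ∧
      (π w)⁻¹ * π ⟨xs σ (ia i) c, hxm c⟩ * π w ∈ (UH H).map π := by
    intro c
    refine X_in ?_ ?_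
    · change IsUp (s.1⁻¹ * (xr (c0 n) (ia i) c * xr (c1 n) (ia i) (σ c)) * s.1)
      have e : s.1⁻¹ * (xr (c0 n) (ia i) c * xr (c1 n) (ia i) (σ c)) * s.1 =
          (s.1⁻¹ * xr (c0 n) (ia i) c * s.1) * (s.1⁻¹ * xr (c1 n) (ia i) (σ c) * s.1) := by group
      obtain ⟨d, hd⟩ := xr_conj' (hg.le s.2) hs h0.symm c
      obtain ⟨d', hd'⟩ := xr_conj' (hg.le s.2) hs l1.ne' (σ c)
      rw [e, hd, hd']
      have v0 := last_apply hi (c0 n)
      have v1 := last_apply hi (c1 n)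
      have v2 := last_apply hi (Fin.rev (ia i))
      have e0 : (c0 n).val = n := rfl
      have e1 : (c1 n).val = n + 1 := rfl
      rw [if_neg (by omega), if_pos (by omega)] at v0
      rw [if_neg (by omega), if_neg (by omega), if_pos (by omega)] at v1
      rw [if_neg (by omega), if_neg (by omega), if_neg (by omega), if_pos (by omega)] at v2
      generalize tau i * (pp n * tau i * pp n) = ρ at *
      have r0 : ρ⁻¹ (c0 n) = c1 n := by
        rw [Equiv.Perm.inv_eq_iff_eq]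
        exact Fin.ext (by rw [v1]; rfl)
      have r1 : ρ⁻¹ (c1 n) = c0 n := by
        rw [Equiv.Perm.inv_eq_iff_eq]
        exact Fin.ext (by rw [v0]; rfl)
      have r2 : ρ⁻¹ (ia i) = Fin.rev (ia i) := by
        rw [Equiv.Perm.inv_eq_iff_eq]
        exact Fin.ext (by rw [v2, hav]; omega)
      rw [r0, r1, r2]
      exact up_mul (xr_up (by rw [Fin.lt_def]; omega) d) (xr_up (by rw [Fin.lt_def]; omega) d')
    · change w.1⁻¹ * (xr (c0 n) (ia i) c * xr (c1 n) (ia i) (σ c)) * w.1 ∈ _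
      have e : w.1⁻¹ * (xr (c0 n) (ia i) c * xr (c1 n) (ia i) (σ c)) * w.1 =
          (w.1⁻¹ * xr (c0 n) (ia i) c * w.1) * (w.1⁻¹ * xr (c1 n) (ia i) (σ c) * w.1) := by group
      rw [e]
      exact mul_mem (xr_down hg hτ hanti l0 h0' c) (xr_down hg hτ hanti l1 h1' _)
  have key := lin_fix (K := F) (p := p) (M := L) (fun c => π ⟨xs σ (ia i) c, hxm c⟩) ?_ ?_ hfp ?_ ?_
  · obtain ⟨c, rfl⟩ := hX y hyP hyU
    exact key c
  · intro c d hcd
    have h1 := pi_inj hker (x := ⟨_, hxm c⟩) (y := ⟨_, hxm d⟩) (xs_lou l0 c) (xs_lou l0 d) hcd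
    have h2 := congrArg (fun B : ↥H => B.1.1 (c0 n) (ia i)) h1
    have h3 : (xs σ (ia i) c).1 (c0 n) (ia i) = (xs σ (ia i) d).1 (c0 n) (ia i) := h2
    rwa [hx0, hx0] at h3
  · intro c d
    rw [← map_mul]
    congr 1
    exact Subtype.ext (xs_add hm c d)
  · intro c
    have h1 := hfX _ (hX' c).1 (hX' c).2
    exact hX _ h1.1 h1.2
  · intro c hc
    obtain ⟨t, htH, htM, ht⟩ := xs_torus hg hσ hm hc
    refine ⟨π ⟨t, htH⟩, hfT ⟨t, htH⟩ htM, fun d => ?_⟩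
    rw [← map_inv, ← map_mul, ← map_mul]
    congr 1
    exact Subtype.ext (ht d)

end

/-- **rigidity** of the split BN-pairs of groups of type `2D` -/
theorem dt_rigid {p : ℕ} [hp : Fact p.Prime] [CharP F p] (hg : GoodT n σ H)
    (hσ : ∀ x, σ (σ x) = x) {N : Subgroup ↥H} {S : Set ↥H} (hS : ∀ s ∈ S, SimT s.1)
    (hN : ∀ n ∈ N, ∃ τ, Mon n.1 τ) (hT : ∀ t : ↥H, Mon t.1 1 → t ∈ N)
    (h : SB p (BH H) N (UH H) S) (hsimple : IsSimpleGroup (↥H ⧸ center ↥H)) :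
    RigidBN p ((BH H).map (QuotientGroup.mk' (center ↥H)))
      (N.map (QuotientGroup.mk' (center ↥H))) ((UH H).map (QuotientGroup.mk' (center ↥H)))
      (QuotientGroup.mk' (center ↥H) '' S) := by
  have hr := hp.out
  have h' := Vale.Agent.P240.R2.H487.CG.SB.centre_quot h hr
  have hker : ∀ k, QuotientGroup.mk' (center ↥H) k = 1 → k ∈ BH H ∧ k ∈ N := by
    intro k hk
    have h1 : k ∈ center ↥H := (QuotientGroup.eq_one_iff k).1 hk
    exact center_le_T h hr fun g => (mem_center_iff.1 h1 g).symm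
  have hsurj : Function.Surjective (QuotientGroup.mk' (center ↥H)) :=
    QuotientGroup.mk'_surjective _
  generalize QuotientGroup.mk' (center ↥H) = π at *
  have hB : ∀ x, π x ∈ (BH H).map π ↔ x ∈ BH H := fun x => map_mem_iff fun k hk => (hker k hk).1
  have hN' : ∀ x, π x ∈ N.map π ↔ x ∈ N := fun x => map_mem_iff fun k hk => (hker k hk).2
  have hT1 : ∀ {x : ↥H}, x ∈ BH H → x ∈ N → Mon x.1 1 := by
    intro x hx hxN
    obtain ⟨τ, hτ⟩ := hN x hxN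
    have := mon_up hτ (mem_BH'.1 hx)
    rwa [this] at hτ
  have hker' : ∀ x : ↥H, π x = 1 → Mon x.1 1 := fun x hx => hT1 (hker x hx).1 (hker x hx).2
  refine h'.rigid_of_roots hsimple hr ?_ ?_
  · intro x hxB hxN y hyB hyN
    obtain ⟨x, rfl⟩ := hsurj x
    obtain ⟨y, rfl⟩ := hsurj y
    have hxy : x * y = y * x := Subtype.ext
      (diag_comm (hT1 ((hB x).1 hxB) ((hN' x).1 hxN)) (hT1 ((hB y).1 hyB) ((hN' y).1 hyN)))
    rw [← map_mul, ← map_mul, hxy]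
  · rintro _ ⟨w, hw, rfl⟩ hopp f hfp hfT _ ⟨s, hs, rfl⟩ hfX y hyP hyU
    obtain ⟨τ, hτ⟩ := hN w hw
    have hanti : ∀ {a b : VI n}, a < b → a ≠ Fin.rev b → τ b < τ a :=
      fun h1 h2 => antiT hg hker' hτ hopp h1 h2
    have hanti' : ∀ {a b : VI n}, a < b → ¬ (a = c0 n ∧ b = c1 n) → τ b < τ a :=
      fun h1 h2 => anti' hanti h1 h2
    obtain ⟨i, ⟨hi, hsi⟩ | ⟨hi, hsi⟩⟩ := hS s hs
    · exact fix_long (p := p) hg hker' hB hi hsi (fun {y} hy => (h'.mem_Par ⟨s, hs, rfl⟩).1 hy)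
        hτ hanti hanti' hfp
        (fun t ht => hfT _ ⟨t, mem_BH'.2 (mem_T' ht), rfl⟩ ⟨t, hT _ ht, rfl⟩) hfX hyP hyU
    · exact fix_short (p := p) hg hσ hker' hB hi hsi
        (fun {y} hy => (h'.mem_Par ⟨s, hs, rfl⟩).1 hy) hτ hanti hanti' hfp
        (fun t ht => hfT _ ⟨t, mem_BH'.2 (mem_T' ht), rfl⟩ ⟨t, hT _ ht, rfl⟩) hfX hyP hyU

end

end Vale.Agent.P240.R2.H775.RT
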