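import Vale.Agent.P240.R2.H775.Sz3

/-!
The Suzuki groups, part 4: groups of Lie type in characteristic two.
-/

set_option autoImplicit false
set_option linter.all false

namespace Vale.Agent.P240.R2.H775.Sz

open Subgroup Matrix Vale.Agent.P240.H195

universe u v

/-- `L` is isomorphic to the Suzuki group `Sz(q)`, where `q = |F| > 2`: there is an endomorphism `θ` of
`F` with `θ (θ x) = x ^ 2`, and `θ` is not the identity. -/
def IsSz (F : Type*) [Field F] (L : Type*) [Group L] : Prop :=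
  ∃ θ : F →+* F, (∀ x, θ (θ x) = x ^ 2) ∧ (∃ x, θ x ≠ x) ∧ Nonempty (L ≃* SzG θ)

section
variable {F : Type u} [Field F] {θ : F →+* F}

/-- simple Suzuki groups have trivial centre -/
lemma sz_centre (hθ : ∀ x, θ (θ x) = x ^ 2) (hne : ∃ x, θ x ≠ x) (hs : IsSimpleGroup ↥(SzG θ)) :
    ∀ x : ↥(SzG θ), (∀ y, x * y = y * x) → x = 1 := by
  obtain ⟨c, hc⟩ := hne
  have hm : ∀ a b, su hθ a b ∈ SzG θ := fun a b => subset_closure (Or.inl ⟨a, b, rfl⟩)
  rcases hs.eq_bot_or_eq_top_of_normal (center ↥(SzG θ)) inferInstance with h | h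
  · intro x hx
    have h1 : x ∈ center ↥(SzG θ) := mem_center_iff.2 fun y => (hx y).symm
    rw [h] at h1
    exact mem_bot.1 h1
  · exfalso
    have h1 : (⟨su hθ 1 0, hm 1 0⟩ : ↥(SzG θ)) ∈ center ↥(SzG θ) := by
      rw [h]
      exact mem_top _
    have h3 := congrArg Subtype.val (mem_center_iff.1 h1 ⟨su hθ c 0, hm c 0⟩)
    change su hθ c 0 * su hθ 1 0 = su hθ 1 0 * su hθ c 0 at h3
    rw [su_mul, su_mul] at h3
    have h4 := (su_inj hθ h3).2
    rw [map_one] at h4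
    exact hc (by linear_combination h4)

variable [Finite F]

/-- **Rigidity of the Suzuki groups.** -/
theorem sz_rigid (hθ : ∀ x, θ (θ x) = x ^ 2) (hne : ∃ x, θ x ≠ x) (hs : IsSimpleGroup ↥(SzG θ)) :
    RigidLie 2 ↥(SzG θ) := by
  have e : ↥(SzG θ) ≃* ↥(B hθ ⊔ N θ) := MulEquiv.subgroupCongr (szG_eq hθ)
  have hs' : IsSimpleGroup ↥(B hθ ⊔ N θ) := e.symm.isSimpleGroup
  exact RigidLie.tr e.symm ⟨hs', centreless_tr e (sz_centre hθ hne hs), _, _, _, _,
    sz_RigidBN hθ hne hs'⟩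

/-- **The Suzuki groups are of Lie type in characteristic two.** -/
theorem sz_lie (hθ : ∀ x, θ (θ x) = x ^ 2) (hne : ∃ x, θ x ≠ x) (hs : IsSimpleGroup ↥(SzG θ)) :
    LieType 2 ↥(SzG θ) := by
  have e : ↥(SzG θ) ≃* ↥(B hθ ⊔ N θ) := MulEquiv.subgroupCongr (szG_eq hθ)
  have hs' : IsSimpleGroup ↥(B hθ ⊔ N θ) := e.symm.isSimpleGroup
  refine LieType.tr e.symm ⟨hs', centreless_tr e (sz_centre hθ hne hs), _, _, _, _,
    { toSB := sz_SB hθ, irr := ?_ }⟩
  rintro J hJ ⟨a, ha⟩ ⟨b, hb, hb'⟩ -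
  have h1 : a.1 = sw F := hJ ha
  have h3 : b.1 = sw F := hb
  exact absurd (by rwa [show b = a from Subtype.ext (h3.trans h1.symm)]) hb'

theorem IsSz.rigid {L : Type v} [Group L] (h : IsSz F L) (hs : IsSimpleGroup L) :
    RigidLie 2 L := by
  obtain ⟨θ, hθ, hne, ⟨e⟩⟩ := h
  exact RigidLie.tr e.symm (sz_rigid hθ hne e.symm.isSimpleGroup)

theorem IsSz.lie {L : Type v} [Group L] (h : IsSz F L) (hs : IsSimpleGroup L) :
    LieType 2 L := by
  obtain ⟨θ, hθ, hne, ⟨e⟩⟩ := h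
  exact LieType.tr e.symm (sz_lie hθ hne e.symm.isSimpleGroup)

end

end Vale.Agent.P240.R2.H775.Sz
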