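import Vale.Agent.P240.H195.BNFree
import Vale.Agent.P240.H195.CF
import Vale.Agent.P240.R2.H775.Sz4

/-!
The Suzuki groups satisfy `GoodFactor` for every prime `p`.
-/

set_option autoImplicit false
set_option linter.all false

namespace Vale.Agent.P240.R2.H775.Sz

open Subgroup Vale.Agent.P240.H195

universe u v w

variable {F : Type u} [Field F] [Finite F]

lemma SzG_finite (θ : F →+* F) : Finite ↥(SzG θ) := inferInstance

/-- the prime two -/
theorem IsSz.good_two {𝕜 : Type w} [Field 𝕜] {l : ℕ} {L : Type v} [Group L] (h : IsSz F L)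
    (hs : IsSimpleGroup L) : GoodFactor 𝕜 2 l L := Or.inr (Or.inl (h.rigid hs))

/-- odd primes -/
theorem IsSz.good_odd {𝕜 : Type w} [Field 𝕜] {p : ℕ} (hp : p.Prime) (hp2 : p ≠ 2) {L : Type v}
    [Group L] (h : IsSz F L) (hs : IsSimpleGroup L) : GoodFactor 𝕜 p 2 L := by
  have hf : Finite L := by
    obtain ⟨θ, -, -, ⟨e⟩⟩ := h
    exact Finite.of_equiv _ e.symm.toEquiv
  exact Or.inr (Or.inr (Or.inr (Or.inl ⟨2, Nat.prime_two,
    (h.lie hs).autFree Nat.prime_two hp hp2, Or.inl rfl⟩)))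

end Vale.Agent.P240.R2.H775.Sz
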