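import Vale.Agent.P240.R2.H775.Rk2

/-!
Split BN-pairs of rank one, part 3: rigidity and automorphisms.
-/

set_option autoImplicit false
set_option linter.all false

namespace Vale.Agent.P240.R2.H775.Rk

open Subgroup Vale.Agent.P240.K Vale.Agent.P240.H195 Vale.Agent.P240.R2.H997

universe u v w

section
variable {L : Type u} [Group L] {p : ℕ} {U T : Subgroup L} {w : L} {F : Type v} [Field F]
  {π : L → F}

namespace RO

variable (h : RO p U T w)
include h

lemma par_top : Par h.B w = ⊤ := by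
  rw [eq_top_iff, ← h.gen]
  refine sup_le (sup_le (h.U_le.trans le_Par) (h.T_le.trans le_Par)) ?_
  rw [zpowers_le]
  exact self_mem_Par

lemma T_eq [Finite L] (hp : p.Prime) : h.B ⊓ cj w h.B = T := by
  apply le_antisymm
  · rintro g ⟨⟨u, hu, t, ht, rfl⟩, hg⟩
    have h1 : w⁻¹ * (u * t) * w ∈ h.B := mem_cj.1 hg
    have h2 : w⁻¹ * u * w ∈ h.B := by
      have h3 := mul_mem h1 (h.T_le (inv_mem (h.wt' ht)))
      have e : w⁻¹ * (u * t) * w * (w⁻¹ * t * w)⁻¹ = w⁻¹ * u * w := by group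
      rwa [e] at h3
    have h3 := h.sb.conj_U' hp hu h2
    have h4 := h.opp _ h3 (by
      have e : w * (w⁻¹ * u * w) * w⁻¹ = u := by group
      rwa [e])
    have h5 : u = 1 := by
      have e : u = w * (w⁻¹ * u * w) * w⁻¹ := by group
      rw [e, h4]
      group
    rw [h5, one_mul]
    exact ht
  · intro t ht
    exact ⟨h.T_le ht, mem_cj.2 (h.T_le (h.wt' ht))⟩

lemma cj_w [Finite L] (hp : p.Prime) : cj w⁻¹ h.B = cj w h.B := by
  rw [h.sb.cj_B_eq_iff hp, inv_inv]
  exact h.T_le h.ww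

/-- an automorphism stabilizing `B` and `w B w⁻¹` is trivial if it is trivial on `U` -/
lemma eq_one [Finite L] (hp : p.Prime) (hs : IsSimpleGroup L) {e : MulAut L}
    (hB : am e h.B = h.B) (hC : am e (cj w h.B) = cj w h.B) (hU : ∀ u ∈ U, e u = u) : e = 1 := by
  obtain ⟨f, hf⟩ : ∃ f, f = MulAut.conj w * e * (MulAut.conj w)⁻¹ := ⟨_, rfl⟩
  have hw1 : (MulAut.conj w)⁻¹ = MulAut.conj w⁻¹ := (map_inv _ _).symm
  have hfB : am f h.B = h.B := by
    rw [hf, am_mul, am_mul, hw1, am_conj, am_conj, h.cj_w hp, hC, ← h.cj_w hp, ← cj_mul,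
      mul_inv_cancel, cj_one]
  have hfC : am f (cj w h.B) = cj w h.B := by
    rw [hf, am_mul, am_mul, hw1, am_conj, am_conj, ← cj_mul, inv_mul_cancel, cj_one, hB]
  have h1 : f = 1 := by
    refine h.sb.eq_one_of_roots hs hp hfB ?_ h.w_mem h.opp hfC ?_
    · intro s hs'
      have hs'' : s = w := hs'
      rw [hs'', h.par_top, am_top]
    · rintro s - y - hy
      rw [hf, MulAut.mul_apply, MulAut.mul_apply, hw1, MulAut.conj_apply, MulAut.conj_apply,
        inv_inv, hU _ hy]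
      group
  rw [hf] at h1
  calc e = (MulAut.conj w)⁻¹ * (MulAut.conj w * e * (MulAut.conj w)⁻¹) * MulAut.conj w := by group
    _ = 1 := by rw [h1]; group

lemma stab_U [Finite L] (hp : p.Prime) {e : MulAut L} (hB : am e h.B = h.B) :
    ∀ u ∈ U, e u ∈ U := fun u hu => h.sb.apply_U hp hB hu

lemma stab_T [Finite L] (hp : p.Prime) {e : MulAut L} (hB : am e h.B = h.B)
    (hC : am e (cj w h.B) = cj w h.B) : ∀ t ∈ T, e t ∈ T := by
  intro t ht
  rw [← h.T_eq hp] at ht ⊢
  have h1 := apply_mem_am (f := e) ht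
  rwa [am_inf, hB, hC] at h1

/-- automorphisms that act linearly are inner -/
lemma inner [Finite L] (hp : p.Prime) (hs : IsSimpleGroup L) (l : Lin F π U T) {e : MulAut L}
    (hB : am e h.B = h.B) (hC : am e (cj w h.B) = cj w h.B) {k : F} (hk0 : k ≠ 0)
    (hk : ∀ u ∈ U, π (e u) = k * π u) : e ∈ (MulAut.conj (G := L)).range := by
  obtain ⟨t, ht, htk⟩ := l.full k hk0
  obtain ⟨e', he'⟩ : ∃ e', e' = (MulAut.conj t)⁻¹ * e := ⟨_, rfl⟩
  have ht1 : (MulAut.conj t)⁻¹ = MulAut.conj t⁻¹ := (map_inv _ _).symm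
  have htB : t ∈ h.B := h.T_le ht
  have htC : t ∈ cj w h.B := mem_cj.2 (h.T_le (h.wt' ht))
  have hB' : am e' h.B = h.B := by
    rw [he', am_mul, hB, ht1, am_conj, cj_self (inv_mem htB)]
  have hC' : am e' (cj w h.B) = cj w h.B := by
    rw [he', am_mul, hC, ht1, am_conj, cj_self (inv_mem htC)]
  have hU' := h.stab_U hp hB'
  have hU'' := h.stab_U hp (am_inv_eq hB')
  have hT' := h.stab_T hp hB' hC'
  have hval : ∀ u, e' u = t⁻¹ * e u * t := by
    intro u
    rw [he', MulAut.mul_apply, ht1, MulAut.conj_apply, inv_inv]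
  have hlin : ∀ u ∈ U, π (e' u) = π u := by
    intro u hu
    have h1 := htk _ (hU' u hu)
    have e1 : t * e' u * t⁻¹ = e u := by rw [hval]; group
    rw [e1, hk u hu] at h1
    exact (mul_left_cancel₀ hk0 h1).symm
  have hfix := l.fixT (k := 1) hU' hU'' hT' (fun u hu => by rw [one_mul, hlin u hu])
  have h1 := h.eq_one hp hs hB' hC' (l.rig e' hU' hfix hlin)
  refine ⟨t, ?_⟩
  rw [he'] at h1
  exact (inv_mul_eq_one.1 h1)

/-- **Rigidity.** -/
theorem rigidBN [Finite L] [CharP F p] (hp : p.Prime) (hs : IsSimpleGroup L) (l : Lin F π U T) :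
    RigidBN p h.B h.N U {w} where
  toSB := h.sb
  comm := by
    intro x hx hxN y hy hyN
    exact l.comm x (by rw [← h.BN]; exact ⟨hx, hxN⟩) y (by rw [← h.BN]; exact ⟨hy, hyN⟩)
  rigid := by
    have : Fact p.Prime := ⟨hp⟩
    intro n hn hopp f hfp hQ hC hT
    have hT' : ∀ t ∈ T, f t = t := fun t ht => hT t (h.T_le ht) (h.T_le' ht)
    have hB : am f h.B = h.B := hQ h.B le_rfl
    have hlong := h.sb.toBN0.long_unique (h.sb.long_of_opp hp h.w_mem h.opp)
      (h.sb.long_of_opp hp hn hopp)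
    have hcj : cj n h.B = cj w h.B := ((h.sb.cj_B_eq_iff hp).2 hlong).symm
    have hC' : am f (cj w h.B) = cj w h.B := by
      have hC1 : am f (cj n h.B) = cj n h.B := hC
      rwa [hcj] at hC1
    have hU := h.stab_U hp hB
    -- `f` is linear
    obtain ⟨u₁, hu₁, hu₁'⟩ := l.surj 1
    have hlin : ∀ u ∈ U, π (f u) = π (f u₁) * π u := by
      intro u hu
      by_cases h0 : π u = 0
      · rw [h0, mul_zero]
        exact l.char f hU u hu h0
      · obtain ⟨t, ht, htc⟩ := l.full _ h0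
        have h1 := l.wd hU hu (l.tu t ht _ hu₁) (by rw [htc _ hu₁, hu₁', mul_one])
        rw [h1, map_mul, map_mul, map_inv, hT' t ht, htc _ (hU _ hu₁)]
        ring
    have hpow : ∀ n : ℕ, ∀ u ∈ U, (f ^ n) u ∈ U ∧ π ((f ^ n) u) = π (f u₁) ^ n * π u := by
      intro n
      induction n with
      | zero => intro u hu; simp [hu]
      | succ n ih =>
        intro u hu
        obtain ⟨h1, h2⟩ := ih u hu
        rw [pow_succ', MulAut.mul_apply]
        exact ⟨hU _ h1, by rw [hlin _ h1, h2]; ring⟩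
    have h1 : π (f u₁) = 1 := by
      have h2 := (hpow p u₁ hu₁).2
      rw [hfp, MulAut.one_apply, hu₁', mul_one] at h2
      have h3 : (π (f u₁) - 1) ^ p = 0 := by
        rw [sub_pow_char, one_pow, ← h2, sub_self]
      exact sub_eq_zero.1 (pow_eq_zero_iff hp.ne_zero |>.1 h3)
    refine h.eq_one hp hs hB hC' (l.rig f hU hT' fun u hu => ?_)
    rw [hlin u hu, h1, one_mul]

/-- the relation between automorphisms and field automorphisms -/
def SR [Finite L] (hp : p.Prime) (l : Lin F π U T) : Subgroup (MulAut L × RingAut F) where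
  carrier := {x | ∃ (z : L) (e : MulAut L), x.1 = MulAut.conj z * e ∧ am e h.B = h.B ∧
    am e (cj w h.B) = cj w h.B ∧ ∃ k : F, k ≠ 0 ∧ ∀ u ∈ U, π (e u) = k * x.2 (π u)}
  mul_mem' := by
    rintro ⟨f, σ⟩ ⟨f', σ'⟩ ⟨z, e, hf, hB, hC, k, hk, hku⟩ ⟨z', e', hf', hB', hC', k', hk', hku'⟩
    refine ⟨z * e z', e * e', ?_, ?_, ?_, k * σ k', ?_, ?_⟩
    · change f * f' = _
      change f = _ at hf
      change f' = _ at hf'
      rw [hf, hf']
      ext x
      simp only [MulAut.mul_apply, MulAut.conj_apply, map_mul, map_inv, mul_inv_rev, mul_assoc]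
    · rw [am_mul, hB', hB]
    · rw [am_mul, hC', hC]
    · exact mul_ne_zero hk ((map_ne_zero _).2 hk')
    · intro u hu
      change π (e (e' u)) = k * σ k' * σ (σ' (π u))
      have h1 := hku _ (h.stab_U hp hB' u hu)
      have h2 := hku' u hu
      change _ = k * σ _ at h1
      change _ = k' * σ' _ at h2
      rw [h1, h2, map_mul]
      ring
  one_mem' := ⟨1, 1, by simp, am_one _, am_one _, 1, one_ne_zero, fun u hu => by simp⟩
  inv_mem' := by
    rintro ⟨f, σ⟩ ⟨z, e, hf, hB, hC, k, hk, hku⟩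
    change f = _ at hf
    refine ⟨e⁻¹ z⁻¹, e⁻¹, ?_, am_inv_eq hB, am_inv_eq hC, σ⁻¹ k⁻¹, ?_, ?_⟩
    · change f⁻¹ = _
      rw [hf]
      ext x
      simp only [mul_inv_rev, MulAut.mul_apply, MulAut.conj_apply, ← map_inv, inv_inv, map_mul]
    · exact (map_ne_zero _).2 (inv_ne_zero hk)
    · intro u hu
      change π (e⁻¹ u) = σ⁻¹ k⁻¹ * σ⁻¹ (π u)
      have h1 := hku _ (h.stab_U hp (am_inv_eq hB) u hu)
      change _ = k * σ _ at h1
      have h2 : e (e⁻¹ u) = u := by rw [← MulAut.mul_apply, mul_inv_cancel, MulAut.one_apply]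
      rw [h2] at h1
      have h3 : ∀ x, σ⁻¹ (σ x) = x := fun x => by
        rw [← RingAut.mul_apply, inv_mul_cancel, RingAut.one_apply]
      rw [h1, ← map_mul, inv_mul_cancel_left₀ hk, h3]

/-- **The outer automorphism group is cyclic.** -/
theorem fewAut [Finite L] [Finite F] (hp : p.Prime) (hs : IsSimpleGroup L) (l : Lin F π U T)
    {q : ℕ} (hq : q.Prime) : FewAut q L := by
  have : Fact q.Prime := ⟨hq⟩
  have hnI : (MulAut.conj (G := L)).range.Normal := normal_conj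
  have key : ∀ f g : MulAut L, OutAut q f → OutAut q g →
      g ∈ zpowers f ⊔ (MulAut.conj (G := L)).range := by
    intro f g hf hg
    refine cyc_few (C := RingAut F) _ (h.SR hp l) ?_ ?_ hf.1 hg.1 hf.2
    · intro f
      obtain ⟨g, hg⟩ := h.sb.exists_conj hp f
      obtain ⟨e₀, he₀⟩ : ∃ e₀, e₀ = (MulAut.conj g)⁻¹ * f := ⟨_, rfl⟩
      have he₀B : am e₀ h.B = h.B := by
        have e1 : (MulAut.conj g)⁻¹ = MulAut.conj g⁻¹ := (map_inv _ _).symm
        rw [he₀, am_mul, hg, e1, am_conj, ← cj_mul, inv_mul_cancel, cj_one]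
      have hlong := h.sb.long_of_opp hp h.w_mem h.opp
      have hO : Opp h.B {w} (cj w h.B) :=
        (h.sb.opp_iff hp hlong).2 ⟨1, one_mem _, by rw [one_mul]⟩
      obtain ⟨u, hu, hu'⟩ := (h.sb.opp_iff hp hlong).1 (opp_am h.sb he₀B hO)
      obtain ⟨e, he⟩ : ∃ e, e = (MulAut.conj u)⁻¹ * e₀ := ⟨_, rfl⟩
      have hu1 : (MulAut.conj u)⁻¹ = MulAut.conj u⁻¹ := (map_inv _ _).symm
      have heB : am e h.B = h.B := by
        rw [he, am_mul, he₀B, hu1, am_conj, cj_self (inv_mem (h.U_le hu))]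
      have heC : am e (cj w h.B) = cj w h.B := by
        rw [he, am_mul, hu', hu1, am_conj, ← cj_mul, inv_mul_cancel_left]
      obtain ⟨k, hk, σ, hσ⟩ := l.semi (h.stab_U hp heB) (h.stab_U hp (am_inv_eq heB))
        (h.stab_T hp heB heC)
      refine ⟨σ, g * u, e, ?_, heB, heC, k, hk, hσ⟩
      change f = _
      rw [he, he₀, map_mul]
      group
    · rintro x ⟨z, e, hx, hB, hC, k, hk, hku⟩
      change x = _ at hx
      rw [hx]
      exact mul_mem ⟨z, rfl⟩ (h.inner hp hs l hB hC hk hku)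
  exact ⟨fun f g h hf hg _ => Or.inl (key f g hf hg), Or.inl key⟩

/-- **Rank one groups are good for all primes.** -/
theorem good {𝕜 : Type w} [Field 𝕜] {l' q : ℕ} [Finite L] [Finite F] [CharP F p]
    (hp : p.Prime) (hs : IsSimpleGroup L) (hZ : ∀ x : L, (∀ y, x * y = y * x) → x = 1)
    (l : Lin F π U T) (hq : q.Prime) : GoodFactor 𝕜 q l' L := by
  by_cases hqp : q = p
  · subst hqp
    exact Or.inr (Or.inl ⟨hs, hZ, _, _, _, _, h.rigidBN hp hs l⟩)
  · have hL : LieType p L := ⟨hs, hZ, _, _, _, _, h.splitBN⟩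
    exact Or.inr (Or.inr (Or.inr (Or.inl ⟨p, hp, hL.autFree hp hq hqp,
      Or.inr (Or.inr (Or.inl (h.fewAut hp hs l hq)))⟩)))

end RO

end

end Vale.Agent.P240.R2.H775.Rk
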