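import Vale.Agent.P240.R2.H775.GB3
import Vale.Agent.P240.R2.H775.GS5

/-! Golod–Shafarevich with at least `b ≥ 4` pairs in every plane:
some class has `(b - 4) |G| < b 2^n t(G)`; in particular `t(G) > 0`. -/

namespace Vale.Agent.P240.R2.H775.B

open Vale.Agent.P240.R2 Vale.Agent.P240.R2.H775

universe u

variable {L : Type u} [DecidableEq L] [Fintype L]

theorem pairs_le {b k n : ℕ} {F : Finset (List L)} (hF : Good b k F) :
    b * ∑ X ∈ X2 F, us n X ≤ A n 2 F := by
  rw [A_two, Finset.sum_comp (fun X => us n X) (fun p : L × L => quot F [p.1, p.2]),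
    Finset.mul_sum]
  refine Finset.sum_le_sum fun X hX => ?_
  rw [smul_eq_mul]
  rcases Finset.eq_empty_or_nonempty X with rfl | ⟨w, hw⟩
  · simp [us_empty]
  · refine Nat.mul_le_mul_right _ ?_
    obtain ⟨⟨x, y⟩, -, hab⟩ := Finset.mem_image.mp hX
    simp only at hab
    have h1 : w ++ [x, y] ∈ F := by rw [← mem_quot, hab]; exact hw
    refine (hF.pairs w x y h1).trans (Finset.card_le_card ?_)
    intro p hp
    simp only [Finset.mem_filter, Finset.mem_univ, true_and] at hp ⊢
    rw [← hab]
    exact quot_rect hF (by simp) hp h1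

/-- all `t` are small -/
def Small (b n : ℕ) (F : Finset (List L)) : Prop :=
  ∀ h g : List L, g.length = n → (quot F (g ++ h)).Nonempty →
    b * 2 ^ n * t (cls n (quot F h) (quot F (g ++ h))) ≤
      (b - 4) * (cls n (quot F h) (quot F (g ++ h))).card

theorem Small.quot {b n : ℕ} {F : Finset (List L)} (h : Small b n F) (q : List L) :
    Small b n (quot F q) := by
  intro p g hg hne
  rw [quot_quot, quot_quot, List.append_assoc] at *
  exact h (p ++ q) g hg hne

theorem quot_long {b k : ℕ} {F : Finset (List L)} (hF : Good b k F) {g : List L}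
    (hg : k < g.length) : quot F g = ∅ := by
  rw [Finset.eq_empty_iff_forall_notMem]
  intro w hw
  have := hF.len _ (mem_quot.mp hw)
  simp at this
  omega

/-- the main growth step -/
theorem growth {b n : ℕ} (hb : 4 ≤ b) (hn : 2 ≤ n) : ∀ (k : ℕ) (F : Finset (List L)), 1 ≤ k → Good b k F →
    Small b n F → P n F := by
  intro k
  induction k using Nat.strong_induction_on with
  | _ k ih =>
    intro F hk hF hS
    have hP : ∀ g : List L, g ≠ [] → P n (quot F g) := by
      intro g hg
      have hg1 : 1 ≤ g.length := List.length_pos_iff.mpr hg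
      rcases Nat.lt_or_ge g.length k with h1 | h1
      · exact ih (k - g.length) (by omega) _ (by omega) (hF.quot g h1.le) (hS.quot g)
      · have : A n 1 (quot F g) = 0 := by
          simp only [A]
          refine Finset.sum_eq_zero fun l _ => ?_
          rw [quot_quot, quot_long hF (by simp; omega), us_empty]
        simp [P, this]
    have h1 := gs_ineq (n := n) (by omega) hF
    have h2 := pairs_le (n := n) hF
    have h3 := A_le n 1 F hP
    have h4 : b * 2 ^ n * ∑ X ∈ Xn n F, us n X * t (cls n F X) ≤ (b - 4) * A n n F := by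
      rw [← sum_cls, Finset.mul_sum, Finset.mul_sum]
      refine Finset.sum_le_sum fun X hX => ?_
      rcases Finset.eq_empty_or_nonempty X with rfl | hne
      · simp [us_empty]
      · obtain ⟨g, -, hg⟩ := Finset.mem_image.mp hX
        have h5 := hS [] (List.ofFn g) (by simp) (by rw [List.append_nil, hg]; exact hne)
        rw [List.append_nil, hg, quot_nil] at h5
        calc b * 2 ^ n * (us n X * t (cls n F X))
            = (b * 2 ^ n * t (cls n F X)) * us n X := by ring
          _ ≤ ((b - 4) * (cls n F X).card) * us n X := Nat.mul_le_mul_right _ h5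
          _ = (b - 4) * ((cls n F X).card * us n X) := by ring
    obtain ⟨m, rfl⟩ : ∃ m, n = m + 1 := ⟨n - 1, by omega⟩
    have h5 := A_le (m + 1) m F hP
    have e0 : ∑ l, Module.finrank ℚ (S (m + 1) (quot F [l])) = A (m + 1) 1 F := rfl
    have e1 : ∑ X ∈ X2 F, Module.finrank ℚ (S (m + 1) X) = ∑ X ∈ X2 F, us (m + 1) X := rfl
    have e2 : ∑ X ∈ Xn (m + 1) F, Module.finrank ℚ (S (m + 1) X) * t (cls (m + 1) F X) =
        ∑ X ∈ Xn (m + 1) F, us (m + 1) X * t (cls (m + 1) F X) := rfl
    have e3 : Module.finrank ℚ (S (m + 1) F) = A (m + 1) 0 F := rfl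
    rw [e0, e1, e2, e3] at h1
    unfold P
    generalize A (m + 1) 1 F = a1 at *
    generalize A (m + 1) 0 F = a0 at *
    generalize A (m + 1) 2 F = a2 at *
    generalize A (m + 1) (m + 1) F = an at *
    generalize ∑ X ∈ X2 F, us (m + 1) X = s2 at *
    generalize ∑ X ∈ Xn (m + 1) F, us (m + 1) X * t (cls (m + 1) F X) = sn at *
    have hp : 0 < 2 ^ m := by positivity
    rw [pow_succ] at h4
    obtain ⟨c, rfl⟩ : ∃ c, b = c + 4 := ⟨b - 4, by omega⟩
    rw [Nat.add_sub_cancel] at h4
    have h6 : 2 * ((c + 4) * sn) ≤ c * a1 := by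
      have : 2 ^ m * (2 * ((c + 4) * sn)) ≤ 2 ^ m * (c * a1) := by
        calc 2 ^ m * (2 * ((c + 4) * sn)) = (c + 4) * (2 ^ m * 2) * sn := by ring
          _ ≤ c * an := h4
          _ ≤ c * (2 ^ m * a1) := Nat.mul_le_mul_left _ h5
          _ = 2 ^ m * (c * a1) := by ring
      exact Nat.le_of_mul_le_mul_left this hp
    have h7 : (c + 4) * a1 ≤ (c + 4) * (2 * a0) := by
      have h8 : (c + 4) * a1 ≤ (c + 4) * (a0 + s2 + sn) := Nat.mul_le_mul_left _ h1
      nlinarith
    exact Nat.le_of_mul_le_mul_left h7 (by omega)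

/-- counting words by the last letter -/
theorem card_le_sum {b k : ℕ} {F : Finset (List L)} (hF : Good b (k + 1) F) :
    F.card ≤ ∑ l, (quot F [l]).card := by
  have h1 : F ⊆ Finset.univ.biUnion (fun l => (quot F [l]).image (fun w => w ++ [l])) := by
    intro w hw
    have hl := hF.len w hw
    have hne : w ≠ [] := by rintro rfl; simp at hl
    refine Finset.mem_biUnion.mpr ⟨w.getLast hne, Finset.mem_univ _, Finset.mem_image.mpr
      ⟨w.dropLast, ?_, List.dropLast_append_getLast hne⟩⟩
    rw [mem_quot, List.dropLast_append_getLast hne]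
    exact hw
  refine (Finset.card_le_card h1).trans (Finset.card_biUnion_le.trans ?_)
  exact Finset.sum_le_sum fun l _ => Finset.card_image_le

theorem card_le_us {b n : ℕ} (hb : 4 ≤ b) (hn : 2 ≤ n) : ∀ (k : ℕ) (F : Finset (List L)), Good b k F →
    Small b n F → F.card ≤ 2 ^ k * us n F := by
  intro k
  induction k with
  | zero =>
    intro F hF _
    rcases Finset.eq_empty_or_nonempty F with rfl | ⟨w, hw⟩
    · simp
    · have hw0 : w = [] := List.length_eq_zero_iff.mp (hF.len w hw)
      have hFs : F = {[]} := by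
        ext x
        simp only [Finset.mem_singleton]
        constructor
        · intro hx; exact List.length_eq_zero_iff.mp (hF.len x hx)
        · rintro rfl; rw [← hw0]; exact hw
      subst hFs
      simpa using us_nil (by omega)
  | succ k ih =>
    intro F hF hS
    have h1 : P n F := growth hb hn (k + 1) F (by omega) hF hS
    calc F.card ≤ ∑ l, (quot F [l]).card := card_le_sum hF
      _ ≤ ∑ l, 2 ^ k * us n (quot F [l]) := by
          refine Finset.sum_le_sum fun l _ => ih _ ?_ (hS.quot [l])
          have := hF.quot [l] (by simp)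
          simpa using this
      _ = 2 ^ k * A n 1 F := by rw [← Finset.mul_sum]; rfl
      _ ≤ 2 ^ k * (2 * A n 0 F) := Nat.mul_le_mul_left _ h1
      _ = 2 ^ (k + 1) * us n F := by rw [pow_succ]; simp only [A]; ring

/-- the conclusion from (c) and the numerics -/
theorem gs_of {b n k C : ℕ} (hb : 4 ≤ b) (hn : 2 ≤ n) {F : Finset (List L)} (hF : Good b k F) (hne : F.Nonempty)
    (hc : k.factorial * us n F ≤ F.card * C) (hnum : 2 ^ k * C < k.factorial) :
    ∃ h g : List L, g.length = n ∧ (quot F (g ++ h)).Nonempty ∧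
      (b - 4) * (cls n (quot F h) (quot F (g ++ h))).card <
        b * 2 ^ n * t (cls n (quot F h) (quot F (g ++ h))) := by
  by_contra hcon
  push Not at hcon
  have hS : Small b n F := fun h g hg hq => hcon h g hg hq
  have h1 := card_le_us hb hn k F hF hS
  have h2 : 0 < F.card := hne.card_pos
  have h3 : F.card * k.factorial ≤ F.card * (2 ^ k * C) := by
    calc F.card * k.factorial ≤ (2 ^ k * us n F) * k.factorial := Nat.mul_le_mul_right _ h1
      _ = 2 ^ k * (k.factorial * us n F) := by ring
      _ ≤ 2 ^ k * (F.card * C) := Nat.mul_le_mul_left _ hc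
      _ = F.card * (2 ^ k * C) := by ring
  have h4 := Nat.le_of_mul_le_mul_left h3 h2
  omega

/-- (c'): bound for `S n F` -/
theorem us_le {F : Finset (List L)} {b k n : ℕ}
    (hn : 1 ≤ n) (hF : Good b k F) : k.factorial * us n F ≤ F.card * H986.c n k := by
  classical
  have hord : ∀ (f : Finset L) (w : List L), H986.IsOrd f w ↔ w ∈ Wd f := by
    intro f w
    constructor
    · intro h
      refine ⟨H986.isOrd_nodup h, ?_⟩
      ext a
      rw [List.mem_toFinset]
      exact H986.isOrd_mem h a
    · rintro ⟨h1, h2⟩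
      subst h2
      show (w : Multiset L) = w.toFinset.val
      rw [List.toFinset_val, h1.dedup]
  let Fam : Finset (Finset L) := F.image List.toFinset
  have hcardf : ∀ f ∈ Fam, f.card = k := by
    intro f hf
    obtain ⟨w, hw, rfl⟩ := Finset.mem_image.mp hf
    rw [List.toFinset_card_of_nodup (hF.nodup w hw), hF.len w hw]
  have h1 : Module.finrank ℚ (S n F) ≤ Fam.card * H986.c n k := by
    refine H986.finrank_le_of_family hn Fam hcardf (S n F) ?_ ?_
    · intro z hz w hw
      refine hz.1.1 w fun hwF => ?_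
      refine hw w.toFinset (Finset.mem_image_of_mem _ hwF) ?_
      rw [hord]
      exact ⟨hF.nodup w hwF, rfl⟩
    · intro z hz g u v hg
      rw [← Br_ev z g (by rintro rfl; simp at hg; omega)]
      exact hz.2 u g v hg
  have h2 : F.card = Fam.card * k.factorial := by
    rw [Finset.card_eq_sum_card_image List.toFinset F]
    rw [show Fam.card * k.factorial = ∑ f ∈ Fam, k.factorial by simp]
    refine Finset.sum_congr rfl fun f hf => ?_
    have : F.filter (fun w => w.toFinset = f) = WdF f := by
      ext w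
      rw [mem_WdF, Finset.mem_filter]
      constructor
      · rintro ⟨h3, h4⟩
        exact ⟨hF.nodup w h3, h4⟩
      · rintro ⟨h3, h4⟩
        refine ⟨?_, h4⟩
        obtain ⟨w', hw', rfl⟩ := Finset.mem_image.mp hf
        refine hF.perm w' w ?_ hw'
        exact (List.perm_of_nodup_nodup_toFinset_eq (hF.nodup _ hw') h3 h4.symm)
    rw [this, card_WdF, hcardf f hf]
  rw [h2]
  calc k.factorial * us n F ≤ k.factorial * (Fam.card * H986.c n k) :=
        Nat.mul_le_mul_left _ h1
    _ = Fam.card * k.factorial * H986.c n k := by ring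

theorem cls_eq {F : Finset (List L)} {b k : ℕ}
    (hF : Good b k F) {g h : List L} (hne : (quot F (g ++ h)).Nonempty) :
    cls g.length (quot F h) (quot F (g ++ h)) = AS.cls F g := by
  obtain ⟨u, hu⟩ := hne
  rw [mem_quot] at hu
  have hp : ∀ w x : List L, w ++ (x ++ h) ∈ F ↔ (w ++ h) ++ x ∈ F := by
    intro w x
    have : (w ++ (x ++ h)).Perm ((w ++ h) ++ x) := by
      rw [List.append_assoc]
      exact List.Perm.append_left w List.perm_append_comm
    exact ⟨fun hw => hF.perm _ _ this hw, fun hw => hF.perm _ _ this.symm hw⟩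
  ext g'
  rw [mem_cls, AS.mem_cls, quot_quot]
  constructor
  · rintro ⟨h1, h2⟩
    refine ⟨h1, ?_⟩
    have h3 : u ++ (g' ++ h) ∈ F := by
      rw [← mem_quot, h2, mem_quot]; exact hu
    have h4 := quot_rect hF h1 ((hp u g').mp h3) ((hp u g).mp hu)
    intro w
    rw [← mem_quot, ← mem_quot, h4]
  · rintro ⟨h1, h2⟩
    refine ⟨h1, ?_⟩
    ext w
    rw [mem_quot, mem_quot, hp, hp]
    exact h2 _

/-- **M1 with `b` pairs per plane** (`b ≥ 4`): some class `G` of words of length `n` satisfies
`(b - 4) |G| < b 2^n t(G)`, in particular `0 < t(G)` -/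
theorem gsB (b n : ℕ) (hb : 4 ≤ b) (hn : 2 ≤ n) : ∃ k0 : ℕ, ∀ (L : Type u) [DecidableEq L]
    [Fintype L] (F : Finset (List L)) (k : ℕ), k0 ≤ k → Good b k F → F.Nonempty →
    ∃ g : List L, g.length = n ∧ (∃ w, w ++ g ∈ F) ∧
      (b - 4) * (AS.cls F g).card < b * 2 ^ n * AS.t (AS.cls F g) := by
  obtain ⟨K0, hK0⟩ := H986.exists_small n 2 (by norm_num)
  refine ⟨K0, ?_⟩
  intro L _ _ F k hk hF hne
  obtain ⟨h, g, hg, hq, hlt⟩ := gs_of (C := H986.c n k) hb hn hF hne (us_le (by omega) hF)
    (hK0 k hk)
  have hq' := hq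
  obtain ⟨u, hu⟩ := hq'
  rw [mem_quot] at hu
  refine ⟨g, hg, ⟨u ++ h, ?_⟩, ?_⟩
  · refine hF.perm _ _ ?_ hu
    rw [List.append_assoc]
    exact List.Perm.append_left u List.perm_append_comm
  · subst hg
    rw [cls_eq hF hq, t_eq] at hlt
    · exact hlt
    · intro w hw w' hww
      rw [AS.mem_cls] at hw ⊢
      refine ⟨by rw [← hww.length_eq, hw.1], fun x => ?_⟩
      rw [← hw.2 x]
      exact ⟨fun h => hF.perm _ _ (hww.symm.append_left x) h,
        fun h => hF.perm _ _ (hww.append_left x) h⟩
    · intro h0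
      have := (AS.mem_cls.mp h0).1
      simp at this
      omega

end Vale.Agent.P240.R2.H775.B
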