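import Vale.Agent.P240.R2.H195.RigB
import Vale.Agent.P240.R2.H775.RG2

/-!
A criterion for rigidity: the opposite simple root groups are parametrized by fields of
characteristic `p`, and the torus induces on them all multiplications by nonzero squares.
-/

set_option autoImplicit false
set_option linter.all false

namespace Vale.Agent.P240.R2.H775.RGen

open Subgroup Vale.Agent.P240.H195
open Vale.Agent.P240.R2.H775.RG (lin_fix)

universe u v

section
variable {L : Type u} [Group L] {B N U : Subgroup L} {S : Set L} {p : ℕ}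

/-- The root group `n U n⁻¹ ∩ P_s` is parametrized by the field `K`, and `T = B ∩ N` induces all
multiplications by nonzero squares. -/
structure FieldRoot (K : Type v) [Field K] (B N U : Subgroup L) (n s : L) (x : K → L) : Prop where
  inj : Function.Injective x
  add : ∀ a b, x (a + b) = x a * x b
  mem : ∀ a, x a ∈ Par B s ∧ n⁻¹ * x a * n ∈ U
  all : ∀ y, y ∈ Par B s → n⁻¹ * y * n ∈ U → ∃ a, y = x a
  torus : ∀ a : K, a ≠ 0 → ∃ t ∈ B, t ∈ N ∧ ∀ c, t * x c * t⁻¹ = x (a ^ 2 * c)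

/-- **Criterion for rigidity**, with root groups for all opposite elements of `N`. -/
theorem rigid_of_fields [Finite L] [hp : Fact p.Prime] (h : SB p B N U S)
    (hsimple : IsSimpleGroup L)
    (hcomm : ∀ x ∈ B, x ∈ N → ∀ y ∈ B, y ∈ N → x * y = y * x)
    (hroot : ∀ n ∈ N, (∀ x ∈ U, n * x * n⁻¹ ∈ U → x = 1) → ∀ s ∈ S,
      ∃ (K : Type v) (_ : Field K) (_ : Finite K) (_ : CharP K p) (x : K → L),
        FieldRoot K B N U n s x) : RigidBN p B N U S := by
  refine h.rigid_of_roots hsimple hp.out hcomm ?_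
  intro n hn hopp f hfp hfT s hs hfX y hyP hyU
  obtain ⟨K, _, _, _, x, hx⟩ := hroot n hn hopp s hs
  obtain ⟨c, rfl⟩ := hx.all y hyP hyU
  refine lin_fix (K := K) (p := p) x hx.inj hx.add hfp ?_ ?_ c
  · intro c
    have h1 := hfX _ (hx.mem c).1 (hx.mem c).2
    exact hx.all _ h1.1 h1.2
  · intro a ha
    obtain ⟨t, htB, htN, ht⟩ := hx.torus a ha
    exact ⟨t, hfT t htB htN, ht⟩

/-- two opposite elements of `N` differ by an element of `T` -/
lemma opp_unique [Finite L] (h : SB p B N U S) (hp : p.Prime) {n₀ : L} (hn₀ : n₀ ∈ N)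
    (hopp₀ : ∀ x ∈ U, n₀ * x * n₀⁻¹ ∈ U → x = 1) {n : L} (hn : n ∈ N)
    (hopp : ∀ x ∈ U, n * x * n⁻¹ ∈ U → x = 1) : n₀⁻¹ * n ∈ B :=
  h.toBN0.long_unique (h.long_of_opp hp hn₀ hopp₀) (h.long_of_opp hp hn hopp)

/-- the opposite root group does not depend on the opposite element -/
lemma FieldRoot.change {K : Type v} [Field K] {n₀ n s : L} {x : K → L}
    (hU : ∀ b ∈ B, ∀ u ∈ U, b * u * b⁻¹ ∈ U) (ht : n₀⁻¹ * n ∈ B)
    (hx : FieldRoot K B N U n₀ s x) : FieldRoot K B N U n s x where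
  inj := hx.inj
  add := hx.add
  mem := by
    intro a
    refine ⟨(hx.mem a).1, ?_⟩
    have e : n⁻¹ * x a * n = (n₀⁻¹ * n)⁻¹ * (n₀⁻¹ * x a * n₀) * (n₀⁻¹ * n)⁻¹⁻¹ := by group
    rw [e]
    exact hU _ (inv_mem ht) _ (hx.mem a).2
  all := by
    intro y hy hny
    refine hx.all y hy ?_
    have e : n₀⁻¹ * y * n₀ = (n₀⁻¹ * n) * (n⁻¹ * y * n) * (n₀⁻¹ * n)⁻¹ := by group
    rw [e]
    exact hU _ ht _ hny
  torus := hx.torus

/-- **Criterion for rigidity**, with the root groups for one opposite element of `N`. -/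
theorem rigid_of_field [Finite L] [hp : Fact p.Prime] (h : SB p B N U S)
    (hsimple : IsSimpleGroup L)
    (hcomm : ∀ x ∈ B, x ∈ N → ∀ y ∈ B, y ∈ N → x * y = y * x)
    {n₀ : L} (hn₀ : n₀ ∈ N) (hopp₀ : ∀ x ∈ U, n₀ * x * n₀⁻¹ ∈ U → x = 1)
    (hroot : ∀ s ∈ S,
      ∃ (K : Type v) (_ : Field K) (_ : Finite K) (_ : CharP K p) (x : K → L),
        FieldRoot K B N U n₀ s x) : RigidBN p B N U S := by
  refine rigid_of_fields h hsimple hcomm ?_
  intro n hn hopp s hs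
  obtain ⟨K, i1, i2, i3, x, hx⟩ := hroot s hs
  exact ⟨K, i1, i2, i3, x, hx.change h.normal (opp_unique h hp.out hn₀ hopp₀ hn hopp)⟩

end

section
variable {L : Type u} [Group L] {B N U : Subgroup L} {S : Set L} {p : ℕ}

/-- From the positive root group: `z : K → L` parametrizes the root group `X_s`, where
`U = X_s (U ∩ s⁻¹ U s)`. Then `s X_s s⁻¹` is the opposite root group `n U n⁻¹ ∩ P_s`. -/
lemma FieldRoot.of_pos [Finite L] (h : SB p B N U S) (hp : p.Prime) {K : Type v} [Field K]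
    {n s : L} (hn : n ∈ N) (hopp : ∀ x ∈ U, n * x * n⁻¹ ∈ U → x = 1) (hs : s ∈ S) {z : K → L}
    (hinj : Function.Injective z) (hadd : ∀ a b, z (a + b) = z a * z b)
    (hzU : ∀ a, z a ∈ U) (hzn : ∀ a, n⁻¹ * (s * z a * s⁻¹) * n ∈ U)
    (hsplit : ∀ u ∈ U, ∃ a, ∃ v ∈ U, u = z a * v ∧ s * v * s⁻¹ ∈ U)
    (htor : ∀ a : K, a ≠ 0 → ∃ t ∈ B, t ∈ N ∧ ∀ c, t * z c * t⁻¹ = z (a ^ 2 * c)) :
    FieldRoot K B N U n s (fun a => s * z a * s⁻¹) where
  inj := by
    intro a b hab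
    apply hinj
    simpa using hab
  add := by
    intro a b
    show s * z (a + b) * s⁻¹ = s * z a * s⁻¹ * (s * z b * s⁻¹)
    rw [hadd]
    group
  mem := fun a => ⟨mul_mem (mul_mem self_mem_Par (le_Par (h.le (hzU a)))) (inv_mem self_mem_Par),
    hzn a⟩
  all := by
    intro y hy hny
    have h1 := h.opp_conj hp hn hopp hs hy hny
    have h2 : s⁻¹ * y * s ∈ U := by
      have e : s⁻¹ * y * s = (s⁻¹ * n) * (n⁻¹ * y * n) * (s⁻¹ * n)⁻¹ := by group
      rw [e] at h1 ⊢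
      exact h.conj_U hp hny h1
    obtain ⟨a, v, hv, hav, hsv⟩ := hsplit _ h2
    refine ⟨a, ?_⟩
    show y = s * z a * s⁻¹
    have e1 : (s * z a * s⁻¹)⁻¹ * y = s * v * s⁻¹ := by
      have : y = s * (s⁻¹ * y * s) * s⁻¹ := by group
      rw [this, hav]
      group
    have h3 : n⁻¹ * (s * v * s⁻¹) * n ∈ U := by
      have : n⁻¹ * (s * v * s⁻¹) * n = (n⁻¹ * (s * z a * s⁻¹) * n)⁻¹ * (n⁻¹ * y * n) := by
        rw [← e1]
        group
      rw [this]
      exact mul_mem (inv_mem (hzn a)) hny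
    have h4 := SB.opp_inv hopp _ hsv (by rwa [inv_inv])
    rw [h4] at e1
    calc y = s * z a * s⁻¹ * ((s * z a * s⁻¹)⁻¹ * y) := by group
      _ = s * z a * s⁻¹ := by rw [e1, mul_one]
  torus := by
    intro a ha
    obtain ⟨t, htB, htN, ht⟩ := htor a ha
    have hsN := h.sub s hs
    refine ⟨s * t * s⁻¹, h.norm s hsN t htB htN, mul_mem (mul_mem hsN htN) (inv_mem hsN),
      fun c => ?_⟩
    show s * t * s⁻¹ * (s * z c * s⁻¹) * (s * t * s⁻¹)⁻¹ = s * z (a ^ 2 * c) * s⁻¹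
    rw [← ht c]
    group

/-- **Criterion for rigidity**, from the positive simple root groups: `L` is simple with a split
BN-pair of characteristic `p`, `T = B ∩ N` is abelian, `n₀` is an opposite element, and for all `s`
in `S` there is a finite field `K` of characteristic `p` and an injective additive `z : K → U` with
`s z(a) s⁻¹ ∈ n₀ U n₀⁻¹`, `U = z(K) (U ∩ s⁻¹ U s)`, and for all `a ≠ 0` some `t` in `T` with
`t z(c) t⁻¹ = z(a² c)`. No condition on the size of `K`. -/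
theorem rigid_of_pos [Finite L] [hp : Fact p.Prime] (h : SB p B N U S)
    (hsimple : IsSimpleGroup L)
    (hcomm : ∀ x ∈ B, x ∈ N → ∀ y ∈ B, y ∈ N → x * y = y * x)
    {n₀ : L} (hn₀ : n₀ ∈ N) (hopp₀ : ∀ x ∈ U, n₀ * x * n₀⁻¹ ∈ U → x = 1)
    (hroot : ∀ s ∈ S,
      ∃ (K : Type v) (_ : Field K) (_ : Finite K) (_ : CharP K p) (z : K → L),
        Function.Injective z ∧ (∀ a b, z (a + b) = z a * z b) ∧ (∀ a, z a ∈ U) ∧
        (∀ a, n₀⁻¹ * (s * z a * s⁻¹) * n₀ ∈ U) ∧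
        (∀ u ∈ U, ∃ a, ∃ v ∈ U, u = z a * v ∧ s * v * s⁻¹ ∈ U) ∧
        ∀ a : K, a ≠ 0 → ∃ t ∈ B, t ∈ N ∧ ∀ c, t * z c * t⁻¹ = z (a ^ 2 * c)) :
    RigidBN p B N U S := by
  refine rigid_of_field h hsimple hcomm hn₀ hopp₀ ?_
  intro s hs
  obtain ⟨K, i1, i2, i3, z, h1, h2, h3, h4, h5, h6⟩ := hroot s hs
  exact ⟨K, i1, i2, i3, _, FieldRoot.of_pos h hp.out hn₀ hopp₀ hs h1 h2 h3 h4 h5 h6⟩

end

end Vale.Agent.P240.R2.H775.RGen
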