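import Mathlib.Algebra.Group.Subgroup.Lattice
import Mathlib.Algebra.Field.Basic
import Mathlib.Algebra.Ring.Hom.Defs

/-!
Ree groups, given by relations.
-/

set_option autoImplicit false

namespace Vale.Agent.P240.R2.H775.Re

open Subgroup

/-- The relations of a Ree group of rank one. Here `θ` is an endomorphism of the field `F` with
`θ (θ x) = x ^ 3`; the elements `x a b c` (`a`, `b`, `c` in `F`), `h k` (`0 ≠ k` in `F`) and `w`
generate the group; `U = {x a b c}`, `T = {h k}`. -/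
structure ReeRel {F L : Type*} [Field F] [Group L] (θ : F →+* F) (x : F → F → F → L) (h : F → L)
    (w : L) : Prop where
  gen : closure ({g | ∃ a b c, g = x a b c} ∪ {g | ∃ k, k ≠ 0 ∧ g = h k} ∪ {w}) = ⊤
  mul : ∀ a b c a' b' c', x a b c * x a' b' c' = x (a + a') (b + b' - a * θ a')
    (c + c' - a' * b + a * a' * θ a' - a ^ 2 * θ a')
  inj : ∀ a b c, x a b c = 1 → a = 0 ∧ b = 0 ∧ c = 0
  tor : ∀ k, k ≠ 0 → ∀ a b c, h k * x a b c * (h k)⁻¹ = x (k * a) (k * θ k * b) (k ^ 2 * θ k * c)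
  hmul : ∀ k l, k ≠ 0 → l ≠ 0 → h k * h l = h (k * l)
  wh : ∀ k, k ≠ 0 → w * h k * w⁻¹ = h k⁻¹
  ww : ∃ k, k ≠ 0 ∧ w * w = h k
  /-- `w U w⁻¹ ⊆ 1 ∪ U T w U` -/
  rel : ∀ a b c, x a b c ≠ 1 → ∃ a' b' c' k a'' b'' c'', k ≠ 0 ∧
    w * x a b c * w⁻¹ = x a' b' c' * h k * w * x a'' b'' c''
  /-- `U ∩ w U w⁻¹ = 1` -/
  opp : ∀ a b c a' b' c', w * x a b c * w⁻¹ = x a' b' c' → x a b c = 1

/-- `L` is a Ree group over the field `F` (with more than three elements): for finite `F` these are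
the groups `²G₂(q)`, `q = |F| = 3 ^ (2 m + 1) > 3`. -/
def IsRee (F : Type*) [Field F] (L : Type*) [Group L] : Prop :=
  ∃ θ : F →+* F, (∀ x, θ (θ x) = x ^ 3) ∧ (∃ x, θ x ≠ x) ∧
    ∃ (x : F → F → F → L) (h : F → L) (w : L), ReeRel θ x h w

end Vale.Agent.P240.R2.H775.Re
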