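import Vale.Agent.P240.R2.H775.Re2

/-!
Ree groups, part 3: automorphisms of `U` that commute with `T`.
-/

set_option autoImplicit false
set_option linter.all false

namespace Vale.Agent.P240.R2.H775.Re

open Subgroup Vale.Agent.P240.K Vale.Agent.P240.H195 Vale.Agent.P240.R2.H775.Rk

universe u v

section
variable {F : Type v} [Field F] {L : Type u} [Group L] {θ : F →+* F} {x : F → F → F → L}
  {h : F → L} {w : L}

namespace ReeRel

variable (r : ReeRel θ x h w)
include r

/-- automorphisms of `U` that commute with `T` and are trivial modulo `U'` are trivial -/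
theorem rig (hθ : ∀ x, θ (θ x) = x ^ 3) (hne : ∃ x, θ x ≠ x) {e : MulAut L}
    (heU : ∀ u ∈ r.U, e u ∈ r.U) (heT : ∀ t ∈ r.T, e t = t)
    (hpi : ∀ u ∈ r.U, pi x (e u) = pi x u) : ∀ u ∈ r.U, e u = u := by
  have h3 := three hθ hne
  have hex : ∀ a b c, ∃ b' c', e (x a b c) = x a b' c' := by
    intro a b c
    obtain ⟨a', b', c', h1⟩ := heU _ ⟨a, b, c, rfl⟩
    have h2 := hpi _ ⟨a, b, c, rfl⟩
    rw [h1, r.pi_x, r.pi_x] at h2
    subst h2
    exact ⟨b', c', h1⟩
  have htor : ∀ k, k ≠ 0 → ∀ a b c, e (x (k * a) (k * θ k * b) (k ^ 2 * θ k * c)) =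
      h k * e (x a b c) * (h k)⁻¹ := by
    intro k hk a b c
    rw [← r.tor k hk, map_mul, map_mul, map_inv, heT _ ⟨k, hk, rfl⟩]
  -- the centre
  have hZ : ∀ c, e (x 0 0 c) = x 0 0 c := by
    intro c
    obtain ⟨a, ha⟩ := surj_sq hθ c
    obtain ⟨b', c', h1⟩ := hex a 0 0
    have h2 := r.cube' h3 a 0 0
    rw [ha] at h2
    rw [← h2, map_pow, h1, r.cube' h3, r.cube' h3]
  -- the derived group
  choose β γ hβγ using fun b => hex 0 b 0
  have hadd0 : ∀ b b', x 0 b 0 * x 0 b' 0 = x 0 (b + b') 0 := by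
    intro b b'
    rw [r.mul]
    congr 1 <;> simp
  have hs : ∀ b b', β (b + b') = β b + β b' ∧ γ (b + b') = γ b + γ b' := by
    intro b b'
    have h1 := hβγ (b + b')
    rw [← hadd0, map_mul, hβγ, hβγ, r.mul] at h1
    have h2 := r.x_inj h1
    constructor
    · linear_combination -h2.2.1
    · linear_combination -h2.2.2
  have hk0 : ∀ k, k ≠ 0 → ∀ b, β (k * θ k * b) = k * θ k * β b ∧
      γ (k * θ k * b) = k ^ 2 * θ k * γ b := by
    intro k hk b
    have h1 := htor k hk 0 b 0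
    rw [hβγ, r.tor k hk, mul_zero, mul_zero, hβγ] at h1
    exact (r.x_inj h1).2
  have h00 : β 0 = 0 ∧ γ 0 = 0 := by
    have h1 := hs 0 0
    rw [add_zero] at h1
    exact ⟨by linear_combination -h1.1, by linear_combination -h1.2⟩
  have hsq : ∀ y b, β (y ^ 2 * b) = y ^ 2 * β b ∧ γ (y ^ 2 * b) = y * θ y * γ b := by
    intro y b
    by_cases hy : y = 0
    · rw [hy]
      simp [h00.1, h00.2]
    · have hy' : θ y ≠ 0 := (map_ne_zero θ).2 hy
      have h1 := hk0 (θ y / y) (div_ne_zero hy' hy) b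
      have e1 : θ y / y * θ (θ y / y) = y ^ 2 := by
        rw [map_div₀, hθ]
        field_simp
      have e2 : (θ y / y) ^ 2 * θ (θ y / y) = y * θ y := by
        rw [map_div₀, hθ]
        field_simp
      rw [e1, e2] at h1
      exact h1
  have hβlin := lin_sq h3 (fun b b' => (hs b b').1) fun y b => (hsq y b).1
  have hγ : ∀ b, γ b = 0 := lin_th hθ hne (fun b b' => (hs b b').2) fun y b => (hsq y b).2
  have hx0 : ∀ b c, x 0 b c = x 0 b 0 * x 0 0 c := by
    intro b c
    rw [r.mul]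
    congr 1 <;> simp
  have hxa : ∀ a b c, x a b c = x a 0 0 * x 0 b c := by
    intro a b c
    rw [r.mul]
    congr 1 <;> simp
  have he0 : ∀ b c, e (x 0 b c) = x 0 (β b) c := by
    intro b c
    rw [hx0, map_mul, hβγ, hZ, hγ, ← hx0]
  obtain ⟨c, hc⟩ := hne
  have hβ1 : ∀ b, β b = b := by
    obtain ⟨B, C, hB⟩ := hex 1 0 0
    obtain ⟨B', C', hB'⟩ := hex c 0 0
    have e1 : x 1 0 0 * x c 0 0 = x c 0 0 * x 1 0 0 * x 0 (c - θ c) (c * θ c - θ c - c + c ^ 2) := by
      rw [r.mul, r.mul, r.mul]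
      congr 1 <;> simp <;> ring
    have e2 := congrArg e e1
    rw [map_mul, map_mul, map_mul, hB, hB', he0, r.mul, r.mul, r.mul] at e2
    have e3 := (r.x_inj e2).2.1
    rw [map_one, map_zero] at e3
    have e4 : β (c - θ c) = c - θ c := by linear_combination -e3
    have e5 : c - θ c ≠ 0 := fun h0 => hc (sub_eq_zero.1 h0).symm
    have e6 := hβlin (c - θ c) 1
    rw [mul_one, e4] at e6
    have e7 : β 1 = 1 := mul_left_cancel₀ e5 (by rw [← e6, mul_one])
    intro b
    have e8 := hβlin b 1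
    rwa [mul_one, e7, mul_one] at e8
  have he0' : ∀ b c, e (x 0 b c) = x 0 b c := fun b c => by rw [he0, hβ1]
  -- the quotient
  choose B C hBC using fun a => hex a 0 0
  have hmul : ∀ a a', B (a + a') = B a + B a' ∧ C (a + a') = C a + C a' - a' * B a := by
    intro a a'
    have e1 : x a 0 0 * x a' 0 0 = x (a + a') 0 0 * x 0 (- (a * θ a'))
        (a * a' * θ a' - a ^ 2 * θ a') := by
      rw [r.mul, r.mul]
      congr 1 <;> simp
    have e2 := congrArg e e1
    rw [map_mul, map_mul, hBC, hBC, hBC, he0', r.mul, r.mul] at e2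
    have e3 := r.x_inj e2
    rw [map_zero] at e3
    exact ⟨by linear_combination -e3.2.1, by linear_combination -e3.2.2⟩
  have htor' : ∀ k, k ≠ 0 → ∀ a, B (k * a) = k * θ k * B a ∧ C (k * a) = k ^ 2 * θ k * C a := by
    intro k hk a
    have h1 := htor k hk a 0 0
    rw [hBC, r.tor k hk, mul_zero, mul_zero, hBC] at h1
    exact (r.x_inj h1).2
  have hB : ∀ a, B a = 0 := by
    have h1 : B 1 = 0 := by
      have h2 := (hmul 1 1).1
      have h4 : (-1 : F) ≠ 0 := neg_ne_zero.2 one_ne_zero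
      have h5 := (htor' (-1) h4 1).1
      have e1 : (1 + 1 : F) = -1 * 1 := by linear_combination h3
      rw [e1, h5, map_neg, map_one] at h2
      linear_combination -h2
    intro a
    by_cases ha : a = 0
    · have h2 := (hmul 0 0).1
      rw [add_zero] at h2
      rw [ha]
      linear_combination -h2
    · have h2 := (htor' a ha 1).1
      rwa [mul_one, h1, mul_zero] at h2
  have hC1 : C 1 = 0 := by
    have hc0 : c ≠ 0 := by
      intro h0
      apply hc
      rw [h0, map_zero]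
    have hc1 : 1 + c ≠ 0 := by
      intro h0
      apply hc
      have h5 : c = -1 := by linear_combination h0
      rw [h5, map_neg, map_one]
    have h1 := (hmul 1 c).2
    have h2 := (htor' c hc0 1).2
    have h4 := (htor' (1 + c) hc1 1).2
    rw [mul_one] at h2 h4
    rw [h4, h2, hB, mul_zero, sub_zero, map_add, map_one] at h1
    have h5 : (c - 1) * ((c - θ c) * C 1) = 0 := by
      linear_combination h1 - ((c + c * θ c) * C 1) * h3
    rcases mul_eq_zero.1 h5 with h6 | h6
    · exfalso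
      apply hc
      have h7 : c = 1 := by linear_combination h6
      rw [h7, map_one]
    · rcases mul_eq_zero.1 h6 with h7 | h7
      · exact absurd (sub_eq_zero.1 h7).symm hc
      · exact h7
  have hC : ∀ a, C a = 0 := by
    intro a
    by_cases ha : a = 0
    · have h2 := (hmul 0 0).2
      rw [add_zero] at h2
      rw [ha]
      linear_combination -h2
    · have h2 := (htor' a ha 1).2
      rwa [mul_one, hC1, mul_zero] at h2
  rintro _ ⟨a, b, c', rfl⟩
  rw [hxa, map_mul, he0', hBC, hB, hC]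

theorem lin (hθ : ∀ x, θ (θ x) = x ^ 3) (hne : ∃ x, θ x ≠ x) : Lin F (pi x) r.U r.T where
  tu := by
    rintro _ ⟨k, hk, rfl⟩ _ ⟨a, b, c, rfl⟩
    exact ⟨_, _, _, r.tor k hk a b c⟩
  add := by
    rintro _ ⟨a, b, c, rfl⟩ _ ⟨a', b', c', rfl⟩
    rw [r.mul, r.pi_x, r.pi_x, r.pi_x]
  surj := fun a => ⟨x a 0 0, ⟨a, 0, 0, rfl⟩, r.pi_x a 0 0⟩
  act := by
    rintro _ ⟨k, hk, rfl⟩
    refine ⟨k, hk, ?_⟩
    rintro _ ⟨a, b, c, rfl⟩
    rw [r.tor k hk, r.pi_x, r.pi_x]
  full := by
    intro k hk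
    refine ⟨h k, ⟨k, hk, rfl⟩, ?_⟩
    rintro _ ⟨a, b, c, rfl⟩
    rw [r.tor k hk, r.pi_x, r.pi_x]
  faith := by
    rintro _ ⟨k, hk, rfl⟩ h1
    have h2 := h1 _ ⟨1, 0, 0, rfl⟩
    rw [r.tor k hk, r.pi_x, r.pi_x, mul_one] at h2
    rw [h2, r.h_one]
  char := by
    rintro e he _ ⟨a, b, c, rfl⟩ h1
    have h3 := three hθ hne
    rw [r.pi_x] at h1
    subst h1
    obtain ⟨a', b', c', h2⟩ := he _ ⟨0, b, c, rfl⟩
    have h4 := congrArg e (r.cube' h3 0 b c)
    rw [map_pow, h2, r.cube' h3, map_zero, mul_zero, neg_zero, r.x_zero, map_one] at h4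
    obtain ⟨-, -, h5⟩ := r.inj _ _ _ h4
    rw [h2, r.pi_x]
    rcases mul_eq_zero.1 (neg_eq_zero.1 h5) with h6 | h6
    · exact pow_eq_zero_iff two_ne_zero |>.1 h6
    · exact (map_eq_zero θ).1 h6
  rig := fun e h1 h2 h4 => r.rig hθ hne h1 h2 h4

end ReeRel

/-- simple Ree groups have trivial centre -/
lemma ReeRel.centre (r : ReeRel θ x h w) (hne : ∃ x, θ x ≠ x) (hs : IsSimpleGroup L) :
    ∀ z : L, (∀ y, z * y = y * z) → z = 1 := by
  obtain ⟨c, hc⟩ := hne
  rcases hs.eq_bot_or_eq_top_of_normal (center L) inferInstance with h1 | h1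
  · intro z hz
    have h2 : z ∈ center L := mem_center_iff.2 fun y => (hz y).symm
    rw [h1] at h2
    exact mem_bot.1 h2
  · exfalso
    have h2 : x 1 0 0 ∈ center L := by
      rw [h1]
      exact mem_top _
    have h4 := mem_center_iff.1 h2 (x c 0 0)
    rw [r.mul, r.mul] at h4
    have h5 := (r.x_inj h4).2.1
    rw [map_one] at h5
    exact hc (by linear_combination h5)

end

lemma char_three {F : Type*} [Field F] (h : (3 : F) = 0) : CharP F 3 := by
  obtain ⟨p, hp⟩ := CharP.exists F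
  have h1 : p ∣ 3 := (CharP.cast_eq_zero_iff F p 3).1 (by exact_mod_cast h)
  rcases (Nat.dvd_prime Nat.prime_three).1 h1 with h2 | h2
  · subst h2
    have h3 := CharP.cast_eq_zero F 1
    rw [Nat.cast_one] at h3
    exact absurd h3 one_ne_zero
  · rwa [h2] at hp

section
variable {F : Type v} [Field F] [Finite F] {L : Type u} [Group L] [Finite L]

/-- **Ree groups are rigid groups of Lie type in characteristic three.** -/
theorem IsRee.rigid (h : IsRee F L) (hs : IsSimpleGroup L) : RigidLie 3 L := by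
  obtain ⟨θ, hθ, hne, x, t, w, r⟩ := h
  have : CharP F 3 := char_three (three hθ hne)
  exact ⟨hs, r.centre hne hs, _, _, _, _, (r.ro hθ hne).rigidBN Nat.prime_three hs (r.lin hθ hne)⟩

theorem IsRee.lie (h : IsRee F L) (hs : IsSimpleGroup L) : LieType 3 L := by
  obtain ⟨θ, hθ, hne, x, t, w, r⟩ := h
  exact ⟨hs, r.centre hne hs, _, _, _, _, (r.ro hθ hne).splitBN⟩

theorem IsRee.fewAut (h : IsRee F L) (hs : IsSimpleGroup L) {q : ℕ} (hq : q.Prime) :
    FewAut q L := by
  obtain ⟨θ, hθ, hne, x, t, w, r⟩ := h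
  exact (r.ro hθ hne).fewAut Nat.prime_three hs (r.lin hθ hne) hq

/-- **Ree groups are good for all primes.** -/
theorem IsRee.good {𝕜 : Type*} [Field 𝕜] {l q : ℕ} (h : IsRee F L) (hs : IsSimpleGroup L)
    (hq : q.Prime) : GoodFactor 𝕜 q l L := by
  by_cases hqp : q = 3
  · subst hqp
    exact Or.inr (Or.inl (h.rigid hs))
  · exact Or.inr (Or.inr (Or.inr (Or.inl ⟨3, Nat.prime_three,
      (h.lie hs).autFree Nat.prime_three hq hqp, Or.inr (Or.inr (Or.inl (h.fewAut hs hq)))⟩)))

end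

end Vale.Agent.P240.R2.H775.Re
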