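import Vale.Agent.P240.H195.Few
import Vale.Agent.P240.R2.H775.Rk3
import Vale.Agent.P240.R2.H775.Sz5

/-!
The outer automorphism groups of the Suzuki groups are cyclic.
-/

set_option autoImplicit false
set_option linter.all false

namespace Vale.Agent.P240.R2.H775.Sz

open Subgroup Matrix Vale.Agent.P240.K Vale.Agent.P240.H195 Vale.Agent.P240.R2.H775.Rk

universe u v w

section
variable {F : Type v} [Field F] {θ : F →+* F}

/-- automorphisms of a Suzuki `2`-group that commute with the torus and are trivial modulo the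
centre are trivial -/
theorem sz_core (hθ : ∀ x, θ (θ x) = x ^ 2) (hne : ∃ x, θ x ≠ x) {L : Type u} [Group L]
    (x : F → F → L) (hinj : ∀ a b c d, x a b = x c d → a = c ∧ b = d)
    (hmul : ∀ a b c d, x a b * x c d = x (a + c) (b + d + θ a * c)) {f : MulAut L}
    (hfx : ∀ a b, ∃ d, f (x a b) = x a d)
    (hT : ∀ k : F, k ≠ 0 → ∃ t, f t = t ∧ ∀ a b, t * x a b * t⁻¹ = x (k * a) (k * θ k * b)) :
    ∀ a b, f (x a b) = x a b := by
  have h2 : (2 : F) = 0 := two_zero hθ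
  choose B hAB using hfx
  have htor : ∀ k, k ≠ 0 → ∀ a b, B (k * a) (k * θ k * b) = k * θ k * B a b := by
    intro k hk a b
    obtain ⟨t, ht, htx⟩ := hT k hk
    have h1 := hAB (k * a) (k * θ k * b)
    rw [← htx, map_mul, map_mul, map_inv, ht, hAB, htx] at h1
    exact (hinj _ _ _ _ h1).2.symm
  have hadd : ∀ a b c d, B (a + c) (b + d + θ a * c) = B a b + B c d + θ a * c := by
    intro a b c d
    have h1 := hAB (a + c) (b + d + θ a * c)
    rw [← hmul, map_mul, hAB, hAB, hmul] at h1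
    exact (hinj _ _ _ _ h1).2.symm
  have h11 : ∀ y : F, y + y = 0 := fun y => by linear_combination y * h2
  have hsurj : ∀ b : F, ∃ a, θ a * a = b := by
    intro b
    by_cases hb : b = 0
    · exact ⟨0, by rw [hb, mul_zero]⟩
    · have hb' : θ b ≠ 0 := (map_ne_zero θ).2 hb
      refine ⟨θ b / b, ?_⟩
      rw [map_div₀, hθ]
      field_simp
  have hBZ : ∀ b, B 0 b = b := by
    intro b
    obtain ⟨a, ha⟩ := hsurj b
    have h1 := hadd a 0 a 0
    rw [h11, h11, h11, zero_add, ha] at h1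
    exact h1
  have hB0 : ∀ a b, B a b = B a 0 + b := by
    intro a b
    have h1 := hadd a 0 0 b
    rw [add_zero, zero_add, mul_zero, add_zero, hBZ, add_zero] at h1
    exact h1
  obtain ⟨c, hc⟩ := hne
  have hc0 : c ≠ 0 := by
    intro h0
    apply hc
    rw [h0, map_zero]
  have hc1 : 1 + c ≠ 0 := by
    intro h0
    apply hc
    have h5 : c = 1 := by linear_combination h0 - h2
    rw [h5, map_one]
  have hB1 : B 1 0 = 0 := by
    have h1 := hadd 1 0 c 0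
    rw [hB0] at h1
    have h3 := htor c hc0 1 0
    have h4 := htor (1 + c) hc1 1 0
    rw [mul_one, mul_zero] at h3 h4
    rw [h3, h4, map_add, map_one] at h1
    have h5 : (θ c - c) * B 1 0 = 0 := by linear_combination h1 - (c * B 1 0) * h2
    rcases mul_eq_zero.1 h5 with h6 | h6
    · exact absurd (sub_eq_zero.1 h6) hc
    · exact h6
  intro a b
  rw [hAB, hB0]
  by_cases ha : a = 0
  · rw [ha, hBZ, zero_add]
  · have h3 := htor a ha 1 0
    rw [mul_one, mul_zero, hB1, mul_zero] at h3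
    rw [h3, zero_add]

end

section
variable {F : Type v} [Field F] {θ : F →+* F}

lemma U_le_G (hθ : ∀ x, θ (θ x) = x ^ 2) : U hθ ≤ SzG θ := by
  rintro _ ⟨a, b, rfl⟩
  exact subset_closure (Or.inl ⟨a, b, rfl⟩)

lemma T_le_G : T θ ≤ SzG θ := by
  rintro _ ⟨μ, hμ, rfl⟩
  exact subset_closure (Or.inr (Or.inl ⟨μ, hμ, rfl⟩))

lemma w_mem_G : sw F ∈ SzG θ := subset_closure (Or.inr (Or.inr rfl))

/-- the rank one structure -/
theorem sz_ro [Finite F] (hθ : ∀ x, θ (θ x) = x ^ 2) :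
    RO 2 ((U hθ).subgroupOf (SzG θ)) ((T θ).subgroupOf (SzG θ)) ⟨sw F, w_mem_G⟩ where
  gen := by
    rw [eq_top_iff]
    rintro ⟨g, hg⟩ -
    have key : SzG θ ≤ ((((U hθ).subgroupOf (SzG θ)) ⊔ ((T θ).subgroupOf (SzG θ)) ⊔
        zpowers (⟨sw F, w_mem_G⟩ : ↥(SzG θ))).map (SzG θ).subtype) := by
      conv_lhs => unfold SzG
      rw [closure_le]
      rintro x (⟨a, b, hx⟩ | ⟨μ, hμ, hx⟩ | hx)
      · have e : x = su hθ a b := gl_ext hx
        exact ⟨⟨x, by rw [e]; exact U_le_G hθ ⟨a, b, rfl⟩⟩,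
          (le_sup_left.trans le_sup_left : (U hθ).subgroupOf (SzG θ) ≤ _) ⟨a, b, e⟩, rfl⟩
      · have e : x = sh θ hμ := gl_ext hx
        exact ⟨⟨x, by rw [e]; exact T_le_G ⟨μ, hμ, rfl⟩⟩,
          (le_sup_right.trans le_sup_left : (T θ).subgroupOf (SzG θ) ≤ _) ⟨μ, hμ, e⟩, rfl⟩
      · have e : x = sw F := gl_ext hx
        exact ⟨⟨sw F, w_mem_G⟩, (le_sup_right : zpowers _ ≤ _) (mem_zpowers _), e.symm⟩
    obtain ⟨y, hy, hyg⟩ := key hg
    have e : y = ⟨g, hg⟩ := Subtype.ext hyg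
    rwa [e] at hy
  tu := by
    rintro ⟨t, htG⟩ ht ⟨u, huG⟩ hu
    exact T_norm hθ ht hu
  wt := by
    rintro ⟨t, htG⟩ ⟨μ, hμ, ht⟩
    change t = sh θ hμ at ht
    subst ht
    change sw F * sh θ hμ * (sw F)⁻¹ ∈ T θ
    rw [sw_sh, mul_inv_cancel_right]
    exact ⟨_, _, rfl⟩
  ww := by
    change sw F * sw F ∈ T θ
    rw [sw_mul]
    exact one_mem _
  rel := by
    rintro ⟨x, hxG⟩ hx hx1
    obtain ⟨a, b, hab⟩ := (show x ∈ U hθ from hx)
    subst hab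
    have hf : ov θ a b ≠ 0 := ov_ne hθ (by
      rintro ⟨rfl, rfl⟩
      exact hx1 (Subtype.ext (su_zero hθ)))
    have he : θ (ov θ a b) ≠ 0 := (map_ne_zero θ).2 hf
    have h3 : sw F * su hθ a b * sw F * su hθ ((a * θ a + b) / ov θ a b) (a / ov θ a b) =
        su hθ (b / ov θ a b) (a / ov θ a b) * sh θ (div_ne_zero he hf) * sw F :=
      gl_ext (SW_rel hθ hf)
    obtain ⟨v, hv⟩ : ∃ v, v = su hθ ((a * θ a + b) / ov θ a b) (a / ov θ a b) := ⟨_, rfl⟩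
    have hvU : v ∈ U hθ := ⟨_, _, hv⟩
    refine ⟨⟨su hθ (b / ov θ a b) (a / ov θ a b), U_le_G hθ ⟨_, _, rfl⟩⟩, ⟨_, _, rfl⟩,
      ⟨sh θ (div_ne_zero he hf), T_le_G ⟨_, div_ne_zero he hf, rfl⟩⟩,
      ⟨_, div_ne_zero he hf, rfl⟩,
      ⟨v⁻¹, inv_mem (U_le_G hθ hvU)⟩, inv_mem hvU, Subtype.ext ?_⟩
    change sw F * su hθ a b * (sw F)⁻¹ = su hθ (b / ov θ a b) (a / ov θ a b) *
      sh θ (div_ne_zero he hf) * sw F * v⁻¹
    rw [← hv] at h3
    rw [← h3, sw_inv]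
    group
  opp := by
    rintro ⟨x, hxG⟩ hx hx'
    exact Subtype.ext (sw_opp hθ hx hx')
  ne := ⟨⟨su hθ 1 0, U_le_G hθ ⟨_, _, rfl⟩⟩, ⟨_, _, rfl⟩, fun e => by
    have h1 : su hθ 1 0 = 1 := congrArg Subtype.val e
    rw [← su_zero hθ] at h1
    exact one_ne_zero (su_inj hθ h1).1⟩
  pU := by
    rintro ⟨⟨x, hxG⟩, hx⟩
    exact ⟨2, Subtype.ext (Subtype.ext (U_four hθ hx))⟩
  pT := by
    have e : Nat.card ((T θ).subgroupOf (SzG θ)) = Nat.card (T θ) :=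
      Nat.card_congr (Subgroup.subgroupOfEquivOfLe T_le_G).toEquiv
    rw [e]
    exact T_odd hθ

lemma pi_su (hθ : ∀ x, θ (θ x) = x ^ 2) (a b : F) : (su hθ a b).1 1 0 = a := by
  change SU θ a b 1 0 = a
  unfold SU
  simp

lemma su_sq (hθ : ∀ x, θ (θ x) = x ^ 2) (a b : F) : su hθ a b * su hθ a b = su hθ 0 (θ a * a) := by
  have h2 := two_zero hθ
  rw [su_mul]
  have e1 : a + a = 0 := by linear_combination a * h2
  have e2 : b + b + θ a * a = θ a * a := by linear_combination b * h2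
  rw [e1, e2]

theorem sz_lin [Finite F] (hθ : ∀ x, θ (θ x) = x ^ 2) (hne : ∃ x, θ x ≠ x) :
    Lin F (fun g : ↥(SzG θ) => g.1.1 1 0) ((U hθ).subgroupOf (SzG θ))
      ((T θ).subgroupOf (SzG θ)) where
  tu := (sz_ro hθ).tu
  add := by
    rintro ⟨u, huG⟩ ⟨a, b, hu⟩ ⟨v, hvG⟩ ⟨c, d, hv⟩
    change u = _ at hu
    change v = _ at hv
    subst hu
    subst hv
    change (su hθ a b * su hθ c d).1 1 0 = (su hθ a b).1 1 0 + (su hθ c d).1 1 0
    rw [su_mul, pi_su, pi_su, pi_su]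
  surj := fun a => ⟨⟨su hθ a 0, U_le_G hθ ⟨_, _, rfl⟩⟩, ⟨_, _, rfl⟩, pi_su hθ a 0⟩
  act := by
    rintro ⟨t, htG⟩ ⟨μ, hμ, ht⟩
    change t = _ at ht
    subst ht
    have hμ' : θ μ ≠ 0 := (map_ne_zero θ).2 hμ
    refine ⟨(θ μ)⁻¹, inv_ne_zero hμ', ?_⟩
    rintro ⟨u, huG⟩ ⟨a, b, hu⟩
    change u = _ at hu
    subst hu
    change (sh θ hμ * su hθ a b * (sh θ hμ)⁻¹).1 1 0 = (θ μ)⁻¹ * (su hθ a b).1 1 0
    rw [sh_su, mul_inv_cancel_right, pi_su, pi_su, div_eq_inv_mul]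
  full := by
    intro k hk
    obtain ⟨μ, hμ⟩ := Finite.injective_iff_surjective.1 θ.injective k⁻¹
    have hμ0 : μ ≠ 0 := by
      intro h0
      rw [h0, map_zero] at hμ
      exact inv_ne_zero hk hμ.symm
    refine ⟨⟨sh θ hμ0, T_le_G ⟨μ, hμ0, rfl⟩⟩, ⟨μ, hμ0, rfl⟩, ?_⟩
    rintro ⟨u, huG⟩ ⟨a, b, hu⟩
    change u = _ at hu
    subst hu
    change (sh θ hμ0 * su hθ a b * (sh θ hμ0)⁻¹).1 1 0 = k * (su hθ a b).1 1 0
    rw [sh_su, mul_inv_cancel_right, pi_su, pi_su, hμ, div_inv_eq_mul, mul_comm]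
  faith := by
    rintro ⟨t, htG⟩ ⟨μ, hμ, ht⟩ h1
    change t = _ at ht
    subst ht
    have h2 := h1 ⟨su hθ 1 0, U_le_G hθ ⟨_, _, rfl⟩⟩ ⟨_, _, rfl⟩
    change (sh θ hμ * su hθ 1 0 * (sh θ hμ)⁻¹).1 1 0 = (su hθ 1 0).1 1 0 at h2
    rw [sh_su, mul_inv_cancel_right, pi_su, pi_su, one_div] at h2
    have h3 : θ μ = 1 := inv_eq_one.1 h2
    have h4 : μ = 1 := θ.injective (by rw [h3, map_one])
    subst h4
    exact Subtype.ext (gl_ext (SH_one θ))
  char := by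
    rintro e he ⟨u, huG⟩ ⟨a, b, hu⟩ h1
    change u = _ at hu
    subst hu
    change (su hθ a b).1 1 0 = 0 at h1
    rw [pi_su] at h1
    subst h1
    have hsq : (⟨su hθ 0 b, huG⟩ : ↥(SzG θ)) * ⟨su hθ 0 b, huG⟩ = 1 := by
      refine Subtype.ext ?_
      change su hθ 0 b * su hθ 0 b = 1
      rw [su_sq, mul_zero, su_zero]
    obtain ⟨c, d, hcd⟩ := he ⟨su hθ 0 b, huG⟩ ⟨_, _, rfl⟩
    change (e ⟨su hθ 0 b, huG⟩).1 = su hθ c d at hcd
    have h2 : su hθ c d * su hθ c d = 1 := by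
      rw [← hcd, ← Subgroup.coe_mul, ← map_mul, hsq, map_one]
      rfl
    rw [su_sq, ← su_zero hθ] at h2
    have h3 := (su_inj hθ h2).2
    change (e ⟨su hθ 0 b, huG⟩).1.1 1 0 = 0
    rw [hcd, pi_su]
    rcases mul_eq_zero.1 h3 with h4 | h4
    · exact (map_eq_zero θ).1 h4
    · exact h4
  rig := by
    intro e heU heT hpi
    have key := sz_core hθ hne (L := ↥(SzG θ)) (f := e)
      (fun a b => ⟨su hθ a b, U_le_G hθ ⟨_, _, rfl⟩⟩) ?_ ?_ ?_ ?_
    · rintro ⟨u, huG⟩ ⟨a, b, hu⟩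
      change u = _ at hu
      subst hu
      exact key a b
    · intro a b c d h1
      exact su_inj hθ (congrArg Subtype.val h1)
    · intro a b c d
      exact Subtype.ext (su_mul hθ a b c d)
    · intro a b
      obtain ⟨c, d, hcd⟩ := heU ⟨su hθ a b, U_le_G hθ ⟨_, _, rfl⟩⟩ ⟨_, _, rfl⟩
      change (e ⟨su hθ a b, _⟩).1 = su hθ c d at hcd
      have h1 := hpi ⟨su hθ a b, U_le_G hθ ⟨_, _, rfl⟩⟩ ⟨_, _, rfl⟩
      change (e ⟨su hθ a b, _⟩).1.1 1 0 = (su hθ a b).1 1 0 at h1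
      rw [hcd, pi_su, pi_su] at h1
      subst h1
      exact ⟨d, Subtype.ext hcd⟩
    · intro k hk
      obtain ⟨μ, hμ⟩ := Finite.injective_iff_surjective.1 θ.injective k⁻¹
      have hμ0 : μ ≠ 0 := by
        intro h0
        rw [h0, map_zero] at hμ
        exact inv_ne_zero hk hμ.symm
      refine ⟨⟨sh θ hμ0, T_le_G ⟨μ, hμ0, rfl⟩⟩, heT _ ⟨μ, hμ0, rfl⟩, fun a b => Subtype.ext ?_⟩
      change sh θ hμ0 * su hθ a b * (sh θ hμ0)⁻¹ = su hθ (k * a) (k * θ k * b)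
      rw [sh_su, mul_inv_cancel_right]
      have e1 : μ ^ 2 = (θ k)⁻¹ := by rw [← hθ, hμ, map_inv₀]
      have hk' : θ k ≠ 0 := (map_ne_zero θ).2 hk
      congr 1
      · rw [hμ]
        field_simp
      · rw [e1, hμ]
        field_simp

/-- the outer automorphism group is cyclic -/
theorem IsSz.fewAut [Finite F] {L : Type u} [Group L] (h : IsSz F L) (hs : IsSimpleGroup L)
    {q : ℕ} (hq : q.Prime) : FewAut q L := by
  obtain ⟨θ, hθ, hne, ⟨e⟩⟩ := h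
  have hs' : IsSimpleGroup ↥(SzG θ) := e.symm.isSimpleGroup
  exact ((sz_ro hθ).fewAut Nat.prime_two hs' (sz_lin hθ hne) hq).congr e.symm

/-- **The Suzuki groups are good for all primes.** -/
theorem IsSz.good {𝕜 : Type w} [Field 𝕜] [Finite F] {l q : ℕ} {L : Type u} [Group L] [Finite L]
    (h : IsSz F L) (hs : IsSimpleGroup L) (hq : q.Prime) : GoodFactor 𝕜 q l L := by
  by_cases hqp : q = 2
  · subst hqp
    exact h.good_two hs
  · exact Or.inr (Or.inr (Or.inr (Or.inl ⟨2, Nat.prime_two,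
      (h.lie hs).autFree Nat.prime_two hq hqp, Or.inr (Or.inr (Or.inl (h.fewAut hs hq)))⟩)))

/-- elimination -/
theorem IsSz.elim {p : ℕ} [hp : Fact p.Prime] [Finite F] {L : Type u} [Group L] [Finite L]
    (h : IsSz F L) (hs : IsSimpleGroup L) :
    RigidLie p L ∨ (FewAut p L ∧ ∃ r : ℕ, r.Prime ∧ AutFree p r L) := by
  by_cases hp2 : p = 2
  · subst hp2
    exact Or.inl (h.rigid hs)
  · exact Or.inr ⟨h.fewAut hs hp.out, 2, Nat.prime_two,
      (h.lie hs).autFree Nat.prime_two hp.out hp2⟩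

end

end Vale.Agent.P240.R2.H775.Sz
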