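import Vale.Agent.P240.R2.H195.Not3
import Vale.Agent.P240.R2.H775.RG8

/-!
Rigidity of the BN-pairs of `PSp_n(F)` and `PSU_n(F)` without exceptions.
-/

set_option autoImplicit false

namespace Vale.Agent.P240.R2.H775.RG

open Subgroup Matrix Vale.Agent.P240.H195 Vale.Agent.P240.R2.H487.CG Vale.Agent.P240.K

variable {F : Type*} [Field F] [Finite F] {m : ℕ} {σ : F ≃+* F}

/-- **`RigidLie p`** for all simple groups `PSp_n(F)` (`σ = 1`, `n = m + 1` even) and `PSU_n(F)`
(`σ ≠ 1`) in the characteristic `p` of `F` -/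
theorem pg_rigidLie_all {p : ℕ} [hp : Fact p.Prime] [CharP F p] (hm : 0 < m)
    (hσ : ∀ x, σ (σ x) = x) (hodd : m % 2 = 1 ∨ ∃ x, σ x ≠ x)
    (hs : IsSimpleGroup (PGJ (m + 1) σ))
    (hZ : ∀ x : PGJ (m + 1) σ, (∀ y, x * y = y * x) → x = 1) : RigidLie p (PGJ (m + 1) σ) := by
  refine pg_rigidLie hm hσ hodd ?_ hs hZ
  by_cases h1 : m % 2 = 1
  · exact Or.inl h1
  · right
    by_cases h2 : 2 < m
    · exact Or.inr h2
    · left
      by_contra hcon
      push Not at hcon
      have h3 : m = 2 := by omega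
      subst h3
      refine not_simple_three hσ (hodd.resolve_left h1) (fun k hk => ?_) hs
      by_cases h0 : k = 0
      · exact Or.inl h0
      · exact Or.inr (hcon k hk h0)

end Vale.Agent.P240.R2.H775.RG
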