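import Vale.Agent.P240.R2.H775.GS4

/-! The Golod–Shafarevich inequality for systems with at least `b` pairs in every plane. -/

namespace Vale.Agent.P240.R2.H775.B

open Vale.Agent.P240.R2.H775

variable {L : Type*} [DecidableEq L] [Fintype L]

/-- a good system of frames of dimension `k` -/
structure Good (b k : ℕ) (F : Finset (List L)) : Prop where
  len : ∀ w ∈ F, w.length = k
  nodup : ∀ w ∈ F, w.Nodup
  perm : ∀ w w' : List L, w.Perm w' → w ∈ F → w' ∈ F
  rect : ∀ u u' g g' : List L, g.length = g'.length →
    u ++ g ∈ F → u ++ g' ∈ F → u' ++ g ∈ F → u' ++ g' ∈ F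
  pairs : ∀ (u : List L) (x y : L), u ++ [x, y] ∈ F →
    b ≤ (Finset.univ.filter (fun p : L × L => u ++ [p.1, p.2] ∈ F)).card

theorem Good.quot {b k : ℕ} {F : Finset (List L)} (h : Good b k F) (g : List L)
    (hg : g.length ≤ k) : Good b (k - g.length) (quot F g) where
  len := by
    intro w hw
    have := h.len _ (mem_quot.mp hw)
    rw [List.length_append] at this
    omega
  nodup := by
    intro w hw
    exact (List.nodup_append.mp (h.nodup _ (mem_quot.mp hw))).1
  perm := by
    intro w w' hww hw
    exact mem_quot.mpr (h.perm _ _ (hww.append_right g) (mem_quot.mp hw))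
  rect := by
    intro u u' x x' hx h1 h2 h3
    rw [mem_quot, List.append_assoc] at *
    exact h.rect u u' (x ++ g) (x' ++ g) (by simp [hx]) h1 h2 h3
  pairs := by
    intro u x y hab
    rw [mem_quot] at hab
    have h1 : ((g ++ u) ++ [x, y]) ∈ F := by
      refine h.perm _ _ ?_ hab
      rw [List.append_assoc g]
      exact List.perm_append_comm
    refine (h.pairs _ _ _ h1).trans (Finset.card_le_card ?_)
    intro p hp
    simp only [Finset.mem_filter, Finset.mem_univ, true_and, mem_quot] at hp ⊢
    refine h.perm _ _ ?_ hp
    rw [List.append_assoc g]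
    exact List.perm_append_comm

theorem quot_perm {b k : ℕ} {F : Finset (List L)} (hF : Good b k F) {g g' : List L}
    (h : g.Perm g') : quot F g = quot F g' := by
  ext w
  rw [mem_quot, mem_quot]
  exact ⟨fun hw => hF.perm _ _ (h.append_left w) hw,
    fun hw => hF.perm _ _ (h.symm.append_left w) hw⟩

theorem quot_rect {b k : ℕ} {F : Finset (List L)} (hF : Good b k F) {u g g' : List L}
    (hl : g.length = g'.length) (h1 : u ++ g ∈ F) (h2 : u ++ g' ∈ F) :
    quot F g = quot F g' := by
  ext w
  rw [mem_quot, mem_quot]
  exact ⟨fun hw => hF.rect u w g g' hl h1 h2 hw,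
    fun hw => hF.rect u w g' g hl.symm h2 h1 hw⟩

theorem Ka_le {b k n : ℕ} {F : Finset (List L)} (hF : Good b k F) :
    Module.finrank ℚ (Ka n F) ≤ Module.finrank ℚ (Kb n F) +
      ∑ X ∈ X2 F, Module.finrank ℚ (S n X) := by
  have hmem : ∀ (z : Ka n F) (X : ↥(X2 F)),
      (fun x => ∑ p ∈ Finset.univ.filter (fun p : L × L => quot F [p.1, p.2] = X.1),
        z.1 (x ++ [p.1, p.2])) ∈ S n X.1 := by
    intro z X
    have : (fun x => ∑ p ∈ Finset.univ.filter (fun p : L × L => quot F [p.1, p.2] = X.1),
        z.1 (x ++ [p.1, p.2])) =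
        ∑ p ∈ Finset.univ.filter (fun p : L × L => quot F [p.1, p.2] = X.1),
          (fun x => z.1 (x ++ [p.1, p.2])) := by
      funext x; simp
    rw [this]
    refine Submodule.sum_mem _ fun p hp => ?_
    have h1 := sliceK z.2 [p.1, p.2] (by simp)
    rwa [(Finset.mem_filter.mp hp).2] at h1
  let φ : Ka n F →ₗ[ℚ] ((X : ↥(X2 F)) → S n X.1) :=
    { toFun := fun z X => ⟨_, hmem z X⟩
      map_add' := by
        intro z z'
        funext X; apply Subtype.ext; funext x
        simp [Finset.sum_add_distrib]
      map_smul' := by
        intro c z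
        funext X; apply Subtype.ext; funext x
        simp [Finset.mul_sum] }
  have h1 := rk (Ka n F) (Kb n F) φ ?_
  · rw [Module.finrank_pi_fintype] at h1
    rwa [← Finset.sum_coe_sort]
  · intro z hz
    refine ⟨z.2, fun u => ?_⟩
    rw [← Fintype.sum_prod_type' (fun a b => z.1 (u ++ [a, b]))]
    by_cases hu : ∃ p : L × L, u ++ [p.1, p.2] ∈ F
    · obtain ⟨p0, hp0⟩ := hu
      let X : ↥(X2 F) := ⟨quot F [p0.1, p0.2], Finset.mem_image.mpr ⟨p0, Finset.mem_univ _, rfl⟩⟩
      have h2 := congrFun (congrArg Subtype.val (congrFun hz X)) u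
      simp only [φ, LinearMap.coe_mk, AddHom.coe_mk] at h2
      rw [Finset.sum_filter] at h2
      refine Eq.trans ?_ h2
      refine Finset.sum_congr rfl fun p _ => ?_
      split_ifs with h3
      · rfl
      · refine z.2.1 _ fun h4 => h3 ?_
        exact quot_rect hF (by simp) h4 hp0
    · push Not at hu
      refine Finset.sum_eq_zero fun p _ => z.2.1 _ (hu p)

theorem Br_slice {b k n : ℕ} {F : Finset (List L)} (hF : Good b k F) {z : List L → ℚ}
    (hz : z ∈ Ka n F) (g : List L) (hg : g ≠ []) : ∀ q : List L,
    (fun u => Br u g q z) ∈ S n (quot F (g ++ q)) := by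
  induction g with
  | nil => exact absurd rfl hg
  | cons l M ih =>
    intro q
    by_cases hM : M = []
    · subst hM
      have h1 := sliceK hz (l :: q) (by simp)
      simpa only [Br_one, List.singleton_append, List.cons_append, List.nil_append] using h1
    · have h1 : (fun u => Br u (l :: M) q z) = (fun u => Br (u ++ [l]) M q z) +
          ((-1 : ℚ) ^ (M.length + 1)) • (fun u => Br u M (l :: q) z) := by
        funext u
        simp [Br_cons _ _ _ _ hM]
      rw [h1]
      refine add_mem ?_ (Submodule.smul_mem _ _ ?_)
      · have h2 := slice (ih hM q) [l]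
        rw [quot_quot] at h2
        exact h2
      · have h2 := ih hM (l :: q)
        rwa [quot_perm hF (g := M ++ l :: q) (g' := (l :: M) ++ q)] at h2
        rw [List.cons_append]
        exact List.perm_middle

theorem Kb_le {b k n : ℕ} (hn : 1 ≤ n) {F : Finset (List L)} (hF : Good b k F) :
    Module.finrank ℚ (Kb n F) ≤ Module.finrank ℚ (S n F) +
      ∑ X ∈ Xn n F, Module.finrank ℚ (S n X) * t (cls n F X) := by
  have hcol : ∀ (z : Kb n F) (X : ↥(Xn n F)) (g : List L),
      (fun u => if g ∈ cls n F X.1 then Br u g [] z.1 else 0) ∈ S n X.1 := by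
    intro z X g
    by_cases hg : g ∈ cls n F X.1
    · simp only [if_pos hg]
      obtain ⟨hg1, hg2⟩ := mem_cls.mp hg
      have h1 := Br_slice hF z.2.1 g (by rintro rfl; simp at hg1; omega) []
      rw [List.append_nil, hg2] at h1
      exact h1
    · simp only [if_neg hg]
      exact zero_mem _
  have hrow : ∀ (z : Kb n F) (X : ↥(Xn n F)) (u : List L),
      (fun g => if g ∈ cls n F X.1 then Br u g [] z.1 else 0) ∈ T (cls n F X.1) := by
    intro z X u
    by_cases hu : u ∈ X.1
    · obtain ⟨g0, -, hg0⟩ := Finset.mem_image.mp X.2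
      have hmemG : ∀ g : List L, g.length = n → (u ++ g ∈ F ↔ g ∈ cls n F X.1) := by
        intro g hg
        rw [mem_cls]
        constructor
        · intro h
          refine ⟨hg, ?_⟩
          rw [← hg0]
          refine quot_rect hF (by simp [hg]) h ?_
          rw [← hg0] at hu
          exact mem_quot.mp hu
        · rintro ⟨-, h⟩
          rw [← h] at hu
          exact mem_quot.mp hu
      refine ⟨fun g => if g ∈ cls n F X.1 then z.1 (u ++ g) else 0, ⟨fun w hw => if_neg hw, ?_⟩,
        ?_⟩
      · intro p q
        by_cases hpq : p.length + 2 + q.length = n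
        · have h1 : ∀ a b : L, (if p ++ [a, b] ++ q ∈ cls n F X.1 then
              z.1 (u ++ (p ++ [a, b] ++ q)) else 0) = z.1 (u ++ (p ++ [a, b] ++ q)) := by
            intro a b
            split_ifs with h2
            · rfl
            · refine (z.2.1.1 _ fun h3 => h2 ?_).symm
              exact (hmemG _ (by simp; omega)).mp h3
          simp only [h1]
          by_cases hq : q = []
          · subst hq
            have h2 := z.2.2 (u ++ p)
            simpa only [List.append_nil, List.append_assoc] using h2
          · have h2 := (sliceK z.2.1 q hq).1.2 (u ++ p) []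
            simpa only [List.append_nil, List.append_assoc] using h2
        · refine Finset.sum_eq_zero fun a _ => Finset.sum_eq_zero fun b _ => if_neg ?_
          intro h2
          have := (mem_cls.mp h2).1
          simp at this
          omega
      · funext g
        simp only [bmap, LinearMap.coe_mk, AddHom.coe_mk]
        split_ifs with hg
        · have h1 := Br_shiftL u g [] [] z.1
          rw [List.append_nil] at h1
          rw [← h1]
          refine Br_congr g [] [] ?_
          intro w hw
          simp only [List.nil_append, List.append_nil] at hw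
          have hwG : w ∈ cls n F X.1 := by
            obtain ⟨h3, h4⟩ := mem_cls.mp hg
            exact mem_cls.mpr ⟨by rw [hw.length_eq, h3], by rw [quot_perm hF hw, h4]⟩
          simp [hwG]
        · rfl
    · have : (fun g => if g ∈ cls n F X.1 then Br u g [] z.1 else 0) = 0 := by
        funext g
        split_ifs with hg
        · refine Br_zero_of _ _ _ fun w hw => z.2.1.1 w fun hwF => hu ?_
          rw [← (mem_cls.mp hg).2, mem_quot]
          refine hF.perm _ _ ?_ hwF
          simpa using hw
        · rfl
      rw [this]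
      exact zero_mem _
  let φ : Kb n F →ₗ[ℚ] ((X : ↥(Xn n F)) → CX n X.1 (cls n F X.1)) :=
    { toFun := fun z X => ⟨fun u g => if g ∈ cls n F X.1 then Br u g [] z.1 else 0,
        ⟨hcol z X, hrow z X⟩⟩
      map_add' := by
        intro z z'
        funext X; apply Subtype.ext; funext u g
        by_cases h : g ∈ cls n F X.1 <;> simp [h]
      map_smul' := by
        intro c z
        funext X; apply Subtype.ext; funext u g
        by_cases h : g ∈ cls n F X.1 <;> simp [h] }
  have h1 := rk (Kb n F) (S n F) φ ?_
  · rw [Module.finrank_pi_fintype] at h1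
    refine h1.trans (Nat.add_le_add_left ?_ _)
    rw [← Finset.sum_coe_sort (Xn n F)]
    exact Finset.sum_le_sum fun X _ => (CX_fin n X.1 (cls n F X.1)).2
  · intro z hz
    refine ⟨⟨z.2.1.1, fun u v => ?_⟩, fun u g v hg => ?_⟩
    · by_cases hv : v = []
      · subst hv
        simpa only [List.append_nil] using z.2.2 u
      · have h2 := (sliceK z.2.1 v hv).1.2 u []
        simpa only [List.append_nil, List.append_assoc] using h2
    · by_cases hv : v = []
      · subst hv
        let X : ↥(Xn n F) := ⟨quot F g, Finset.mem_image.mpr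
          ⟨fun i => g.get (i.cast hg.symm), Finset.mem_univ _, by
            congr 1
            subst hg
            exact List.ofFn_get g⟩⟩
        have h2 := congrFun (congrFun (congrArg Subtype.val (congrFun hz X)) u) g
        simp only [φ, LinearMap.coe_mk, AddHom.coe_mk] at h2
        have h3 : g ∈ cls n F X.1 := mem_cls.mpr ⟨hg, rfl⟩
        rw [if_pos h3] at h2
        exact h2
      · have h2 := (sliceK z.2.1 v hv).2 u g [] hg
        rwa [Br_shiftR, List.nil_append] at h2

/-- **(a)** -/
theorem gs_ineq {b k n : ℕ} (hn : 1 ≤ n) {F : Finset (List L)} (hF : Good b k F) :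
    ∑ l, Module.finrank ℚ (S n (quot F [l])) ≤ Module.finrank ℚ (S n F) +
      ∑ X ∈ X2 F, Module.finrank ℚ (S n X) +
      ∑ X ∈ Xn n F, Module.finrank ℚ (S n X) * t (cls n F X) := by
  have h1 := sum_le_Ka n F
  have h2 := Ka_le (n := n) hF
  have h3 := Kb_le hn hF
  omega

end Vale.Agent.P240.R2.H775.B
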