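import Mathlib

/-! Words, comb brackets, and the upper bound for functions on orderings of a finite set
which kill all brackets of length `n`. -/

namespace Vale.Agent.P240.R2.H775

variable {L : Type*}

/-- `z ↦ z (u β(g) v)`, as a linear form. -/
noncomputable def Br : List L → List L → List L → ((List L → ℚ) →ₗ[ℚ] ℚ)
  | u, [], v => LinearMap.proj (u ++ v)
  | u, [l], v => LinearMap.proj (u ++ l :: v)
  | u, l :: m :: M, v =>
      Br (u ++ [l]) (m :: M) v + ((-1 : ℚ) ^ (M.length + 2)) • Br u (m :: M) (l :: v)

theorem Br_nil (u v : List L) (z : List L → ℚ) : Br u [] v z = z (u ++ v) := by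
  simp [Br]

theorem Br_one (u : List L) (l : L) (v : List L) (z : List L → ℚ) :
    Br u [l] v z = z (u ++ l :: v) := by
  simp [Br]

theorem Br_cons (u : List L) (l : L) (M v : List L) (hM : M ≠ []) (z : List L → ℚ) :
    Br u (l :: M) v z =
      Br (u ++ [l]) M v z + ((-1 : ℚ) ^ (M.length + 1)) * Br u M (l :: v) z := by
  cases M with
  | nil => exact absurd rfl hM
  | cons m M => simp [Br]

/-- left shift -/
theorem Br_shiftL (p : List L) (g : List L) : ∀ (u v : List L) (z : List L → ℚ),
    Br u g v (fun x => z (p ++ x)) = Br (p ++ u) g v z := by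
  induction g with
  | nil => intro u v z; simp [Br_nil, List.append_assoc]
  | cons l M ih =>
    intro u v z
    by_cases hM : M = []
    · subst hM; simp [Br_one, List.append_assoc]
    · rw [Br_cons _ _ _ _ hM, Br_cons _ _ _ _ hM, ih, ih, List.append_assoc]

/-- right shift -/
theorem Br_shiftR (q : List L) (g : List L) : ∀ (u v : List L) (z : List L → ℚ),
    Br u g v (fun x => z (x ++ q)) = Br u g (v ++ q) z := by
  induction g with
  | nil => intro u v z; simp [Br_nil, List.append_assoc]
  | cons l M ih =>
    intro u v z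
    by_cases hM : M = []
    · subst hM; simp [Br_one, List.append_assoc]
    · rw [Br_cons _ _ _ _ hM, Br_cons _ _ _ _ hM, ih, ih, List.cons_append]

/-- `Br` only sees the values on rearrangements -/
theorem Br_congr {z z' : List L → ℚ} (g : List L) : ∀ (u v : List L),
    (∀ w, w.Perm (u ++ g ++ v) → z w = z' w) → Br u g v z = Br u g v z' := by
  induction g with
  | nil => intro u v h; simpa [Br_nil] using h (u ++ v) (by simp)
  | cons l M ih =>
    intro u v h
    by_cases hM : M = []
    · subst hM; simpa [Br_one] using h (u ++ l :: v) (by simp)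
    · rw [Br_cons _ _ _ _ hM, Br_cons _ _ _ _ hM]
      rw [ih (u ++ [l]) v ?_, ih u (l :: v) ?_]
      · intro w hw
        refine h w (hw.trans ?_)
        simp only [List.append_assoc, List.cons_append]
        refine List.Perm.append_left u ?_
        exact List.perm_middle
      · intro w hw
        refine h w (hw.trans ?_)
        simp

theorem Br_zero_of {z : List L → ℚ} (g u v : List L)
    (h : ∀ w, w.Perm (u ++ g ++ v) → z w = 0) : Br u g v z = 0 := by
  rw [Br_congr (z' := 0) g u v (by simpa using h)]
  simp

/-- brackets of length `≥ n` vanish when those of length `n` do -/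
theorem Br_long {z : List L → ℚ} {n : ℕ} (hn : 1 ≤ n)
    (h : ∀ u g v : List L, g.length = n → Br u g v z = 0) :
    ∀ (g u v : List L), n ≤ g.length → Br u g v z = 0 := by
  intro g
  induction g with
  | nil => intro u v hg; simp at hg; omega
  | cons l M ih =>
    intro u v hg
    rcases Nat.eq_or_lt_of_le hg with h1 | h1
    · exact h _ _ _ h1.symm
    · have h2 : n ≤ M.length := by simpa [Nat.lt_succ_iff] using h1
      have hM : M ≠ [] := by rintro rfl; simp at h2; omega
      rw [Br_cons _ _ _ _ hM, ih _ _ h2, ih _ _ h2]; simp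

/-- brackets of a function of the form `x ↦ z (p β(h) (q ++ x))` -/
theorem Br_comp {z : List L → ℚ} (g v : List L)
    (hz : ∀ u' , Br u' g v z = 0) (h : List L) : ∀ (p q u : List L),
    Br u g v (fun x => Br p h (q ++ x) z) = 0 := by
  induction h with
  | nil =>
    intro p q u
    have : (fun x => Br p [] (q ++ x) z) = fun x => z ((p ++ q) ++ x) := by
      funext x; simp [Br_nil]
    rw [this, Br_shiftL]; exact hz _
  | cons l M ih =>
    intro p q u
    by_cases hM : M = []
    · subst hM
      have : (fun x => Br p [l] (q ++ x) z) = fun x => z ((p ++ l :: q) ++ x) := by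
        funext x; simp [Br_one]
      rw [this, Br_shiftL]; exact hz _
    · have : (fun x => Br p (l :: M) (q ++ x) z) =
          (fun x => Br (p ++ [l]) M (q ++ x) z) +
            ((-1 : ℚ) ^ (M.length + 1)) • (fun x => Br p M ((l :: q) ++ x) z) := by
        funext x
        simp [Br_cons _ _ _ _ hM]
      rw [this, map_add, map_smul, ih, ih]; simp

variable [DecidableEq L]

/-- orderings of `f` -/
def Wd (f : Finset L) : Set (List L) := {w | w.Nodup ∧ w.toFinset = f}

theorem Wd_perm {f : Finset L} {w w' : List L} (h : w.Perm w') : w ∈ Wd f ↔ w' ∈ Wd f := by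
  simp only [Wd, Set.mem_ofPred_eq]
  rw [h.nodup_iff, List.toFinset_eq_of_perm _ _ h]

/-- functions on orderings of `f` killed by the brackets of length `n` -/
def R (n : ℕ) (f : Finset L) : Submodule ℚ (List L → ℚ) where
  carrier := {z | (∀ w, w ∉ Wd f → z w = 0) ∧
    ∀ u g v : List L, g.length = n → Br u g v z = 0}
  add_mem' := by
    rintro a b ⟨h1, h2⟩ ⟨h3, h4⟩
    refine ⟨fun w hw => by simp [h1 w hw, h3 w hw], fun u g v hg => ?_⟩
    rw [map_add, h2 u g v hg, h4 u g v hg, add_zero]
  zero_mem' := ⟨fun _ _ => rfl, fun u g v _ => map_zero _⟩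
  smul_mem' := by
    rintro c a ⟨h1, h2⟩
    refine ⟨fun w hw => by simp [h1 w hw], fun u g v hg => ?_⟩
    rw [map_smul, h2 u g v hg, smul_zero]

theorem mem_R {n : ℕ} {f : Finset L} {z : List L → ℚ} : z ∈ R n f ↔
    (∀ w, w ∉ Wd f → z w = 0) ∧ ∀ u g v : List L, g.length = n → Br u g v z = 0 := Iff.rfl

/-- a submodule of functions supported on a finite set is finite-dimensional -/
theorem fin_of_supp {α : Type*} (s : Finset α) (M : Submodule ℚ (α → ℚ))
    (h : ∀ z ∈ M, ∀ a, a ∉ s → z a = 0) : FiniteDimensional ℚ M := by
  let φ : M →ₗ[ℚ] (s → ℚ) :=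
    { toFun := fun z a => z.1 a.1
      map_add' := fun _ _ => rfl
      map_smul' := fun _ _ => rfl }
  refine FiniteDimensional.of_injective φ ?_
  intro z z' hzz
  apply Subtype.ext
  funext a
  by_cases ha : a ∈ s
  · exact congrFun hzz ⟨a, ha⟩
  · rw [h z.1 z.2 a ha, h z'.1 z'.2 a ha]

theorem finrank_le_of_supp {α : Type*} (s : Finset α) (M : Submodule ℚ (α → ℚ))
    (h : ∀ z ∈ M, ∀ a, a ∉ s → z a = 0) : Module.finrank ℚ M ≤ s.card := by
  let φ : M →ₗ[ℚ] (s → ℚ) :=
    { toFun := fun z a => z.1 a.1
      map_add' := fun _ _ => rfl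
      map_smul' := fun _ _ => rfl }
  have hi : Function.Injective φ := by
    intro z z' hzz
    apply Subtype.ext
    funext a
    by_cases ha : a ∈ s
    · exact congrFun hzz ⟨a, ha⟩
    · rw [h z.1 z.2 a ha, h z'.1 z'.2 a ha]
  have := LinearMap.finrank_le_finrank_of_injective hi
  simpa using this

/-- the finite set of orderings -/
noncomputable def WdF (f : Finset L) : Finset (List L) := f.toList.permutations.toFinset

theorem mem_WdF {f : Finset L} {w : List L} : w ∈ WdF f ↔ w ∈ Wd f := by
  simp only [WdF, List.mem_toFinset, List.mem_permutations, Wd, Set.mem_ofPred_eq]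
  constructor
  · intro h
    refine ⟨h.nodup_iff.mpr (Finset.nodup_toList f), ?_⟩
    rw [List.toFinset_eq_of_perm _ _ h, Finset.toList_toFinset]
  · rintro ⟨h1, h2⟩
    subst h2
    exact ((List.toFinset_toList h1)).symm

theorem card_WdF (f : Finset L) : (WdF f).card = f.card.factorial := by
  rw [WdF, List.card_toFinset, List.Nodup.dedup, List.length_permutations, Finset.length_toList]
  exact List.nodup_permutations _ (Finset.nodup_toList f)

instance finR (n : ℕ) (f : Finset L) : FiniteDimensional ℚ (R n f) :=
  fin_of_supp (WdF f) _ fun z hz a ha => hz.1 a (fun h => ha (mem_WdF.mpr h))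

/-- joint injectivity -/
theorem R_inj {n : ℕ} (hn : 1 ≤ n) {f : Finset L} {s : L} (hs : s ∈ f) {z : List L → ℚ}
    (hz : z ∈ R n f)
    (h : ∀ b : List L, b.length + 1 < n → b.Nodup → (∀ x ∈ b, x ∈ f.erase s) →
      ∀ x, Br [] (b ++ [s]) x z = 0) : z = 0 := by
  have key : ∀ (u b v : List L), Br u (b ++ [s]) v z = 0 := by
    intro u
    induction u using List.reverseRecOn with
    | nil =>
      intro b v
      by_cases hb : b.length + 1 < n
      · by_cases hb2 : b.Nodup ∧ ∀ x ∈ b, x ∈ f.erase s
        · exact h b hb hb2.1 hb2.2 v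
        · refine Br_zero_of _ _ _ fun w hw => hz.1 w fun hwf => hb2 ?_
          rw [Wd_perm hw] at hwf
          obtain ⟨h1, h2⟩ := hwf
          simp only [List.nil_append] at h1 h2
          have h3 := (List.nodup_append.mp h1).1
          have h4 := List.nodup_append.mp h3
          refine ⟨h4.1, fun x hx => Finset.mem_erase.mpr ⟨?_, ?_⟩⟩
          · intro hxs
            exact h4.2.2 x hx s (by simp) hxs
          · rw [← h2]; simp [hx]
      · exact Br_long hn hz.2 _ _ _ (by simp; omega)
    | append_singleton u x ih =>
      intro b v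
      have h1 := Br_cons u x (b ++ [s]) v (by simp) z
      rw [← List.cons_append, ih, ih] at h1
      linarith
  funext w
  by_cases hw : w ∈ Wd f
  · have hsw : s ∈ w := by
      have := hw.2
      rw [← this] at hs
      simpa using hs
    obtain ⟨u, v, rfl⟩ := List.append_of_mem hsw
    have := key u [] v
    rw [List.nil_append, Br_one] at this
    exact this
  · exact hz.1 w hw

/-- bracketing with `b ++ [s]` on the left -/
theorem R_map {n : ℕ} {f : Finset L} {z : List L → ℚ}
    (hz : z ∈ R n f) (h : List L) (hh : h.Nodup) :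
    (fun x => Br [] h x z) ∈ R n (f \ h.toFinset) := by
  refine ⟨fun x hx => ?_, fun u g v hg => ?_⟩
  · refine Br_zero_of _ _ _ fun w hw => hz.1 w fun hwf => hx ?_
    rw [Wd_perm hw] at hwf
    obtain ⟨h1, h2⟩ := hwf
    simp only [List.nil_append] at h1 h2
    have h4 := List.nodup_append.mp h1
    refine ⟨h4.2.1, ?_⟩
    rw [← h2]
    ext y
    simp only [List.mem_toFinset, Finset.mem_sdiff, List.mem_append]
    constructor
    · intro hy
      exact ⟨Or.inr hy, fun hy2 => h4.2.2 y hy2 y hy rfl⟩
    · rintro ⟨h5 | h5, h6⟩
      · exact absurd h5 h6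
      · exact h5
  · have := Br_comp (z := z) g v (fun u' => hz.2 u' g v hg) h [] [] u
    simpa using this

/-- the numbers `c_k` -/
def cc (n : ℕ) : ℕ → ℕ
  | 0 => 1
  | k + 1 => ∑ j : Fin (n - 1), k.descFactorial j * cc n (k - j)

theorem cc_succ (n k : ℕ) :
    cc n (k + 1) = ∑ j : Fin (n - 1), k.descFactorial j * cc n (k - j) := by
  rw [cc]

theorem finrank_R (n : ℕ) (hn : 1 ≤ n) : ∀ (k : ℕ) (f : Finset L), f.card = k →
    Module.finrank ℚ (R n f) ≤ cc n k := by
  intro k
  induction k using Nat.strong_induction_on with
  | _ k ih =>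
    intro f hf
    rcases Nat.eq_zero_or_pos k with hk | hk
    · subst hk
      have h1 : Module.finrank ℚ (R n f) ≤ (WdF f).card :=
        finrank_le_of_supp (WdF f) _ fun z hz a ha => hz.1 a (fun h => ha (mem_WdF.mpr h))
      rw [card_WdF, hf] at h1
      simpa [cc] using h1
    · obtain ⟨k, rfl⟩ : ∃ k', k = k' + 1 := ⟨k - 1, by omega⟩
      obtain ⟨s, hs⟩ : f.Nonempty := by
        rw [← Finset.card_pos]; omega
      have hcard : (f.erase s).card = k := by
        rw [Finset.card_erase_of_mem hs, hf]; rfl
      let ι := Σ j : Fin (n - 1), (Fin j ↪ ↥(f.erase s))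
      let bl : ι → List L := fun i => List.ofFn (fun t => ((i.2 t : ↥(f.erase s)) : L))
      have hbl_nd : ∀ i, (bl i).Nodup := fun i =>
        List.nodup_ofFn.mpr (Subtype.val_injective.comp i.2.injective)
      have hbl_mem : ∀ i, ∀ x ∈ bl i, x ∈ f.erase s := by
        intro i x hx
        simp only [bl, List.mem_ofFn] at hx
        obtain ⟨t, rfl⟩ := hx
        exact (i.2 t).2
      have hnd : ∀ i, (bl i ++ [s]).Nodup := by
        intro i
        rw [List.nodup_append]
        refine ⟨hbl_nd i, by simp, ?_⟩
        intro a ha b hb hab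
        simp only [List.mem_singleton] at hb
        subst hb; subst hab
        exact (Finset.mem_erase.mp (hbl_mem i a ha)).1 rfl
      have hsub : ∀ i, (bl i ++ [s]).toFinset ⊆ f := by
        intro i x hx
        simp only [List.toFinset_append, Finset.mem_union, List.mem_toFinset,
          List.mem_singleton] at hx
        rcases hx with hx | hx
        · exact (Finset.mem_erase.mp (hbl_mem i x hx)).2
        · rw [hx]; exact hs
      have hc : ∀ i : ι, (f \ (bl i ++ [s]).toFinset).card = k - i.1 := by
        intro i
        rw [Finset.card_sdiff_of_subset (hsub i), List.toFinset_card_of_nodup (hnd i), hf]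
        simp [bl]
      let φ : R n f →ₗ[ℚ] ((i : ι) → R n (f \ (bl i ++ [s]).toFinset)) :=
        { toFun := fun z i => ⟨fun x => Br [] (bl i ++ [s]) x z.1, R_map z.2 _ (hnd i)⟩
          map_add' := by
            intro z z'
            funext i; apply Subtype.ext; funext x
            simp
          map_smul' := by
            intro c z
            funext i; apply Subtype.ext; funext x
            simp }
      have hφ : Function.Injective φ := by
        rw [← LinearMap.ker_eq_bot, LinearMap.ker_eq_bot']
        intro z hz
        apply Subtype.ext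
        refine R_inj hn hs z.2 ?_
        intro b hb hb1 hb2 x
        let i : ι := ⟨⟨b.length, by omega⟩,
          ⟨fun t => ⟨b.get t, hb2 _ (List.get_mem b t)⟩, fun t t' htt => by
            have : b.get t = b.get t' := congrArg Subtype.val htt
            exact (List.nodup_iff_injective_get.mp hb1) this⟩⟩
        have hi : bl i = b := by
          simp only [bl, i]
          exact List.ofFn_get b
        have := congrFun (congrArg Subtype.val (congrFun hz i)) x
        simp only [φ, LinearMap.coe_mk, AddHom.coe_mk, hi] at this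
        exact this
      have h1 := LinearMap.finrank_le_finrank_of_injective hφ
      rw [Module.finrank_pi_fintype] at h1
      refine h1.trans ?_
      rw [cc_succ, Fintype.sum_sigma]
      refine Finset.sum_le_sum fun j _ => ?_
      calc ∑ e : (Fin j ↪ ↥(f.erase s)),
            Module.finrank ℚ (R n (f \ (bl ⟨j, e⟩ ++ [s]).toFinset))
          ≤ ∑ e : (Fin j ↪ ↥(f.erase s)), cc n (k - j) := by
            refine Finset.sum_le_sum fun e _ => ?_
            exact ih _ (by omega) _ (hc ⟨j, e⟩)
        _ = k.descFactorial j * cc n (k - j) := by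
            simp [Fintype.card_embedding_eq, hcard]

end Vale.Agent.P240.R2.H775
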