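import Vale.Agent.P240.R2.H775.GS1
import Vale.Agent.P240.R2.H195.Ten

/-! Definitions: the spaces `SOL`, `S n F`, `t F`, quotients, good systems of frames. -/

namespace Vale.Agent.P240.R2.H775

variable {L : Type*} [DecidableEq L] [Fintype L]

/-- solutions: functions on `F`, all plane sums zero -/
def SOL (F : Finset (List L)) : Submodule ℚ (List L → ℚ) where
  carrier := {z | (∀ w, w ∉ F → z w = 0) ∧
    ∀ u v : List L, ∑ a, ∑ b, z (u ++ [a, b] ++ v) = 0}
  add_mem' := by
    rintro a b ⟨h1, h2⟩ ⟨h3, h4⟩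
    refine ⟨fun w hw => by simp [h1 w hw, h3 w hw], fun u v => ?_⟩
    simp only [Pi.add_apply, Finset.sum_add_distrib]
    rw [h2 u v, h4 u v, add_zero]
  zero_mem' := ⟨fun _ _ => rfl, fun u v => by simp⟩
  smul_mem' := by
    rintro c a ⟨h1, h2⟩
    refine ⟨fun w hw => by simp [h1 w hw], fun u v => ?_⟩
    simp only [Pi.smul_apply, smul_eq_mul, ← Finset.mul_sum]
    rw [h2 u v, mul_zero]

theorem mem_SOL {F : Finset (List L)} {z : List L → ℚ} : z ∈ SOL F ↔
    (∀ w, w ∉ F → z w = 0) ∧ ∀ u v : List L, ∑ a, ∑ b, z (u ++ [a, b] ++ v) = 0 := Iff.rfl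

/-- solutions killed by all brackets of length `n` -/
def S (n : ℕ) (F : Finset (List L)) : Submodule ℚ (List L → ℚ) where
  carrier := {z | z ∈ SOL F ∧ ∀ u g v : List L, g.length = n → Br u g v z = 0}
  add_mem' := by
    rintro a b ⟨h1, h2⟩ ⟨h3, h4⟩
    refine ⟨add_mem h1 h3, fun u g v hg => ?_⟩
    rw [map_add, h2 u g v hg, h4 u g v hg, add_zero]
  zero_mem' := ⟨zero_mem _, fun u g v _ => map_zero _⟩
  smul_mem' := by
    rintro c a ⟨h1, h2⟩
    refine ⟨Submodule.smul_mem _ c h1, fun u g v hg => ?_⟩
    rw [map_smul, h2 u g v hg, smul_zero]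

theorem mem_S {n : ℕ} {F : Finset (List L)} {z : List L → ℚ} : z ∈ S n F ↔
    z ∈ SOL F ∧ ∀ u g v : List L, g.length = n → Br u g v z = 0 := Iff.rfl

/-- the bracket map on functions on `G` -/
noncomputable def bmap (G : Finset (List L)) : (List L → ℚ) →ₗ[ℚ] (List L → ℚ) where
  toFun z := fun g => if g ∈ G then Br [] g [] z else 0
  map_add' := by
    intro z z'; funext g
    by_cases h : g ∈ G <;> simp [h]
  map_smul' := by
    intro c z; funext g
    by_cases h : g ∈ G <;> simp [h]

/-- the range of the bracket map on solutions -/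
noncomputable def T (G : Finset (List L)) : Submodule ℚ (List L → ℚ) :=
  (SOL G).map (bmap G)

/-- `t(G)` -/
noncomputable def t (G : Finset (List L)) : ℕ := Module.finrank ℚ (T G)

/-- `F/g` : the words `w` with `w g ∈ F` -/
def quot (F : Finset (List L)) (g : List L) : Finset (List L) :=
  (F.filter (fun w => g <:+ w)).image (fun w => w.take (w.length - g.length))

theorem mem_quot {F : Finset (List L)} {g w : List L} : w ∈ quot F g ↔ w ++ g ∈ F := by
  simp only [quot, Finset.mem_image, Finset.mem_filter]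
  constructor
  · rintro ⟨x, ⟨hx, ⟨u, rfl⟩⟩, rfl⟩
    simpa using hx
  · intro h
    exact ⟨w ++ g, ⟨h, ⟨w, rfl⟩⟩, by simp⟩

theorem quot_quot (F : Finset (List L)) (g h : List L) :
    quot (quot F g) h = quot F (h ++ g) := by
  ext w
  simp only [mem_quot, List.append_assoc]

theorem quot_nil (F : Finset (List L)) : quot F [] = F := by
  ext w
  simp [mem_quot]

/-- a good system of frames of dimension `k` -/
structure Good (k : ℕ) (F : Finset (List L)) : Prop where
  len : ∀ w ∈ F, w.length = k
  nodup : ∀ w ∈ F, w.Nodup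
  perm : ∀ w w' : List L, w.Perm w' → w ∈ F → w' ∈ F
  rect : ∀ u u' g g' : List L, g.length = g'.length →
    u ++ g ∈ F → u ++ g' ∈ F → u' ++ g ∈ F → u' ++ g' ∈ F
  six : ∀ (u : List L) (a b : L), u ++ [a, b] ∈ F →
    6 ≤ (Finset.univ.filter (fun p : L × L => u ++ [p.1, p.2] ∈ F)).card

theorem Good.quot {k : ℕ} {F : Finset (List L)} (h : Good (k) F) (g : List L)
    (hg : g.length ≤ k) : Good (k - g.length) (quot F g) where
  len := by
    intro w hw
    have := h.len _ (mem_quot.mp hw)
    rw [List.length_append] at this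
    omega
  nodup := by
    intro w hw
    exact (List.nodup_append.mp (h.nodup _ (mem_quot.mp hw))).1
  perm := by
    intro w w' hww hw
    exact mem_quot.mpr (h.perm _ _ (hww.append_right g) (mem_quot.mp hw))
  rect := by
    intro u u' x x' hx h1 h2 h3
    rw [mem_quot, List.append_assoc] at *
    exact h.rect u u' (x ++ g) (x' ++ g) (by simp [hx]) h1 h2 h3
  six := by
    intro u a b hab
    rw [mem_quot] at hab
    have h1 : ((g ++ u) ++ [a, b]) ∈ F := by
      refine h.perm _ _ ?_ hab
      rw [List.append_assoc g]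
      exact List.perm_append_comm
    refine (h.six _ _ _ h1).trans (Finset.card_le_card ?_)
    intro p hp
    simp only [Finset.mem_filter, Finset.mem_univ, true_and, mem_quot] at hp ⊢
    refine h.perm _ _ ?_ hp
    rw [List.append_assoc g]
    exact List.perm_append_comm

/-- words `g'` of length `n` with the same quotient as `g` (`= Fr(Y)`) -/
def cls (n : ℕ) (F : Finset (List L)) (X : Finset (List L)) : Finset (List L) :=
  ((Finset.univ : Finset (Fin n → L)).filter
    (fun g => quot F (List.ofFn g) = X)).image List.ofFn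

theorem mem_cls {n : ℕ} {F X : Finset (List L)} {g : List L} :
    g ∈ cls n F X ↔ g.length = n ∧ quot F g = X := by
  simp only [cls, Finset.mem_image, Finset.mem_filter, Finset.mem_univ, true_and]
  constructor
  · rintro ⟨f, hf, rfl⟩
    exact ⟨List.length_ofFn, hf⟩
  · rintro ⟨rfl, h⟩
    exact ⟨g.get, by rw [List.ofFn_get]; exact h, List.ofFn_get g⟩

theorem supp_S {n : ℕ} {F : Finset (List L)} : ∀ z ∈ S n F, ∀ w, w ∉ F → z w = 0 :=
  fun _ hz => hz.1.1

instance finS (n : ℕ) (F : Finset (List L)) : FiniteDimensional ℚ (S n F) :=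
  fin_of_supp F _ supp_S

instance finSOL (F : Finset (List L)) : FiniteDimensional ℚ (SOL F) :=
  fin_of_supp F _ fun _ hz => hz.1

instance finT (F : Finset (List L)) : FiniteDimensional ℚ (T F) :=
  inferInstanceAs (FiniteDimensional ℚ ((SOL F).map (bmap F)))

end Vale.Agent.P240.R2.H775
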