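import Vale.Agent.P240.R2.H775.GS2

/-! The Golod–Shafarevich inequality (a). -/

namespace Vale.Agent.P240.R2.H775

variable {L : Type*} [DecidableEq L] [Fintype L]

theorem rk {V N : Type*} [AddCommGroup V] [Module ℚ V] [AddCommGroup N] [Module ℚ N]
    (M M' : Submodule ℚ V) [FiniteDimensional ℚ M] [FiniteDimensional ℚ M']
    [FiniteDimensional ℚ N] (φ : M →ₗ[ℚ] N) (h : ∀ z, φ z = 0 → (z : V) ∈ M') :
    Module.finrank ℚ M ≤ Module.finrank ℚ M' + Module.finrank ℚ N := by
  have h1 := LinearMap.finrank_range_add_finrank_ker φ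
  have h2 : Module.finrank ℚ (LinearMap.range φ) ≤ Module.finrank ℚ N :=
    Submodule.finrank_le _
  let ψ : LinearMap.ker φ →ₗ[ℚ] M' :=
    { toFun := fun z => ⟨z.1.1, h z.1 z.2⟩
      map_add' := fun _ _ => rfl
      map_smul' := fun _ _ => rfl }
  have h3 : Module.finrank ℚ (LinearMap.ker φ) ≤ Module.finrank ℚ M' := by
    refine LinearMap.finrank_le_finrank_of_injective (f := ψ) ?_
    intro a b hab
    apply Subtype.ext
    apply Subtype.ext
    have h5 : (ψ a).1 = (ψ b).1 := by rw [hab]
    exact h5
  omega

/-- slices -/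
theorem slice {n : ℕ} {F : Finset (List L)} {z : List L → ℚ} (hz : z ∈ S n F) (g : List L) :
    (fun w => z (w ++ g)) ∈ S n (quot F g) := by
  refine ⟨⟨fun w hw => hz.1.1 _ (fun h => hw (mem_quot.mpr h)), fun u v => ?_⟩,
    fun u h v hh => ?_⟩
  · have := hz.1.2 u (v ++ g)
    simpa only [List.append_assoc] using this
  · rw [Br_shiftR]
    exact hz.2 _ _ _ hh

theorem quot_perm {k : ℕ} {F : Finset (List L)} (hF : Good k F) {g g' : List L}
    (h : g.Perm g') : quot F g = quot F g' := by
  ext w
  rw [mem_quot, mem_quot]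
  exact ⟨fun hw => hF.perm _ _ (h.append_left w) hw,
    fun hw => hF.perm _ _ (h.symm.append_left w) hw⟩

theorem quot_rect {k : ℕ} {F : Finset (List L)} (hF : Good k F) {u g g' : List L}
    (hl : g.length = g'.length) (h1 : u ++ g ∈ F) (h2 : u ++ g' ∈ F) :
    quot F g = quot F g' := by
  ext w
  rw [mem_quot, mem_quot]
  exact ⟨fun hw => hF.rect u w g g' hl h1 h2 hw,
    fun hw => hF.rect u w g' g hl.symm h2 h1 hw⟩

/-- functions on `F` whose last-letter slices lie in `S (F/l)` -/
def Ka (n : ℕ) (F : Finset (List L)) : Submodule ℚ (List L → ℚ) where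
  carrier := {z | (∀ w, w ∉ F → z w = 0) ∧ ∀ l, (fun w => z (w ++ [l])) ∈ S n (quot F [l])}
  add_mem' := by
    rintro a b ⟨h1, h2⟩ ⟨h3, h4⟩
    exact ⟨fun w hw => by simp [h1 w hw, h3 w hw], fun l => add_mem (h2 l) (h4 l)⟩
  zero_mem' := ⟨fun _ _ => rfl, fun _ => zero_mem _⟩
  smul_mem' := by
    rintro c a ⟨h1, h2⟩
    exact ⟨fun w hw => by simp [h1 w hw], fun l => Submodule.smul_mem _ c (h2 l)⟩

/-- moreover the plane sums at the right end vanish -/
def Kb (n : ℕ) (F : Finset (List L)) : Submodule ℚ (List L → ℚ) where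
  carrier := {z | z ∈ Ka n F ∧ ∀ u : List L, ∑ a, ∑ b, z (u ++ [a, b]) = 0}
  add_mem' := by
    rintro a b ⟨h1, h2⟩ ⟨h3, h4⟩
    refine ⟨add_mem h1 h3, fun u => ?_⟩
    simp only [Pi.add_apply, Finset.sum_add_distrib]
    rw [h2 u, h4 u, add_zero]
  zero_mem' := ⟨zero_mem _, fun u => by simp⟩
  smul_mem' := by
    rintro c a ⟨h1, h2⟩
    refine ⟨Submodule.smul_mem _ c h1, fun u => ?_⟩
    simp only [Pi.smul_apply, smul_eq_mul, ← Finset.mul_sum]
    rw [h2 u, mul_zero]

instance finKa (n : ℕ) (F : Finset (List L)) : FiniteDimensional ℚ (Ka n F) :=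
  fin_of_supp F _ fun _ hz => hz.1

instance finKb (n : ℕ) (F : Finset (List L)) : FiniteDimensional ℚ (Kb n F) :=
  fin_of_supp F _ fun _ hz => hz.1.1

theorem sliceK {n : ℕ} {F : Finset (List L)} {z : List L → ℚ} (hz : z ∈ Ka n F) (g : List L)
    (hg : g ≠ []) : (fun w => z (w ++ g)) ∈ S n (quot F g) := by
  obtain ⟨g', b, rfl⟩ : ∃ g' b, g = g' ++ [b] :=
    ⟨g.dropLast, g.getLast hg, (List.dropLast_append_getLast hg).symm⟩
  have h1 := slice (hz.2 b) g'
  rw [quot_quot] at h1
  simpa only [List.append_assoc] using h1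

/-- the family of slices -/
theorem sum_le_Ka (n : ℕ) (F : Finset (List L)) :
    ∑ l, Module.finrank ℚ (S n (quot F [l])) ≤ Module.finrank ℚ (Ka n F) := by
  have hlast : ∀ (w : List L) (l : L), (w ++ [l]).getLast? = some l := by simp
  let f : ((l : L) → S n (quot F [l])) → List L → ℚ := fun z w =>
    match w.getLast? with
    | some l => (z l).1 w.dropLast
    | none => 0
  have hf : ∀ z (w : List L) (l : L), f z (w ++ [l]) = (z l).1 w := by
    intro z w l
    simp only [f, hlast, List.dropLast_concat]
  have hf0 : ∀ z, f z [] = 0 := by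
    intro z; simp [f]
  have hmem : ∀ z, f z ∈ Ka n F := by
    intro z
    refine ⟨fun w hw => ?_, fun l => ?_⟩
    · rcases List.eq_nil_or_concat w with rfl | ⟨w', l, rfl⟩
      · exact hf0 z
      · rw [List.concat_eq_append, hf]
        rw [List.concat_eq_append] at hw
        exact (z l).2.1.1 _ (fun h => hw (mem_quot.mp h))
    · have : (fun w => f z (w ++ [l])) = (z l).1 := by funext w; exact hf z w l
      rw [this]; exact (z l).2
  let ψ : ((l : L) → S n (quot F [l])) →ₗ[ℚ] Ka n F :=
    { toFun := fun z => ⟨f z, hmem z⟩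
      map_add' := by
        intro z z'
        apply Subtype.ext; funext w
        rcases List.eq_nil_or_concat w with rfl | ⟨w', l, rfl⟩
        · simp [hf0]
        · simp [hf]
      map_smul' := by
        intro c z
        apply Subtype.ext; funext w
        rcases List.eq_nil_or_concat w with rfl | ⟨w', l, rfl⟩
        · simp [hf0]
        · simp [hf] }
  have hψ : Function.Injective ψ := by
    intro z z' hzz
    funext l
    apply Subtype.ext
    funext w
    have := congrFun (congrArg Subtype.val hzz) (w ++ [l])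
    simpa [ψ, hf] using this
  have := LinearMap.finrank_le_finrank_of_injective hψ
  rwa [Module.finrank_pi_fintype] at this

/-- the quotients by pairs -/
def X2 (F : Finset (List L)) : Finset (Finset (List L)) :=
  Finset.univ.image (fun p : L × L => quot F [p.1, p.2])

/-- the quotients by words of length `n` -/
def Xn (n : ℕ) (F : Finset (List L)) : Finset (Finset (List L)) :=
  Finset.univ.image (fun g : Fin n → L => quot F (List.ofFn g))

theorem Ka_le {k n : ℕ} {F : Finset (List L)} (hF : Good k F) :
    Module.finrank ℚ (Ka n F) ≤ Module.finrank ℚ (Kb n F) +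
      ∑ X ∈ X2 F, Module.finrank ℚ (S n X) := by
  have hmem : ∀ (z : Ka n F) (X : ↥(X2 F)),
      (fun x => ∑ p ∈ Finset.univ.filter (fun p : L × L => quot F [p.1, p.2] = X.1),
        z.1 (x ++ [p.1, p.2])) ∈ S n X.1 := by
    intro z X
    have : (fun x => ∑ p ∈ Finset.univ.filter (fun p : L × L => quot F [p.1, p.2] = X.1),
        z.1 (x ++ [p.1, p.2])) =
        ∑ p ∈ Finset.univ.filter (fun p : L × L => quot F [p.1, p.2] = X.1),
          (fun x => z.1 (x ++ [p.1, p.2])) := by
      funext x; simp
    rw [this]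
    refine Submodule.sum_mem _ fun p hp => ?_
    have h1 := sliceK z.2 [p.1, p.2] (by simp)
    rwa [(Finset.mem_filter.mp hp).2] at h1
  let φ : Ka n F →ₗ[ℚ] ((X : ↥(X2 F)) → S n X.1) :=
    { toFun := fun z X => ⟨_, hmem z X⟩
      map_add' := by
        intro z z'
        funext X; apply Subtype.ext; funext x
        simp [Finset.sum_add_distrib]
      map_smul' := by
        intro c z
        funext X; apply Subtype.ext; funext x
        simp [Finset.mul_sum] }
  have h1 := rk (Ka n F) (Kb n F) φ ?_
  · rw [Module.finrank_pi_fintype] at h1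
    rwa [← Finset.sum_coe_sort]
  · intro z hz
    refine ⟨z.2, fun u => ?_⟩
    rw [← Fintype.sum_prod_type' (fun a b => z.1 (u ++ [a, b]))]
    by_cases hu : ∃ p : L × L, u ++ [p.1, p.2] ∈ F
    · obtain ⟨p0, hp0⟩ := hu
      let X : ↥(X2 F) := ⟨quot F [p0.1, p0.2], Finset.mem_image.mpr ⟨p0, Finset.mem_univ _, rfl⟩⟩
      have h2 := congrFun (congrArg Subtype.val (congrFun hz X)) u
      simp only [φ, LinearMap.coe_mk, AddHom.coe_mk] at h2
      rw [Finset.sum_filter] at h2
      refine Eq.trans ?_ h2
      refine Finset.sum_congr rfl fun p _ => ?_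
      split_ifs with h3
      · rfl
      · refine z.2.1 _ fun h4 => h3 ?_
        exact quot_rect hF (by simp) h4 hp0
    · push Not at hu
      refine Finset.sum_eq_zero fun p _ => z.2.1 _ (hu p)

theorem Br_slice {k n : ℕ} {F : Finset (List L)} (hF : Good k F) {z : List L → ℚ}
    (hz : z ∈ Ka n F) (g : List L) (hg : g ≠ []) : ∀ q : List L,
    (fun u => Br u g q z) ∈ S n (quot F (g ++ q)) := by
  induction g with
  | nil => exact absurd rfl hg
  | cons l M ih =>
    intro q
    by_cases hM : M = []
    · subst hM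
      have h1 := sliceK hz (l :: q) (by simp)
      simpa only [Br_one, List.singleton_append, List.cons_append, List.nil_append] using h1
    · have h1 : (fun u => Br u (l :: M) q z) = (fun u => Br (u ++ [l]) M q z) +
          ((-1 : ℚ) ^ (M.length + 1)) • (fun u => Br u M (l :: q) z) := by
        funext u
        simp [Br_cons _ _ _ _ hM]
      rw [h1]
      refine add_mem ?_ (Submodule.smul_mem _ _ ?_)
      · have h2 := slice (ih hM q) [l]
        rw [quot_quot] at h2
        exact h2
      · have h2 := ih hM (l :: q)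
        rwa [quot_perm hF (g := M ++ l :: q) (g' := (l :: M) ++ q)] at h2
        rw [List.cons_append]
        exact List.perm_middle

/-- bi-functions with columns in `S n X` and rows in `T G` -/
def CX (n : ℕ) (X G : Finset (List L)) : Submodule ℚ (List L → List L → ℚ) where
  carrier := {f | (∀ g, (fun u => f u g) ∈ S n X) ∧ ∀ u, f u ∈ T G}
  add_mem' := by
    rintro a b ⟨h1, h2⟩ ⟨h3, h4⟩
    exact ⟨fun g => add_mem (h1 g) (h3 g), fun u => add_mem (h2 u) (h4 u)⟩
  zero_mem' := ⟨fun _ => zero_mem _, fun _ => zero_mem _⟩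
  smul_mem' := by
    rintro c a ⟨h1, h2⟩
    exact ⟨fun g => Submodule.smul_mem _ c (h1 g), fun u => Submodule.smul_mem _ c (h2 u)⟩

theorem CX_fin (n : ℕ) (X G : Finset (List L)) :
    FiniteDimensional ℚ (CX n X G) ∧
      Module.finrank ℚ (CX n X G) ≤ Module.finrank ℚ (S n X) * t G :=
  H195.ten (S n X) (T G) (CX n X G) (fun _ hf g => hf.1 g) (fun _ hf u => hf.2 u)

instance finCX (n : ℕ) (X G : Finset (List L)) : FiniteDimensional ℚ (CX n X G) :=
  (CX_fin n X G).1

theorem Kb_le {k n : ℕ} (hn : 1 ≤ n) {F : Finset (List L)} (hF : Good k F) :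
    Module.finrank ℚ (Kb n F) ≤ Module.finrank ℚ (S n F) +
      ∑ X ∈ Xn n F, Module.finrank ℚ (S n X) * t (cls n F X) := by
  have hcol : ∀ (z : Kb n F) (X : ↥(Xn n F)) (g : List L),
      (fun u => if g ∈ cls n F X.1 then Br u g [] z.1 else 0) ∈ S n X.1 := by
    intro z X g
    by_cases hg : g ∈ cls n F X.1
    · simp only [if_pos hg]
      obtain ⟨hg1, hg2⟩ := mem_cls.mp hg
      have h1 := Br_slice hF z.2.1 g (by rintro rfl; simp at hg1; omega) []
      rw [List.append_nil, hg2] at h1
      exact h1
    · simp only [if_neg hg]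
      exact zero_mem _
  have hrow : ∀ (z : Kb n F) (X : ↥(Xn n F)) (u : List L),
      (fun g => if g ∈ cls n F X.1 then Br u g [] z.1 else 0) ∈ T (cls n F X.1) := by
    intro z X u
    by_cases hu : u ∈ X.1
    · obtain ⟨g0, -, hg0⟩ := Finset.mem_image.mp X.2
      have hmemG : ∀ g : List L, g.length = n → (u ++ g ∈ F ↔ g ∈ cls n F X.1) := by
        intro g hg
        rw [mem_cls]
        constructor
        · intro h
          refine ⟨hg, ?_⟩
          rw [← hg0]
          refine quot_rect hF (by simp [hg]) h ?_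
          rw [← hg0] at hu
          exact mem_quot.mp hu
        · rintro ⟨-, h⟩
          rw [← h] at hu
          exact mem_quot.mp hu
      refine ⟨fun g => if g ∈ cls n F X.1 then z.1 (u ++ g) else 0, ⟨fun w hw => if_neg hw, ?_⟩,
        ?_⟩
      · intro p q
        by_cases hpq : p.length + 2 + q.length = n
        · have h1 : ∀ a b : L, (if p ++ [a, b] ++ q ∈ cls n F X.1 then
              z.1 (u ++ (p ++ [a, b] ++ q)) else 0) = z.1 (u ++ (p ++ [a, b] ++ q)) := by
            intro a b
            split_ifs with h2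
            · rfl
            · refine (z.2.1.1 _ fun h3 => h2 ?_).symm
              exact (hmemG _ (by simp; omega)).mp h3
          simp only [h1]
          by_cases hq : q = []
          · subst hq
            have h2 := z.2.2 (u ++ p)
            simpa only [List.append_nil, List.append_assoc] using h2
          · have h2 := (sliceK z.2.1 q hq).1.2 (u ++ p) []
            simpa only [List.append_nil, List.append_assoc] using h2
        · refine Finset.sum_eq_zero fun a _ => Finset.sum_eq_zero fun b _ => if_neg ?_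
          intro h2
          have := (mem_cls.mp h2).1
          simp at this
          omega
      · funext g
        simp only [bmap, LinearMap.coe_mk, AddHom.coe_mk]
        split_ifs with hg
        · have h1 := Br_shiftL u g [] [] z.1
          rw [List.append_nil] at h1
          rw [← h1]
          refine Br_congr g [] [] ?_
          intro w hw
          simp only [List.nil_append, List.append_nil] at hw
          have hwG : w ∈ cls n F X.1 := by
            obtain ⟨h3, h4⟩ := mem_cls.mp hg
            exact mem_cls.mpr ⟨by rw [hw.length_eq, h3], by rw [quot_perm hF hw, h4]⟩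
          simp [hwG]
        · rfl
    · have : (fun g => if g ∈ cls n F X.1 then Br u g [] z.1 else 0) = 0 := by
        funext g
        split_ifs with hg
        · refine Br_zero_of _ _ _ fun w hw => z.2.1.1 w fun hwF => hu ?_
          rw [← (mem_cls.mp hg).2, mem_quot]
          refine hF.perm _ _ ?_ hwF
          simpa using hw
        · rfl
      rw [this]
      exact zero_mem _
  let φ : Kb n F →ₗ[ℚ] ((X : ↥(Xn n F)) → CX n X.1 (cls n F X.1)) :=
    { toFun := fun z X => ⟨fun u g => if g ∈ cls n F X.1 then Br u g [] z.1 else 0,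
        ⟨hcol z X, hrow z X⟩⟩
      map_add' := by
        intro z z'
        funext X; apply Subtype.ext; funext u g
        by_cases h : g ∈ cls n F X.1 <;> simp [h]
      map_smul' := by
        intro c z
        funext X; apply Subtype.ext; funext u g
        by_cases h : g ∈ cls n F X.1 <;> simp [h] }
  have h1 := rk (Kb n F) (S n F) φ ?_
  · rw [Module.finrank_pi_fintype] at h1
    refine h1.trans (Nat.add_le_add_left ?_ _)
    rw [← Finset.sum_coe_sort (Xn n F)]
    exact Finset.sum_le_sum fun X _ => (CX_fin n X.1 (cls n F X.1)).2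
  · intro z hz
    refine ⟨⟨z.2.1.1, fun u v => ?_⟩, fun u g v hg => ?_⟩
    · by_cases hv : v = []
      · subst hv
        simpa only [List.append_nil] using z.2.2 u
      · have h2 := (sliceK z.2.1 v hv).1.2 u []
        simpa only [List.append_nil, List.append_assoc] using h2
    · by_cases hv : v = []
      · subst hv
        let X : ↥(Xn n F) := ⟨quot F g, Finset.mem_image.mpr
          ⟨fun i => g.get (i.cast hg.symm), Finset.mem_univ _, by
            congr 1
            subst hg
            exact List.ofFn_get g⟩⟩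
        have h2 := congrFun (congrFun (congrArg Subtype.val (congrFun hz X)) u) g
        simp only [φ, LinearMap.coe_mk, AddHom.coe_mk] at h2
        have h3 : g ∈ cls n F X.1 := mem_cls.mpr ⟨hg, rfl⟩
        rw [if_pos h3] at h2
        exact h2
      · have h2 := (sliceK z.2.1 v hv).2 u g [] hg
        rwa [Br_shiftR, List.nil_append] at h2

/-- **(a)** -/
theorem gs_ineq {k n : ℕ} (hn : 1 ≤ n) {F : Finset (List L)} (hF : Good k F) :
    ∑ l, Module.finrank ℚ (S n (quot F [l])) ≤ Module.finrank ℚ (S n F) +
      ∑ X ∈ X2 F, Module.finrank ℚ (S n X) +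
      ∑ X ∈ Xn n F, Module.finrank ℚ (S n X) * t (cls n F X) := by
  have h1 := sum_le_Ka n F
  have h2 := Ka_le (n := n) hF
  have h3 := Kb_le hn hF
  omega

end Vale.Agent.P240.R2.H775
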