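import Vale.Agent.P240.R2.H775.GS3

/-! Part (b): growth of `S n F` when all `t` are small. -/

namespace Vale.Agent.P240.R2.H775

variable {L : Type*} [DecidableEq L] [Fintype L]

/-- dimension of `S n F` -/
noncomputable def us (n : ℕ) (F : Finset (List L)) : ℕ := Module.finrank ℚ (S n F)

/-- iterated sums over the last letters -/
noncomputable def A (n : ℕ) : ℕ → Finset (List L) → ℕ
  | 0, F => us n F
  | j + 1, F => ∑ l, A n j (quot F [l])

theorem us_empty (n : ℕ) : us n (∅ : Finset (List L)) = 0 := by
  have := finrank_le_of_supp (∅ : Finset (List L)) (S n ∅) supp_S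
  simpa [us] using this

theorem A_eq_sum (n : ℕ) : ∀ (j : ℕ) (F : Finset (List L)),
    A n j F = ∑ g : Fin j → L, us n (quot F (List.ofFn g)) := by
  intro j
  induction j with
  | zero => intro F; simp [A, quot_nil]
  | succ j ih =>
    intro F
    rw [A]
    simp only [ih]
    rw [← Fintype.sum_prod_type' (fun (l : L) (g : Fin j → L) =>
      us n (quot (quot F [l]) (List.ofFn g)))]
    rw [← Equiv.sum_comp (Fin.snocEquiv (fun _ : Fin (j + 1) => L))]
    refine Finset.sum_congr rfl fun p _ => ?_
    rw [quot_quot]
    congr 2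
    rw [List.ofFn_succ']
    simp [Fin.snocEquiv]

theorem A_two (n : ℕ) (F : Finset (List L)) :
    A n 2 F = ∑ p : L × L, us n (quot F [p.1, p.2]) := by
  simp only [A]
  rw [Finset.sum_comm, ← Fintype.sum_prod_type' (fun (l : L) (m : L) =>
      us n (quot (quot F [m]) [l]))]
  refine Finset.sum_congr rfl fun p _ => ?_
  rw [quot_quot]
  rfl

theorem six_le {k n : ℕ} {F : Finset (List L)} (hF : Good k F) :
    6 * ∑ X ∈ X2 F, us n X ≤ A n 2 F := by
  rw [A_two, Finset.sum_comp (fun X => us n X) (fun p : L × L => quot F [p.1, p.2]),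
    Finset.mul_sum]
  refine Finset.sum_le_sum fun X hX => ?_
  rw [smul_eq_mul]
  rcases Finset.eq_empty_or_nonempty X with rfl | ⟨w, hw⟩
  · simp [us_empty]
  · refine Nat.mul_le_mul_right _ ?_
    obtain ⟨⟨a, b⟩, -, hab⟩ := Finset.mem_image.mp hX
    simp only at hab
    have h1 : w ++ [a, b] ∈ F := by rw [← mem_quot, hab]; exact hw
    refine (hF.six w a b h1).trans (Finset.card_le_card ?_)
    intro p hp
    simp only [Finset.mem_filter, Finset.mem_univ, true_and] at hp ⊢
    rw [← hab]
    exact quot_rect hF (by simp) hp h1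

theorem card_cls (n : ℕ) (F X : Finset (List L)) : (cls n F X).card =
    (Finset.univ.filter (fun g : Fin n → L => quot F (List.ofFn g) = X)).card := by
  rw [cls, Finset.card_image_of_injective _ List.ofFn_injective]

theorem sum_cls (n : ℕ) (F : Finset (List L)) :
    ∑ X ∈ Xn n F, (cls n F X).card * us n X = A n n F := by
  rw [A_eq_sum, Finset.sum_comp (fun X => us n X) (fun g : Fin n → L => quot F (List.ofFn g))]
  refine Finset.sum_congr rfl fun X _ => ?_
  rw [smul_eq_mul, card_cls]

/-- the growth property -/
def P (n : ℕ) (F : Finset (List L)) : Prop := A n 1 F ≤ 2 * A n 0 F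

theorem A_le (n : ℕ) : ∀ (j : ℕ) (F : Finset (List L)),
    (∀ g : List L, g ≠ [] → P n (quot F g)) → A n (j + 1) F ≤ 2 ^ j * A n 1 F := by
  intro j
  induction j with
  | zero => intro F _; simp
  | succ j ih =>
    intro F hP
    have h1 : ∀ l : L, A n (j + 1) (quot F [l]) ≤ 2 * A n j (quot F [l]) := by
      intro l
      clear ih
      have hP' : ∀ g : List L, P n (quot (quot F [l]) g) := by
        intro g
        rw [quot_quot]
        exact hP _ (by simp)
      generalize quot F [l] = F' at hP'
      clear hP
      induction j generalizing F' with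
      | zero => simpa [P, quot_nil] using hP' []
      | succ j ih2 =>
        rw [A, A, Finset.mul_sum]
        refine Finset.sum_le_sum fun m _ => ih2 _ ?_
        intro g
        rw [quot_quot]
        exact hP' _
    calc A n (j + 1 + 1) F = ∑ l, A n (j + 1) (quot F [l]) := rfl
      _ ≤ ∑ l, 2 * A n j (quot F [l]) := Finset.sum_le_sum fun l _ => h1 l
      _ = 2 * A n (j + 1) F := by rw [← Finset.mul_sum]; rfl
      _ ≤ 2 * (2 ^ j * A n 1 F) := Nat.mul_le_mul_left _ (ih F hP)
      _ = 2 ^ (j + 1) * A n 1 F := by ring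

/-- all `t` are small -/
def Small (n : ℕ) (F : Finset (List L)) : Prop :=
  ∀ h g : List L, g.length = n → (quot F (g ++ h)).Nonempty →
    3 * 2 ^ n * t (cls n (quot F h) (quot F (g ++ h))) ≤
      (cls n (quot F h) (quot F (g ++ h))).card

theorem Small.quot {n : ℕ} {F : Finset (List L)} (h : Small n F) (q : List L) :
    Small n (quot F q) := by
  intro p g hg hne
  rw [quot_quot, quot_quot, List.append_assoc] at *
  exact h (p ++ q) g hg hne

theorem quot_long {k : ℕ} {F : Finset (List L)} (hF : Good k F) {g : List L}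
    (hg : k < g.length) : quot F g = ∅ := by
  rw [Finset.eq_empty_iff_forall_notMem]
  intro w hw
  have := hF.len _ (mem_quot.mp hw)
  simp at this
  omega

/-- the main growth step -/
theorem growth {n : ℕ} (hn : 2 ≤ n) : ∀ (k : ℕ) (F : Finset (List L)), 1 ≤ k → Good k F →
    Small n F → P n F := by
  intro k
  induction k using Nat.strong_induction_on with
  | _ k ih =>
    intro F hk hF hS
    have hP : ∀ g : List L, g ≠ [] → P n (quot F g) := by
      intro g hg
      have hg1 : 1 ≤ g.length := List.length_pos_iff.mpr hg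
      rcases Nat.lt_or_ge g.length k with h1 | h1
      · exact ih (k - g.length) (by omega) _ (by omega) (hF.quot g h1.le) (hS.quot g)
      · have : A n 1 (quot F g) = 0 := by
          simp only [A]
          refine Finset.sum_eq_zero fun l _ => ?_
          rw [quot_quot, quot_long hF (by simp; omega), us_empty]
        simp [P, this]
    have h1 := gs_ineq (n := n) (by omega) hF
    have h2 := six_le (n := n) hF
    have h3 := A_le n 1 F hP
    have h4 : 3 * 2 ^ n * ∑ X ∈ Xn n F, us n X * t (cls n F X) ≤ A n n F := by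
      rw [← sum_cls, Finset.mul_sum]
      refine Finset.sum_le_sum fun X hX => ?_
      rcases Finset.eq_empty_or_nonempty X with rfl | hne
      · simp [us_empty]
      · obtain ⟨g, -, hg⟩ := Finset.mem_image.mp hX
        have h5 := hS [] (List.ofFn g) (by simp) (by rw [List.append_nil, hg]; exact hne)
        rw [List.append_nil, hg, quot_nil] at h5
        calc 3 * 2 ^ n * (us n X * t (cls n F X))
            = (3 * 2 ^ n * t (cls n F X)) * us n X := by ring
          _ ≤ (cls n F X).card * us n X := Nat.mul_le_mul_right _ h5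
    obtain ⟨m, rfl⟩ : ∃ m, n = m + 1 := ⟨n - 1, by omega⟩
    have h5 := A_le (m + 1) m F hP
    have e0 : ∑ l, Module.finrank ℚ (S (m + 1) (quot F [l])) = A (m + 1) 1 F := rfl
    have e1 : ∑ X ∈ X2 F, Module.finrank ℚ (S (m + 1) X) = ∑ X ∈ X2 F, us (m + 1) X := rfl
    have e2 : ∑ X ∈ Xn (m + 1) F, Module.finrank ℚ (S (m + 1) X) * t (cls (m + 1) F X) =
        ∑ X ∈ Xn (m + 1) F, us (m + 1) X * t (cls (m + 1) F X) := rfl
    have e3 : Module.finrank ℚ (S (m + 1) F) = A (m + 1) 0 F := rfl
    rw [e0, e1, e2, e3] at h1
    unfold P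
    generalize A (m + 1) 1 F = a1 at *
    generalize A (m + 1) 0 F = a0 at *
    generalize A (m + 1) 2 F = a2 at *
    generalize A (m + 1) (m + 1) F = an at *
    generalize ∑ X ∈ X2 F, us (m + 1) X = s2 at *
    generalize ∑ X ∈ Xn (m + 1) F, us (m + 1) X * t (cls (m + 1) F X) = sn at *
    have hp : 0 < 2 ^ m := by positivity
    rw [pow_succ] at h4
    have h6 : 6 * sn ≤ a1 := by
      have : 2 ^ m * (6 * sn) ≤ 2 ^ m * a1 := by nlinarith
      exact Nat.le_of_mul_le_mul_left this hp
    omega

/-- counting words by the last letter -/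
theorem card_le_sum {k : ℕ} {F : Finset (List L)} (hF : Good (k + 1) F) :
    F.card ≤ ∑ l, (quot F [l]).card := by
  have h1 : F ⊆ Finset.univ.biUnion (fun l => (quot F [l]).image (fun w => w ++ [l])) := by
    intro w hw
    have hl := hF.len w hw
    have hne : w ≠ [] := by rintro rfl; simp at hl
    refine Finset.mem_biUnion.mpr ⟨w.getLast hne, Finset.mem_univ _, Finset.mem_image.mpr
      ⟨w.dropLast, ?_, List.dropLast_append_getLast hne⟩⟩
    rw [mem_quot, List.dropLast_append_getLast hne]
    exact hw
  refine (Finset.card_le_card h1).trans (Finset.card_biUnion_le.trans ?_)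
  exact Finset.sum_le_sum fun l _ => Finset.card_image_le

theorem us_nil {n : ℕ} (hn : 1 ≤ n) : 1 ≤ us n ({[]} : Finset (List L)) := by
  let δ : List L → ℚ := fun w => if w = [] then 1 else 0
  have hδ : δ ∈ S n ({[]} : Finset (List L)) := by
    refine ⟨⟨fun w hw => if_neg (by simpa using hw), fun u v => ?_⟩, fun u g v hg => ?_⟩
    · refine Finset.sum_eq_zero fun a _ => Finset.sum_eq_zero fun b _ => if_neg (by simp)
    · refine Br_zero_of _ _ _ fun w hw => if_neg ?_
      rintro rfl
      have := hw.length_eq
      simp at this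
      omega
  have hne : (⟨δ, hδ⟩ : S n ({[]} : Finset (List L))) ≠ 0 := by
    intro h
    have := congrFun (congrArg Subtype.val h) []
    simp [δ] at this
  have : Nontrivial (S n ({[]} : Finset (List L))) := ⟨⟨_, _, hne⟩⟩
  exact Module.finrank_pos

theorem card_le_us {n : ℕ} (hn : 2 ≤ n) : ∀ (k : ℕ) (F : Finset (List L)), Good k F →
    Small n F → F.card ≤ 2 ^ k * us n F := by
  intro k
  induction k with
  | zero =>
    intro F hF _
    rcases Finset.eq_empty_or_nonempty F with rfl | ⟨w, hw⟩
    · simp
    · have hw0 : w = [] := List.length_eq_zero_iff.mp (hF.len w hw)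
      have hFs : F = {[]} := by
        ext x
        simp only [Finset.mem_singleton]
        constructor
        · intro hx; exact List.length_eq_zero_iff.mp (hF.len x hx)
        · rintro rfl; rw [← hw0]; exact hw
      subst hFs
      simpa using us_nil (by omega)
  | succ k ih =>
    intro F hF hS
    have h1 : P n F := growth hn (k + 1) F (by omega) hF hS
    calc F.card ≤ ∑ l, (quot F [l]).card := card_le_sum hF
      _ ≤ ∑ l, 2 ^ k * us n (quot F [l]) := by
          refine Finset.sum_le_sum fun l _ => ih _ ?_ (hS.quot [l])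
          have := hF.quot [l] (by simp)
          simpa using this
      _ = 2 ^ k * A n 1 F := by rw [← Finset.mul_sum]; rfl
      _ ≤ 2 ^ k * (2 * A n 0 F) := Nat.mul_le_mul_left _ h1
      _ = 2 ^ (k + 1) * us n F := by rw [pow_succ]; simp only [A]; ring

/-- the conclusion from (c) and the numerics -/
theorem gs_of {n k C : ℕ} (hn : 2 ≤ n) {F : Finset (List L)} (hF : Good k F) (hne : F.Nonempty)
    (hc : k.factorial * us n F ≤ F.card * C) (hnum : 2 ^ k * C < k.factorial) :
    ∃ h g : List L, g.length = n ∧ (quot F (g ++ h)).Nonempty ∧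
      (cls n (quot F h) (quot F (g ++ h))).card <
        3 * 2 ^ n * t (cls n (quot F h) (quot F (g ++ h))) := by
  by_contra hcon
  push Not at hcon
  have hS : Small n F := fun h g hg hq => hcon h g hg hq
  have h1 := card_le_us hn k F hF hS
  have h2 : 0 < F.card := hne.card_pos
  have h3 : F.card * k.factorial ≤ F.card * (2 ^ k * C) := by
    calc F.card * k.factorial ≤ (2 ^ k * us n F) * k.factorial := Nat.mul_le_mul_right _ h1
      _ = 2 ^ k * (k.factorial * us n F) := by ring
      _ ≤ 2 ^ k * (F.card * C) := Nat.mul_le_mul_left _ hc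
      _ = F.card * (2 ^ k * C) := by ring
  have h4 := Nat.le_of_mul_le_mul_left h3 h2
  omega

end Vale.Agent.P240.R2.H775
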