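import Vale.Agent.P240.R2.H775.RG2

/-!
Rigidity of the BN-pairs of the classical groups, part 3: the elements of the groups
`n U n⁻¹ ∩ P_s`.
-/

set_option autoImplicit false
set_option linter.all false

namespace Vale.Agent.P240.R2.H775.RG

open Subgroup Matrix Vale.Agent.P240.H195 Vale.Agent.P240.R2.H487.CG Vale.Agent.P240.K

section
variable {F : Type*} [Field F] [Finite F] {m : ℕ} {σ : F ≃+* F}

lemma tx_lou {a b : Fin (m + 1)} (h : b < a) (c : F) : LoU (tx h.ne' c) := by
  refine ⟨fun i j hij => ?_, fun i => tx_diag _ _ _⟩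
  rw [tx_apply, if_neg hij.ne, if_neg, add_zero]
  rintro ⟨rfl, rfl⟩
  exact lt_asymm h hij

lemma lou_mul {A B : SLm m F} (hA : LoU A) (hB : LoU B) : LoU (A * B) := by
  obtain ⟨n, hn⟩ := exists_mon (F := F) (m := m) Fin.revPerm
  rw [lou_iff hn] at hA hB ⊢
  have : n⁻¹ * (A * B) * n = n⁻¹ * A * n * (n⁻¹ * B * n) := by group
  rw [this]
  exact mul_mem hA hB

/-! ### Type C -/

lemma C_ne {i : Fin m} (hi : 2 * i.val + 2 < m) :
    i.castSucc ≠ (Fin.rev i).castSucc ∧ i.castSucc ≠ (Fin.rev i).succ ∧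
      i.succ ≠ (Fin.rev i).castSucc ∧ i.succ ≠ (Fin.rev i).succ := by
  have hr : (Fin.rev i).val = m - (i.val + 1) := Fin.val_rev i
  refine ⟨?_, ?_, ?_, ?_⟩ <;> rw [Ne, Fin.ext_iff] <;>
    simp only [Fin.val_castSucc, Fin.val_succ] <;> omega

lemma C_apply {i : Fin m} (hi : 2 * i.val + 2 < m) (a d : F) (u v : Fin (m + 1)) :
    (tx (cs_ne i).symm a * tx (cs_ne (Fin.rev i)).symm d).1 u v =
      (if u = v then 1 else 0) + (if u = (Fin.rev i).succ ∧ v = (Fin.rev i).castSucc then d else 0)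
        + if u = i.succ ∧ v = i.castSucc then a else 0 := by
  obtain ⟨h1, h2, h3, h4⟩ := C_ne hi
  rw [tx_mul_apply, tx_apply, tx_apply]
  congr 1
  by_cases hu : u = i.succ
  · rw [if_pos hu]
    by_cases hv : v = i.castSucc
    · rw [if_pos (⟨hu, hv⟩ : u = i.succ ∧ v = i.castSucc), hv, if_pos rfl, if_neg, add_zero,
        mul_one]
      rintro ⟨h5, h6⟩
      exact h1 h6
    · rw [if_neg (fun h : u = i.succ ∧ v = i.castSucc => hv h.2), if_neg (Ne.symm hv), if_neg,
        add_zero, mul_zero]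
      rintro ⟨h5, h6⟩
      exact h2 h5
  · rw [if_neg hu, if_neg (fun h : u = i.succ ∧ v = i.castSucc => hu h.1)]

lemma C_form {i : Fin m} (hi : 2 * i.val + 2 < m) {A : SLm m F} (hlo : LoU A)
    (hpt : Pt (sw i * sw (Fin.rev i)) A) :
    A = tx (cs_ne i).symm (A.1 i.succ i.castSucc) *
      tx (cs_ne (Fin.rev i)).symm (A.1 (Fin.rev i).succ (Fin.rev i).castSucc) := by
  obtain ⟨h1, h2, h3, h4⟩ := C_ne hi
  refine sl_ext fun u v => ?_
  rw [C_apply hi]
  rcases lt_trichotomy u v with h | h | h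
  · rw [hlo.1 u v h, if_neg h.ne, if_neg, if_neg, add_zero, add_zero]
    · rintro ⟨rfl, rfl⟩
      exact lt_asymm h (cs_lt i)
    · rintro ⟨rfl, rfl⟩
      exact lt_asymm h (cs_lt _)
  · subst h
    rw [hlo.2, if_pos rfl, if_neg, if_neg, add_zero, add_zero]
    · rintro ⟨h5, h6⟩
      exact cs_ne _ (h6.symm.trans h5)
    · rintro ⟨h5, h6⟩
      exact cs_ne _ (h6.symm.trans h5)
  · rw [if_neg h.ne', zero_add]
    by_cases h5 : u = (Fin.rev i).succ ∧ v = (Fin.rev i).castSucc
    · rw [if_pos h5, if_neg, add_zero, h5.1, h5.2]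
      rintro ⟨h6, h7⟩
      exact h4 (h6.symm.trans h5.1)
    · by_cases h6 : u = i.succ ∧ v = i.castSucc
      · rw [if_neg h5, if_pos h6, zero_add, h6.1, h6.2]
      · rw [if_neg h5, if_neg h6, add_zero]
        by_contra hne
        obtain ⟨l, hl1, hl2⟩ := hpt u v h hne
        have hl := C_lt hi (lt_of_le_of_lt hl1 (lt_of_lt_of_le h hl2))
        rw [Fin.le_def] at hl1 hl2
        rw [Fin.lt_def] at h
        rcases hl with ⟨h9, h10⟩ | ⟨h9, h10⟩
        · apply h6
          rw [h10, Fin.val_succ] at hl2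
          rw [h9, Fin.val_castSucc] at hl1
          constructor <;> rw [Fin.ext_iff] <;> simp only [Fin.val_castSucc, Fin.val_succ] <;> omega
        · apply h5
          rw [h10, Fin.val_succ] at hl2
          rw [h9, Fin.val_castSucc] at hl1
          constructor <;> rw [Fin.ext_iff] <;> simp only [Fin.val_castSucc, Fin.val_succ] <;> omega

end

end Vale.Agent.P240.R2.H775.RG
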