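import Vale.Agent.P240.R2.H38.D4
import Vale.Agent.P240.R2.H775.RG3

/-!
Rigidity of the BN-pairs of groups of type D, part 1: lower triangular isometries.
-/

set_option autoImplicit false
set_option linter.all false

namespace Vale.Agent.P240.R2.H775.RD

open Subgroup Matrix Vale.Agent.P240.H195 Vale.Agent.P240.R2.H487.CG
open Vale.Agent.P240.K (cj mem_cj)
open Vale.Agent.P240.R2.H38.DD
open Vale.Agent.P240.R2.H775.RG (Pt LoU pt_of_dc pt_of_up C_lt C_form C_ne C_apply tx_lou lou_mul)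

section
variable {k : ℕ} {F : Type*} [Field F]

/-- a transvection that is an isometry is trivial -/
lemma tx_iso {a b : VI k} (h : a ≠ b) (h' : a ≠ Fin.rev b) {e : F}
    (hx : (tx h e : SLm (2 * k + 1) F) ∈ SOD k F) : e = 0 := by
  have h1 := C1 hx b (Fin.rev a)
  have hb : Fin.rev a ≠ b := fun h2 => h' (by rw [← h2, Fin.rev_rev])
  rw [if_neg (rv_inj h), Finset.sum_eq_single a] at h1
  · rw [tx_apply, tx_apply, if_neg h, if_pos ⟨rfl, rfl⟩, if_pos rfl,
      if_neg (fun h2 : Fin.rev a = a ∧ Fin.rev a = b => hb h2.2), zero_add, add_zero, mul_one] at h1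
    exact h1
  · intro l _ hl
    rw [tx_apply (a := a) (b := b) h e (Fin.rev l),
      if_neg (fun h2 => hl (Fin.rev_injective h2)), if_neg (fun h2 => hb h2.2), add_zero, mul_zero]
  · exact fun h => absurd (Finset.mem_univ _) h

/-- the middle entry of a lower triangular isometry is zero -/
lemma lo_mid {A : SLm (2 * k + 1) F} (hA : A ∈ SOD k F) (hl : LoU A) : A.1 (c1 k) (c0 k) = 0 := by
  have h1 := C2 hA (c0 k)
  rw [HS_eq, Finset.sum_eq_single (c0 k)] at h1
  · have h2 : c0 k < Fin.rev (c0 k) := by rw [lt_rv]; exact le_rfl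
    rw [if_pos h2, rev_c0, hl.2, one_mul] at h1
    exact h1
  · intro l _ hne
    by_cases h2 : l < Fin.rev l
    · rw [if_pos h2]
      have h3 : l < c0 k := by
        have h5 := lt_rv.1 h2
        have h6 : l.val ≠ k := fun h => hne (Fin.ext h)
        rw [Fin.lt_def]
        change _ < k
        omega
      rw [hl.1 _ _ h3, zero_mul]
    · rw [if_neg h2]
  · exact fun h => absurd (Finset.mem_univ _) h

lemma gm_lou {A : SLm (2 * k + 1) F} (hA : A ∈ SOD k F) (hl : LoU A) : LoU (gm k F A) := by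
  refine ⟨fun i j hij => ?_, fun i => ?_⟩
  · rw [gm_apply]
    by_cases h : pp k i < pp k j
    · exact hl.1 _ _ h
    · have h1 : pp k j ≠ pp k i := fun h1 => hij.ne' ((pp k).injective h1)
      have h2 : pp k j < pp k i := lt_of_le_of_ne (not_lt.1 h) h1
      have h3 : j = c1 k ∧ i = c0 k := adj_swap (m := 2 * k + 1) ⟨k, by omega⟩ hij h2.le
      rw [h3.1, h3.2]
      unfold pp
      rw [Equiv.swap_apply_left, Equiv.swap_apply_right]
      exact lo_mid hA hl
  · rw [gm_apply]
    exact hl.2 _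

lemma xr_lou {a b : VI k} (h : a < b) (t : F) : LoU (xr b a t) := by
  refine ⟨fun i j hij => ?_, xr_diag h.ne' t⟩
  rw [xr_apply h.ne', if_neg hij.ne, if_neg, if_neg, add_zero, add_zero]
  · rintro ⟨rfl, rfl⟩
    exact lt_asymm hij (Fin.rev_lt_rev.2 h)
  · rintro ⟨rfl, rfl⟩
    exact lt_asymm hij h

/-- multiplication by a root element from the left -/
lemma xr_mul {a b : VI k} (h : a ≠ b) (h' : a ≠ Fin.rev b) (t : F) (M : SLm (2 * k + 1) F)
    (i j : VI k) : (xr a b t * M).1 i j = M.1 i j + (if i = a then t * M.1 b j else 0) +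
      (if i = Fin.rev b then -t * M.1 (Fin.rev a) j else 0) := by
  have hb : b ≠ Fin.rev b := (rv_ne b).symm
  rw [xr_def h, mul_assoc, tx_mul_apply, tx_mul_apply, tx_mul_apply]
  by_cases hi : i = a
  · subst hi
    simp [h', hb]
  · simp [hi]

/-- the torus elements of a root -/
lemma exists_torus [Finite F] {H : Subgroup (SLm (2 * k + 1) F)} (hg : Good H) {a b : VI k}
    (h : a ≠ b) (h' : a ≠ Fin.rev b) {c : F} (hc : c ≠ 0) :
    ∃ t ∈ H, Mon t 1 ∧ ∀ s : F, t * xr b a s * t⁻¹ = xr b a (c ^ 2 * s) := by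
  have hba' : b ≠ Fin.rev a := fun h5 => h' (by rw [h5, Fin.rev_rev])
  have hb : b ≠ Fin.rev b := (rv_ne b).symm
  have ha : a ≠ Fin.rev a := (rv_ne a).symm
  have key : ∀ d : F, d ≠ 0 → ∃ w ∈ H, Mon w (Equiv.swap a b * Equiv.swap (Fin.rev b) (Fin.rev a)) ∧
      w.1 b a = d ∧ w.1 a b = -d⁻¹ := by
    intro d hd
    refine ⟨xr a b (-d⁻¹) * (xr b a d * xr a b (-d⁻¹)),
      mul_mem (hg.xr a b h h' _) (mul_mem (hg.xr b a h.symm hba' _) (hg.xr a b h h' _)),
      xr_rank h h' hd, ?_, ?_⟩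
    · rw [xr_mul h h', xr_mul h.symm hba', if_neg h.symm, if_neg hb, if_pos rfl, if_neg hba',
        xr_diag h, xr_apply h, if_neg h.symm, if_neg (fun h1 => h h1.2), if_neg (fun h1 => hb h1.1)]
      ring
    · rw [xr_mul h h', xr_mul h.symm hba', xr_mul h.symm hba', if_pos rfl, if_neg h', if_neg h,
        if_neg ha, if_pos rfl, if_neg hba', xr_diag h, xr_apply h, if_neg h, if_pos ⟨rfl, rfl⟩,
        if_neg (fun h1 => h' h1.1)]
      field_simp
      ring
  obtain ⟨w, hwH, hwM, hw1, hw2⟩ := key c hc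
  obtain ⟨v, hvH, hvM, hv1, hv2⟩ := key 1 one_ne_zero
  set τ := Equiv.swap a b * Equiv.swap (Fin.rev b) (Fin.rev a) with hτ
  have hτa : τ a = b := by
    rw [hτ, Equiv.Perm.mul_apply, Equiv.swap_apply_of_ne_of_ne h' ha, Equiv.swap_apply_left]
  have hτb : τ b = a := by
    rw [hτ, Equiv.Perm.mul_apply, Equiv.swap_apply_of_ne_of_ne hb hba', Equiv.swap_apply_right]
  refine ⟨w * v⁻¹, mul_mem hwH (inv_mem hvH), ?_, fun s => ?_⟩
  · have := mon_mul hwM (mon_inv hvM)
    rwa [mul_inv_cancel] at this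
  · have h1 := xr_conj (hg.le hvH) hvM h (-s)
    have h2 := xr_conj (hg.le hwH) hwM h (-s)
    rw [hτa, hτb, hv1, hv2] at h1
    rw [hτa, hτb, hw1, hw2] at h2
    have e1 : (1 : F) * -s * (-1⁻¹)⁻¹ = s := by
      rw [inv_one, inv_neg, inv_one]
      ring
    have e2 : c * -s * (-c⁻¹)⁻¹ = c ^ 2 * s := by
      rw [inv_neg, inv_inv]
      ring
    rw [e1] at h1
    rw [e2] at h2
    rw [← h1, ← h2]
    group

variable [Finite F]

/-- lower triangular isometries with the zero pattern of `tau i` -/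
lemma tau_form {i : Fin k} {A : SLm (2 * k + 1) F} (hA : A ∈ SOD k F) (hl : LoU A)
    (hp : Pt (tau i) A) : A = xr (ib i) (ia i) (A.1 (ib i) (ia i)) := by
  have hi := i.2
  let j : Fin (2 * k + 1) := ⟨i.val, by omega⟩
  have hj : 2 * j.val + 2 < 2 * k + 1 := by
    change 2 * i.val + 2 < 2 * k + 1
    omega
  have e1 : j.castSucc = ia i := rfl
  have e2 : j.succ = ib i := rfl
  have e3 : (Fin.rev j).castSucc = Fin.rev (ib i) := (rev_succ' j).symm
  have e4 : (Fin.rev j).succ = Fin.rev (ia i) := (rev_castSucc' j).symm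
  have hp' : Pt (sw j * sw (Fin.rev j)) A := by
    have : sw j * sw (Fin.rev j) = tau i := by
      unfold tau
      simp only [sw]
      rw [e1, e2, e3, e4]
    rw [this]
    exact hp
  have hf := C_form hj hl hp'
  have hne : Fin.rev (ia i) ≠ Fin.rev (ib i) := fun h => ia_ne i (Fin.rev_injective h)
  set a := A.1 (ib i) (ia i) with ha
  set d := A.1 (Fin.rev (ia i)) (Fin.rev (ib i)) with hd
  have hf' : A = tx (ia_ne i).symm a * tx hne d := by
    refine hf.trans ?_
    congr 1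
    exact tx_congr e4 e3 (by rw [e3, e4])
  have hx := xr_def (ia_ne i).symm a
  have h1 : A = xr (ib i) (ia i) a * tx hne (a + d) := by
    rw [hf', hx]
    have : (tx hne (a + d) : SLm (2 * k + 1) F) = tx hne a * tx hne d := (tx_mul_tx hne a d).symm
    rw [this]
    have h2 : (tx (rv_inj (ia_ne i).symm) (-a) : SLm (2 * k + 1) F) = (tx hne a)⁻¹ :=
      (tx_inv hne a).symm
    rw [h2]
    group
  have h3 : (tx hne (a + d) : SLm (2 * k + 1) F) ∈ SOD k F := by
    have : (tx hne (a + d) : SLm (2 * k + 1) F) = (xr (ib i) (ia i) a)⁻¹ * A := by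
      rw [h1]
      group
    rw [this]
    refine mul_mem (inv_mem (xr_mem (ia_ne i).symm (fun h => ia_ne' i ?_) a)) hA
    rw [h, Fin.rev_rev]
  have h4 := tx_iso hne (fun h => ia_ne' i (by rw [Fin.rev_rev] at h; rw [← h, Fin.rev_rev])) h3
  rw [h1, h4, tx_zero, mul_one]

end

end Vale.Agent.P240.R2.H775.RD
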