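import Vale.Agent.P240.R2.H195.RigB
import Vale.Agent.P240.R2.H775.RG2
import Vale.Agent.P240.R2.H775.RD1

/-!
Rigidity of the BN-pairs of groups of type D, part 2: the main result.
-/

set_option autoImplicit false
set_option linter.all false

namespace Vale.Agent.P240.R2.H775.RD

open Subgroup Matrix Vale.Agent.P240.H195 Vale.Agent.P240.R2.H487.CG
open Vale.Agent.P240.K (cj mem_cj)
open Vale.Agent.P240.R2.H38.DD
open Vale.Agent.P240.R2.H775.RG (Pt LoU pt_of_dc pt_of_up lin_fix diag_comm)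

section
variable {k : ℕ} {F : Type*} [Field F] [Finite F] {H : Subgroup (SLm (2 * k + 1) F)}

/-- the two root groups of a simple reflection -/
lemma Sim_roots {s : SLm (2 * k + 1) F} (hs : Sim s) : ∃ a b : VI k, a < b ∧ a ≠ Fin.rev b ∧
    (∃ τ, Mon s τ ∧ τ a = b ∧ τ b = a) ∧
    ∀ A ∈ SOD k F, LoU A → ∀ x y : SLm (2 * k + 1) F, x ∈ SOD k F → y ∈ SOD k F → IsUp x →
      IsUp y → (A = x * s * y ∨ A = x) → A = xr b a (A.1 b a) := by
  obtain ⟨i, hi | hi⟩ := hs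
  · refine ⟨ia i, ib i, ia_lt i, ia_ne' i, ⟨_, hi, tau_a i, tau_b i⟩, ?_⟩
    intro A hA hl x y hx hy hxu hyu hxy
    refine tau_form hA hl ?_
    rcases hxy with h | h
    · rw [h]
      exact pt_of_dc hi hxu hyu
    · rw [h]
      exact pt_of_up hxu
  · have ha : pp k (ia i) = ia i := by
      unfold pp
      refine Equiv.swap_apply_of_ne_of_ne ?_ ?_ <;> rw [Ne, Fin.ext_iff, ia_val]
      · change ¬ i.val = k
        omega
      · change ¬ i.val = k + 1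
        omega
    have hlt : pp k (ia i) < pp k (ib i) := by
      rw [ha]
      unfold pp
      rw [Equiv.swap_apply_def, Fin.lt_def]
      split_ifs with h1 h2
      · change i.val < k + 1
        omega
      · exfalso
        rw [Fin.ext_iff, ib_val] at h2
        have : i.val + 1 = k + 1 := h2
        have := i.2
        omega
      · exact ia_lt i
    have hne' : pp k (ia i) ≠ Fin.rev (pp k (ib i)) := by
      intro h
      rw [← pp_rev] at h
      exact ia_ne' i ((pp k).injective h)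
    refine ⟨pp k (ia i), pp k (ib i), hlt, hne', ⟨_, hi, ?_, ?_⟩, ?_⟩
    · rw [Equiv.Perm.mul_apply, Equiv.Perm.mul_apply, pp_pp, tau_a]
    · rw [Equiv.Perm.mul_apply, Equiv.Perm.mul_apply, pp_pp, tau_b]
    · intro A hA hl x y hx hy hxu hyu hxy
      have hi' := gm_mon hi
      rw [pp_conj] at hi'
      have h1 : Pt (tau i) (gm k F A) := by
        rcases hxy with h | h
        · rw [h, map_mul, map_mul]
          exact pt_of_dc hi' (gm_up hx hxu) (gm_up hy hyu)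
        · rw [h]
          exact pt_of_up (gm_up hx hxu)
      have h2 := tau_form (gm_SOD hA) (gm_lou hA hl) h1
      have h3 := congrArg (gm k F) h2
      rw [gm_gm, gm_xr (ia_ne i).symm] at h3
      have h4 : (gm k F A).1 (ib i) (ia i) = A.1 (pp k (ib i)) (pp k (ia i)) := gm_apply A _ _
      rw [h4] at h3
      exact h3

/-- upper triangular elements of `H` -/
abbrev BH (H : Subgroup (SLm (2 * k + 1) F)) : Subgroup ↥H := (BU (2 * k + 1) F).subgroupOf H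

/-- upper unitriangular elements of `H` -/
abbrev UH (H : Subgroup (SLm (2 * k + 1) F)) : Subgroup ↥H := (UU (2 * k + 1) F).subgroupOf H

lemma mem_BH' {x : ↥H} : x ∈ BH H ↔ IsUp x.1 := Iff.rfl

lemma mem_UH' {x : ↥H} : x ∈ UH H ↔ x.1 ∈ UU (2 * k + 1) F := Iff.rfl

section
variable {L : Type*} [Group L] {π : ↥H →* L}

/-- opposite elements reverse the order -/
lemma anti (hg : Good H) (hker : ∀ x : ↥H, π x = 1 → Mon x.1 1) {n : ↥H}
    {σ : Equiv.Perm (VI k)} (hσ : Mon n.1 σ)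
    (hopp : ∀ x ∈ (UH H).map π, π n * x * (π n)⁻¹ ∈ (UH H).map π → x = 1)
    {a b : VI k} (hab : a < b) (hab' : a ≠ Fin.rev b) : σ b < σ a := by
  by_contra hcon
  have hlt : σ a < σ b := lt_of_le_of_ne (not_lt.1 hcon) fun h1 => hab.ne (σ.injective h1)
  have hx : xr a b (1 : F) ∈ H := hg.xr a b hab.ne hab' 1
  have h1 : π ⟨_, hx⟩ ∈ (UH H).map π := ⟨_, mem_UH'.2 ⟨xr_up hab 1, xr_diag hab.ne 1⟩, rfl⟩
  have h2 : π n * π ⟨_, hx⟩ * (π n)⁻¹ ∈ (UH H).map π := by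
    rw [← map_inv, ← map_mul, ← map_mul]
    refine ⟨_, mem_UH'.2 ?_, rfl⟩
    change n.1 * xr a b 1 * n.1⁻¹ ∈ _
    rw [xr_conj (hg.le n.2) hσ hab.ne]
    exact ⟨xr_up hlt _, xr_diag hlt.ne _⟩
  have h3 := hker _ (hopp _ h1 h2)
  have h4 := mon_eq h3 (i := a) (j := b) (by
    rw [Equiv.Perm.one_apply]; exact hab.ne)
  change (xr a b (1 : F)).1 a b = 0 at h4
  rw [xr_apply hab.ne, if_neg hab.ne, if_pos ⟨rfl, rfl⟩, if_neg, zero_add, add_zero] at h4
  · exact one_ne_zero h4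
  · rintro ⟨h5, -⟩
    exact hab' h5

omit [Finite F] in
lemma anti' {σ : Equiv.Perm (VI k)} 
    (hanti : ∀ {a b : VI k}, a < b → a ≠ Fin.rev b → σ b < σ a) {a b : VI k} (hab : a < b)
    (hne : ¬ (a = c0 k ∧ b = c1 k)) : σ b < σ a := by
  by_cases hab' : a = Fin.rev b
  · have hb : b = Fin.rev a := by rw [hab', Fin.rev_rev]
    have ha0 : a ≠ c0 k := fun h1 => hne ⟨h1, by rw [hb, h1, rev_c0]⟩
    have hak : a.val < k := by
      have h1 : a.val ≤ k := lt_rv.1 (by rw [← hb]; exact hab)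
      have h2 : a.val ≠ k := fun h2 => ha0 (Fin.ext h2)
      omega
    have hac : a < c0 k := by rw [Fin.lt_def]; exact hak
    have h1 := hanti hac (by
      rw [rev_c0]
      intro h2
      rw [h2, Fin.lt_def] at hac
      have : k + 1 < k := hac
      omega)
    have hcb : c0 k < b := by
      rw [hb, ← Fin.rev_rev (c0 k), Fin.rev_lt_rev, rev_c0, Fin.lt_def]
      change a.val < k + 1
      omega
    have h2 := hanti hcb (by
      rw [hb, Fin.rev_rev]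
      exact hac.ne')
    exact h2.trans h1
  · exact hanti hab hab'

lemma lou_conj (hg : Good H) {n u : ↥H} {σ : Equiv.Perm (VI k)} (hσ : Mon n.1 σ)
    (hanti : ∀ {a b : VI k}, a < b → ¬ (a = c0 k ∧ b = c1 k) → σ b < σ a)
    (hu' : u.1 ∈ UU (2 * k + 1) F) : LoU (n.1 * u.1 * n.1⁻¹) := by
  have hσs : ∀ x, σ (σ.symm x) = x := fun x => σ.apply_symm_apply x
  refine ⟨fun i j hij => ?_, fun i => ?_⟩
  · by_contra hne
    have h1 := (mon_conj_ne hσ u.1 (σ.symm i) (σ.symm j)).1 (by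
      rw [hσs, hσs]
      exact hne)
    rcases lt_trichotomy (σ.symm i) (σ.symm j) with h2 | h2 | h2
    · by_cases h3 : σ.symm i = c0 k ∧ σ.symm j = c1 k
      · rw [h3.1, h3.2] at h1
        exact h1 (up_mid (hg.le u.2) hu'.1)
      · have h4 := hanti h2 h3
        rw [hσs, hσs] at h4
        exact lt_asymm h4 hij
    · exact hij.ne (σ.symm.injective h2)
    · exact h1 (hu'.1 _ _ h2)
  · have h1 := mon_conj hσ u.1 (σ.symm i) (σ.symm i)
    rw [hσs] at h1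
    rw [h1, hu'.2, mul_one]
    have h2 := mon_ne hσ (σ.symm i)
    rw [hσs] at h2
    exact mul_inv_cancel₀ h2

/-- the kernel is trivial on lower unitriangular elements -/
lemma pi_inj (hker : ∀ x : ↥H, π x = 1 → Mon x.1 1) {x y : ↥H} (hx : LoU x.1) (hy : LoU y.1)
    (hxy : π x = π y) : x = y := by
  have h1 : π (x⁻¹ * y) = 1 := by rw [map_mul, map_inv, hxy, inv_mul_cancel]
  have h2 := hker _ h1
  obtain ⟨n, hn⟩ := exists_mon (F := F) (m := 2 * k + 1) Fin.revPerm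
  have h3 : LoU (x⁻¹ * y).1 := by
    rw [RG.lou_iff hn] at hx hy ⊢
    have e : n⁻¹ * (x⁻¹ * y).1 * n = (n⁻¹ * x.1 * n)⁻¹ * (n⁻¹ * y.1 * n) := by
      change n⁻¹ * (x.1⁻¹ * y.1) * n = _
      group
    rw [e]
    exact mul_mem (inv_mem hx) hy
  have h4 : (x⁻¹ * y).1 = 1 := by
    refine sl_ext fun i j => ?_
    rw [sl_one]
    by_cases h5 : i = j
    · rw [if_pos h5, h5, h3.2]
    · rw [if_neg h5]
      exact mon_eq h2 (by rw [Equiv.Perm.one_apply]; exact h5)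
  have h5 : x⁻¹ * y = 1 := Subtype.ext h4
  exact inv_mul_eq_one.1 h5

/-- the elements of `n U n⁻¹ ∩ P_s` -/
lemma X_form (hg : Good H) (hB : ∀ x, π x ∈ (BH H).map π ↔ x ∈ BH H) {s : ↥H} {a b : VI k}
    (hPar : ∀ {y}, y ∈ Par ((BH H).map π) (π s) → y ∈ (BH H).map π ∨ DC ((BH H).map π) (π s) y)
    (hform : ∀ A ∈ SOD k F, LoU A → ∀ x y : SLm (2 * k + 1) F, x ∈ SOD k F → y ∈ SOD k F →
      IsUp x → IsUp y → (A = x * s.1 * y ∨ A = x) → A = xr b a (A.1 b a))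
    (hxm : ∀ c : F, xr b a c ∈ H) {n : ↥H} {σ : Equiv.Perm (VI k)} (hσ : Mon n.1 σ)
    (hanti : ∀ {a b : VI k}, a < b → ¬ (a = c0 k ∧ b = c1 k) → σ b < σ a) {y : L}
    (hyP : y ∈ Par ((BH H).map π) (π s)) (hyU : (π n)⁻¹ * y * π n ∈ (UH H).map π) :
    ∃ c : F, y = π ⟨xr b a c, hxm c⟩ := by
  obtain ⟨u, hu, hue⟩ := hyU
  obtain ⟨A, hA⟩ : ∃ A, A = n * u * n⁻¹ := ⟨_, rfl⟩
  have hyA : y = π A := by
    rw [hA, map_mul, map_mul, map_inv, hue]
    group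
  have hlo : LoU A.1 := by
    rw [hA]
    exact lou_conj hg hσ hanti (mem_UH'.1 hu)
  refine ⟨A.1.1 b a, ?_⟩
  rw [hyA]
  congr 1
  refine Subtype.ext ?_
  rcases hPar hyP with hyP | ⟨a', ⟨x, hx, rfl⟩, b', ⟨z, hz, rfl⟩, hxz⟩
  · rw [hyA, hB] at hyP
    exact hform A.1 (hg.le A.2) hlo A.1 1 (hg.le A.2) (one_mem _) (mem_BH'.1 hyP) up_one
      (Or.inr rfl)
  · rw [hyA, ← map_mul, ← map_mul] at hxz
    have h1 : π ((x * s * z)⁻¹ * A) ∈ (BH H).map π := by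
      rw [map_mul, hxz, map_inv, inv_mul_cancel]
      exact one_mem _
    have h2 : z * ((x * s * z)⁻¹ * A) ∈ BH H := mul_mem hz ((hB _).1 h1)
    refine hform A.1 (hg.le A.2) hlo x.1 (z * ((x * s * z)⁻¹ * A)).1 (hg.le x.2)
      (hg.le (z * ((x * s * z)⁻¹ * A)).2) (mem_BH'.1 hx) (mem_BH'.1 h2) (Or.inl ?_)
    have e : A = x * s * (z * ((x * s * z)⁻¹ * A)) := by group
    exact congrArg Subtype.val e

lemma X_mem (hg : Good H) {s : ↥H} {a b : VI k} (hab : a < b) (hab' : a ≠ Fin.rev b)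
    {τ : Equiv.Perm (VI k)} (hτs : Mon s.1 τ) (hτa : τ a = b) (hτb : τ b = a)
    (hxm : ∀ c : F, xr b a c ∈ H) {n : ↥H} {σ : Equiv.Perm (VI k)} (hσ : Mon n.1 σ)
    (hanti : ∀ {a b : VI k}, a < b → a ≠ Fin.rev b → σ b < σ a) (c : F) :
    π ⟨xr b a c, hxm c⟩ ∈ Par ((BH H).map π) (π s) ∧
      (π n)⁻¹ * π ⟨xr b a c, hxm c⟩ * π n ∈ (UH H).map π := by
  have hnS : n.1 ∈ SOD k F := hg.le n.2
  constructor
  · obtain ⟨d, hd⟩ := xr_conj' (hg.le s.2) hτs hab.ne' c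
    have hτ1 : τ⁻¹ b = a := by rw [Equiv.Perm.inv_eq_iff_eq, hτa]
    have hτ2 : τ⁻¹ a = b := by rw [Equiv.Perm.inv_eq_iff_eq, hτb]
    rw [hτ1, hτ2] at hd
    have h1 : s⁻¹ * ⟨xr b a c, hxm c⟩ * s ∈ BH H := by
      rw [mem_BH']
      change IsUp (s.1⁻¹ * xr b a c * s.1)
      rw [hd]
      exact xr_up hab d
    have e : π ⟨xr b a c, hxm c⟩ = π s * π (s⁻¹ * ⟨xr b a c, hxm c⟩ * s) * (π s)⁻¹ := by
      rw [← map_inv, ← map_mul, ← map_mul]
      congr 1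
      group
    rw [e]
    exact mul_mem (mul_mem self_mem_Par (le_Par ⟨_, h1, rfl⟩)) (inv_mem self_mem_Par)
  · obtain ⟨d, hd⟩ := xr_conj' hnS hσ hab.ne' c
    have hσi : ∀ x, σ (σ⁻¹ x) = x := fun x => σ.apply_symm_apply x
    have h1 : σ⁻¹ b < σ⁻¹ a := by
      by_contra hcon
      have h2 : σ⁻¹ a ≠ σ⁻¹ b := fun h3 => hab.ne (σ⁻¹.injective h3)
      have h3 : σ⁻¹ a < σ⁻¹ b := lt_of_le_of_ne (not_lt.1 hcon) h2
      have h4 := hanti h3 (by
        intro h5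
        apply hab'
        have h6 := congrArg σ h5
        rwa [hσi, mon_rev hnS hσ, hσi] at h6)
      rw [hσi, hσi] at h4
      exact lt_asymm hab h4
    rw [← map_inv, ← map_mul, ← map_mul]
    refine ⟨_, mem_UH'.2 ?_, rfl⟩
    change n.1⁻¹ * xr b a c * n.1 ∈ _
    rw [hd]
    exact ⟨xr_up h1 d, xr_diag h1.ne d⟩

/-- the action on the root groups -/
lemma X_fix {p : ℕ} [hp : Fact p.Prime] [CharP F p] (hg : Good H)
    (hker : ∀ x : ↥H, π x = 1 → Mon x.1 1) (hB : ∀ x, π x ∈ (BH H).map π ↔ x ∈ BH H) {s : ↥H}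
    (hs : Sim s.1)
    (hPar : ∀ {y}, y ∈ Par ((BH H).map π) (π s) → y ∈ (BH H).map π ∨ DC ((BH H).map π) (π s) y)
    {n : ↥H} {σ : Equiv.Perm (VI k)} (hσ : Mon n.1 σ)
    (hopp : ∀ x ∈ (UH H).map π, π n * x * (π n)⁻¹ ∈ (UH H).map π → x = 1)
    {f : MulAut L} (hfp : f ^ p = 1) (hfT : ∀ t : ↥H, Mon t.1 1 → f (π t) = π t)
    (hfX : ∀ y ∈ Par ((BH H).map π) (π s), (π n)⁻¹ * y * π n ∈ (UH H).map π →
      f y ∈ Par ((BH H).map π) (π s) ∧ (π n)⁻¹ * f y * π n ∈ (UH H).map π)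
    {y : L} (hyP : y ∈ Par ((BH H).map π) (π s)) (hyU : (π n)⁻¹ * y * π n ∈ (UH H).map π) :
    f y = y := by
  have hanti : ∀ {a b : VI k}, a < b → a ≠ Fin.rev b → σ b < σ a :=
    fun h1 h2 => anti hg hker hσ hopp h1 h2
  have hanti' : ∀ {a b : VI k}, a < b → ¬ (a = c0 k ∧ b = c1 k) → σ b < σ a :=
    fun h1 h2 => anti' hanti h1 h2
  obtain ⟨a, b, hab, hab', ⟨τ, hτs, hτa, hτb⟩, hform⟩ := Sim_roots hs
  have hba' : b ≠ Fin.rev a := fun h5 => hab' (by rw [h5, Fin.rev_rev])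
  have hxm : ∀ c : F, xr b a c ∈ H := fun c => hg.xr b a hab.ne' hba' c
  have hX : ∀ y, y ∈ Par ((BH H).map π) (π s) → (π n)⁻¹ * y * π n ∈ (UH H).map π →
      ∃ c : F, y = π ⟨xr b a c, hxm c⟩ := fun y h1 h2 =>
    X_form hg hB hPar hform hxm hσ hanti' h1 h2
  have hX' : ∀ c : F, π ⟨xr b a c, hxm c⟩ ∈ Par ((BH H).map π) (π s) ∧
      (π n)⁻¹ * π ⟨xr b a c, hxm c⟩ * π n ∈ (UH H).map π := fun c =>
    X_mem hg hab hab' hτs hτa hτb hxm hσ hanti c
  have key := lin_fix (K := F) (p := p) (M := L) (fun c => π ⟨xr b a c, hxm c⟩) ?_ ?_ hfp ?_ ?_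
  · obtain ⟨c, rfl⟩ := hX y hyP hyU
    exact key c
  · intro c d hcd
    have h1 := pi_inj hker (x := ⟨xr b a c, hxm c⟩) (y := ⟨xr b a d, hxm d⟩) (xr_lou hab c)
      (xr_lou hab d) hcd
    have h2 := congrArg (fun B : ↥H => B.1.1 b a) h1
    have h3 : (xr b a c).1 b a = (xr b a d).1 b a := h2
    rw [xr_apply hab.ne', xr_apply hab.ne', if_neg hab.ne',
      if_neg (fun h4 : b = Fin.rev a ∧ a = Fin.rev b => hba' h4.1),
      if_neg (fun h4 : b = Fin.rev a ∧ a = Fin.rev b => hba' h4.1)] at h3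
    simpa using h3
  · intro c d
    rw [← map_mul]
    congr 1
    exact Subtype.ext (xr_add hab.ne' hba' c d).symm
  · intro c
    have h1 := hfX _ (hX' c).1 (hX' c).2
    exact hX _ h1.1 h1.2
  · intro c hc
    obtain ⟨t, htH, htM, ht⟩ := exists_torus hg hab.ne hab' hc
    refine ⟨π ⟨t, htH⟩, hfT ⟨t, htH⟩ htM, fun d => ?_⟩
    rw [← map_inv, ← map_mul, ← map_mul]
    congr 1
    exact Subtype.ext (ht d)

end

/-- **rigidity** of the split BN-pairs of groups of type `D` -/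
theorem dd_rigid {p : ℕ} [hp : Fact p.Prime] [CharP F p] (hg : Good H) {N : Subgroup ↥H}
    (hN : ∀ n ∈ N, ∃ τ, Mon n.1 τ) (hT : ∀ t : ↥H, Mon t.1 1 → t ∈ N)
    (h : SB p (BH H) N (UH H) {s | Sim s.1}) (hsimple : IsSimpleGroup (↥H ⧸ center ↥H)) :
    RigidBN p ((BH H).map (QuotientGroup.mk' (center ↥H)))
      (N.map (QuotientGroup.mk' (center ↥H))) ((UH H).map (QuotientGroup.mk' (center ↥H)))
      (QuotientGroup.mk' (center ↥H) '' {s | Sim s.1}) := by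
  have hr := hp.out
  have h' := Vale.Agent.P240.R2.H487.CG.SB.centre_quot h hr
  have hker : ∀ k, QuotientGroup.mk' (center ↥H) k = 1 → k ∈ BH H ∧ k ∈ N := by
    intro k hk
    have h1 : k ∈ center ↥H := (QuotientGroup.eq_one_iff k).1 hk
    exact center_le_T h hr fun g => (mem_center_iff.1 h1 g).symm
  have hsurj : Function.Surjective (QuotientGroup.mk' (center ↥H)) :=
    QuotientGroup.mk'_surjective _
  generalize QuotientGroup.mk' (center ↥H) = π at *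
  have hB : ∀ x, π x ∈ (BH H).map π ↔ x ∈ BH H := fun x => map_mem_iff fun k hk => (hker k hk).1
  have hN' : ∀ x, π x ∈ N.map π ↔ x ∈ N := fun x => map_mem_iff fun k hk => (hker k hk).2
  have hT1 : ∀ {x : ↥H}, x ∈ BH H → x ∈ N → Mon x.1 1 := by
    intro x hx hxN
    obtain ⟨τ, hτ⟩ := hN x hxN
    have := mon_up hτ (mem_BH'.1 hx)
    rwa [this] at hτ
  have hker' : ∀ x : ↥H, π x = 1 → Mon x.1 1 := fun x hx => hT1 (hker x hx).1 (hker x hx).2
  refine h'.rigid_of_roots hsimple hr ?_ ?_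
  · intro x hxB hxN y hyB hyN
    obtain ⟨x, rfl⟩ := hsurj x
    obtain ⟨y, rfl⟩ := hsurj y
    have hxy : x * y = y * x := Subtype.ext
      (diag_comm (hT1 ((hB x).1 hxB) ((hN' x).1 hxN)) (hT1 ((hB y).1 hyB) ((hN' y).1 hyN)))
    rw [← map_mul, ← map_mul, hxy]
  · rintro _ ⟨n, hn, rfl⟩ hopp f hfp hfT _ ⟨s, hs, rfl⟩ hfX y hyP hyU
    obtain ⟨σ, hσ⟩ := hN n hn
    refine X_fix (p := p) hg hker' hB (s := s) hs (fun {y} hy => (h'.mem_Par ⟨s, hs, rfl⟩).1 hy)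
      hσ hopp hfp (fun t ht => hfT _ ⟨t, mem_BH'.2 (mem_T' ht), rfl⟩ ⟨t, hT _ ht, rfl⟩) hfX hyP hyU

end

end Vale.Agent.P240.R2.H775.RD
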