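import Vale.Agent.P240.R2.H38.D7
import Vale.Agent.P240.R2.H775.RD2

/-!
`RigidLie p` for groups of type `D`.
-/

set_option autoImplicit false

namespace Vale.Agent.P240.R2.H775.RD

open Subgroup Vale.Agent.P240.H195 Vale.Agent.P240.R2.H38

variable {k : ℕ} {F : Type*} [Field F] [Finite F] {H : Subgroup (SLm (2 * k + 1) F)}

/-- **`RigidLie p`** for the quotient of a group of isometries of the quadratic form of plus type
that contains the root elements, by its centre -/
theorem dd_rigidLie {p : ℕ} [hp : Fact p.Prime] [CharP F p] (hk : 0 < k) (hg : DD.Good H)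
    (hgen : DD.Gen H) (hs : IsSimpleGroup (↥H ⧸ center ↥H))
    (hZ : ∀ x : ↥H ⧸ center ↥H, (∀ y, x * y = y * x) → x = 1) : RigidLie p (↥H ⧸ center ↥H) :=
  ⟨hs, hZ, _, _, _, _, dd_rigid (p := p) hg (N := DD.NH H) (fun _ hn => DD.NH_mon hn)
    (fun _ ht => (le_sup_right : DD.TH H ≤ DD.NH H) (DD.mem_TH'.2 ht)) (DD.dSB hk hg hgen) hs⟩

end Vale.Agent.P240.R2.H775.RD
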