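import Vale.Agent.P240.H195.SL7
import Vale.Agent.P240.R2.H487.CG.A9

/-!
Rigidity of the BN-pairs of the classical groups, part 1: the groups `n U n⁻¹ ∩ P_s` as groups of
matrices.
-/

set_option autoImplicit false

namespace Vale.Agent.P240.R2.H775.RG

open Subgroup Matrix Vale.Agent.P240.H195 Vale.Agent.P240.R2.H487.CG Vale.Agent.P240.K

section
variable {m : ℕ}

/-- the interval `[l, τ l]` of the involutions of type `AB` -/
lemma AB_lt {i : Fin m} (h1 : 2 * i.val + 1 ≤ m) {l : Fin (m + 1)}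
    (hl : l < Equiv.swap i.castSucc (Fin.rev i.castSucc) l) :
    l = i.castSucc ∧ Equiv.swap i.castSucc (Fin.rev i.castSucc) l = Fin.rev i.castSucc := by
  have hv : (Fin.rev i.castSucc).val + i.val = m := rev_val i.castSucc
  rw [Equiv.swap_apply_def] at hl ⊢
  split_ifs at hl ⊢ with h3 h4
  · exact ⟨h3, rfl⟩
  · exfalso
    rw [h4, Fin.lt_def, Fin.val_castSucc] at hl
    omega
  · exact absurd hl (lt_irrefl _)

/-- the intervals `[l, τ l]` of the involutions of type `C` -/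
lemma C_lt {i : Fin m} (hi : 2 * i.val + 2 < m) {l : Fin (m + 1)}
    (hl : l < (sw i * sw (Fin.rev i)) l) :
    (l = i.castSucc ∧ (sw i * sw (Fin.rev i)) l = i.succ) ∨
      (l = (Fin.rev i).castSucc ∧ (sw i * sw (Fin.rev i)) l = (Fin.rev i).succ) := by
  have hr : (Fin.rev i).val = m - (i.val + 1) := Fin.val_rev i
  rw [Equiv.Perm.mul_apply] at hl ⊢
  simp only [sw] at hl ⊢
  by_cases h3 : l = (Fin.rev i).castSucc
  · right
    subst h3
    rw [Equiv.swap_apply_left]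
    refine ⟨rfl, Equiv.swap_apply_of_ne_of_ne ?_ ?_⟩ <;> rw [Ne, Fin.ext_iff] <;>
      simp only [Fin.val_castSucc, Fin.val_succ] <;> omega
  · by_cases h4 : l = (Fin.rev i).succ
    · exfalso
      subst h4
      rw [Equiv.swap_apply_right, Equiv.swap_apply_of_ne_of_ne, Fin.lt_def] at hl
      · simp only [Fin.val_castSucc, Fin.val_succ] at hl
        omega
      · rw [Ne, Fin.ext_iff]; simp only [Fin.val_castSucc]; omega
      · rw [Ne, Fin.ext_iff]; simp only [Fin.val_castSucc, Fin.val_succ]; omega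
    · rw [Equiv.swap_apply_of_ne_of_ne h3 h4] at hl ⊢
      left
      rw [Equiv.swap_apply_def] at hl ⊢
      split_ifs at hl ⊢ with h5 h6
      · exact ⟨h5, rfl⟩
      · exfalso
        rw [h6] at hl
        exact lt_asymm hl (cs_lt i)
      · exact absurd hl (lt_irrefl _)

/-- the involutions reverse the order in the intervals `[l, τ l]` -/
lemma typ_rev {τ : Equiv.Perm (Fin (m + 1))} (hτ : Typ τ) {l a b : Fin (m + 1)} (h1 : l ≤ a)
    (h2 : a < b) (h3 : b ≤ τ l) : τ b < τ a := by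
  have hl : l < τ l := lt_of_le_of_lt h1 (lt_of_lt_of_le h2 h3)
  rw [Fin.le_def] at h1
  rw [Fin.lt_def] at h2
  rcases hτ with ⟨i, h4, h5⟩ | ⟨i, hi⟩
  · obtain ⟨rfl, h6⟩ := AB_lt h4 hl
    have hv : (Fin.rev i.castSucc).val + i.val = m := rev_val i.castSucc
    rw [h6, Fin.le_def] at h3
    rw [Fin.val_castSucc] at h1
    rw [Equiv.swap_apply_def, Equiv.swap_apply_def, Fin.lt_def]
    simp only [Fin.ext_iff, Fin.val_castSucc]
    split_ifs <;> (try simp only [Fin.val_castSucc]) <;> omega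
  · have h5 := C_lt hi hl
    have h6 : ((sw i * sw (Fin.rev i)) l).val = l.val + 1 := by
      rcases h5 with ⟨h5, h6⟩ | ⟨h5, h6⟩ <;> rw [h6, h5] <;>
        simp only [Fin.val_castSucc, Fin.val_succ]
    rw [Fin.le_def] at h3
    have e1 : a = l := Fin.ext (by omega)
    have e2 : b = (sw i * sw (Fin.rev i)) l := Fin.ext (by omega)
    rw [e1, e2]
    have h7 : (sw i * sw (Fin.rev i)) ((sw i * sw (Fin.rev i)) l) = l :=
      congrArg (fun v : Equiv.Perm (Fin (m + 1)) => v l) (Typ.C i hi).sq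
    rw [h7]
    exact hl

end

section
variable {F : Type*} [Field F] {m : ℕ}

/-- the zero pattern of the parabolic subgroup of `τ` -/
def Pt (τ : Equiv.Perm (Fin (m + 1))) (A : SLm m F) : Prop :=
  ∀ u v, v < u → A.1 u v ≠ 0 → ∃ l, l ≤ v ∧ u ≤ τ l

/-- unipotent lower triangular matrices -/
def LoU (A : SLm m F) : Prop := (∀ i j, i < j → A.1 i j = 0) ∧ ∀ i, A.1 i i = 1

lemma pt_of_up {τ : Equiv.Perm (Fin (m + 1))} {A : SLm m F} (hA : IsUp A) : Pt τ A :=
  fun u v huv hne => absurd (hA u v huv) hne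

lemma pt_of_dc {s a b : SLm m F} {τ : Equiv.Perm (Fin (m + 1))} (hs : Mon s τ) (ha : IsUp a)
    (hb : IsUp b) : Pt τ (a * s * b) := by
  intro u v _ hne
  rw [sl_mul] at hne
  obtain ⟨k, -, hk⟩ := Finset.exists_ne_zero_of_sum_ne_zero hne
  have h1 := right_ne_zero_of_mul hk
  have h2 := left_ne_zero_of_mul hk
  rw [sl_mul] at h2
  obtain ⟨l, -, hl⟩ := Finset.exists_ne_zero_of_sum_ne_zero h2
  have h3 := left_ne_zero_of_mul hl
  have h4 := hs _ _ (right_ne_zero_of_mul hl)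
  refine ⟨k, ?_, ?_⟩
  · by_contra hcon
    exact h1 (hb k v (not_le.1 hcon))
  · rw [← h4]
    by_contra hcon
    exact h3 (ha u l (not_le.1 hcon))

variable [Finite F]

/-- conjugates by the longest element -/
lemma lou_iff {n A : SLm m F} (hn : Mon n Fin.revPerm) : LoU A ↔ n⁻¹ * A * n ∈ UU m F := by
  have hn' := mon_inv hn
  have hrev : ∀ x, (Fin.revPerm⁻¹ : Equiv.Perm (Fin (m + 1))) x = Fin.rev x := fun x => rfl
  have e : n⁻¹ * A * n = n⁻¹ * A * n⁻¹⁻¹ := by rw [inv_inv]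
  rw [e]
  constructor
  · intro hA
    refine ⟨fun i j hij => ?_, fun i => ?_⟩
    · by_contra hne
      have h1 := (mon_conj_ne hn' A (Fin.rev i) (Fin.rev j)).1 (by
        rw [hrev, hrev, Fin.rev_rev, Fin.rev_rev]
        exact hne)
      exact h1 (hA.1 _ _ (Fin.rev_lt_rev.2 hij))
    · have h1 := mon_conj hn' A (Fin.rev i) (Fin.rev i)
      rw [hrev, Fin.rev_rev] at h1
      rw [h1, hA.2, mul_one, mul_inv_cancel₀]
      have := mon_ne hn' (Fin.rev i)
      rwa [hrev, Fin.rev_rev] at this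
  · intro hA
    refine ⟨fun i j hij => ?_, fun i => ?_⟩
    · by_contra hne
      have h1 := (mon_conj_ne hn' A i j).2 hne
      rw [hrev, hrev] at h1
      exact h1 (hA.1 _ _ (Fin.rev_lt_rev.2 hij))
    · have h1 := mon_conj hn' A i i
      rw [hrev, hA.2] at h1
      have h2 := mon_ne hn' i
      rw [hrev] at h2
      field_simp at h1
      exact h1.symm

/-- `s⁻¹ A s` is upper triangular -/
lemma up_of_pt {s A : SLm m F} {τ : Equiv.Perm (Fin (m + 1))} (hτ : Typ τ) (hs : Mon s τ)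
    (hA : LoU A) (hp : Pt τ A) : s⁻¹ * A * s ∈ UU m F := by
  have hτ' : τ⁻¹ = τ := by
    rw [inv_eq_iff_mul_eq_one]
    exact hτ.sq
  have hs' := mon_inv hs
  rw [hτ'] at hs'
  have htt : ∀ x, τ (τ x) = x := fun x =>
    congrArg (fun v : Equiv.Perm (Fin (m + 1)) => v x) hτ.sq
  have e : s⁻¹ * A * s = s⁻¹ * A * s⁻¹⁻¹ := by rw [inv_inv]
  rw [e]
  refine ⟨fun i j hij => ?_, fun i => ?_⟩
  · by_contra hne
    have h1 := (mon_conj_ne hs' A (τ i) (τ j)).1 (by
      rw [htt, htt]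
      exact hne)
    rcases lt_trichotomy (τ i) (τ j) with h2 | h2 | h2
    · exact h1 (hA.1 _ _ h2)
    · exact hij.ne' (τ.injective h2)
    · obtain ⟨l, hl1, hl2⟩ := hp _ _ h2 h1
      have h3 := typ_rev hτ hl1 h2 hl2
      rw [htt, htt] at h3
      exact lt_asymm h3 hij
  · have h1 := mon_conj hs' A (τ i) (τ i)
    rw [htt] at h1
    rw [h1, hA.2, mul_one, mul_inv_cancel₀]
    have := mon_ne hs' (τ i)
    rwa [htt] at this

end

section
variable {F : Type*} [Field F] [Finite F] {m : ℕ} {σ : F ≃+* F}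

/-- kernel of the projection -/
lemma pg_inj {p : ℕ} [hp : Fact p.Prime] [CharP F p] (hm : 0 < m) (hσ : ∀ x, σ (σ x) = x)
    (hodd : m % 2 = 1 ∨ (∃ x, σ x ≠ x) ∨ (2 : F) ≠ 0) {A A' : ↥(GJ (m + 1) σ)} (hA : LoU A.1)
    (hA' : LoU A'.1) (he : pg m σ A = pg m σ A') : A = A' := by
  obtain ⟨n, hn⟩ := exists_NG (F := F) (σ := σ) (w := Fin.revPerm) (cr_of fun x => by
    rw [Fin.revPerm_apply, Fin.revPerm_apply])
  have h1 : A⁻¹ * A' ∈ center ↥(GJ (m + 1) σ) := by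
    rw [← QuotientGroup.eq]
    exact he
  have h2 := center_le_T (cg_SB (p := p) hm hσ hodd) hp.out
    (fun g => (mem_center_iff.1 h1 g).symm)
  have h3 : n.1⁻¹ * (A⁻¹ * A').1 * n.1 ∈ UU m F := by
    have e : n.1⁻¹ * (A⁻¹ * A').1 * n.1 = (n.1⁻¹ * A.1 * n.1)⁻¹ * (n.1⁻¹ * A'.1 * n.1) := by
      change n.1⁻¹ * (A.1⁻¹ * A'.1) * n.1 = _
      group
    rw [e]
    exact mul_mem (inv_mem ((lou_iff hn).1 hA)) ((lou_iff hn).1 hA')
  have h4 : (A⁻¹ * A').1 = 1 := by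
    have h5 := (lou_iff hn).2 h3
    have h6 : IsUp (A⁻¹ * A').1 := h2.1
    refine sl_ext fun i j => ?_
    rw [sl_one]
    rcases lt_trichotomy i j with h | h | h
    · rw [if_neg h.ne, h5.1 i j h]
    · rw [if_pos h, h, h5.2]
    · rw [if_neg h.ne', h6 i j h]
  have h7 : A⁻¹ * A' = 1 := Subtype.ext h4
  exact inv_mul_eq_one.1 h7

/-- the group `n U n⁻¹ ∩ P_s` -/
lemma mem_X_iff {p : ℕ} [hp : Fact p.Prime] [CharP F p] (hm : 0 < m) (hσ : ∀ x, σ (σ x) = x)
    (hodd : m % 2 = 1 ∨ (∃ x, σ x ≠ x) ∨ (2 : F) ≠ 0) {n s : ↥(GJ (m + 1) σ)}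
    (hn : Mon n.1 Fin.revPerm) {τ : Equiv.Perm (Fin (m + 1))} (hτ : Typ τ) (hs : Mon s.1 τ)
    {y : PGJ (m + 1) σ} :
    (y ∈ cj (pg m σ n) ((UG σ).map (pg m σ)) ∧ y ∈ Par ((BG σ).map (pg m σ)) (pg m σ s)) ↔
      ∃ A : ↥(GJ (m + 1) σ), y = pg m σ A ∧ LoU A.1 ∧ Pt τ A.1 := by
  have h := pg_SB (p := p) hm hσ hodd
  have hB : ∀ x, pg m σ x ∈ (BG σ).map (pg m σ) ↔ x ∈ BG σ :=
    fun x => pi_mem (cg_SB (p := p) hm hσ hodd) hp.out
  constructor
  · rintro ⟨hy1, hy2⟩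
    rw [mem_cj] at hy1
    obtain ⟨u, hu, hue⟩ := hy1
    have hu' : u.1 ∈ UU m F := hu
    set A := n * u * n⁻¹ with hA
    have hyA : y = pg m σ A := by
      rw [hA, map_mul, map_mul, map_inv, hue]
      group
    have hlo : LoU A.1 := by
      rw [lou_iff hn]
      have : n.1⁻¹ * A.1 * n.1 = u.1 := by
        rw [hA]
        change n.1⁻¹ * (n.1 * u.1 * n.1⁻¹) * n.1 = u.1
        group
      rw [this]
      exact hu'
    refine ⟨A, hyA, hlo, ?_⟩
    rw [h.mem_Par ⟨s, ⟨τ, hτ, hs⟩, rfl⟩] at hy2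
    rcases hy2 with hy2 | ⟨a, ⟨a', ha', rfl⟩, b, ⟨b', hb', rfl⟩, hab⟩
    · rw [hyA, hB] at hy2
      exact pt_of_up hy2
    · rw [hyA, ← map_mul, ← map_mul] at hab
      have h1 : pg m σ ((a' * s * b')⁻¹ * A) ∈ (BG σ).map (pg m σ) := by
        rw [map_mul, hab, map_inv, inv_mul_cancel]
        exact one_mem _
      have h2 : IsUp (b' * ((a' * s * b')⁻¹ * A)).1 := mul_mem hb' ((hB _).1 h1)
      have h3 := pt_of_dc hs (a := a'.1) (b := (b' * ((a' * s * b')⁻¹ * A)).1) ha' h2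
      have e : a'.1 * s.1 * (b' * ((a' * s * b')⁻¹ * A)).1 = A.1 := by
        have : a' * s * (b' * ((a' * s * b')⁻¹ * A)) = A := by group
        exact congrArg Subtype.val this
      rwa [e] at h3
  · rintro ⟨A, rfl, hlo, hpt⟩
    constructor
    · rw [mem_cj, ← map_inv, ← map_mul, ← map_mul]
      exact ⟨_, (lou_iff hn).1 hlo, rfl⟩
    · have h1 : s⁻¹ * A * s ∈ BG σ := (up_of_pt hτ hs hlo hpt).1
      have e : pg m σ A = pg m σ s * pg m σ (s⁻¹ * A * s) * (pg m σ s)⁻¹ := by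
        rw [← map_inv, ← map_mul, ← map_mul]
        congr 1
        group
      rw [e]
      exact mul_mem (mul_mem self_mem_Par (le_Par ⟨_, h1, rfl⟩)) (inv_mem self_mem_Par)

end

end Vale.Agent.P240.R2.H775.RG
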