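import Vale.Agent.P240.R2.H775.RG3

/-!
Rigidity of the BN-pairs of the classical groups, part 4: the simple root groups of type `C` and the
middle root groups in even dimension.
-/

set_option autoImplicit false
set_option linter.all false

namespace Vale.Agent.P240.R2.H775.RG

open Subgroup Matrix Vale.Agent.P240.H195 Vale.Agent.P240.R2.H487.CG Vale.Agent.P240.K

section
variable {F : Type*} [Field F] [Finite F] {m : ℕ} {σ : F ≃+* F}

lemma th_lo (i : Fin m) (c : F) :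
    th σ (tx (cs_ne i).symm c) = tx (cs_ne (Fin.rev i)).symm (σ c) := by
  rw [th_tx]
  refine tx_congr (rev_castSucc' i) (rev_succ' i) ?_
  rw [Fin.val_castSucc, Fin.val_succ]
  have : ((-1 : F)) ^ (i.val + 1 + i.val) = -1 := Odd.neg_one_pow ⟨i.val, by omega⟩
  rw [this]
  ring

lemma C_comm {i : Fin m} (hi : 2 * i.val + 2 < m) (a d : F) :
    tx (cs_ne i).symm a * tx (cs_ne (Fin.rev i)).symm d =
      tx (cs_ne (Fin.rev i)).symm d * tx (cs_ne i).symm a := by
  obtain ⟨h1, h2, h3, h4⟩ := C_ne hi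
  exact tx_comm' _ _ h2 h3.symm _ _

/-- the elements of the simple root group of type `C` -/
def yC (σ : F ≃+* F) (i : Fin m) (c : F) : SLm m F :=
  tx (cs_ne i).symm c * tx (cs_ne (Fin.rev i)).symm (σ c)

lemma th_yC (hσ : ∀ x, σ (σ x) = x) {i : Fin m} (hi : 2 * i.val + 2 < m) (c : F) :
    th σ (yC σ i c) = yC σ i c := by
  unfold yC
  rw [map_mul, th_lo, th_lo, hσ, C_comm hi]
  congr 1
  exact tx_congr (by rw [Fin.rev_rev]) (by rw [Fin.rev_rev]) rfl

lemma C_sym (hσ : ∀ x, σ (σ x) = x) {i : Fin m} (hi : 2 * i.val + 2 < m) {A : SLm m F}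
    (hA : th σ A = A) (hlo : LoU A) (hpt : Pt (sw i * sw (Fin.rev i)) A) :
    A = yC σ i (A.1 i.succ i.castSucc) := by
  obtain ⟨h1, h2, h3, h4⟩ := C_ne hi
  have hf := C_form hi hlo hpt
  set a := A.1 i.succ i.castSucc with ha
  set d := A.1 (Fin.rev i).succ (Fin.rev i).castSucc with hd
  have hA' := hA
  rw [hf, map_mul, th_lo, th_lo] at hA'
  have e : (tx (cs_ne (Fin.rev (Fin.rev i))).symm (σ d) : SLm m F) = tx (cs_ne i).symm (σ d) :=
    tx_congr (by rw [Fin.rev_rev]) (by rw [Fin.rev_rev]) rfl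
  rw [e, ← C_comm hi] at hA'
  have h5 := congrArg (fun B : SLm m F => B.1 (Fin.rev i).succ (Fin.rev i).castSucc) hA'
  simp only [C_apply hi] at h5
  rw [if_neg (cs_ne _).symm,
    if_neg (fun h : (Fin.rev i).succ = i.succ ∧ (Fin.rev i).castSucc = i.castSucc => h4 h.1.symm),
    if_neg (fun h : (Fin.rev i).succ = i.succ ∧ (Fin.rev i).castSucc = i.castSucc => h4 h.1.symm)]
    at h5
  simp only [and_self, if_true, zero_add, add_zero] at h5
  rw [hf, ← h5]
  rfl

lemma yC_apply {i : Fin m} (hi : 2 * i.val + 2 < m) (c : F) :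
    (yC σ i c).1 i.succ i.castSucc = c := by
  obtain ⟨h1, h2, h3, h4⟩ := C_ne hi
  unfold yC
  rw [C_apply hi, if_neg (cs_ne _).symm, if_neg (fun h => h4 h.1),
    if_pos (⟨rfl, rfl⟩ : i.succ = i.succ ∧ i.castSucc = i.castSucc), zero_add, zero_add]

lemma yC_add {i : Fin m} (hi : 2 * i.val + 2 < m) (a b : F) :
    yC σ i (a + b) = yC σ i a * yC σ i b := by
  unfold yC
  calc tx (cs_ne i).symm (a + b) * tx (cs_ne (Fin.rev i)).symm (σ (a + b))
      = tx (cs_ne i).symm a * (tx (cs_ne i).symm b * tx (cs_ne (Fin.rev i)).symm (σ a)) *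
          tx (cs_ne (Fin.rev i)).symm (σ b) := by
        rw [map_add, ← tx_mul_tx, ← tx_mul_tx]; group
    _ = _ := by rw [C_comm hi]; group

lemma yC_lou {i : Fin m} (c : F) : LoU (yC σ i c) :=
  lou_mul (tx_lou (cs_lt _) _) (tx_lou (cs_lt _) _)

lemma yC_pt {i : Fin m} (hi : 2 * i.val + 2 < m) (c : F) :
    Pt (sw i * sw (Fin.rev i)) (yC σ i c) := by
  obtain ⟨h1, h2, h3, h4⟩ := C_ne hi
  intro u v huv hne
  unfold yC at hne
  rw [C_apply hi, if_neg huv.ne', zero_add] at hne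
  refine ⟨v, le_rfl, ?_⟩
  by_cases h5 : u = (Fin.rev i).succ ∧ v = (Fin.rev i).castSucc
  · obtain ⟨rfl, rfl⟩ := h5
    rw [Equiv.Perm.mul_apply]
    simp only [sw]
    rw [Equiv.swap_apply_left, Equiv.swap_apply_of_ne_of_ne h2.symm h4.symm]
  · by_cases h6 : u = i.succ ∧ v = i.castSucc
    · obtain ⟨rfl, rfl⟩ := h6
      rw [Equiv.Perm.mul_apply]
      simp only [sw]
      rw [Equiv.swap_apply_of_ne_of_ne h1 h2, Equiv.swap_apply_left]
    · rw [if_neg h5, if_neg h6, add_zero] at hne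
      exact absurd rfl hne

/-- conjugation of a root element by a diagonal matrix -/
lemma diag_conj_tx {t : SLm m F} (ht : Mon t 1) {a b : Fin (m + 1)} (h : a ≠ b) (c : F) :
    t * tx h c * t⁻¹ = tx h (t.1 a a * c * (t.1 b b)⁻¹) := mon_conj_tx ht h h c

lemma yC_conj {i : Fin m} (hi : 2 * i.val + 2 < m) {t : SLm m F} (ht : Mon t 1)
    (hft : th σ t = t) (c : F) :
    t * yC σ i c * t⁻¹ = yC σ i (t.1 i.succ i.succ * c * (t.1 i.castSucc i.castSucc)⁻¹) := by
  unfold yC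
  have e : t * (tx (cs_ne i).symm c * tx (cs_ne (Fin.rev i)).symm (σ c)) * t⁻¹ =
      (t * tx (cs_ne i).symm c * t⁻¹) * (t * tx (cs_ne (Fin.rev i)).symm (σ c) * t⁻¹) := by group
  rw [e, diag_conj_tx ht, diag_conj_tx ht]
  congr 2
  have h1 := th_diag (σ := σ) ht (Fin.rev i).succ
  have h2 := th_diag (σ := σ) ht (Fin.rev i).castSucc
  rw [hft, ← rev_castSucc', Fin.rev_rev] at h1
  rw [hft, ← rev_succ', Fin.rev_rev] at h2
  rw [← rev_castSucc', ← rev_succ', h1, h2, map_mul, map_mul, map_inv₀, inv_inv]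
  ring

/-! ### The middle root group in even dimension -/

lemma AB_pair {i : Fin m} (h1 : 2 * i.val + 1 = m) : Fin.rev i.castSucc = i.succ ∧ Fin.rev i = i := by
  have hv : (Fin.rev i.castSucc).val + i.val = m := rev_val i.castSucc
  have hr : (Fin.rev i).val = m - (i.val + 1) := Fin.val_rev i
  constructor <;> rw [Fin.ext_iff]
  · rw [Fin.val_succ]; omega
  · omega

lemma A_form {i : Fin m} (hi : 2 * i.val + 1 = m) {A : SLm m F} (hlo : LoU A)
    (hpt : Pt (Equiv.swap i.castSucc (Fin.rev i.castSucc)) A) :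
    A = tx (cs_ne i).symm (A.1 i.succ i.castSucc) := by
  obtain ⟨h1, h2⟩ := AB_pair hi
  refine sl_ext fun u v => ?_
  rw [tx_apply]
  rcases lt_trichotomy u v with h | h | h
  · rw [hlo.1 u v h, if_neg h.ne, if_neg, add_zero]
    rintro ⟨rfl, rfl⟩
    exact lt_asymm h (cs_lt i)
  · subst h
    rw [hlo.2, if_pos rfl, if_neg, add_zero]
    rintro ⟨h5, h6⟩
    exact cs_ne _ (h6.symm.trans h5)
  · rw [if_neg h.ne', zero_add]
    by_cases h6 : u = i.succ ∧ v = i.castSucc
    · rw [if_pos h6, h6.1, h6.2]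
    · rw [if_neg h6]
      by_contra hne
      obtain ⟨l, hl1, hl2⟩ := hpt u v h hne
      obtain ⟨h9, h10⟩ := AB_lt (by omega) (lt_of_le_of_lt hl1 (lt_of_lt_of_le h hl2))
      rw [Fin.le_def] at hl1 hl2
      rw [Fin.lt_def] at h
      apply h6
      rw [h10, h1, Fin.val_succ] at hl2
      rw [h9, Fin.val_castSucc] at hl1
      constructor <;> rw [Fin.ext_iff] <;> simp only [Fin.val_castSucc, Fin.val_succ] <;> omega

lemma A_sym {i : Fin m} (hi : 2 * i.val + 1 = m) {A : SLm m F}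
    (hA : th σ A = A) (hlo : LoU A) (hpt : Pt (Equiv.swap i.castSucc (Fin.rev i.castSucc)) A) :
    σ (A.1 i.succ i.castSucc) = A.1 i.succ i.castSucc := by
  obtain ⟨h1, h2⟩ := AB_pair hi
  have hf := A_form hi hlo hpt
  set a := A.1 i.succ i.castSucc with ha
  have hA' := hA
  rw [hf, th_lo] at hA'
  have e : (tx (cs_ne (Fin.rev i)).symm (σ a) : SLm m F) = tx (cs_ne i).symm (σ a) :=
    tx_congr (by rw [h2]) (by rw [h2]) rfl
  rw [e] at hA'
  have h5 := congrArg (fun B : SLm m F => B.1 i.succ i.castSucc) hA'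
  simp only [tx_apply] at h5
  simpa using h5

lemma th_yA {i : Fin m} (hi : 2 * i.val + 1 = m) {c : F} (hc : σ c = c) :
    th σ (tx (cs_ne i).symm c) = tx (cs_ne i).symm c := by
  obtain ⟨h1, h2⟩ := AB_pair hi
  rw [th_lo, hc]
  exact tx_congr (by rw [h2]) (by rw [h2]) rfl

lemma yA_pt {i : Fin m} (hi : 2 * i.val + 1 = m) (c : F) :
    Pt (Equiv.swap i.castSucc (Fin.rev i.castSucc)) (tx (cs_ne i).symm c) := by
  obtain ⟨h1, h2⟩ := AB_pair hi
  intro u v huv hne
  rw [tx_apply, if_neg huv.ne', zero_add] at hne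
  by_cases h6 : u = i.succ ∧ v = i.castSucc
  · obtain ⟨rfl, rfl⟩ := h6
    refine ⟨_, le_rfl, ?_⟩
    rw [Equiv.swap_apply_left, h1]
  · exact absurd (if_neg h6) hne

end

end Vale.Agent.P240.R2.H775.RG
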