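import Vale.Agent.P240.R2.H195.Heis
import Vale.Agent.P240.R2.H775.RG4

/-!
Rigidity of the BN-pairs of the classical groups, part 5: the middle root groups in odd dimension.
-/

set_option autoImplicit false
set_option linter.all false

namespace Vale.Agent.P240.R2.H775.RG

open Subgroup Matrix Vale.Agent.P240.H195 Vale.Agent.P240.R2.H487.CG Vale.Agent.P240.K

section
variable {F : Type*} [Field F] [Finite F] {m : ℕ} {σ : F ≃+* F}

lemma B_vals {i : Fin m} (hi : 2 * i.val + 2 = m) :
    Fin.rev i.succ = i.succ ∧ (Fin.rev i.castSucc).val = i.val + 2 ∧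
      (Fin.rev i).castSucc = i.succ := by
  have hv : (Fin.rev i.castSucc).val + i.val = m := rev_val i.castSucc
  have hr : (Fin.rev i).val = m - (i.val + 1) := Fin.val_rev i
  have hw := rev_val i.succ
  rw [Fin.val_succ] at hw
  refine ⟨?_, by omega, ?_⟩ <;> rw [Fin.ext_iff]
  · rw [Fin.val_succ]; omega
  · rw [Fin.val_succ, Fin.val_castSucc]; omega

lemma lt10 (i : Fin m) : i.castSucc < i.succ := cs_lt i

lemma lt21 {i : Fin m} (hi : 2 * i.val + 2 = m) : i.succ < Fin.rev i.castSucc := by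
  rw [Fin.lt_def, (B_vals hi).2.1, Fin.val_succ]; omega

lemma lt20 {i : Fin m} (hi : 2 * i.val + 2 = m) : i.castSucc < Fin.rev i.castSucc := by
  rw [Fin.lt_def, (B_vals hi).2.1, Fin.val_castSucc]; omega

/-- the elements of the middle root group in odd dimension -/
def yB {i : Fin m} (hi : 2 * i.val + 2 = m) (a c b : F) : SLm m F :=
  tx (lt10 i).ne' a * (tx (lt21 hi).ne' c * tx (lt20 hi).ne' b)

lemma yB_apply {i : Fin m} (hi : 2 * i.val + 2 = m) (a c b : F) (u v : Fin (m + 1)) :
    (yB hi a c b).1 u v = (if u = v then 1 else 0) +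
      (if u = Fin.rev i.castSucc ∧ v = i.castSucc then b else 0) +
      (if u = Fin.rev i.castSucc ∧ v = i.succ then c else 0) +
      (if u = i.succ ∧ v = i.castSucc then a else 0) := by
  have h1 := (lt10 i).ne
  have h2 := (lt21 hi).ne
  have h3 := (lt20 hi).ne
  unfold yB
  rw [tx_mul_apply, tx_mul_apply, tx_apply, tx_apply, tx_mul_apply, tx_apply]
  rw [if_neg (fun h : i.succ = Fin.rev i.castSucc ∧ v = i.castSucc => h2 h.1),
    if_neg (fun h : i.castSucc = Fin.rev i.castSucc ∧ v = i.castSucc => h3 h.1),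
    if_neg (fun h : i.castSucc = Fin.rev i.castSucc => h3 h)]
  rw [add_zero, add_zero, add_zero]
  congr 1
  · congr 1
    by_cases hu : u = Fin.rev i.castSucc
    · by_cases hv : v = i.succ
      · rw [if_pos hu, if_pos hv.symm, mul_one, if_pos ⟨hu, hv⟩]
      · rw [if_pos hu, if_neg (fun h => hv h.symm), mul_zero, if_neg (fun h => hv h.2)]
    · rw [if_neg hu, if_neg (fun h => hu h.1)]
  · by_cases hu : u = i.succ
    · by_cases hv : v = i.castSucc
      · rw [if_pos hu, if_pos hv.symm, mul_one, if_pos ⟨hu, hv⟩]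
      · rw [if_pos hu, if_neg (fun h => hv h.symm), mul_zero, if_neg (fun h => hv h.2)]
    · rw [if_neg hu, if_neg (fun h => hu h.1)]

lemma yB_10 {i : Fin m} (hi : 2 * i.val + 2 = m) (a c b : F) :
    (yB hi a c b).1 i.succ i.castSucc = a := by
  rw [yB_apply, if_neg (lt10 i).ne', if_neg (fun h => (lt21 hi).ne h.1),
    if_neg (fun h => (lt21 hi).ne h.1), if_pos ⟨rfl, rfl⟩]
  simp

lemma yB_21 {i : Fin m} (hi : 2 * i.val + 2 = m) (a c b : F) :
    (yB hi a c b).1 (Fin.rev i.castSucc) i.succ = c := by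
  rw [yB_apply, if_neg (lt21 hi).ne', if_neg (fun h => (lt10 i).ne' h.2),
    if_pos ⟨rfl, rfl⟩, if_neg (fun h => (lt21 hi).ne' h.1)]
  simp

lemma yB_20 {i : Fin m} (hi : 2 * i.val + 2 = m) (a c b : F) :
    (yB hi a c b).1 (Fin.rev i.castSucc) i.castSucc = b := by
  rw [yB_apply, if_neg (lt20 hi).ne', if_pos ⟨rfl, rfl⟩, if_neg (fun h => (lt10 i).ne h.2),
    if_neg (fun h => (lt21 hi).ne' h.1)]
  simp

lemma yB_lou {i : Fin m} (hi : 2 * i.val + 2 = m) (a c b : F) : LoU (yB hi a c b) :=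
  lou_mul (tx_lou (lt10 i) _) (lou_mul (tx_lou (lt21 hi) _) (tx_lou (lt20 hi) _))

lemma B_form {i : Fin m} (hi : 2 * i.val + 2 = m) {A : SLm m F} (hlo : LoU A)
    (hpt : Pt (Equiv.swap i.castSucc (Fin.rev i.castSucc)) A) :
    A = yB hi (A.1 i.succ i.castSucc) (A.1 (Fin.rev i.castSucc) i.succ)
      (A.1 (Fin.rev i.castSucc) i.castSucc) := by
  refine sl_ext fun u v => ?_
  rcases lt_trichotomy u v with h | h | h
  · rw [hlo.1 u v h, (yB_lou hi _ _ _).1 u v h]
  · rw [h, hlo.2, (yB_lou hi _ _ _).2]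
  · rw [yB_apply, if_neg h.ne', zero_add]
    by_cases h4 : u = Fin.rev i.castSucc ∧ v = i.castSucc
    · rw [if_pos h4, if_neg (fun h5 => (lt10 i).ne (h4.2.symm.trans h5.2)),
        if_neg (fun h5 => (lt21 hi).ne (h5.1.symm.trans h4.1)), h4.1, h4.2, add_zero, add_zero]
    · by_cases h5 : u = Fin.rev i.castSucc ∧ v = i.succ
      · rw [if_neg h4, if_pos h5, if_neg (fun h6 => (lt10 i).ne (h6.2.symm.trans h5.2)), h5.1, h5.2,
          add_zero, zero_add]
      · by_cases h6 : u = i.succ ∧ v = i.castSucc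
        · rw [if_neg h4, if_neg h5, if_pos h6, h6.1, h6.2, add_zero, zero_add]
        · rw [if_neg h4, if_neg h5, if_neg h6, add_zero, add_zero]
          by_contra hne
          obtain ⟨l, hl1, hl2⟩ := hpt u v h hne
          obtain ⟨h9, h10⟩ := AB_lt (by omega) (lt_of_le_of_lt hl1 (lt_of_lt_of_le h hl2))
          have hv := (B_vals hi).2.1
          rw [Fin.le_def] at hl1 hl2
          rw [Fin.lt_def] at h
          rw [h10, hv] at hl2
          rw [h9, Fin.val_castSucc] at hl1
          rcases (by omega : (u.val = i.val + 2 ∧ v.val = i.val) ∨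
            (u.val = i.val + 2 ∧ v.val = i.val + 1) ∨ (u.val = i.val + 1 ∧ v.val = i.val)) with
            h11 | h11 | h11
          · exact h4 ⟨Fin.ext (by rw [hv]; exact h11.1), Fin.ext h11.2⟩
          · exact h5 ⟨Fin.ext (by rw [hv]; exact h11.1), Fin.ext (by rw [Fin.val_succ]; exact h11.2)⟩
          · exact h6 ⟨Fin.ext (by rw [Fin.val_succ]; exact h11.1), Fin.ext h11.2⟩

lemma yB_pt {i : Fin m} (hi : 2 * i.val + 2 = m) (a c b : F) :
    Pt (Equiv.swap i.castSucc (Fin.rev i.castSucc)) (yB hi a c b) := by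
  intro u v huv hne
  rw [yB_apply, if_neg huv.ne', zero_add] at hne
  refine ⟨i.castSucc, ?_, ?_⟩
  · by_contra hcon
    rw [not_le] at hcon
    rw [if_neg (fun h => hcon.ne h.2), if_neg (fun h => (hcon.trans (lt10 i)).ne h.2),
      if_neg (fun h => hcon.ne h.2)] at hne
    simp at hne
  · rw [Equiv.swap_apply_left]
    by_contra hcon
    rw [not_le] at hcon
    rw [if_neg (fun h => hcon.ne' h.1), if_neg (fun h => hcon.ne' h.1),
      if_neg (fun h => ((lt21 hi).trans hcon).ne' h.1)] at hne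
    simp at hne

lemma mul_swap {i : Fin m} (hi : 2 * i.val + 2 = m) (a c b : F) :
    tx (lt21 hi).ne' c * (tx (lt10 i).ne' a * tx (lt20 hi).ne' b) = yB hi a c (b + c * a) := by
  have h1 := (lt10 i).ne
  have h2 := (lt21 hi).ne
  have h3 := (lt20 hi).ne
  refine sl_ext fun u v => ?_
  rw [yB_apply, tx_mul_apply, tx_mul_apply, tx_mul_apply, tx_apply, tx_apply, tx_apply]
  by_cases hu : u = Fin.rev i.castSucc
  · subst hu
    by_cases hv : v = i.castSucc
    · subst hv
      simp [h1, h2, h3, h1.symm, h2.symm, h3.symm]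
    · by_cases hv' : v = i.succ
      · subst hv'
        simp [h1, h2, h3, h1.symm, h2.symm, h3.symm]
      · simp [h1, h2, h3, h1.symm, h2.symm, h3.symm, hv, hv', Ne.symm hv, Ne.symm hv']
  · by_cases hu' : u = i.succ
    · subst hu'
      by_cases hv : v = i.castSucc
      · subst hv
        simp [h1, h2, h3, h1.symm, h2.symm, h3.symm]
      · simp [h1, h2, h3, h1.symm, h2.symm, h3.symm, hv, Ne.symm hv]
    · simp [hu, hu']

lemma th_yB (hσ : ∀ x, σ (σ x) = x) {i : Fin m} (hi : 2 * i.val + 2 = m) (a c b : F) :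
    th σ (yB hi a c b) = yB hi (σ c) (σ a) (-σ b + σ a * σ c) := by
  obtain ⟨h1, h2, h3⟩ := B_vals hi
  rw [← mul_swap, yB, map_mul, map_mul]
  have e1 : th σ (tx (lt10 i).ne' a) = tx (lt21 hi).ne' (σ a) := by
    rw [th_lo]
    exact tx_congr (rev_castSucc' i).symm h3 rfl
  have e2 : th σ (tx (lt21 hi).ne' c) = tx (lt10 i).ne' (σ c) := by
    rw [th_tx]
    refine tx_congr h1 (Fin.rev_rev _) ?_
    have : ((-1 : F)) ^ ((Fin.rev i.castSucc).val + i.succ.val) = -1 :=
      Odd.neg_one_pow (Nat.odd_iff.2 (by rw [h2, Fin.val_succ]; omega))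
    rw [this]
    ring
  have e3 : th σ (tx (lt20 hi).ne' b) = tx (lt20 hi).ne' (-σ b) := by
    rw [th_tx]
    refine tx_congr rfl (Fin.rev_rev _) ?_
    have : ((-1 : F)) ^ ((Fin.rev i.castSucc).val + i.castSucc.val) = 1 :=
      Even.neg_one_pow (Nat.even_iff.2 (by rw [h2, Fin.val_castSucc]; omega))
    rw [this, one_mul]
  rw [e1, e2, e3]

/-- the relations between the entries of fixed elements -/
lemma B_sym (hσ : ∀ x, σ (σ x) = x) {i : Fin m} (hi : 2 * i.val + 2 = m) {A : SLm m F}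
    (hA : th σ A = A) (hlo : LoU A)
    (hpt : Pt (Equiv.swap i.castSucc (Fin.rev i.castSucc)) A) :
    A.1 (Fin.rev i.castSucc) i.succ = σ (A.1 i.succ i.castSucc) ∧
      A.1 (Fin.rev i.castSucc) i.castSucc + σ (A.1 (Fin.rev i.castSucc) i.castSucc) =
        A.1 i.succ i.castSucc * σ (A.1 i.succ i.castSucc) := by
  have hf := B_form hi hlo hpt
  set a := A.1 i.succ i.castSucc with ha
  set c := A.1 (Fin.rev i.castSucc) i.succ with hc
  set b := A.1 (Fin.rev i.castSucc) i.castSucc with hb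
  have hA' := hA
  rw [hf, th_yB hσ] at hA'
  have h1 := congrArg (fun B : SLm m F => B.1 i.succ i.castSucc) hA'
  have h2 := congrArg (fun B : SLm m F => B.1 (Fin.rev i.castSucc) i.succ) hA'
  have h3 := congrArg (fun B : SLm m F => B.1 (Fin.rev i.castSucc) i.castSucc) hA'
  simp only [yB_10] at h1
  simp only [yB_21] at h2
  simp only [yB_20] at h3
  refine ⟨h2.symm, ?_⟩
  rw [h1] at h3
  linear_combination (-1 : F) * h3

lemma B_mul {i : Fin m} (hi : 2 * i.val + 2 = m) (a c b : F) {B : SLm m F} (hB : LoU B) :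
    (yB hi a c b * B).1 i.succ i.castSucc = a + B.1 i.succ i.castSucc ∧
      (yB hi a c b * B).1 (Fin.rev i.castSucc) i.castSucc =
        b + B.1 (Fin.rev i.castSucc) i.castSucc + c * B.1 i.succ i.castSucc := by
  have h1 := (lt10 i).ne
  have h2 := (lt21 hi).ne
  have h3 := (lt20 hi).ne
  have e : yB hi a c b * B = tx (lt10 i).ne' a * (tx (lt21 hi).ne' c * (tx (lt20 hi).ne' b * B)) := by
    unfold yB
    group
  rw [e]
  constructor
  · rw [tx_mul_apply, tx_mul_apply, tx_mul_apply, tx_mul_apply, tx_mul_apply]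
    simp only [h1, h2, h3, h1.symm, h2.symm, h3.symm, if_true, if_false, add_zero, hB.2]
    ring
  · rw [tx_mul_apply, tx_mul_apply, tx_mul_apply, tx_mul_apply]
    simp only [h1, h2, h3, h1.symm, h2.symm, h3.symm, if_true, if_false, add_zero, hB.2]
    ring

end

end Vale.Agent.P240.R2.H775.RG
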