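import Vale.Agent.P240.R2.H775.RG5

/-!
Rigidity of the BN-pairs of the classical groups, part 6: automorphisms of order `p` that centralize
the diagonal matrices act trivially on the groups `n U n⁻¹ ∩ P_s`.
-/

set_option autoImplicit false
set_option linter.all false

namespace Vale.Agent.P240.R2.H775.RG

open Subgroup Matrix Vale.Agent.P240.H195 Vale.Agent.P240.R2.H487.CG Vale.Agent.P240.K

section
variable {L : Type*} [Group L]

/-- restriction of an automorphism to a subgroup -/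
def resA (f : MulAut L) (X : Subgroup L) (h : ∀ x ∈ X, f x ∈ X) (h' : ∀ x ∈ X, f⁻¹ x ∈ X) :
    MulAut X where
  toFun x := ⟨f x.1, h x.1 x.2⟩
  invFun x := ⟨f⁻¹ x.1, h' x.1 x.2⟩
  left_inv x := Subtype.ext (by
    change f⁻¹ (f x.1) = x.1
    rw [← MulAut.mul_apply, inv_mul_cancel, MulAut.one_apply])
  right_inv x := Subtype.ext (by
    change f (f⁻¹ x.1) = x.1
    rw [← MulAut.mul_apply, mul_inv_cancel, MulAut.one_apply])
  map_mul' x y := Subtype.ext (map_mul f _ _)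

lemma resA_apply (f : MulAut L) (X : Subgroup L) (h : ∀ x ∈ X, f x ∈ X) (h' : ∀ x ∈ X, f⁻¹ x ∈ X)
    (x : X) : (resA f X h h' x).1 = f x.1 := rfl

lemma resA_pow (f : MulAut L) (X : Subgroup L) (h : ∀ x ∈ X, f x ∈ X) (h' : ∀ x ∈ X, f⁻¹ x ∈ X)
    (k : ℕ) (x : X) : ((resA f X h h' ^ k) x).1 = (f ^ k) x.1 := by
  induction k generalizing x with
  | zero => rfl
  | succ k ih => rw [pow_succ, MulAut.mul_apply, ih, pow_succ, MulAut.mul_apply, resA_apply]

end

section
variable {F : Type*} [Field F] [Finite F] {m : ℕ} {σ : F ≃+* F}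

/-- type `C` -/
lemma fix_C {p : ℕ} [hp : Fact p.Prime] [CharP F p] (hm : 0 < m) (hσ : ∀ x, σ (σ x) = x)
    (hodd : m % 2 = 1 ∨ (∃ x, σ x ≠ x) ∨ (2 : F) ≠ 0) {i : Fin m} (hi : 2 * i.val + 2 < m)
    {f : MulAut (PGJ (m + 1) σ)} (hfp : f ^ p = 1)
    (hfT : ∀ t : ↥(GJ (m + 1) σ), Mon t.1 1 → f (pg m σ t) = pg m σ t)
    (hfX : ∀ A : ↥(GJ (m + 1) σ), LoU A.1 → Pt (sw i * sw (Fin.rev i)) A.1 →
      ∃ A' : ↥(GJ (m + 1) σ), f (pg m σ A) = pg m σ A' ∧ LoU A'.1 ∧
        Pt (sw i * sw (Fin.rev i)) A'.1)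
    (A : ↥(GJ (m + 1) σ)) (hlo : LoU A.1) (hpt : Pt (sw i * sw (Fin.rev i)) A.1) :
    f (pg m σ A) = pg m σ A := by
  obtain ⟨h1, h2, h3, h4⟩ := C_ne hi
  have key := lin_fix (K := F) (p := p) (M := PGJ (m + 1) σ)
    (fun c => pg m σ (mkG (th_yC hσ hi c))) ?_ ?_ hfp ?_ ?_
  · have e : A = mkG (th_yC hσ hi (A.1.1 i.succ i.castSucc)) :=
      Subtype.ext (C_sym hσ hi (fixed A) hlo hpt)
    rw [e]
    exact key _
  · intro a b hab
    have h5 := pg_inj (p := p) hm hσ hodd (yC_lou a) (yC_lou b) hab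
    have h6 := congrArg (fun B : ↥(GJ (m + 1) σ) => B.1.1 i.succ i.castSucc) h5
    have h7 : (yC σ i a).1 i.succ i.castSucc = (yC σ i b).1 i.succ i.castSucc := h6
    rwa [yC_apply hi, yC_apply hi] at h7
  · intro a b
    rw [← map_mul]
    congr 1
    exact Subtype.ext (yC_add hi a b)
  · intro c
    obtain ⟨A', h5, h6, h7⟩ := hfX (mkG (th_yC hσ hi c)) (yC_lou c) (yC_pt hi c)
    refine ⟨A'.1.1 i.succ i.castSucc, ?_⟩
    rw [h5]
    congr 1
    exact Subtype.ext (C_sym hσ hi (fixed A') h6 h7)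
  · intro a ha
    have ha' : a⁻¹ ≠ 0 := inv_ne_zero ha
    have he := diag2n_mon' (cs_ne i) ha'
    refine ⟨pg m σ (mkG (th_norm hσ he)), hfT _ (mon_norm he), fun c => ?_⟩
    rw [← map_inv, ← map_mul, ← map_mul]
    congr 1
    refine Subtype.ext ?_
    refine (yC_conj hi (mon_norm he) (th_norm hσ he) c).trans ?_
    have e1 : Fin.rev i.succ ≠ i.castSucc := by
      rw [rev_succ']; exact h1.symm
    have e2 : Fin.rev i.succ ≠ i.succ := by
      rw [rev_succ']; exact h3.symm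
    have e3 : Fin.rev i.castSucc ≠ i.castSucc := by
      rw [rev_castSucc']; exact h2.symm
    have e4 : Fin.rev i.castSucc ≠ i.succ := by
      rw [rev_castSucc']; exact h4.symm
    rw [norm_diag he, norm_diag he, diag2n_diag, diag2n_diag, diag2n_diag, diag2n_diag,
      if_neg (cs_ne i).symm, if_pos rfl, if_neg e1, if_neg e2, if_pos rfl, if_neg e3, if_neg e4]
    change yC σ i _ = yC σ i _
    congr 1
    rw [map_one]
    field_simp

/-- the middle case in even dimension -/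
lemma fix_A {p : ℕ} [hp : Fact p.Prime] [CharP F p] (hm : 0 < m) (hσ : ∀ x, σ (σ x) = x)
    (hodd : m % 2 = 1 ∨ (∃ x, σ x ≠ x) ∨ (2 : F) ≠ 0) {i : Fin m} (hi : 2 * i.val + 1 = m)
    {f : MulAut (PGJ (m + 1) σ)} (hfp : f ^ p = 1)
    (hfT : ∀ t : ↥(GJ (m + 1) σ), Mon t.1 1 → f (pg m σ t) = pg m σ t)
    (hfX : ∀ A : ↥(GJ (m + 1) σ), LoU A.1 →
      Pt (Equiv.swap i.castSucc (Fin.rev i.castSucc)) A.1 →
      ∃ A' : ↥(GJ (m + 1) σ), f (pg m σ A) = pg m σ A' ∧ LoU A'.1 ∧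
        Pt (Equiv.swap i.castSucc (Fin.rev i.castSucc)) A'.1)
    (A : ↥(GJ (m + 1) σ)) (hlo : LoU A.1)
    (hpt : Pt (Equiv.swap i.castSucc (Fin.rev i.castSucc)) A.1) :
    f (pg m σ A) = pg m σ A := by
  obtain ⟨h1, h2⟩ := AB_pair hi
  let K : Subfield F := (σ : F →+* F).eqLocusField (RingHom.id F)
  have hK : ∀ x : K, σ x.1 = x.1 := fun x => x.2
  have : CharP K p := RingHom.charP K.subtype Subtype.val_injective p
  have key := lin_fix (K := K) (p := p) (M := PGJ (m + 1) σ)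
    (fun c => pg m σ (mkG (th_yA hi (hK c)))) ?_ ?_ hfp ?_ ?_
  · have hc : σ (A.1.1 i.succ i.castSucc) = A.1.1 i.succ i.castSucc :=
      A_sym hi (fixed A) hlo hpt
    have e : A = mkG (th_yA hi (hK ⟨A.1.1 i.succ i.castSucc, hc⟩)) :=
      Subtype.ext (A_form hi hlo hpt)
    rw [e]
    exact key _
  · intro a b hab
    have h5 := pg_inj (p := p) hm hσ hodd (tx_lou (cs_lt i) _) (tx_lou (cs_lt i) _) hab
    have h6 := congrArg (fun B : ↥(GJ (m + 1) σ) => B.1.1 i.succ i.castSucc) h5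
    have h7 : (tx (cs_ne i).symm a.1 : SLm m F).1 i.succ i.castSucc =
      (tx (cs_ne i).symm b.1 : SLm m F).1 i.succ i.castSucc := h6
    rw [tx_apply, tx_apply] at h7
    apply Subtype.ext
    simpa using h7
  · intro a b
    rw [← map_mul]
    congr 1
    exact Subtype.ext (tx_mul_tx (cs_ne i).symm a.1 b.1).symm
  · intro c
    obtain ⟨A', h5, h6, h7⟩ := hfX (mkG (th_yA hi (hK c))) (tx_lou (cs_lt i) _) (yA_pt hi _)
    refine ⟨⟨A'.1.1 i.succ i.castSucc, A_sym hi (fixed A') h6 h7⟩, ?_⟩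
    rw [h5]
    congr 1
    exact Subtype.ext (A_form hi h6 h7)
  · intro a ha
    have ha0 : a.1 ≠ 0 := fun h => ha (Subtype.ext h)
    have ha' : a.1⁻¹ ≠ 0 := inv_ne_zero ha0
    have he := diag2n_mon' (cs_ne i) ha'
    have hrev2 : Fin.rev i.succ = i.castSucc := by rw [← h1, Fin.rev_rev]
    have hth : th σ (Matrix.SpecialLinearGroup.diag2n (cs_ne i) a.1⁻¹ ha' : SLm m F) =
        Matrix.SpecialLinearGroup.diag2n (cs_ne i) a.1⁻¹ ha' := by
      refine sl_ext fun u v => ?_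
      by_cases huv : u = v
      · subst huv
        rw [th_diag he, diag2n_diag, diag2n_diag]
        by_cases hu : u = i.castSucc
        · subst hu
          rw [h1, if_neg (cs_ne i).symm, if_pos rfl, if_pos rfl, inv_inv, hK]
        · by_cases hu' : u = i.succ
          · subst hu'
            rw [hrev2, if_pos rfl, if_neg (cs_ne i).symm, if_pos rfl, map_inv₀, hK]
          · rw [if_neg (fun h => hu' (by rw [← h1, ← h, Fin.rev_rev])),
              if_neg (fun h => hu (by rw [← hrev2, ← h, Fin.rev_rev])), if_neg hu, if_neg hu',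
              map_one, inv_one]
      · rw [mon_eq (mon_th_one he) (by rw [Equiv.Perm.one_apply]; exact huv),
          mon_eq he (by rw [Equiv.Perm.one_apply]; exact huv)]
    refine ⟨pg m σ (mkG hth), hfT _ he, fun c => ?_⟩
    rw [← map_inv, ← map_mul, ← map_mul]
    congr 1
    refine Subtype.ext ?_
    refine (diag_conj_tx he (cs_ne i).symm c.1).trans ?_
    change _ = tx (cs_ne i).symm (a.1 ^ 2 * c.1)
    congr 1
    rw [diag2n_diag, diag2n_diag, if_neg (cs_ne i).symm, if_pos rfl, if_pos rfl]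
    field_simp

end

end Vale.Agent.P240.R2.H775.RG
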