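import Vale.Agent.P240.R2.H195.RigA
import Vale.Agent.P240.R2.H775.RG6

/-!
Rigidity of the BN-pairs of the classical groups, part 7: the middle case in odd dimension and the
main result.
-/

set_option autoImplicit false
set_option linter.all false

namespace Vale.Agent.P240.R2.H775.RG

open Subgroup Matrix Vale.Agent.P240.H195 Vale.Agent.P240.R2.H487.CG Vale.Agent.P240.K

section
variable {F : Type*} [Field F] [Finite F] {m : ℕ} {σ : F ≃+* F}

/-- the middle case in odd dimension -/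
lemma fix_B {p : ℕ} [hp : Fact p.Prime] [CharP F p] (hm : 0 < m) (hσ : ∀ x, σ (σ x) = x)
    (hne : ∃ x, σ x ≠ x) {i : Fin m} (hi : 2 * i.val + 2 = m)
    (hsmall : (∃ k, σ k = k ∧ k ≠ 0 ∧ k ≠ 1) ∨ 2 < m)
    {f : MulAut (PGJ (m + 1) σ)} (hfp : f ^ p = 1)
    (hfT : ∀ t : ↥(GJ (m + 1) σ), Mon t.1 1 → f (pg m σ t) = pg m σ t)
    {X : Subgroup (PGJ (m + 1) σ)}
    (hX : ∀ y, y ∈ X ↔ ∃ A : ↥(GJ (m + 1) σ), y = pg m σ A ∧ LoU A.1 ∧
      Pt (Equiv.swap i.castSucc (Fin.rev i.castSucc)) A.1)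
    (hfX : ∀ y ∈ X, f y ∈ X) (hfX' : ∀ y ∈ X, f⁻¹ y ∈ X) : ∀ y ∈ X, f y = y := by
  have hodd : m % 2 = 1 ∨ (∃ x, σ x ≠ x) ∨ (2 : F) ≠ 0 := Or.inr (Or.inl hne)
  have hσ0 : ∀ {x}, x ≠ 0 → σ x ≠ 0 := fun h => by rwa [Ne, map_eq_zero_iff σ σ.injective]
  set τ := Equiv.swap i.castSucc (Fin.rev i.castSucc) with hτ
  choose A hA1 hA2 hA3 using fun y : X => (hX y.1).1 y.2
  have huniq : ∀ (y : X) (A' : ↥(GJ (m + 1) σ)), LoU A'.1 → y.1 = pg m σ A' → A y = A' := by
    intro y A' h1 h2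
    exact pg_inj (p := p) hm hσ hodd (hA2 y) h1 ((hA1 y).symm.trans h2)
  let α : X → F := fun y => (A y).1.1 i.succ i.castSucc
  let β : X → F := fun y => (A y).1.1 (Fin.rev i.castSucc) i.castSucc
  have hsym : ∀ y : X, (A y).1.1 (Fin.rev i.castSucc) i.succ = σ (α y) ∧
      β y + σ (β y) = α y * σ (α y) := fun y => B_sym hσ hi (fixed (A y)) (hA2 y) (hA3 y)
  have hform : ∀ y : X, (A y).1 = yB hi (α y) (σ (α y)) (β y) := by
    intro y
    have h1 := B_form hi (hA2 y) (hA3 y)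
    rw [(hsym y).1] at h1
    exact h1
  have hinj : ∀ x y : X, α x = α y → β x = β y → x = y := by
    intro x y h1 h2
    have h3 : A x = A y := Subtype.ext (by rw [hform, hform, h1, h2])
    exact Subtype.ext (by rw [hA1 x, hA1 y, h3])
  have hmul : ∀ x y : X, A (x * y) = A x * A y := by
    intro x y
    refine huniq _ _ (lou_mul (hA2 x) (hA2 y)) ?_
    rw [map_mul, ← hA1 x, ← hA1 y]
    rfl
  have hmul2 : ∀ x y : X, α (x * y) = α x + α y ∧ β (x * y) = β x + β y + σ (α x) * α y := by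
    intro x y
    have h1 := B_mul hi (α x) (σ (α x)) (β x) (hA2 y)
    rw [← hform x] at h1
    have h2 : (A (x * y)).1 = (A x).1 * (A y).1 := by rw [hmul]; rfl
    constructor
    · change (A (x * y)).1.1 i.succ i.castSucc = _
      rw [h2]
      exact h1.1
    · change (A (x * y)).1.1 (Fin.rev i.castSucc) i.castSucc = _
      rw [h2]
      exact h1.2
  have hrev1 := (B_vals hi).1
  let W : Set F := {w | ∃ t : ↥(GJ (m + 1) σ), Mon t.1 1 ∧
    w = t.1.1 i.succ i.succ * (t.1.1 i.castSucc i.castSucc)⁻¹}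
  have key := heis_rigid (F := F) (p := p) hσ hne (X := X) (α := α) (β := β) (ε := 1) one_ne_zero
    (map_one σ) hinj (fun x => by rw [one_mul]; exact (hsym x).2) ?_ (fun x y => (hmul2 x y).1)
    (Or.inr fun x y => by rw [one_mul]; exact (hmul2 x y).2) (W := W) ?_ ?_
    (f := resA f X hfX hfX') ?_ ?_
  · intro y hy
    have h1 := congrArg (fun g : MulAut X => (g ⟨y, hy⟩).1) key
    exact h1
  · intro a b hab
    rw [one_mul] at hab
    have hth : th σ (yB hi a (σ a) b) = yB hi a (σ a) b := by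
      rw [th_yB hσ, hσ]
      congr 1
      linear_combination (-1 : F) * hab
    have hmem : pg m σ (mkG hth) ∈ X := (hX _).2 ⟨_, rfl, yB_lou hi _ _ _, yB_pt hi _ _ _⟩
    refine ⟨⟨_, hmem⟩, ?_, ?_⟩
    · change (A ⟨_, hmem⟩).1.1 i.succ i.castSucc = a
      rw [huniq ⟨_, hmem⟩ (mkG hth) (yB_lou hi _ _ _) rfl]
      exact yB_10 hi _ _ _
    · change (A ⟨_, hmem⟩).1.1 (Fin.rev i.castSucc) i.castSucc = b
      rw [huniq ⟨_, hmem⟩ (mkG hth) (yB_lou hi _ _ _) rfl]
      exact yB_20 hi _ _ _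
  · intro t ht
    have ht' : t⁻¹ ≠ 0 := inv_ne_zero ht
    have he := diag2n_mon' (cs_ne i) ht'
    refine ⟨mkG (th_norm hσ he), mon_norm he, ?_⟩
    change _ = (_ * th σ _ : SLm m F).1 i.succ i.succ *
      ((_ * th σ _ : SLm m F).1 i.castSucc i.castSucc)⁻¹
    rw [norm_diag he, norm_diag he, hrev1, diag2n_diag, diag2n_diag, diag2n_diag,
      if_neg (cs_ne i).symm, if_pos rfl, if_pos rfl, if_neg (lt20 hi).ne', if_neg (lt21 hi).ne',
      inv_inv, map_one]
    have := hσ0 ht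
    field_simp
  · rcases hsmall with h1 | h1
    · exact Or.inl h1
    · right
      intro t ht
      have h0 : i.succ ≠ (0 : Fin (m + 1)) := Fin.succ_ne_zero i
      have h0' : i.castSucc ≠ (0 : Fin (m + 1)) := by
        rw [Ne, Fin.ext_iff, Fin.val_castSucc, Fin.val_zero]
        omega
      have h0'' : Fin.rev i.castSucc ≠ (0 : Fin (m + 1)) := by
        rw [Ne, Fin.ext_iff, (B_vals hi).2.1, Fin.val_zero]
        omega
      have he := diag2n_mon' h0 ht
      refine ⟨mkG (th_norm hσ he), mon_norm he, ?_⟩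
      change _ = (_ * th σ _ : SLm m F).1 i.succ i.succ *
        ((_ * th σ _ : SLm m F).1 i.castSucc i.castSucc)⁻¹
      rw [norm_diag he, norm_diag he, hrev1, diag2n_diag, diag2n_diag, diag2n_diag, if_pos rfl,
        if_neg (cs_ne i), if_neg h0', if_neg (lt21 hi).ne', if_neg h0'', map_one]
      have := hσ0 ht
      field_simp
  · rintro w ⟨t, ht, hw⟩ x y hxy1 hxy2
    have hd1 := th_diag (σ := σ) ht i.succ
    have hd2 := th_diag (σ := σ) ht (Fin.rev i.castSucc)
    rw [fixed, hrev1] at hd1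
    rw [fixed, Fin.rev_rev] at hd2
    have hn1 : t.1.1 i.succ i.succ ≠ 0 := mon_ne ht _
    have hn0 : t.1.1 i.castSucc i.castSucc ≠ 0 := mon_ne ht _
    have hww : w * σ w = t.1.1 (Fin.rev i.castSucc) (Fin.rev i.castSucc) *
        (t.1.1 i.castSucc i.castSucc)⁻¹ := by
      rw [hw, hd2, map_mul, map_inv₀]
      have h5 : t.1.1 i.succ i.succ * σ (t.1.1 i.succ i.succ) = 1 := by
        nth_rewrite 1 [hd1]
        rw [inv_mul_cancel₀ (hσ0 hn1)]
      linear_combination (t.1.1 i.castSucc i.castSucc)⁻¹ * (σ (t.1.1 i.castSucc i.castSucc))⁻¹ * h5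
    -- conjugation by `t`
    have hconj : ∀ z : X, ∀ hz : pg m σ t * z.1 * (pg m σ t)⁻¹ ∈ X,
        α ⟨_, hz⟩ = w * α z ∧ β ⟨_, hz⟩ = w * σ w * β z := by
      intro z hz
      have h1 : LoU (t * A z * t⁻¹).1 := by
        refine ⟨fun u v huv => ?_, fun u => ?_⟩
        · refine (diag_conj_apply ht (A z).1 u v).trans ?_
          rw [(hA2 z).1 u v huv]
          ring
        · refine (diag_conj_apply ht (A z).1 u u).trans ?_
          rw [(hA2 z).2 u, mul_one]
          exact mul_inv_cancel₀ (mon_ne ht u)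
      have h2 := huniq ⟨_, hz⟩ (t * A z * t⁻¹) h1 (by
        change pg m σ t * z.1 * (pg m σ t)⁻¹ = _
        rw [map_mul, map_mul, map_inv, ← hA1 z])
      constructor
      · change (A ⟨_, hz⟩).1.1 i.succ i.castSucc = _
        rw [h2]
        refine (diag_conj_apply ht (A z).1 _ _).trans ?_
        rw [hw]
        change _ = t.1.1 i.succ i.succ * (t.1.1 i.castSucc i.castSucc)⁻¹ *
          (A z).1.1 i.succ i.castSucc
        ring
      · change (A ⟨_, hz⟩).1.1 (Fin.rev i.castSucc) i.castSucc = _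
        rw [h2]
        refine (diag_conj_apply ht (A z).1 _ _).trans ?_
        rw [hww]
        change _ = t.1.1 (Fin.rev i.castSucc) (Fin.rev i.castSucc) *
          (t.1.1 i.castSucc i.castSucc)⁻¹ * (A z).1.1 (Fin.rev i.castSucc) i.castSucc
        ring
    have hmemX : ∀ z : X, pg m σ t * z.1 * (pg m σ t)⁻¹ ∈ X := by
      intro z
      refine (hX _).2 ⟨t * A z * t⁻¹, ?_, ⟨fun u v huv => ?_, fun u => ?_⟩, fun u v huv hne' => ?_⟩
      · rw [map_mul, map_mul, map_inv, ← hA1 z]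
      · refine (diag_conj_apply ht (A z).1 u v).trans ?_
        rw [(hA2 z).1 u v huv]
        ring
      · refine (diag_conj_apply ht (A z).1 u u).trans ?_
        rw [(hA2 z).2 u, mul_one]
        exact mul_inv_cancel₀ (mon_ne ht u)
      · refine hA3 z u v huv fun h0 => hne' ?_
        refine (diag_conj_apply ht (A z).1 u v).trans ?_
        rw [h0]
        ring
    have hyx : y = ⟨_, hmemX x⟩ := by
      refine hinj _ _ ?_ ?_
      · rw [hxy1, (hconj x (hmemX x)).1]
      · rw [hxy2, (hconj x (hmemX x)).2]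
    have hfy : resA f X hfX hfX' y = ⟨_, hmemX (resA f X hfX hfX' x)⟩ := by
      rw [hyx]
      apply Subtype.ext
      change f (pg m σ t * x.1 * (pg m σ t)⁻¹) = pg m σ t * f x.1 * (pg m σ t)⁻¹
      rw [map_mul, map_mul, map_inv, hfT t ht]
    rw [hfy]
    exact hconj _ _
  · ext y
    rw [resA_pow, hfp]
    rfl

end

end Vale.Agent.P240.R2.H775.RG
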