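import Vale.Agent.P240.R2.H775.RGen

/-!
Rigidity when some of the simple root groups are Suzuki groups of order `q²`.
-/

set_option autoImplicit false
set_option linter.all false

namespace Vale.Agent.P240.R2.H775.RGen

open Subgroup Vale.Agent.P240.H195
open Vale.Agent.P240.R2.H775.RG (lin_fix)

universe u v

section
variable {F : Type v} [Field F] {θ : F →+* F}

/-- Automorphisms `f` with `f² = 1` of a group that stabilize a Suzuki `2`-group
`{x a b}`, `x a b * x c d = x (a + c) (b + d + θ a * c)`, and that commute with the torus, are trivial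
on it. -/
theorem sz_fix (hθ : ∀ x, θ (θ x) = x ^ 2) (hne : ∃ x, θ x ≠ x) {L : Type u} [Group L]
    (x : F → F → L) (hinj : ∀ a b c d, x a b = x c d → a = c ∧ b = d)
    (hmul : ∀ a b c d, x a b * x c d = x (a + c) (b + d + θ a * c)) {f : MulAut L}
    (hf : f ^ 2 = 1) (hfx : ∀ a b, ∃ c d, f (x a b) = x c d)
    (hT : ∀ k : F, k ≠ 0 → ∃ t, f t = t ∧ ∀ a b, t * x a b * t⁻¹ = x (k * a) (k * θ k * b)) :
    ∀ a b, f (x a b) = x a b := by
  have h2 : (2 : F) = 0 := by
    have h1 := hθ (1 + 1)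
    rw [map_add, map_one, map_add, map_one] at h1
    linear_combination -h1
  have hff : ∀ y, f (f y) = y := by
    intro y
    have h1 := congrArg (fun h : MulAut _ => h y) hf
    rw [sq] at h1
    exact h1
  choose A B hAB using hfx
  have htor : ∀ k, k ≠ 0 → ∀ a b, A (k * a) (k * θ k * b) = k * A a b ∧
      B (k * a) (k * θ k * b) = k * θ k * B a b := by
    intro k hk a b
    obtain ⟨t, ht, htx⟩ := hT k hk
    have h1 := hAB (k * a) (k * θ k * b)
    rw [← htx, map_mul, map_mul, map_inv, ht, hAB, htx] at h1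
    have h3 := hinj _ _ _ _ h1
    exact ⟨h3.1.symm, h3.2.symm⟩
  have hadd : ∀ a b c d, A (a + c) (b + d + θ a * c) = A a b + A c d ∧
      B (a + c) (b + d + θ a * c) = B a b + B c d + θ (A a b) * A c d := by
    intro a b c d
    have h1 := hAB (a + c) (b + d + θ a * c)
    rw [← hmul, map_mul, hAB, hAB, hmul] at h1
    have h3 := hinj _ _ _ _ h1
    exact ⟨h3.1.symm, h3.2.symm⟩
  have h11 : ∀ y : F, y + y = 0 := fun y => by linear_combination y * h2
  -- elements of the centre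
  have hsurj : ∀ b : F, ∃ a, θ a * a = b := by
    intro b
    by_cases hb : b = 0
    · exact ⟨0, by rw [hb, mul_zero]⟩
    · have hb' : θ b ≠ 0 := (map_ne_zero θ).2 hb
      refine ⟨θ b / b, ?_⟩
      rw [map_div₀, hθ]
      field_simp
  have hAZ : ∀ b, A 0 b = 0 := by
    intro b
    obtain ⟨a, ha⟩ := hsurj b
    have h1 := (hadd a 0 a 0).1
    rw [h11, h11, h11, zero_add, ha] at h1
    exact h1
  have hA : ∀ a b, A a b = a * A 1 0 := by
    intro a b
    have h1 := (hadd a 0 0 b).1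
    rw [add_zero, zero_add, mul_zero, add_zero, hAZ, add_zero] at h1
    rw [h1]
    by_cases ha : a = 0
    · rw [ha, hAZ, zero_mul]
    · have h3 := (htor a ha 1 0).1
      rwa [mul_one, mul_zero] at h3
  have hA1 : A 1 0 = 1 := by
    have h1 := hff (x 1 0)
    rw [hAB, hAB] at h1
    have h3 := (hinj _ _ _ _ h1).1
    rw [hA] at h3
    have h4 : (A 1 0 - 1) ^ 2 = 0 := by linear_combination h3 + (1 - A 1 0) * h2
    have h5 := pow_eq_zero_iff two_ne_zero |>.1 h4
    linear_combination h5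
  have hA' : ∀ a b, A a b = a := fun a b => by rw [hA, hA1, mul_one]
  have hBZ : ∀ b, B 0 b = b := by
    intro b
    obtain ⟨a, ha⟩ := hsurj b
    have h1 := (hadd a 0 a 0).2
    rw [h11, h11, h11, zero_add, ha, hA', zero_add, ha] at h1
    exact h1
  have hB0 : ∀ a b, B a b = B a 0 + b := by
    intro a b
    have h1 := (hadd a 0 0 b).2
    rw [add_zero, zero_add, mul_zero, add_zero, hBZ, hAZ, mul_zero, add_zero] at h1
    exact h1
  obtain ⟨c, hc⟩ := hne
  have hc0 : c ≠ 0 := by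
    intro h0
    apply hc
    rw [h0, map_zero]
  have hc1 : 1 + c ≠ 0 := by
    intro h0
    apply hc
    have h5 : c = 1 := by linear_combination h0 - h2
    rw [h5, map_one]
  have hB1 : B 1 0 = 0 := by
    have h1 := (hadd 1 0 c 0).2
    rw [hB0, hA', hA'] at h1
    have h3 := (htor c hc0 1 0).2
    have h4 := (htor (1 + c) hc1 1 0).2
    rw [mul_one, mul_zero] at h3 h4
    rw [h3, h4, map_add, map_one] at h1
    have h5 : (θ c - c) * B 1 0 = 0 := by linear_combination h1 - (c * B 1 0) * h2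
    rcases mul_eq_zero.1 h5 with h6 | h6
    · exact absurd (sub_eq_zero.1 h6) hc
    · exact h6
  intro a b
  rw [hAB, hA', hB0]
  by_cases ha : a = 0
  · rw [ha, hBZ, zero_add]
  · have h3 := (htor a ha 1 0).2
    rw [mul_one, mul_zero, hB1, mul_zero] at h3
    rw [h3, zero_add]

end

section
variable {L : Type u} [Group L] {B N U : Subgroup L} {S : Set L}

/-- The root group `n U n⁻¹ ∩ P_s` is a Suzuki `2`-group over the field `K`, and `T = B ∩ N` induces
on it all automorphisms `(a, b) ↦ (k a, k θ(k) b)`. -/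
structure SuzRoot (K : Type v) [Field K] (θ : K →+* K) (B N U : Subgroup L) (n s : L)
    (x : K → K → L) : Prop where
  sq : ∀ a, θ (θ a) = a ^ 2
  ne : ∃ a, θ a ≠ a
  inj : ∀ a b c d, x a b = x c d → a = c ∧ b = d
  mul : ∀ a b c d, x a b * x c d = x (a + c) (b + d + θ a * c)
  mem : ∀ a b, x a b ∈ Par B s ∧ n⁻¹ * x a b * n ∈ U
  all : ∀ y, y ∈ Par B s → n⁻¹ * y * n ∈ U → ∃ a b, y = x a b
  torus : ∀ k : K, k ≠ 0 → ∃ t ∈ B, t ∈ N ∧ ∀ a b, t * x a b * t⁻¹ = x (k * a) (k * θ k * b)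

/-- **Criterion for rigidity in characteristic two**: the opposite simple root groups are fields or
Suzuki `2`-groups. -/
theorem rigid_of_mixed [Finite L] (h : SB 2 B N U S) (hsimple : IsSimpleGroup L)
    (hcomm : ∀ x ∈ B, x ∈ N → ∀ y ∈ B, y ∈ N → x * y = y * x)
    (hroot : ∀ n ∈ N, (∀ x ∈ U, n * x * n⁻¹ ∈ U → x = 1) → ∀ s ∈ S,
      (∃ (K : Type v) (_ : Field K) (_ : Finite K) (_ : CharP K 2) (x : K → L),
        FieldRoot K B N U n s x) ∨
      ∃ (K : Type v) (_ : Field K) (θ : K →+* K) (x : K → K → L), SuzRoot K θ B N U n s x) :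
    RigidBN 2 B N U S := by
  have : Fact (Nat.Prime 2) := ⟨Nat.prime_two⟩
  refine h.rigid_of_roots hsimple Nat.prime_two hcomm ?_
  intro n hn hopp f hfp hfT s hs hfX y hyP hyU
  rcases hroot n hn hopp s hs with ⟨K, _, _, _, x, hx⟩ | ⟨K, _, θ, x, hx⟩
  · obtain ⟨c, rfl⟩ := hx.all y hyP hyU
    refine lin_fix (K := K) (p := 2) x hx.inj hx.add hfp ?_ ?_ c
    · intro c
      have h1 := hfX _ (hx.mem c).1 (hx.mem c).2
      exact hx.all _ h1.1 h1.2
    · intro a ha
      obtain ⟨t, htB, htN, ht⟩ := hx.torus a ha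
      exact ⟨t, hfT t htB htN, ht⟩
  · obtain ⟨a, b, rfl⟩ := hx.all y hyP hyU
    refine sz_fix hx.sq hx.ne x hx.inj hx.mul hfp ?_ ?_ a b
    · intro a b
      have h1 := hfX _ (hx.mem a b).1 (hx.mem a b).2
      exact hx.all _ h1.1 h1.2
    · intro k hk
      obtain ⟨t, htB, htN, ht⟩ := hx.torus k hk
      exact ⟨t, hfT t htB htN, ht⟩

/-- the opposite root group does not depend on the opposite element -/
lemma SuzRoot.change {K : Type v} [Field K] {θ : K →+* K} {n₀ n s : L} {x : K → K → L}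
    (hU : ∀ b ∈ B, ∀ u ∈ U, b * u * b⁻¹ ∈ U) (ht : n₀⁻¹ * n ∈ B)
    (hx : SuzRoot K θ B N U n₀ s x) : SuzRoot K θ B N U n s x where
  sq := hx.sq
  ne := hx.ne
  inj := hx.inj
  mul := hx.mul
  mem := by
    intro a b
    refine ⟨(hx.mem a b).1, ?_⟩
    have e : n⁻¹ * x a b * n = (n₀⁻¹ * n)⁻¹ * (n₀⁻¹ * x a b * n₀) * (n₀⁻¹ * n)⁻¹⁻¹ := by group
    rw [e]
    exact hU _ (inv_mem ht) _ (hx.mem a b).2
  all := by
    intro y hy hny
    refine hx.all y hy ?_
    have e : n₀⁻¹ * y * n₀ = (n₀⁻¹ * n) * (n⁻¹ * y * n) * (n₀⁻¹ * n)⁻¹ := by group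
    rw [e]
    exact hU _ ht _ hny
  torus := hx.torus

/-- **Criterion for rigidity in characteristic two**, with one opposite element. -/
theorem rigid_of_mixed' [Finite L] (h : SB 2 B N U S) (hsimple : IsSimpleGroup L)
    (hcomm : ∀ x ∈ B, x ∈ N → ∀ y ∈ B, y ∈ N → x * y = y * x)
    {n₀ : L} (hn₀ : n₀ ∈ N) (hopp₀ : ∀ x ∈ U, n₀ * x * n₀⁻¹ ∈ U → x = 1)
    (hroot : ∀ s ∈ S,
      (∃ (K : Type v) (_ : Field K) (_ : Finite K) (_ : CharP K 2) (x : K → L),
        FieldRoot K B N U n₀ s x) ∨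
      ∃ (K : Type v) (_ : Field K) (θ : K →+* K) (x : K → K → L), SuzRoot K θ B N U n₀ s x) :
    RigidBN 2 B N U S := by
  refine rigid_of_mixed h hsimple hcomm ?_
  intro n hn hopp s hs
  have ht := opp_unique h Nat.prime_two hn₀ hopp₀ hn hopp
  rcases hroot s hs with ⟨K, i1, i2, i3, x, hx⟩ | ⟨K, i1, θ, x, hx⟩
  · exact Or.inl ⟨K, i1, i2, i3, x, hx.change h.normal ht⟩
  · exact Or.inr ⟨K, i1, θ, x, hx.change h.normal ht⟩

end

end Vale.Agent.P240.R2.H775.RGen
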