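import Vale.Agent.P240.R2.H775.RD2

/-!
Rigidity of the BN-pairs of groups of type 2D, part 1: root elements.
-/

set_option autoImplicit false
set_option linter.all false

namespace Vale.Agent.P240.R2.H775.RT

open Subgroup Matrix Vale.Agent.P240.H195 Vale.Agent.P240.R2.H487.CG
open Vale.Agent.P240.K (cj mem_cj)
open Vale.Agent.P240.R2.H38.DD
open Vale.Agent.P240.R2.H775.RG (Pt LoU pt_of_dc pt_of_up lin_fix diag_comm lou_mul)
open Vale.Agent.P240.R2.H775.RD (tx_iso lo_mid gm_lou xr_lou xr_mul tau_form BH UH mem_BH' mem_UH'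
  anti' pi_inj)

section
variable {n : ℕ} {F : Type*} [Field F]

/-- one of the two middle indices -/
def Mid (a : VI n) : Prop := a = c0 n ∨ a = c1 n

lemma mid_rev {a : VI n} (h : ¬ Mid a) : ¬ Mid (Fin.rev a) := by
  rintro (h1 | h1)
  · exact h (Or.inr (by rw [← Fin.rev_rev a, h1, rev_c0]))
  · exact h (Or.inl (by rw [← Fin.rev_rev a, h1, rev_c1]))

lemma pp_fix {a : VI n} (h : ¬ Mid a) : pp n a = a := by
  unfold pp
  exact Equiv.swap_apply_of_ne_of_ne (fun h1 => h (Or.inl h1)) fun h1 => h (Or.inr h1)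

lemma pp_c0 : pp n (c0 n) = c1 n := Equiv.swap_apply_left _ _

lemma pp_c1 : pp n (c1 n) = c0 n := Equiv.swap_apply_right _ _

/-- The condition on the group: isometries of determinant one of the form `Qd` that are fixed by the
graph-field automorphism, containing the root elements. -/
structure GoodT (n : ℕ) (σ : F ≃+* F) (H : Subgroup (SLm (2 * n + 1) F)) : Prop where
  le : H ≤ SOD n F
  fix : ∀ A ∈ H, ∀ i j, A.1 (pp n i) (pp n j) = σ (A.1 i j)
  lr : ∀ a b : VI n, a ≠ b → a ≠ Fin.rev b → ¬ Mid a → ¬ Mid b → ∀ t : F, σ t = t →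
    xr a b t ∈ H
  sr : ∀ a : VI n, ¬ Mid a → ∀ t : F, xr a (c0 n) t * xr a (c1 n) (σ t) ∈ H

/-- the product of the two root elements of a middle root group -/
lemma ys_apply {a b : VI n} (h : a ≠ b) (h' : a ≠ Fin.rev b) (s t : F) (i j : VI n) :
    (xr a b s * xr a (Fin.rev b) t).1 i j = (if i = j then 1 else 0) +
      (if i = a ∧ j = b then s else 0) + (if i = Fin.rev b ∧ j = Fin.rev a then -s else 0) +
      (if i = a ∧ j = Fin.rev b then t else 0) + (if i = b ∧ j = Fin.rev a then -t else 0) +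
      (if i = a ∧ j = Fin.rev a then -(s * t) else 0) := by
  have e1 : Fin.rev a ≠ a := rv_ne a
  have e2 : b ≠ Fin.rev b := (rv_ne b).symm
  have e3 : b ≠ Fin.rev a := fun h5 => h' (by rw [h5, Fin.rev_rev])
  have e4 : Fin.rev a ≠ b := e3.symm
  rw [xr_mul h h', xr_apply h', xr_apply h', xr_apply h', Fin.rev_rev]
  by_cases hi : i = a
  · subst hi
    simp only [h, h', h.symm, e1, e1.symm, e2, e3, e4, true_and, false_and, if_true, if_false,
      add_zero, zero_add, eq_comm (a := b) (b := j), if_neg h, if_neg h']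
    by_cases hj : j = b
    · subst hj
      simp [e2, e3]
    · by_cases hj' : j = Fin.rev i
      · subst hj'
        simp [hj]
      · simp [hj, hj']
  · by_cases hi' : i = Fin.rev b
    · subst hi'
      have e5 : Fin.rev b ≠ b := e2.symm
      simp only [hi, e1, e4, e5, true_and, false_and, if_true, if_false, add_zero, zero_add,
        eq_comm (a := Fin.rev a) (b := j)]
      by_cases hj : j = Fin.rev a
      · simp [hj]
      · simp [hj]
    · simp [hi, hi']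

lemma ys_comm {a b : VI n} (h : a ≠ b) (h' : a ≠ Fin.rev b) (s t : F) :
    xr a b s * xr a (Fin.rev b) t = xr a (Fin.rev b) t * xr a b s := by
  have h1 := ys_apply h' (by rw [Fin.rev_rev]; exact h) t s
  refine sl_ext fun i j => ?_
  have h2 := h1 i j
  rw [Fin.rev_rev] at h2
  rw [ys_apply h h', h2, mul_comm t s]
  ring

/-- the two root subgroups of type `A1` commute, second form -/
lemma ys_comm2 {a b : VI n} (h : a ≠ b) (h' : a ≠ Fin.rev b) (s t : F) :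
    Commute (xr a b s) (xr a (Fin.rev b) t) := ys_comm h h' s t

lemma ys_comm3 {a b : VI n} (h : a ≠ b) (h' : a ≠ Fin.rev b) (s t : F) :
    Commute (xr b a s) (xr (Fin.rev b) a t) := by
  have h1 : Fin.rev a ≠ Fin.rev b := fun h2 => h (Fin.rev_injective h2)
  have h2 : Fin.rev a ≠ b := fun h3 => h' (by rw [← h3, Fin.rev_rev])
  have e1 : xr b a s = xr (Fin.rev a) (Fin.rev b) (-s) := by
    have := xr_rev h1 s
    rwa [Fin.rev_rev, Fin.rev_rev] at this
  have e2 : xr (Fin.rev b) a t = xr (Fin.rev a) b (-t) := by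
    have := xr_rev h2 t
    rwa [Fin.rev_rev] at this
  rw [e1, e2]
  exact (ys_comm2 h2 h1 _ _).symm

lemma ys_comm4 {a b : VI n} (h : a ≠ b) (h' : a ≠ Fin.rev b) (s t : F) :
    Commute (xr b a s) (xr a (Fin.rev b) t) := by
  have h2 : b ≠ Fin.rev a := fun h3 => h' (by rw [h3, Fin.rev_rev])
  have e2 : xr a (Fin.rev b) t = xr b (Fin.rev a) (-t) := by
    have := xr_rev h' (-t)
    rw [Fin.rev_rev, neg_neg] at this
    exact this.symm
  rw [e2]
  exact ys_comm2 h.symm h2 _ _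

lemma ys_comm5 {a b : VI n} (h : a ≠ b) (h' : a ≠ Fin.rev b) (s t : F) :
    Commute (xr a b s) (xr (Fin.rev b) a t) := by
  have h4 := ys_comm4 (a := a) (b := Fin.rev b) h' (by rw [Fin.rev_rev]; exact h) t s
  rw [Fin.rev_rev] at h4
  exact h4.symm

/-- representatives of the reflections in the root subgroups -/
def Wr (a b : VI n) (c : F) : SLm (2 * n + 1) F :=
  xr a b (-c⁻¹) * (xr b a c * xr a b (-c⁻¹))

lemma Wr_comm {a b : VI n} (h : a ≠ b) (h' : a ≠ Fin.rev b) (s t : F) :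
    Commute (Wr a b s) (xr a (Fin.rev b) t) ∧ Commute (Wr a b s) (xr (Fin.rev b) a t) := by
  unfold Wr
  exact ⟨(ys_comm2 h h' _ _).mul_left ((ys_comm4 h h' _ _).mul_left (ys_comm2 h h' _ _)),
    (ys_comm5 h h' _ _).mul_left ((ys_comm3 h h' _ _).mul_left (ys_comm5 h h' _ _))⟩

lemma Wr_Wr {a b : VI n} (h : a ≠ b) (h' : a ≠ Fin.rev b) (s t : F) :
    Commute (Wr a b s) (Wr a (Fin.rev b) t) := by
  obtain h1 := fun y : F => (Wr_comm h h' s y).1
  obtain h2 := fun y : F => (Wr_comm h h' s y).2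
  exact (h1 _).mul_right ((h2 _).mul_right (h1 _))

lemma Wr_mon {a b : VI n} (h : a ≠ b) (h' : a ≠ Fin.rev b) {c : F} (hc : c ≠ 0) :
    Mon (Wr a b c) (Equiv.swap a b * Equiv.swap (Fin.rev b) (Fin.rev a)) := xr_rank h h' hc

lemma Wr_ba {a b : VI n} (h : a ≠ b) (h' : a ≠ Fin.rev b) (c : F) : (Wr a b c).1 b a = c := by
  have hba' : b ≠ Fin.rev a := fun h5 => h' (by rw [h5, Fin.rev_rev])
  have hb : b ≠ Fin.rev b := (rv_ne b).symm
  unfold Wr
  rw [xr_mul h h', xr_mul h.symm hba', if_neg h.symm, if_neg hb, if_pos rfl, if_neg hba',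
    xr_diag h, xr_apply h, if_neg h.symm, if_neg (fun h1 => h h1.2), if_neg (fun h1 => hb h1.1)]
  ring

lemma Wr_ab {a b : VI n} (h : a ≠ b) (h' : a ≠ Fin.rev b) {c : F} (hc : c ≠ 0) :
    (Wr a b c).1 a b = -c⁻¹ := by
  have hba' : b ≠ Fin.rev a := fun h5 => h' (by rw [h5, Fin.rev_rev])
  have ha : a ≠ Fin.rev a := (rv_ne a).symm
  unfold Wr
  rw [xr_mul h h', xr_mul h.symm hba', xr_mul h.symm hba', if_pos rfl, if_neg h', if_neg h,
    if_neg ha, if_pos rfl, if_neg hba', xr_diag h, xr_apply h, if_neg h, if_pos ⟨rfl, rfl⟩,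
    if_neg (fun h1 => h' h1.1)]
  field_simp
  ring

lemma Wr_SOD {a b : VI n} (h : a ≠ b) (h' : a ≠ Fin.rev b) (c : F) : Wr a b c ∈ SOD n F := by
  have hba' : b ≠ Fin.rev a := fun h5 => h' (by rw [h5, Fin.rev_rev])
  exact mul_mem (xr_mem h h' _) (mul_mem (xr_mem h.symm hba' _) (xr_mem h h' _))

lemma Wr_torus [Finite F] {a b : VI n} (h : a ≠ b) (h' : a ≠ Fin.rev b) {c : F} (hc : c ≠ 0) :
    Mon (Wr a b c * (Wr a b 1)⁻¹) 1 ∧
      ∀ s : F, Wr a b c * (Wr a b 1)⁻¹ * xr b a s * (Wr a b c * (Wr a b 1)⁻¹)⁻¹ =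
        xr b a (c ^ 2 * s) := by
  have hb : b ≠ Fin.rev b := (rv_ne b).symm
  have ha : a ≠ Fin.rev a := (rv_ne a).symm
  have hba' : b ≠ Fin.rev a := fun h5 => h' (by rw [h5, Fin.rev_rev])
  set τ := Equiv.swap a b * Equiv.swap (Fin.rev b) (Fin.rev a) with hτ
  have hτa : τ a = b := by
    rw [hτ, Equiv.Perm.mul_apply, Equiv.swap_apply_of_ne_of_ne h' ha, Equiv.swap_apply_left]
  have hτb : τ b = a := by
    rw [hτ, Equiv.Perm.mul_apply, Equiv.swap_apply_of_ne_of_ne hb hba', Equiv.swap_apply_right]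
  have hw := Wr_mon h h' hc
  have hv := Wr_mon (F := F) h h' one_ne_zero
  constructor
  · have := mon_mul hw (mon_inv hv)
    rwa [mul_inv_cancel] at this
  · intro s
    have h1 := xr_conj (Wr_SOD h h' (1 : F)) hv h (-s)
    have h2 := xr_conj (Wr_SOD h h' c) hw h (-s)
    rw [← hτ, hτa, hτb, Wr_ba h h', Wr_ab h h' one_ne_zero] at h1
    rw [← hτ, hτa, hτb, Wr_ba h h', Wr_ab h h' hc] at h2
    have e1 : (1 : F) * -s * (-1⁻¹)⁻¹ = s := by
      rw [inv_one, inv_neg, inv_one]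
      ring
    have e2 : c * -s * (-c⁻¹)⁻¹ = c ^ 2 * s := by
      rw [inv_neg, inv_inv]
      ring
    rw [e1] at h1
    rw [e2] at h2
    rw [← h1, ← h2]
    group

/-- the negative short root elements -/
def xs (σ : F ≃+* F) (a : VI n) (s : F) : SLm (2 * n + 1) F := xr (c0 n) a s * xr (c1 n) a (σ s)

lemma mid_ne {a : VI n} (ha : ¬ Mid a) : a ≠ c0 n ∧ a ≠ Fin.rev (c0 n) :=
  ⟨fun h => ha (Or.inl h), fun h => ha (Or.inr (by rw [h, rev_c0]))⟩

lemma xs_add {σ : F ≃+* F} {a : VI n} (ha : ¬ Mid a) (s t : F) :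
    xs σ a (s + t) = xs σ a s * xs σ a t := by
  obtain ⟨h, h'⟩ := mid_ne ha
  have h1 : c0 n ≠ Fin.rev a := fun h5 => h' (by rw [h5, Fin.rev_rev])
  have h2 : c1 n ≠ a := fun h5 => ha (Or.inr h5.symm)
  have h3 : c1 n ≠ Fin.rev a := fun h5 => h (by rw [← Fin.rev_rev a, ← h5, rev_c1])
  have hc := ys_comm3 h h' t (σ s)
  rw [rev_c0] at hc
  unfold xs
  rw [map_add, ← xr_add h.symm h1, ← xr_add h2 h3]
  calc xr (c0 n) a s * xr (c0 n) a t * (xr (c1 n) a (σ s) * xr (c1 n) a (σ t))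
      = xr (c0 n) a s * (xr (c0 n) a t * xr (c1 n) a (σ s)) * xr (c1 n) a (σ t) := by group
    _ = _ := by rw [hc.eq]; group

lemma xs_mem {σ : F ≃+* F} {H : Subgroup (SLm (2 * n + 1) F)} (hg : GoodT n σ H)
    (hσ : ∀ x, σ (σ x) = x) {a : VI n} (ha : ¬ Mid a) (s : F) : xs σ a s ∈ H := by
  have h1 := hg.sr (Fin.rev a) (mid_rev ha) (σ (-s))
  obtain ⟨h, h'⟩ := mid_ne ha
  obtain ⟨h2, h2'⟩ := mid_ne (mid_rev ha)
  have h3 : Fin.rev a ≠ c1 n := fun h5 => mid_rev ha (Or.inr h5)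
  have e1 : xr (c0 n) a s = xr (Fin.rev a) (c1 n) (-s) := by
    have := xr_rev h3 s
    rwa [Fin.rev_rev, rev_c1] at this
  have e2 : xr (c1 n) a (σ s) = xr (Fin.rev a) (c0 n) (-(σ s)) := by
    have := xr_rev h2 (σ s)
    rwa [Fin.rev_rev, rev_c0] at this
  have hc := ys_comm h2 h2' (σ (-s)) (-s)
  rw [rev_c0] at hc
  rw [hσ, hc, map_neg, ← e1, ← e2] at h1
  exact h1

/-- the torus of a short root -/
lemma xs_torus [Finite F] {σ : F ≃+* F} {H : Subgroup (SLm (2 * n + 1) F)} (hg : GoodT n σ H)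
    (hσ : ∀ x, σ (σ x) = x) {a : VI n} (ha : ¬ Mid a) {c : F} (hc : c ≠ 0) :
    ∃ t ∈ H, Mon t 1 ∧ ∀ s : F, t * xs σ a s * t⁻¹ = xs σ a (c ^ 2 * s) := by
  obtain ⟨h, h'⟩ := mid_ne ha
  have h2 : a ≠ c1 n := fun h5 => ha (Or.inr h5)
  have h2' : a ≠ Fin.rev (c1 n) := by rw [rev_c1]; exact h
  have key : ∀ d : F, Wr a (c0 n) d * Wr a (c1 n) (σ d) ∈ H := by
    intro d
    have h3 := hg.sr a ha (-d⁻¹)
    have h4 := mul_mem h3 (mul_mem (xs_mem hg hσ ha d) h3)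
    have e : Wr a (c0 n) d * Wr a (c1 n) (σ d) =
        xr a (c0 n) (-d⁻¹) * xr a (c1 n) (σ (-d⁻¹)) *
          (xs σ a d * (xr a (c0 n) (-d⁻¹) * xr a (c1 n) (σ (-d⁻¹)))) := by
      have k1 := ys_comm2 h h' (-d⁻¹) (σ (-d⁻¹))
      have k2 := ys_comm4 h h' d (σ (-d⁻¹))
      have k3 := ys_comm5 h h' (-d⁻¹) (σ d)
      rw [rev_c0] at k1 k2 k3
      have e1 : -(σ d)⁻¹ = σ (-d⁻¹) := by rw [map_neg, map_inv₀]
      unfold Wr xs
      rw [e1]
      generalize xr a (c0 n) (-d⁻¹) = x at *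
      generalize xr a (c1 n) (σ (-d⁻¹)) = y at *
      generalize xr (c0 n) a d = z at *
      generalize xr (c1 n) a (σ d) = w at *
      calc x * (z * x) * (y * (w * y)) = x * z * (x * y) * w * y := by group
        _ = x * z * (y * x) * w * y := by rw [k1.eq]
        _ = x * (z * y) * (x * w) * y := by group
        _ = x * (y * z) * (w * x) * y := by rw [k2.eq, k3.eq]
        _ = x * y * (z * w * (x * y)) := by group
    rw [e]
    exact h4
  have hσc : σ c ≠ 0 := fun h5 => hc (σ.injective (by rw [h5, map_zero]))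
  obtain ⟨hm0, ht0⟩ := Wr_torus h h' hc
  obtain ⟨hm1, ht1⟩ := Wr_torus h2 h2' hσc
  have k1 := fun y : F => Wr_comm h h' c y
  have k2 := fun y : F => Wr_comm h h' (1 : F) y
  have k3 := fun y : F => Wr_comm h2 h2' (σ c) y
  have k4 := fun y : F => Wr_comm h2 h2' (1 : F) y
  have k5 := Wr_Wr h h' (1 : F) (σ c)
  have k6 := Wr_Wr h h' (1 : F) 1
  rw [rev_c0] at k5 k6
  simp only [rev_c0] at k1 k2
  simp only [rev_c1] at k3 k4
  refine ⟨Wr a (c0 n) c * Wr a (c1 n) (σ c) * (Wr a (c0 n) 1 * Wr a (c1 n) (σ 1))⁻¹,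
    mul_mem (key c) (inv_mem (key 1)), ?_⟩
  rw [map_one]
  have e : Wr a (c0 n) c * Wr a (c1 n) (σ c) * (Wr a (c0 n) 1 * Wr a (c1 n) 1)⁻¹ =
      (Wr a (c0 n) c * (Wr a (c0 n) 1)⁻¹) * (Wr a (c1 n) (σ c) * (Wr a (c1 n) 1)⁻¹) := by
    have l1 : Commute (Wr a (c1 n) (σ c) * (Wr a (c1 n) 1)⁻¹) (Wr a (c0 n) 1)⁻¹ :=
      (k5.symm.mul_left k6.symm.inv_left).inv_right
    rw [_root_.mul_inv_rev]
    calc Wr a (c0 n) c * Wr a (c1 n) (σ c) * ((Wr a (c1 n) 1)⁻¹ * (Wr a (c0 n) 1)⁻¹)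
        = Wr a (c0 n) c * ((Wr a (c1 n) (σ c) * (Wr a (c1 n) 1)⁻¹) * (Wr a (c0 n) 1)⁻¹) := by
          group
      _ = _ := by rw [l1.eq]; group
  rw [e]
  have l0 : ∀ y : F, Commute (Wr a (c0 n) c * (Wr a (c0 n) 1)⁻¹) (xr (c1 n) a y) := fun y =>
    (k1 y).2.mul_left (k2 y).2.inv_left
  have l1 : ∀ y : F, Commute (Wr a (c1 n) (σ c) * (Wr a (c1 n) 1)⁻¹) (xr (c0 n) a y) := fun y =>
    (k3 y).2.mul_left (k4 y).2.inv_left
  generalize Wr a (c0 n) c * (Wr a (c0 n) 1)⁻¹ = t0 at *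
  generalize Wr a (c1 n) (σ c) * (Wr a (c1 n) 1)⁻¹ = t1 at *
  refine ⟨?_, fun s => ?_⟩
  · have := mon_mul hm0 hm1
    rwa [mul_one] at this
  · have m0 : ∀ y : F, t0 * xr (c1 n) a y * t0⁻¹ = xr (c1 n) a y := fun y => by
      rw [(l0 y).eq]
      group
    have m1 : ∀ y : F, t1 * xr (c0 n) a y * t1⁻¹ = xr (c0 n) a y := fun y => by
      rw [(l1 y).eq]
      group
    unfold xs
    have e2 : t0 * t1 * (xr (c0 n) a s * xr (c1 n) a (σ s)) * (t0 * t1)⁻¹ =
        (t0 * (t1 * xr (c0 n) a s * t1⁻¹) * t0⁻¹) * (t0 * (t1 * xr (c1 n) a (σ s) * t1⁻¹) * t0⁻¹) := by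
      group
    rw [e2, m1, ht0, ht1, m0, map_mul, map_pow]

end

end Vale.Agent.P240.R2.H775.RT
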