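import Vale.Agent.P240.R2.H195.RigB
import Vale.Agent.P240.R2.H775.RT1

/-!
Rigidity of the BN-pairs of groups of type 2D, part 2: the main result.
-/

set_option autoImplicit false
set_option linter.all false

namespace Vale.Agent.P240.R2.H775.RT

open Subgroup Matrix Vale.Agent.P240.H195 Vale.Agent.P240.R2.H487.CG
open Vale.Agent.P240.K (cj mem_cj)
open Vale.Agent.P240.R2.H38.DD
open Vale.Agent.P240.R2.H775.RG (Pt LoU pt_of_dc pt_of_up lin_fix diag_comm lou_mul)
open Vale.Agent.P240.R2.H775.RD (tx_iso lo_mid gm_lou xr_lou xr_mul tau_form BH UH mem_BH' mem_UH'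
  anti' pi_inj)

section
variable {n : ℕ} {F : Type*} [Field F]

/-- representatives of the simple reflections -/
def SimT (s : SLm (2 * n + 1) F) : Prop :=
  ∃ i : Fin n, (i.val + 1 < n ∧ Mon s (tau i)) ∨
    (i.val + 1 = n ∧ Mon s (tau i * (pp n * tau i * pp n)))

/-- the last simple reflection as a permutation -/
lemma last_apply {i : Fin n} (hi : i.val + 1 = n) (u : VI n) :
    ((tau i * (pp n * tau i * pp n)) u).val =
      if u.val + 1 = n then n + 2 else if u.val = n then n + 1 else
        if u.val = n + 1 then n else if u.val = n + 2 then n - 1 else u.val := by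
  rw [Equiv.Perm.mul_apply, Equiv.Perm.mul_apply, Equiv.Perm.mul_apply]
  have hp : ∀ v : VI n, (pp n v).val = if v.val = n then n + 1 else
      if v.val = n + 1 then n else v.val := by
    intro v
    unfold pp
    rw [Equiv.swap_apply_def]
    by_cases h1 : v = c0 n
    · have : v.val = n := by rw [h1]; rfl
      rw [if_pos h1, if_pos this]
      rfl
    · have h1' : v.val ≠ n := fun h => h1 (Fin.ext h)
      rw [if_neg h1, if_neg h1']
      by_cases h2 : v = c1 n
      · have : v.val = n + 1 := by rw [h2]; rfl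
        rw [if_pos h2, if_pos this]
        rfl
      · have h2' : v.val ≠ n + 1 := fun h => h2 (Fin.ext h)
        rw [if_neg h2, if_neg h2']
  have h1 := hp u
  have hu := u.2
  have ht := tau_val i
  generalize pp n u = u1 at *
  have h2 := ht u1
  generalize tau i u1 = u2 at *
  have h3 := hp u2
  generalize pp n u2 = u3 at *
  have h4 := ht u3
  generalize tau i u3 = u4 at *
  clear hp ht
  by_cases c1 : u.val + 1 = n
  · have g1 : u1.val = i.val := by rw [h1, if_neg (by omega), if_neg (by omega)]; omega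
    have g2 : u2.val = n := by rw [h2, if_pos g1]; omega
    have g3 : u3.val = n + 1 := by rw [h3, if_pos g2]
    rw [if_pos c1, h4, if_neg (by omega), if_neg (by omega), if_pos (by omega)]
    omega
  rw [if_neg c1]
  by_cases c2 : u.val = n
  · have g1 : u1.val = n + 1 := by rw [h1, if_pos c2]
    have g2 : u2.val = n + 2 := by
      rw [h2, if_neg (by omega), if_neg (by omega), if_pos (by omega)]; omega
    have g3 : u3.val = n + 2 := by rw [h3, if_neg (by omega), if_neg (by omega), g2]
    rw [if_pos c2, h4, if_neg (by omega), if_neg (by omega), if_neg (by omega), if_pos (by omega)]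
    omega
  rw [if_neg c2]
  by_cases c3 : u.val = n + 1
  · have g1 : u1.val = n := by rw [h1, if_neg c2, if_pos c3]
    have g2 : u2.val = i.val := by rw [h2, if_neg (by omega), if_pos (by omega)]
    have g3 : u3.val = i.val := by rw [h3, if_neg (by omega), if_neg (by omega), g2]
    rw [if_pos c3, h4, if_pos g3]
    omega
  rw [if_neg c3]
  have g1 : u1.val = u.val := by rw [h1, if_neg c2, if_neg c3]
  by_cases c4 : u.val = n + 2
  · have g2 : u2.val = n + 1 := by
      rw [h2, if_neg (by omega), if_neg (by omega), if_neg (by omega), if_pos (by omega)]; omega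
    have g3 : u3.val = n := by rw [h3, if_neg (by omega), if_pos g2]
    rw [if_pos c4, h4, if_neg (by omega), if_pos (by omega)]
    omega
  · have g2 : u2.val = u.val := by
      rw [h2, if_neg (by omega), if_neg (by omega), if_neg (by omega), if_neg (by omega), g1]
    have g3 : u3.val = u.val := by rw [h3, if_neg (by omega), if_neg (by omega), g2]
    rw [if_neg c4, h4, if_neg (by omega), if_neg (by omega), if_neg (by omega),
      if_neg (by omega), g3]

/-- zero pattern of the last parabolic subgroup -/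
lemma last_pt {i : Fin n} (hi : i.val + 1 = n) {A : SLm (2 * n + 1) F}
    (hp : Pt (tau i * (pp n * tau i * pp n)) A) {u v : VI n} (huv : v < u) (h : A.1 u v ≠ 0) :
    i.val ≤ v.val ∧ u.val ≤ n + 2 := by
  obtain ⟨l, hl, hul⟩ := hp u v huv h
  rw [Fin.le_def, last_apply hi] at hul
  rw [Fin.le_def] at hl
  rw [Fin.lt_def] at huv
  split_ifs at hul <;> omega

/-- lower triangular isometries in the last parabolic subgroup -/
lemma last_rel {i : Fin n} (hi : i.val + 1 = n) {A : SLm (2 * n + 1) F} (hA : A ∈ SOD n F)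
    (hl : LoU A) (hp : ∀ u v : VI n, v < u → A.1 u v ≠ 0 → i.val ≤ v.val ∧ u.val ≤ n + 2) :
    A.1 (Fin.rev (ia i)) (c0 n) = -A.1 (c1 n) (ia i) ∧
      A.1 (Fin.rev (ia i)) (c1 n) = -A.1 (c0 n) (ia i) ∧
      A.1 (Fin.rev (ia i)) (ia i) = -(A.1 (c0 n) (ia i) * A.1 (c1 n) (ia i)) := by
  have hm := lo_mid hA hl
  have hv1 : (ia i).val = i.val := ia_val i
  have hv2 := rv_val (ia i)
  have hv3 : (c0 n).val = n := rfl
  have hv4 : (c1 n).val = n + 1 := rfl
  have ha : Fin.rev (c0 n) ≠ ia i := by
    rw [rev_c0, Ne, Fin.ext_iff]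
    omega
  have ha' : Fin.rev (c1 n) ≠ ia i := by
    rw [rev_c1, Ne, Fin.ext_iff]
    omega
  have hcr : c0 n ≠ Fin.rev (ia i) := by
    rw [Ne, Fin.ext_iff]
    omega
  have hcr1 : c1 n ≠ Fin.rev (ia i) := by
    rw [Ne, Fin.ext_iff]
    omega
  refine ⟨?_, ?_, ?_⟩
  · have h1 := C1 hA (c0 n) (ia i)
    rw [if_neg ha, Finset.sum_eq_add (c0 n) (Fin.rev (ia i)) hcr, hl.2, one_mul, rev_c0,
      Fin.rev_rev, hl.2, mul_one] at h1
    · linear_combination h1
    · rintro l - ⟨hl0, hlr⟩
      by_cases h2 : A.1 l (c0 n) = 0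
      · rw [h2, zero_mul]
      · have h3 : ¬ l < c0 n := fun h => h2 (hl.1 _ _ h)
        have h4 : c0 n < l := lt_of_le_of_ne (not_lt.1 h3) (Ne.symm hl0)
        have h5 := (hp l (c0 n) h4 h2).2
        exfalso
        rw [Fin.lt_def] at h4
        rw [Ne, Fin.ext_iff] at hlr
        have h6 : l.val = n + 1 := by omega
        have h7 : l = c1 n := Fin.ext h6
        rw [h7] at h2
        exact h2 hm
    · exact fun h => absurd (Finset.mem_univ _) h
    · exact fun h => absurd (Finset.mem_univ _) h
  · have h1 := C1 hA (c1 n) (ia i)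
    rw [if_neg ha', Finset.sum_eq_add (c1 n) (Fin.rev (ia i)) hcr1, hl.2, one_mul, rev_c1,
      Fin.rev_rev, hl.2, mul_one] at h1
    · linear_combination h1
    · rintro l - ⟨hl0, hlr⟩
      by_cases h2 : A.1 l (c1 n) = 0
      · rw [h2, zero_mul]
      · have h3 : ¬ l < c1 n := fun h => h2 (hl.1 _ _ h)
        have h4 : c1 n < l := lt_of_le_of_ne (not_lt.1 h3) (Ne.symm hl0)
        have h5 := (hp l (c1 n) h4 h2).2
        exfalso
        rw [Fin.lt_def] at h4
        rw [Ne, Fin.ext_iff] at hlr
        omega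
    · exact fun h => absurd (Finset.mem_univ _) h
    · exact fun h => absurd (Finset.mem_univ _) h
  · have h1 := C2 hA (ia i)
    have hne : ia i ≠ c0 n := by
      rw [Ne, Fin.ext_iff]
      omega
    rw [HS_eq, Finset.sum_eq_add (ia i) (c0 n) hne] at h1
    · have h2 : ia i < Fin.rev (ia i) := by rw [lt_rv]; omega
      have h3 : c0 n < Fin.rev (c0 n) := by rw [lt_rv]; omega
      rw [if_pos h2, if_pos h3, hl.2, one_mul, rev_c0] at h1
      linear_combination h1
    · rintro l - ⟨hl0, hlr⟩
      by_cases h2 : l < Fin.rev l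
      · rw [if_pos h2]
        have h3 := lt_rv.1 h2
        have h4 : l < ia i := by
          rw [Ne, Fin.ext_iff] at hl0 hlr
          rw [Fin.lt_def]
          omega
        rw [hl.1 _ _ h4, zero_mul]
      · rw [if_neg h2]
    · exact fun h => absurd (Finset.mem_univ _) h
    · exact fun h => absurd (Finset.mem_univ _) h

lemma last_eq {i : Fin n} (hi : i.val + 1 = n) {A B : SLm (2 * n + 1) F} (hA : A ∈ SOD n F)
    (hl : LoU A) (hp : ∀ u v : VI n, v < u → A.1 u v ≠ 0 → i.val ≤ v.val ∧ u.val ≤ n + 2)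
    (hB : B ∈ SOD n F) (hlB : LoU B)
    (hpB : ∀ u v : VI n, v < u → B.1 u v ≠ 0 → i.val ≤ v.val ∧ u.val ≤ n + 2)
    (h0 : A.1 (c0 n) (ia i) = B.1 (c0 n) (ia i)) (h1 : A.1 (c1 n) (ia i) = B.1 (c1 n) (ia i)) :
    A = B := by
  obtain ⟨a1, a2, a3⟩ := last_rel hi hA hl hp
  obtain ⟨b1, b2, b3⟩ := last_rel hi hB hlB hpB
  have hm := lo_mid hA hl
  have hm' := lo_mid hB hlB
  have hv1 : (ia i).val = i.val := ia_val i
  have hv2 := rv_val (ia i)
  have hv3 : (c0 n).val = n := rfl
  have hv4 : (c1 n).val = n + 1 := rfl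
  refine sl_ext fun u v => ?_
  rcases lt_trichotomy u v with h | h | h
  · rw [hl.1 _ _ h, hlB.1 _ _ h]
  · rw [h, hl.2, hlB.2]
  · by_cases hb : i.val ≤ v.val ∧ u.val ≤ n + 2
    · rw [Fin.lt_def] at h
      rcases (by omega : v.val = i.val ∨ v.val = n ∨ v.val = n + 1) with h2 | h2 | h2
      · have e2 : v = ia i := Fin.ext h2
        rcases (by omega : u.val = n ∨ u.val = n + 1 ∨ u.val = n + 2) with h3 | h3 | h3
        · have e3 : u = c0 n := Fin.ext h3
          rw [e2, e3, h0]
        · have e3 : u = c1 n := Fin.ext h3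
          rw [e2, e3, h1]
        · have e3 : u = Fin.rev (ia i) := Fin.ext (by omega)
          rw [e2, e3, a3, b3, h0, h1]
      · have e2 : v = c0 n := Fin.ext h2
        rcases (by omega : u.val = n + 1 ∨ u.val = n + 2) with h3 | h3
        · have e3 : u = c1 n := Fin.ext h3
          rw [e2, e3, hm, hm']
        · have e3 : u = Fin.rev (ia i) := Fin.ext (by omega)
          rw [e2, e3, a1, b1, h1]
      · have e2 : v = c1 n := Fin.ext h2
        have e3 : u = Fin.rev (ia i) := Fin.ext (by omega)
        rw [e2, e3, a2, b2, h0]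
    · have h2 : A.1 u v = 0 := by
        by_contra hcon
        exact hb (hp u v h hcon)
      have h3 : B.1 u v = 0 := by
        by_contra hcon
        exact hb (hpB u v h hcon)
      rw [h2, h3]

lemma last_nm {i : Fin n} (hi : i.val + 1 = n) : ¬ Mid (ia i) := by
  rintro (h | h)
  · have h1 := congrArg Fin.val h
    have h2 : (ia i).val = n := h1
    rw [ia_val] at h2
    omega
  · have h1 := congrArg Fin.val h
    have h2 : (ia i).val = n + 1 := h1
    rw [ia_val] at h2
    omega

lemma xs_lou [Finite F] {σ : F ≃+* F} {a : VI n} (ha : a < c0 n) (s : F) : LoU (xs σ a s) := by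
  have h1 : a < c1 n := ha.trans (by rw [Fin.lt_def]; exact Nat.lt_succ_self n)
  exact lou_mul (xr_lou ha s) (xr_lou h1 _)

end

end Vale.Agent.P240.R2.H775.RT
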