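import Vale.Agent.P240.H195.RIso
import Vale.Agent.P240.R2.H38.D12
import Vale.Agent.P240.R2.H727.O6
import Vale.Agent.P240.R2.H775.RT3

/-!
`RigidLie p` for groups of type `2D`.
-/

set_option autoImplicit false
set_option linter.all false

namespace Vale.Agent.P240.R2.H775.RT

open Subgroup Matrix Vale.Agent.P240.H195 Vale.Agent.P240.R2.H487.CG
open Vale.Agent.P240.R2.H38.DD hiding BH UH mem_BH' mem_UH'
open Vale.Agent.P240.R2.H727
open Vale.Agent.P240.R2.H775.RD (BH UH mem_BH' mem_UH')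

universe u

section
variable {n : ℕ} {F : Type u} [Field F] [Finite F] {σ : F ≃+* F}

/-- **`RigidLie p`** for groups with an injection into the isometries -/
theorem dt_rigidLie {G : Type u} [Group G] (j : G →* SLm (2 * n + 1) F)
    (hj : Function.Injective j) (hg : GoodT n σ j.range) (hσ : ∀ x, σ (σ x) = x) {p : ℕ}
    [hp : Fact p.Prime] [CharP F p] {B N U : Subgroup G} {S : Set G}
    (hB : ∀ x, x ∈ B ↔ IsUp (j x)) (hU : ∀ x, x ∈ U ↔ j x ∈ UU (2 * n + 1) F)
    (hS : ∀ s ∈ S, SimT (j s)) (hN : ∀ x ∈ N, ∃ τ, Mon (j x) τ) (hT : ∀ t, Mon (j t) 1 → t ∈ N)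
    (h : SB p B N U S) (hs : IsSimpleGroup (G ⧸ center G))
    (hZ : ∀ x : G ⧸ center G, (∀ y, x * y = y * x) → x = 1) : RigidLie p (G ⧸ center G) := by
  have : Finite G := Finite.of_injective _ hj
  let e : G ≃* ↥j.range := MonoidHom.ofInjective hj
  have he : ∀ x, (e x).1 = j x := fun x => rfl
  have h' : SB p (B.map e.toMonoidHom) (N.map e.toMonoidHom) (U.map e.toMonoidHom)
      (e.toMonoidHom '' S) := by
    refine SB.quot h hp.out e.toMonoidHom e.surjective fun k hk => ?_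
    have hk1 : k = 1 := e.injective (by
      have h1 : e k = 1 := hk
      rw [h1, map_one])
    rw [hk1]
    exact ⟨one_mem _, one_mem _, fun g => by rw [one_mul, mul_one]⟩
  have eB : B.map e.toMonoidHom = BH j.range := by
    ext y
    constructor
    · rintro ⟨x, hx, rfl⟩
      exact (hB x).1 hx
    · intro hy
      obtain ⟨x, rfl⟩ := e.surjective y
      exact ⟨x, (hB x).2 hy, rfl⟩
  have eU : U.map e.toMonoidHom = UH j.range := by
    ext y
    constructor
    · rintro ⟨x, hx, rfl⟩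
      exact (hU x).1 hx
    · intro hy
      obtain ⟨x, rfl⟩ := e.surjective y
      exact ⟨x, (hU x).2 hy, rfl⟩
  rw [eB, eU] at h'
  have ei := centreIso e
  have hs' : IsSimpleGroup (↥j.range ⧸ center ↥j.range) := ei.symm.isSimpleGroup
  refine RigidLie.tr ei.symm ⟨hs', centreless_tr ei hZ, _, _, _, _,
    dt_rigid (p := p) hg hσ (S := e.toMonoidHom '' S) ?_ ?_ ?_ h' hs'⟩
  · rintro _ ⟨s, hs, rfl⟩
    exact hS s hs
  · rintro _ ⟨x, hx, rfl⟩
    exact hN x hx
  · intro t ht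
    obtain ⟨x, rfl⟩ := e.surjective t
    exact ⟨x, hT x ht, rfl⟩

/-! ### the names of the split BN-pair -/

lemma sh_of {p : VI n} (h : ¬ Mid p) : O.Sh p := ⟨fun h1 => h (Or.inl h1), fun h1 => h (Or.inr h1)⟩

lemma ye_eq {p : VI n} (h : O.Sh p) (a : F) :
    O.ye σ h a = xr p (c0 n) a * xr p (c1 n) (σ a) := by
  have h0 : p ≠ c0 n := h.a
  have h0' : p ≠ Fin.rev (c0 n) := by rw [rev_c0]; exact h.b
  have hr : Fin.rev p ≠ c0 n := fun h1 => h0' (by rw [← h1, Fin.rev_rev])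
  have hr1 : Fin.rev p ≠ c1 n := fun h1 => h0 (by rw [← rev_c1, ← h1, Fin.rev_rev])
  have hrp : Fin.rev p ≠ p := rv_ne p
  refine sl_ext fun i j => ?_
  have h1 := ys_apply h0 h0' a (σ a) i j
  rw [rev_c0] at h1
  have e0 : O.ma n = c0 n := rfl
  have e1 : O.mb n = c1 n := rfl
  rw [h1, O.ye_apply, e0, e1]
  have hc := c0_ne (k := n)
  have hc' : p ≠ c1 n := h.b
  by_cases hi0 : i = p
  · subst hi0
    simp only [h0, hc', true_and, false_and, if_true, if_false]
    by_cases h5 : j = Fin.rev i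
    · simp only [h5, if_true]
      ring
    · simp only [h5, if_false]
      ring
  · simp only [hi0, false_and, if_false]
    ring

/-- the simple reflections -/
lemma simT_of {s : SLm (2 * n + 1) F} (h : s ∈ O.SS' n σ) : SimT s := by
  obtain ⟨-, i, hi, hm⟩ := h
  refine ⟨⟨i, hi⟩, ?_⟩
  by_cases h1 : i + 1 < n
  · refine Or.inl ⟨h1, ?_⟩
    unfold O.ts at hm
    rw [if_pos h1] at hm
    exact hm
  · refine Or.inr ⟨show i + 1 = n by omega, ?_⟩
    have h2 : i + 1 = n := by omega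
    have : tau (⟨i, hi⟩ : Fin n) * (pp n * tau (⟨i, hi⟩ : Fin n) * pp n) = O.ts i hi := by
      refine Equiv.ext fun x => Fin.ext ?_
      rw [last_apply (i := ⟨i, hi⟩) h2, O.ts_val2 hi h2]
      split_ifs <;> omega
    rw [this]
    exact hm

/-- **`RigidLie p`** for groups of isometries of minus type -/
theorem gm_rigidLie {G : Type u} [Group G] (j : G →* SLm (2 * n + 1) F)
    (hj : Function.Injective j) (hσ : ∀ x, σ (σ x) = x) (hle : ∀ g, j g ∈ O.GM n σ)
    (hx : ∀ (a b : Fin (2 * n + 1 + 1)) (h : O.Lg a b) (c : F), σ c = c → O.xe h c ∈ j.range)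
    (hy : ∀ (p : Fin (2 * n + 1 + 1)) (h : O.Sh p) (a : F), O.ye σ h a ∈ j.range) {p : ℕ}
    [hp : Fact p.Prime] [CharP F p] {B N U : Subgroup G} {S : Set G}
    (hB : ∀ x, x ∈ B ↔ j x ∈ O.BO n σ) (hU : ∀ x, x ∈ U ↔ j x ∈ O.UO n σ)
    (hN : ∀ x, x ∈ N ↔ j x ∈ O.NO n σ)
    (hS : ∀ s ∈ S, j s ∈ O.SS' n σ)
    (h : SB p B N U S) (hs : IsSimpleGroup (G ⧸ center G))
    (hZ : ∀ x : G ⧸ center G, (∀ y, x * y = y * x) → x = 1) : RigidLie p (G ⧸ center G) := by
  refine dt_rigidLie (σ := σ) (B := B) (N := N) (U := U) (S := S) j hj ?_ hσ (fun x => ?_)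
    (fun x => ?_) (fun s hs => simT_of (hS s hs)) (fun x hx => ?_) (fun t ht => ?_) h hs hZ
  · refine ⟨?_, ?_, ?_, ?_⟩
    · rintro _ ⟨g, rfl⟩
      exact (hle g).1
    · rintro _ ⟨g, rfl⟩ a b
      exact (hle g).2 a b
    · intro a b hab hab' ha hb t ht
      have hlg : O.Lg a b := ⟨hab, fun h1 => hab' (by rw [h1, Fin.rev_rev]), (sh_of ha).a,
        (sh_of ha).b, (sh_of hb).a, (sh_of hb).b⟩
      have h1 := hx a b hlg t ht
      have e : O.xe hlg t = xr a b t := by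
        rw [xr_def hab]
        rfl
      rwa [e] at h1
    · intro a ha t
      have h1 := hy a (sh_of ha) t
      rwa [ye_eq] at h1
  · rw [hB]
    exact ⟨fun h1 => h1.1, fun h1 => ⟨h1, hle x⟩⟩
  · rw [hU]
    exact ⟨fun h1 => h1.1, fun h1 => ⟨h1, hle x⟩⟩
  · obtain ⟨-, w, -, hw⟩ := (hN x).1 hx
    exact ⟨w, hw⟩
  · exact (hN t).2 ⟨hle t, 1, O.Gp.one, ht⟩

end

end Vale.Agent.P240.R2.H775.RT
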