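import Vale.Agent.P240.R2.H775.ReDefs
import Vale.Agent.P240.R2.H775.Rk3

/-!
Ree groups, part 1: the split BN-pair and the action of `T`.
-/

set_option autoImplicit false
set_option linter.all false

namespace Vale.Agent.P240.R2.H775.Re

open Subgroup Vale.Agent.P240.K Vale.Agent.P240.H195 Vale.Agent.P240.R2.H775.Rk

universe u v

section field
variable {F : Type v} [Field F] {θ : F →+* F}

lemma three (hθ : ∀ x, θ (θ x) = x ^ 3) (hne : ∃ x, θ x ≠ x) : (3 : F) = 0 := by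
  obtain ⟨c, hc⟩ := hne
  have h1 := hθ (1 + c)
  rw [map_add, map_add, map_one, map_one, hθ] at h1
  have h2 : 3 * (c * (1 + c)) = 0 := by linear_combination -h1
  rcases mul_eq_zero.1 h2 with h3 | h3
  · exact h3
  · exfalso
    rcases mul_eq_zero.1 h3 with h4 | h4
    · apply hc
      rw [h4, map_zero]
    · apply hc
      have h5 : c = -1 := by linear_combination h4
      rw [h5, map_neg, map_one]

end field

section
variable {F : Type v} [Field F] {L : Type u} [Group L] {θ : F →+* F} {x : F → F → F → L}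
  {h : F → L} {w : L}

namespace ReeRel

variable (r : ReeRel θ x h w)
include r

lemma x_zero : x 0 0 0 = 1 := by
  have h1 := r.mul 0 0 0 0 0 0
  have h2 : x 0 0 0 * x 0 0 0 = x 0 0 0 := by
    rw [h1]
    congr 1 <;> ring
  exact mul_eq_left.1 h2

lemma x_inv (a b c : F) : (x a b c)⁻¹ = x (-a) (-b - a * θ a) (-c - a * b - 2 * a ^ 2 * θ a) := by
  rw [inv_eq_iff_mul_eq_one, r.mul, ← r.x_zero, map_neg]
  congr 1 <;> ring

lemma x_inj {a b c a' b' c' : F} (e : x a b c = x a' b' c') : a = a' ∧ b = b' ∧ c = c' := by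
  have h1 : x a b c * (x a' b' c')⁻¹ = 1 := by rw [e, mul_inv_cancel]
  rw [r.x_inv, r.mul] at h1
  obtain ⟨h2, h3, h4⟩ := r.inj _ _ _ h1
  have ha : a = a' := by linear_combination h2
  subst ha
  rw [map_neg] at h3 h4
  have hb : b = b' := by linear_combination h3
  subst hb
  exact ⟨rfl, rfl, by linear_combination h4⟩

lemma h_one : h 1 = 1 := by
  have h1 := r.hmul 1 1 one_ne_zero one_ne_zero
  rw [mul_one] at h1
  exact mul_eq_left.1 h1

lemma h_inv {k : F} (hk : k ≠ 0) : (h k)⁻¹ = h k⁻¹ := by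
  rw [inv_eq_iff_mul_eq_one, r.hmul _ _ hk (inv_ne_zero hk), mul_inv_cancel₀ hk, r.h_one]

/-- `U` -/
def U : Subgroup L where
  carrier := {g | ∃ a b c, g = x a b c}
  mul_mem' := by
    rintro _ _ ⟨a, b, c, rfl⟩ ⟨a', b', c', rfl⟩
    exact ⟨_, _, _, r.mul _ _ _ _ _ _⟩
  one_mem' := ⟨0, 0, 0, r.x_zero.symm⟩
  inv_mem' := by
    rintro _ ⟨a, b, c, rfl⟩
    exact ⟨_, _, _, r.x_inv _ _ _⟩

/-- `T` -/
def T : Subgroup L where
  carrier := {g | ∃ k, k ≠ 0 ∧ g = h k}
  mul_mem' := by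
    rintro _ _ ⟨k, hk, rfl⟩ ⟨l, hl, rfl⟩
    exact ⟨_, mul_ne_zero hk hl, r.hmul _ _ hk hl⟩
  one_mem' := ⟨1, one_ne_zero, r.h_one.symm⟩
  inv_mem' := by
    rintro _ ⟨k, hk, rfl⟩
    exact ⟨_, inv_ne_zero hk, r.h_inv hk⟩

lemma cube (a b c : F) : x a b c ^ 3 = x (3 * a) (3 * b - 3 * (a * θ a))
    (3 * c - 3 * (a * b) - a ^ 2 * θ a) := by
  rw [pow_succ, pow_two, r.mul, r.mul, ]
  congr 1 <;> ring

end ReeRel

end

end Vale.Agent.P240.R2.H775.Re
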