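import Vale.Agent.P240.R2.H775.Re1

/-!
Ree groups, part 2: the split BN-pair and the action of `T`.
-/

set_option autoImplicit false
set_option linter.all false

namespace Vale.Agent.P240.R2.H775.Re

open Subgroup Vale.Agent.P240.K Vale.Agent.P240.H195 Vale.Agent.P240.R2.H775.Rk

universe u v

section
variable {F : Type v} [Field F] {L : Type u} [Group L] {θ : F →+* F} {x : F → F → F → L}
  {h : F → L} {w : L}

namespace ReeRel

variable (r : ReeRel θ x h w)
include r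

lemma cube' (h3 : (3 : F) = 0) (a b c : F) : x a b c ^ 3 = x 0 0 (- (a ^ 2 * θ a)) := by
  rw [r.cube]
  congr 1
  · linear_combination a * h3
  · linear_combination (b - a * θ a) * h3
  · linear_combination (c - a * b) * h3

theorem ro [Finite F] (hθ : ∀ x, θ (θ x) = x ^ 3) (hne : ∃ x, θ x ≠ x) : RO 3 r.U r.T w where
  gen := by
    rw [eq_top_iff, ← r.gen, closure_le]
    rintro g ((⟨a, b, c, rfl⟩ | ⟨k, hk, rfl⟩) | rfl)
    · exact (le_sup_left.trans le_sup_left : r.U ≤ r.U ⊔ r.T ⊔ zpowers w) ⟨a, b, c, rfl⟩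
    · exact (le_sup_right.trans le_sup_left : r.T ≤ r.U ⊔ r.T ⊔ zpowers w) ⟨k, hk, rfl⟩
    · exact (le_sup_right : zpowers g ≤ r.U ⊔ r.T ⊔ zpowers g) (mem_zpowers g)
  tu := by
    rintro _ ⟨k, hk, rfl⟩ _ ⟨a, b, c, rfl⟩
    exact ⟨_, _, _, r.tor k hk a b c⟩
  wt := by
    rintro _ ⟨k, hk, rfl⟩
    exact ⟨_, inv_ne_zero hk, r.wh k hk⟩
  ww := by
    obtain ⟨k, hk, e⟩ := r.ww
    exact ⟨k, hk, e⟩
  rel := by
    rintro _ ⟨a, b, c, rfl⟩ h1
    obtain ⟨a', b', c', k, a'', b'', c'', hk, e⟩ := r.rel a b c h1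
    exact ⟨_, ⟨a', b', c', rfl⟩, _, ⟨k, hk, rfl⟩, _, ⟨a'', b'', c'', rfl⟩, e⟩
  opp := by
    rintro _ ⟨a, b, c, rfl⟩ ⟨a', b', c', e⟩
    exact r.opp _ _ _ _ _ _ e
  ne := ⟨x 1 0 0, ⟨1, 0, 0, rfl⟩, fun e => one_ne_zero (r.inj _ _ _ e).1⟩
  pU := by
    have h3 := three hθ hne
    rintro ⟨g, a, b, c, rfl⟩
    refine ⟨2, Subtype.ext ?_⟩
    change x a b c ^ 3 ^ 2 = 1
    rw [show 3 ^ 2 = 3 * 3 from rfl, pow_mul, r.cube' h3, r.cube' h3, ← r.x_zero]
    congr 1
    ring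
  pT := by
    intro h1
    have h3 := three hθ hne
    have hfin : Finite r.T := by
      refine Finite.of_surjective (fun k : Fˣ => (⟨h k, k, k.ne_zero, rfl⟩ : r.T)) ?_
      rintro ⟨_, k, hk, rfl⟩
      exact ⟨Units.mk0 k hk, rfl⟩
    have : Fact (Nat.Prime 3) := ⟨Nat.prime_three⟩
    obtain ⟨⟨_, k, hk, rfl⟩, hx⟩ := exists_prime_orderOf_dvd_card' 3 h1
    have h4 : (⟨h k, k, hk, rfl⟩ : r.T) ^ 3 = 1 := by
      rw [← hx]
      exact pow_orderOf_eq_one _
    have h5 : h k ^ 3 = 1 := congrArg Subtype.val h4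
    rw [pow_succ, pow_two, r.hmul _ _ hk hk, r.hmul _ _ (mul_ne_zero hk hk) hk] at h5
    have h6 := r.tor _ (mul_ne_zero (mul_ne_zero hk hk) hk) 1 0 0
    rw [h5, one_mul, inv_one, mul_one] at h6
    have h7 := (r.x_inj h6).1
    have h8 : (k - 1) ^ 3 = 0 := by linear_combination -h7 + (k - k ^ 2) * h3
    have h9 : k = 1 := by
      have := pow_eq_zero_iff (three_ne_zero) |>.1 h8
      linear_combination this
    subst h9
    have h10 : (⟨h 1, 1, hk, rfl⟩ : r.T) = 1 := Subtype.ext r.h_one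
    rw [h10, orderOf_one] at hx
    omega

/-- the first coordinate -/
noncomputable def pi (x : F → F → F → L) (g : L) : F := by
  classical
  exact if e : ∃ a b c, g = x a b c then e.choose else 0

lemma pi_x (a b c : F) : pi x (x a b c) = a := by
  classical
  have e : ∃ a' b' c', x a b c = x a' b' c' := ⟨a, b, c, rfl⟩
  unfold pi
  rw [dif_pos e]
  obtain ⟨b', c', hb⟩ := e.choose_spec
  exact (r.x_inj hb).1.symm

end ReeRel

end

section field
variable {F : Type v} [Field F] {θ : F →+* F}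

/-- every element is `a² θ(a)` -/
lemma surj_sq (hθ : ∀ x, θ (θ x) = x ^ 3) (c : F) : ∃ a, - (a ^ 2 * θ a) = c := by
  by_cases hc : c = 0
  · exact ⟨0, by rw [hc]; simp⟩
  · have hc' : θ c ≠ 0 := (map_ne_zero θ).2 hc
    refine ⟨- (c ^ 2 / θ c), ?_⟩
    rw [map_neg, map_div₀, map_pow, hθ]
    field_simp

/-- additive maps with `f (y² b) = y² f b` are linear -/
lemma lin_sq (h3 : (3 : F) = 0) {f : F → F} (hadd : ∀ a b, f (a + b) = f a + f b)
    (hsq : ∀ y b, f (y ^ 2 * b) = y ^ 2 * f b) (y b : F) : f (y * b) = y * f b := by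
  have h1 := hadd (y * b) ((y - 1) ^ 2 * b)
  have e : y * b + (y - 1) ^ 2 * b = (y + 1) ^ 2 * b := by linear_combination (-(y * b)) * h3
  rw [e, hsq, hsq] at h1
  linear_combination -h1 + (y * f b) * h3

/-- additive maps with `f (y² b) = y θ(y) f b` are zero -/
lemma lin_th (hθ : ∀ x, θ (θ x) = x ^ 3) (hne : ∃ x, θ x ≠ x) {f : F → F}
    (hadd : ∀ a b, f (a + b) = f a + f b)
    (hsq : ∀ y b, f (y ^ 2 * b) = y * θ y * f b) (b : F) : f b = 0 := by
  have h3 := three hθ hne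
  obtain ⟨c, hc⟩ := hne
  have h0 : ∀ y b, f (y * b) = - (y + θ y) * f b := by
    intro y b
    have h1 := hadd (y * b) ((y - 1) ^ 2 * b)
    have e : y * b + (y - 1) ^ 2 * b = (y + 1) ^ 2 * b := by linear_combination (-(y * b)) * h3
    rw [e, hsq, hsq, map_sub, map_add, map_one] at h1
    linear_combination -h1 + ((y + θ y) * f b) * h3
  have h4 := h0 c (c * b)
  have h5 := h0 (c * c) b
  rw [h0 c b] at h4
  rw [mul_assoc, h4, map_mul] at h5
  have h6 : (c - θ c) ^ 2 * f b = 0 := by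
    linear_combination (-1) * h5 + (c ^ 2 * f b + θ c ^ 2 * f b) * h3
  rcases mul_eq_zero.1 h6 with h7 | h7
  · exact absurd (sub_eq_zero.1 (pow_eq_zero_iff two_ne_zero |>.1 h7)).symm hc
  · exact h7

end field

end Vale.Agent.P240.R2.H775.Re
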