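import Vale.Agent.P240.R2.H775.Re3

/-!
Ree groups: elimination.
-/

set_option autoImplicit false
set_option linter.all false

namespace Vale.Agent.P240.R2.H775.Re

open Vale.Agent.P240.H195

universe u v w

section
variable {F : Type v} [Field F] [Finite F] {L : Type u} [Group L] [Finite L]

/-- `GoodFactor` -/
theorem IsRee.good' {p : ℕ} [hp : Fact p.Prime] (h : IsRee F L) (hs : IsSimpleGroup L)
    (𝕜 : Type w) [Field 𝕜] {l : ℕ} : GoodFactor 𝕜 p l L := h.good hs hp.out

/-- elimination -/
theorem IsRee.elim {p : ℕ} [hp : Fact p.Prime] (h : IsRee F L) (hs : IsSimpleGroup L) :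
    RigidLie p L ∨ (FewAut p L ∧ ∃ r : ℕ, r.Prime ∧ AutFree p r L) := by
  by_cases hp3 : p = 3
  · subst hp3
    exact Or.inl (h.rigid hs)
  · exact Or.inr ⟨h.fewAut hs hp.out, 3, Nat.prime_three,
      (h.lie hs).autFree Nat.prime_three hp.out hp3⟩

end

end Vale.Agent.P240.R2.H775.Re
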