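import Vale.Agent.P240.R2.H727.O1
import Vale.Agent.P240.R2.H195.RigB

/-!
Groups with a split BN-pair of rank one.
-/

set_option autoImplicit false
set_option linter.all false

namespace Vale.Agent.P240.R2.H775.Rk

open Subgroup Vale.Agent.P240.K Vale.Agent.P240.H195

universe u

section
variable {L : Type u} [Group L]

/-- Rank one: `L` is generated by the `p`-group `U ≠ 1`, the `p'`-group `T` and `w`, where `T`
normalizes `U`, `w` normalizes `T`, `w² ∈ T`, `w u w⁻¹ ∈ U T w U` for `1 ≠ u ∈ U`, `U ∩ w U w⁻¹ = 1`. -/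
structure RO (p : ℕ) (U T : Subgroup L) (w : L) : Prop where
  gen : U ⊔ T ⊔ zpowers w = ⊤
  tu : ∀ t ∈ T, ∀ u ∈ U, t * u * t⁻¹ ∈ U
  wt : ∀ t ∈ T, w * t * w⁻¹ ∈ T
  ww : w * w ∈ T
  rel : ∀ u ∈ U, u ≠ 1 → ∃ a ∈ U, ∃ t ∈ T, ∃ b ∈ U, w * u * w⁻¹ = a * t * w * b
  opp : ∀ u ∈ U, w * u * w⁻¹ ∈ U → u = 1
  ne : ∃ u ∈ U, u ≠ 1
  pU : IsPGroup p U
  pT : ¬ p ∣ Nat.card T

namespace RO

variable {p : ℕ} {U T : Subgroup L} {w : L} (h : RO p U T w)
include h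

lemma tu' {t : L} (ht : t ∈ T) {u : L} (hu : u ∈ U) : t⁻¹ * u * t ∈ U := by
  have := h.tu _ (inv_mem ht) u hu
  rwa [inv_inv] at this

lemma wt' {t : L} (ht : t ∈ T) : w⁻¹ * t * w ∈ T := by
  have e : w⁻¹ * t * w = (w * w)⁻¹ * (w * t * w⁻¹) * (w * w) := by group
  rw [e]
  exact mul_mem (mul_mem (inv_mem h.ww) (h.wt t ht)) h.ww

/-- `B = U T` -/
def B : Subgroup L where
  carrier := {g | ∃ u ∈ U, ∃ t ∈ T, g = u * t}
  mul_mem' := by
    rintro _ _ ⟨u, hu, t, ht, rfl⟩ ⟨v, hv, s, hs, rfl⟩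
    exact ⟨u * (t * v * t⁻¹), mul_mem hu (h.tu t ht v hv), t * s, mul_mem ht hs, by group⟩
  one_mem' := ⟨1, one_mem _, 1, one_mem _, (mul_one 1).symm⟩
  inv_mem' := by
    rintro _ ⟨u, hu, t, ht, rfl⟩
    exact ⟨t⁻¹ * u⁻¹ * t, h.tu' ht (inv_mem hu), t⁻¹, inv_mem ht, by group⟩

/-- `N = T ∪ T w` -/
def N : Subgroup L where
  carrier := {g | g ∈ T ∨ ∃ t ∈ T, g = t * w}
  mul_mem' := by
    rintro x y (hx | ⟨t, ht, rfl⟩) (hy | ⟨s, hs, rfl⟩)
    · exact Or.inl (mul_mem hx hy)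
    · exact Or.inr ⟨x * s, mul_mem hx hs, (mul_assoc _ _ _).symm⟩
    · exact Or.inr ⟨t * (w * y * w⁻¹), mul_mem ht (h.wt y hy), by group⟩
    · refine Or.inl ?_
      have e : t * w * (s * w) = t * (w * s * w⁻¹) * (w * w) := by group
      rw [e]
      exact mul_mem (mul_mem ht (h.wt s hs)) h.ww
  one_mem' := Or.inl (one_mem _)
  inv_mem' := by
    rintro x (hx | ⟨t, ht, rfl⟩)
    · exact Or.inl (inv_mem hx)
    · refine Or.inr ⟨(w * w)⁻¹ * (w * t⁻¹ * w⁻¹), mul_mem (inv_mem h.ww) (h.wt _ (inv_mem ht)), ?_⟩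
      group

lemma U_le : U ≤ h.B := fun u hu => ⟨u, hu, 1, one_mem _, (mul_one u).symm⟩

lemma T_le : T ≤ h.B := fun t ht => ⟨1, one_mem _, t, ht, (one_mul t).symm⟩

lemma T_le' : T ≤ h.N := fun _ ht => Or.inl ht

lemma w_mem : w ∈ h.N := Or.inr ⟨1, one_mem _, (one_mul w).symm⟩

lemma w_notMem : w ∉ h.B := by
  rintro ⟨u, hu, t, ht, e⟩
  obtain ⟨v, hv, hv1⟩ := h.ne
  apply hv1
  apply h.opp v hv
  have e1 : w * v * w⁻¹ = u * (t * v * t⁻¹) * u⁻¹ := by rw [e]; group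
  rw [e1]
  exact mul_mem (mul_mem hu (h.tu t ht v hv)) (inv_mem hu)

lemma BN : h.B ⊓ h.N = T := by
  apply le_antisymm
  · rintro g ⟨hgB, hgN | ⟨t, ht, rfl⟩⟩
    · exact hgN
    · exfalso
      apply h.w_notMem
      have h2 := mul_mem (inv_mem (h.T_le ht)) hgB
      rwa [inv_mul_cancel_left] at h2
  · exact le_inf h.T_le h.T_le'

theorem bn0 : BN0 h.B h.N {w} := by
  refine Vale.Agent.P240.R2.H727.O.bn0_of_root (U := U) (fun _ => U) ?_ ?_ ?_ ?_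
    h.U_le ?_ ?_ ?_ ?_ ?_
  · intro n hn t ht htN
    have ht' : t ∈ T := by
      rw [← h.BN]
      exact ⟨ht, htN⟩
    rcases hn with hn | ⟨s, hs, rfl⟩
    · exact h.T_le (mul_mem (mul_mem hn ht') (inv_mem hn))
    · have e : s * w * t * (s * w)⁻¹ = s * (w * t * w⁻¹) * s⁻¹ := by group
      rw [e]
      exact h.T_le (mul_mem (mul_mem hs (h.wt t ht')) (inv_mem hs))
  · rintro s rfl
    exact h.w_mem
  · rw [h.BN]
    apply le_antisymm
    · rintro g (hg | ⟨t, ht, rfl⟩)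
      · exact (le_sup_right : T ≤ closure {w} ⊔ T) hg
      · exact mul_mem ((le_sup_right : T ≤ closure {w} ⊔ T) ht)
          ((le_sup_left : closure {w} ≤ closure {w} ⊔ T) (subset_closure rfl))
    · refine sup_le ?_ h.T_le'
      rw [closure_le]
      rintro s rfl
      exact h.w_mem
  · rintro s rfl
    exact h.T_le h.ww
  · rintro b ⟨u, hu, t, ht, rfl⟩
    exact ⟨u, hu, t, h.T_le ht, h.T_le' ht, rfl⟩
  · rintro s rfl u hu
    exact ⟨1, one_mem _, u, hu, by rw [mul_one, mul_inv_cancel]; exact one_mem _,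
      (one_mul u).symm⟩
  · rintro s rfl x hx hx1
    obtain ⟨a, ha, t, ht, b, hb, e⟩ := h.rel x hx hx1
    refine ⟨a * (t * (s * s)), ⟨a, ha, _, mul_mem ht h.ww, rfl⟩, (s * s)⁻¹ * b * (s * s),
      h.tu' h.ww hb, ?_⟩
    calc s * x = s * x * s⁻¹ * s := by group
      _ = _ := by rw [e]; group
  · rintro n hn s rfl
    rcases hn with hn | ⟨t, ht, rfl⟩
    · exact Or.inl fun x hx => h.tu' hn hx
    · refine Or.inr fun x hx => ?_
      have e : (t * s)⁻¹ * (s * x * s⁻¹) * (t * s) = (s⁻¹ * t⁻¹ * s) * x * (s⁻¹ * t⁻¹ * s)⁻¹ := by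
        group
      rw [e]
      exact h.tu _ (h.wt' (inv_mem ht)) _ hx
  · rintro s rfl
    obtain ⟨u, hu, hu1⟩ := h.ne
    refine ⟨u, h.U_le hu, fun hcon => ?_⟩
    have hv1 : (s * s)⁻¹ * u * (s * s) ≠ 1 := by
      intro hv
      apply hu1
      have e : u = (s * s) * ((s * s)⁻¹ * u * (s * s)) * (s * s)⁻¹ := by group
      rw [e, hv]
      group
    obtain ⟨a, ha, t, ht, b, hb, e⟩ := h.rel _ (h.tu' h.ww hu) hv1
    have e2 : s⁻¹ * u * s = a * t * s * b := by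
      rw [← e]
      group
    rw [e2] at hcon
    apply h.w_notMem
    have h2 : a * t ∈ h.B := ⟨a, ha, t, ht, rfl⟩
    have h3 := mul_mem (mul_mem (inv_mem h2) hcon) (inv_mem (h.U_le hb))
    have e3 : (a * t)⁻¹ * (a * t * s * b) * b⁻¹ = s := by group
    rwa [e3] at h3

theorem bn_gen : h.B ⊔ h.N = ⊤ := by
  rw [eq_top_iff, ← h.gen]
  refine sup_le (sup_le (h.U_le.trans le_sup_left) (h.T_le.trans le_sup_left)) ?_
  rw [zpowers_le]
  exact (le_sup_right : h.N ≤ h.B ⊔ h.N) h.w_mem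

theorem sb : SB p h.B h.N U {w} where
  toBN0 := h.bn0
  gen := h.bn_gen
  le := h.U_le
  pgroup := h.pU
  normal := by
    rintro _ ⟨v, hv, t, ht, rfl⟩ u hu
    have e : v * t * u * (v * t)⁻¹ = v * (t * u * t⁻¹) * v⁻¹ := by group
    rw [e]
    exact mul_mem (mul_mem hv (h.tu t ht u hu)) (inv_mem hv)
  split := by
    rintro _ ⟨u, hu, t, ht, rfl⟩
    exact ⟨u, hu, t, h.T_le ht, h.T_le' ht, rfl⟩
  coprime := by
    rw [h.BN]
    exact h.pT
  strong := by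
    rintro s rfl x hx hsx u hu
    rw [h.opp x hx hsx]
    have e : s * (u * 1 * u⁻¹) * s⁻¹ = 1 := by group
    rw [e]
    exact one_mem _
  opp := ⟨w, h.w_mem, h.opp⟩
  nonempty := ⟨w, rfl⟩

theorem splitBN : SplitBN p h.B h.N U {w} where
  toSB := h.sb
  irr := by
    rintro J hJ ⟨a, ha⟩ ⟨b, hb, hb'⟩ -
    have h1 : a = w := hJ ha
    have h3 : b = w := hb
    exact absurd (by rwa [show b = a from h3.trans h1.symm]) hb'

end RO

end

end Vale.Agent.P240.R2.H775.Rk
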