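import Vale.Agent.P240.R2.H775.Rk1
import Vale.Agent.P240.R2.H997.NoOut
import Vale.Agent.P240.H195.FF
import Vale.Agent.P240.R2.H329.Abs
import Vale.Agent.P240.H195.BNFree

/-!
Split BN-pairs of rank one where `T` acts as the multiplicative group of a field on a quotient of `U`:
rigidity, and the outer automorphism group is cyclic.
-/

set_option autoImplicit false
set_option linter.all false

namespace Vale.Agent.P240.R2.H775.Rk

open Subgroup Vale.Agent.P240.K Vale.Agent.P240.H195 Vale.Agent.P240.R2.H997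

universe u v w

/-- elements of prime order modulo a normal subgroup with cyclic factor group -/
lemma cyc_few {A C : Type*} [Group A] [Group C] [Finite A] [IsCyclic C] (I : Subgroup A)
    [I.Normal] (R : Subgroup (A × C)) (hR : ∀ f : A, ∃ σ : C, (f, σ) ∈ R)
    (hD : ∀ x : A, (x, (1 : C)) ∈ R → x ∈ I) {p : ℕ} [hp : Fact p.Prime] {f g : A}
    (hf : f ^ p = 1) (hg : g ^ p = 1) (hfI : f ∉ I) : g ∈ zpowers f ⊔ I := by
  have hcyc : IsCyclic (A ⧸ I) := by
    obtain ⟨⟨v, hv⟩, hv'⟩ := IsCyclic.exists_generator (α := R.map (MonoidHom.snd A C))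
    obtain ⟨⟨f₀, φ⟩, h0, h1⟩ := hv
    have h1' : φ = v := h1
    subst h1'
    refine ⟨⟨QuotientGroup.mk f₀, fun x => ?_⟩⟩
    obtain ⟨f, rfl⟩ := QuotientGroup.mk_surjective x
    obtain ⟨σ, hσ⟩ := hR f
    obtain ⟨k, hk⟩ := hv' ⟨σ, ⟨(f, σ), hσ, rfl⟩⟩
    have hk' : φ ^ k = σ := by
      have := congrArg Subtype.val hk
      simpa using this
    refine ⟨k, ?_⟩
    show (QuotientGroup.mk f₀ : A ⧸ I) ^ k = QuotientGroup.mk f
    rw [← QuotientGroup.mk_zpow, QuotientGroup.eq]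
    apply hD
    have := R.mul_mem (R.inv_mem (R.zpow_mem h0 k)) hσ
    simpa [hk'] using this
  have hm : (QuotientGroup.mk g : A ⧸ I) ∈ zpowers (QuotientGroup.mk f : A ⧸ I) := by
    refine Vale.Agent.P240.R2.H329.mem_zpowers_of_pow (p := p) ?_ ?_ ?_
    · rw [← QuotientGroup.mk_pow, hf, QuotientGroup.mk_one]
    · exact fun h => hfI ((QuotientGroup.eq_one_iff _).1 h)
    · rw [← QuotientGroup.mk_pow, hg, QuotientGroup.mk_one]
  obtain ⟨k, hk⟩ := hm
  have hk' : (QuotientGroup.mk f : A ⧸ I) ^ k = QuotientGroup.mk g := hk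
  rw [← QuotientGroup.mk_zpow, QuotientGroup.eq] at hk'
  have e : g = f ^ k * ((f ^ k)⁻¹ * g) := by group
  rw [e]
  exact mul_mem ((le_sup_left : zpowers f ≤ zpowers f ⊔ I) ⟨k, rfl⟩)
    ((le_sup_right : I ≤ zpowers f ⊔ I) hk')

section
variable {L : Type u} [Group L]

/-- `π` is a homomorphism of `U` onto the additive group of the field `F`, and `T` acts on the
quotient faithfully as the multiplicative group of `F`; automorphisms of `L` that stabilize `U`
stabilize the kernel of `π`, and are trivial on `U` if they centralize `T` and the quotient. -/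
structure Lin (F : Type v) [Field F] (π : L → F) (U T : Subgroup L) : Prop where
  tu : ∀ t ∈ T, ∀ u ∈ U, t * u * t⁻¹ ∈ U
  add : ∀ u ∈ U, ∀ v ∈ U, π (u * v) = π u + π v
  surj : ∀ a, ∃ u ∈ U, π u = a
  act : ∀ t ∈ T, ∃ k : F, k ≠ 0 ∧ ∀ u ∈ U, π (t * u * t⁻¹) = k * π u
  full : ∀ k : F, k ≠ 0 → ∃ t ∈ T, ∀ u ∈ U, π (t * u * t⁻¹) = k * π u
  faith : ∀ t ∈ T, (∀ u ∈ U, π (t * u * t⁻¹) = π u) → t = 1
  char : ∀ e : MulAut L, (∀ u ∈ U, e u ∈ U) → ∀ u ∈ U, π u = 0 → π (e u) = 0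
  rig : ∀ e : MulAut L, (∀ u ∈ U, e u ∈ U) → (∀ t ∈ T, e t = t) →
    (∀ u ∈ U, π (e u) = π u) → ∀ u ∈ U, e u = u

namespace Lin

variable {F : Type v} [Field F] {π : L → F} {U T : Subgroup L} (l : Lin F π U T)
include l

lemma one : π 1 = 0 := by
  have h := l.add 1 (one_mem _) 1 (one_mem _)
  rw [mul_one] at h
  linear_combination -h

lemma inv {u : L} (hu : u ∈ U) : π u⁻¹ = - π u := by
  have h := l.add u hu u⁻¹ (inv_mem hu)
  rw [mul_inv_cancel, l.one] at h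
  linear_combination -h

lemma wd {e : MulAut L} (he : ∀ u ∈ U, e u ∈ U) {u v : L} (hu : u ∈ U) (hv : v ∈ U)
    (huv : π u = π v) : π (e u) = π (e v) := by
  have h := l.char e he (u * v⁻¹) (mul_mem hu (inv_mem hv)) (by
    rw [l.add u hu _ (inv_mem hv), l.inv hv, huv]
    ring)
  rw [map_mul, map_inv, l.add _ (he u hu) _ (inv_mem (he v hv)), l.inv (he v hv)] at h
  linear_combination h

/-- semilinear -/
lemma semi [Finite F] {e : MulAut L} (he : ∀ u ∈ U, e u ∈ U) (he' : ∀ u ∈ U, e⁻¹ u ∈ U)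
    (heT : ∀ t ∈ T, e t ∈ T) :
    ∃ k : F, k ≠ 0 ∧ ∃ σ : RingAut F, ∀ u ∈ U, π (e u) = k * σ (π u) := by
  choose s hsU hs using l.surj
  obtain ⟨φ, hφ⟩ : ∃ φ : F → F, φ = fun a => π (e (s a)) := ⟨_, rfl⟩
  have h1 : ∀ u ∈ U, π (e u) = φ (π u) := by
    intro u hu
    rw [hφ]
    exact l.wd he hu (hsU _) (hs _).symm
  have hadd : ∀ a b, φ (a + b) = φ a + φ b := by
    intro a b
    have h2 := h1 _ (mul_mem (hsU a) (hsU b))
    rw [l.add _ (hsU a) _ (hsU b), hs, hs] at h2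
    rw [← h2, map_mul, l.add _ (he _ (hsU a)) _ (he _ (hsU b)), h1 _ (hsU a), h1 _ (hsU b), hs, hs]
  have hmul : ∀ c : F, ∃ c' : F, ∀ a, φ (c * a) = c' * φ a := by
    intro c
    by_cases hc : c = 0
    · refine ⟨0, fun a => ?_⟩
      have h2 := hadd 0 0
      rw [add_zero] at h2
      rw [hc, zero_mul, zero_mul]
      linear_combination -h2
    obtain ⟨t, ht, htc⟩ := l.full c hc
    obtain ⟨c', -, hc'⟩ := l.act _ (heT t ht)
    refine ⟨c', fun a => ?_⟩
    have h3 := htc _ (hsU a)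
    have h4 := hc' _ (he _ (hsU a))
    rw [hs] at h3
    rw [h1 _ (hsU a), hs] at h4
    have h5 : e t * e (s a) * (e t)⁻¹ = e (t * s a * t⁻¹) := by rw [map_mul, map_mul, map_inv]
    rw [h5, h1 _ (l.tu t ht _ (hsU a)), h3] at h4
    exact h4
  have hsurj : ∃ a, φ a = 1 := by
    obtain ⟨u, hu, hu1⟩ := l.surj 1
    refine ⟨π (e⁻¹ u), ?_⟩
    rw [← h1 _ (he' u hu), ← MulAut.mul_apply, mul_inv_cancel, MulAut.one_apply, hu1]
  have hk : φ 1 ≠ 0 := by
    intro h0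
    obtain ⟨a, ha⟩ := hsurj
    obtain ⟨c', hc'⟩ := hmul a
    have := hc' 1
    rw [mul_one, h0, mul_zero, ha] at this
    exact one_ne_zero this
  have hmul2 : ∀ a b, φ 1 * φ (a * b) = φ a * φ b := by
    intro a b
    obtain ⟨c', hc'⟩ := hmul a
    have h2 := hc' 1
    rw [mul_one] at h2
    rw [hc' b, h2]
    ring
  let ψ : F →+* F :=
    { toFun := fun a => (φ 1)⁻¹ * φ a
      map_one' := inv_mul_cancel₀ hk
      map_mul' := fun a b => by
        have h2 := hmul2 a b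
        field_simp
        linear_combination h2
      map_zero' := by
        have h2 := hadd 0 0
        rw [add_zero] at h2
        have h3 : φ 0 = 0 := by linear_combination -h2
        rw [h3, mul_zero]
      map_add' := fun a b => by rw [hadd, mul_add] }
  have hψ : Function.Bijective ψ := Finite.injective_iff_bijective.1 ψ.injective
  refine ⟨φ 1, hk, RingEquiv.ofBijective ψ hψ, fun u hu => ?_⟩
  rw [h1 u hu]
  change φ (π u) = φ 1 * ((φ 1)⁻¹ * φ (π u))
  rw [mul_inv_cancel_left₀ hk]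

/-- automorphisms that act linearly centralize `T` -/
lemma fixT {e : MulAut L} (he : ∀ u ∈ U, e u ∈ U) (he' : ∀ u ∈ U, e⁻¹ u ∈ U)
    (heT : ∀ t ∈ T, e t ∈ T) {k : F}
    (hk : ∀ u ∈ U, π (e u) = k * π u) : ∀ t ∈ T, e t = t := by
  intro t ht
  have hi : ∀ x : L, e (e⁻¹ x) = x := fun x => by
    rw [← MulAut.mul_apply, mul_inv_cancel, MulAut.one_apply]
  obtain ⟨c, hc, htc⟩ := l.act t ht
  obtain ⟨c', hc', htc'⟩ := l.act _ (heT t ht)
  have hcc : ∀ u ∈ U, π (e t * u * (e t)⁻¹) = c * π u := by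
    intro u hu
    obtain ⟨v, hv⟩ : ∃ v, v = e⁻¹ u := ⟨_, rfl⟩
    have hvU : v ∈ U := hv ▸ he' u hu
    have hev : e v = u := by rw [hv, hi]
    have e1 : e t * u * (e t)⁻¹ = e (t * v * t⁻¹) := by rw [map_mul, map_mul, map_inv, hev]
    rw [e1, hk _ (l.tu t ht v hvU), htc v hvU, ← hev, hk v hvU]
    ring
  have h1 : t⁻¹ * e t = 1 := by
    refine l.faith _ (mul_mem (inv_mem ht) (heT t ht)) fun u hu => ?_
    have e1 : t⁻¹ * e t * u * (t⁻¹ * e t)⁻¹ = t⁻¹ * (e t * u * (e t)⁻¹) * t⁻¹⁻¹ := by group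
    have hvU := l.tu _ (heT t ht) u hu
    have hxU : t⁻¹ * (e t * u * (e t)⁻¹) * t⁻¹⁻¹ ∈ U := l.tu _ (inv_mem ht) _ hvU
    have h2 := htc _ hxU
    have e2 : t * (t⁻¹ * (e t * u * (e t)⁻¹) * t⁻¹⁻¹) * t⁻¹ = e t * u * (e t)⁻¹ := by group
    rw [e2, hcc u hu] at h2
    rw [e1]
    exact (mul_left_cancel₀ hc h2).symm
  calc e t = t * (t⁻¹ * e t) := by group
    _ = t := by rw [h1, mul_one]

lemma comm : ∀ x ∈ T, ∀ y ∈ T, x * y = y * x := by
  intro x hx y hy
  obtain ⟨a, ha, hxa⟩ := l.act x hx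
  have h1 := l.fixT (e := MulAut.conj x) (k := a) (fun u hu => l.tu x hx u hu) ?_ ?_ ?_ y hy
  · rw [MulAut.conj_apply] at h1
    exact mul_inv_eq_iff_eq_mul.1 h1
  · intro u hu
    rw [← map_inv, MulAut.conj_apply]
    exact l.tu _ (inv_mem hx) u hu
  · intro t ht
    exact mul_mem (mul_mem hx ht) (inv_mem hx)
  · intro u hu
    exact hxa u hu

end Lin

end

end Vale.Agent.P240.R2.H775.Rk
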