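import Vale.Agent.P240.MathlibUsed

set_option autoImplicit false
set_option linter.all false

namespace Vale.Agent.P240.R2.H775.Rk

section
variable {α : Type*} (R : α → α → Prop)

open Classical in
/-- out-degree -/
noncomputable def up (X : Finset α) (x : α) : ℕ := (X.filter (R x)).card

open Classical in
/-- in-degree -/
noncomputable def dn (X : Finset α) (y : α) : ℕ := (X.filter (fun x => R x y)).card

/-- number of edges -/
noncomputable def ed (X : Finset α) : ℕ := ∑ x ∈ X, up R X x

lemma ed_eq (X : Finset α) : ed R X = ∑ y ∈ X, dn R X y := by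
  classical
  simp only [ed, up, dn, Finset.card_filter]
  exact Finset.sum_comm

lemma ed_swap (X : Finset α) : ed (fun x y => R y x) X = ed R X := by
  rw [ed_eq R]; rfl

open Classical in
lemma ed_erase (X : Finset α) {v : α} (hv : v ∈ X) :
    ed R X ≤ ed R (X.erase v) + up R X v + dn R X v := by
  have h1 : ed R X = ∑ x ∈ X.erase v, up R X x + up R X v := (Finset.sum_erase_add _ _ hv).symm
  have h2 : ∀ x ∈ X.erase v, up R X x ≤ up R (X.erase v) x + (if R x v then 1 else 0) := by
    intro x hx
    unfold up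
    have h3 : X.filter (R x) ⊆ (X.erase v).filter (R x) ∪ (if R x v then {v} else ∅) := by
      intro y hy
      rw [Finset.mem_filter] at hy
      rw [Finset.mem_union, Finset.mem_filter, Finset.mem_erase]
      by_cases hyv : y = v
      · subst hyv
        right
        rw [if_pos hy.2]
        exact Finset.mem_singleton_self _
      · exact Or.inl ⟨⟨hyv, hy.1⟩, hy.2⟩
    refine (Finset.card_le_card h3).trans ((Finset.card_union_le _ _).trans ?_)
    split_ifs <;> simp
  have h4 : ∑ x ∈ X.erase v, (if R x v then 1 else 0) ≤ dn R X v := by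
    rw [← Finset.card_filter, dn]
    exact Finset.card_le_card (Finset.filter_subset_filter _ (Finset.erase_subset _ _))
  have h5 : ∑ x ∈ X.erase v, up R X x ≤
      ∑ x ∈ X.erase v, (up R (X.erase v) x + (if R x v then 1 else 0)) := Finset.sum_le_sum h2
  rw [Finset.sum_add_distrib] at h5
  rw [h1]
  unfold ed
  omega

open Classical in
/-- removing the leaves of one type -/
lemma ed_leaves (X U : Finset α) (hU : ∀ x, x ∈ U ↔ x ∈ X ∧ up R X x = 1 ∧ dn R X x = 0) :
    ed R (X \ U) + U.card = ed R X := by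
  have hUX : U ⊆ X := fun x hx => ((hU x).1 hx).1
  have h1 : ∀ x ∈ X \ U, up R (X \ U) x = up R X x := by
    intro x hx
    unfold up
    congr 1
    ext y
    rw [Finset.mem_filter, Finset.mem_filter, Finset.mem_sdiff]
    refine ⟨fun h => ⟨h.1.1, h.2⟩, fun h => ⟨⟨h.1, fun hy => ?_⟩, h.2⟩⟩
    have h2 := ((hU y).1 hy).2.2
    rw [dn, Finset.card_eq_zero] at h2
    have h3 : x ∈ X.filter (fun x => R x y) :=
      Finset.mem_filter.2 ⟨(Finset.mem_sdiff.1 hx).1, h.2⟩
    rw [h2] at h3
    exact Finset.notMem_empty _ h3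
  have h2 : ed R (X \ U) = ∑ x ∈ X \ U, up R X x := Finset.sum_congr rfl h1
  have h3 : ∑ x ∈ U, up R X x = U.card := by
    rw [Finset.card_eq_sum_ones]
    exact Finset.sum_congr rfl fun x hx => ((hU x).1 hx).2.1
  rw [h2, ← h3, ed]
  exact Finset.sum_sdiff hUX

variable {R} in
/-- **a finite tree has a fixed vertex** -/
theorem tree_fix {H : Type*} [Group H] [MulAction H α]
    (hR : ∀ (g : H) x y, R x y → R (g • x) (g • y))
    (hf : ∀ Y : Finset α, Y.Nonempty → ed R Y + 1 ≤ Y.card) :
    ∀ (n : ℕ) (X : Finset α), X.card = n → X.Nonempty → (∀ (g : H), ∀ x ∈ X, g • x ∈ X) →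
      ed R X + 1 = X.card → ∃ x ∈ X, ∀ g : H, g • x = x := by
  classical
  intro n
  induction n using Nat.strong_induction_on with
  | _ n ih =>
  intro X hn hX hg he
  rcases Nat.lt_or_ge 1 X.card with h1 | h1
  swap
  · have h2 : X.card = 1 := le_antisymm h1 hX.card_pos
    obtain ⟨x, hx⟩ := Finset.card_eq_one.1 h2
    refine ⟨x, by rw [hx]; exact Finset.mem_singleton_self _, fun g => ?_⟩
    have h3 := hg g x (by rw [hx]; exact Finset.mem_singleton_self _)
    rw [hx, Finset.mem_singleton] at h3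
    exact h3
  -- degrees are positive
  have hpos : ∀ v ∈ X, 1 ≤ up R X v + dn R X v := by
    intro v hv
    have h2 := ed_erase R X hv
    have h3 : (X.erase v).card = X.card - 1 := Finset.card_erase_of_mem hv
    have h4 := hf (X.erase v) (Finset.card_pos.1 (by omega))
    omega
  -- there is a leaf
  obtain ⟨v, hv, hv1⟩ : ∃ v ∈ X, up R X v + dn R X v ≤ 1 := by
    by_contra hcon
    push Not at hcon
    have h2 : ∑ v ∈ X, 2 ≤ ∑ v ∈ X, (up R X v + dn R X v) :=
      Finset.sum_le_sum fun v hv => hcon v hv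
    rw [Finset.sum_add_distrib, ← ed_eq, Finset.sum_const, smul_eq_mul] at h2
    have h3 : ∑ v ∈ X, up R X v = ed R X := rfl
    rw [h3] at h2
    omega
  have key : ∀ (S : α → α → Prop) (hS : ∀ (g : H) x y, S x y → S (g • x) (g • y))
      (hSR : ∀ Y, ed S Y = ed R Y) (hvS : up S X v = 1 ∧ dn S X v = 0),
      ∃ x ∈ X, ∀ g : H, g • x = x := by
    intro S hS hSR hvS
    set U : Finset α := X.filter (fun x => up S X x = 1 ∧ dn S X x = 0) with hUdef
    have hU : ∀ x, x ∈ U ↔ x ∈ X ∧ up S X x = 1 ∧ dn S X x = 0 := fun x => by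
      rw [hUdef, Finset.mem_filter]
    have hUX : U ⊆ X := Finset.filter_subset _ _
    have h2 := ed_leaves S X U hU
    have h3 : (X \ U).card + U.card = X.card := Finset.card_sdiff_add_card_eq_card hUX
    have h4 : 0 < U.card := Finset.card_pos.2 ⟨v, (hU v).2 ⟨hv, hvS⟩⟩
    have hS' : ∀ (g : H) x y, S (g • x) (g • y) ↔ S x y := by
      intro g x y
      refine ⟨fun h => ?_, hS g x y⟩
      have h5 := hS g⁻¹ _ _ h
      rwa [inv_smul_smul, inv_smul_smul] at h5
    have hgX : ∀ (g : H) x, g • x ∈ X ↔ x ∈ X := by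
      intro g x
      refine ⟨fun h => ?_, hg g x⟩
      have h5 := hg g⁻¹ _ h
      rwa [inv_smul_smul] at h5
    have hup : ∀ (g : H) x, up S X (g • x) = up S X x := by
      intro g x
      unfold up
      rw [← Finset.card_image_of_injective (X.filter (S x)) (MulAction.injective g)]
      congr 1
      ext y
      rw [Finset.mem_filter, Finset.mem_image]
      constructor
      · rintro ⟨h5, h6⟩
        refine ⟨g⁻¹ • y, Finset.mem_filter.2 ⟨(hgX g⁻¹ y).2 h5, ?_⟩, smul_inv_smul _ _⟩
        rw [← hS' g, smul_inv_smul]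
        exact h6
      · rintro ⟨z, hz, rfl⟩
        rw [Finset.mem_filter] at hz
        exact ⟨(hgX g z).2 hz.1, (hS' g _ _).2 hz.2⟩
    have hdn : ∀ (g : H) x, dn S X (g • x) = dn S X x := by
      intro g x
      unfold dn
      rw [← Finset.card_image_of_injective (X.filter (fun z => S z x)) (MulAction.injective g)]
      congr 1
      ext y
      rw [Finset.mem_filter, Finset.mem_image]
      constructor
      · rintro ⟨h5, h6⟩
        refine ⟨g⁻¹ • y, Finset.mem_filter.2 ⟨(hgX g⁻¹ y).2 h5, ?_⟩, smul_inv_smul _ _⟩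
        rw [← hS' g, smul_inv_smul]
        exact h6
      · rintro ⟨z, hz, rfl⟩
        rw [Finset.mem_filter] at hz
        exact ⟨(hgX g z).2 hz.1, (hS' g _ _).2 hz.2⟩
    have hne : (X \ U).Nonempty := by
      have h5 : 0 < up S X v := by rw [hvS.1]; exact one_pos
      obtain ⟨w, hw⟩ := Finset.card_pos.1 h5
      rw [Finset.mem_filter] at hw
      refine ⟨w, Finset.mem_sdiff.2 ⟨hw.1, fun hwU => ?_⟩⟩
      have h6 := ((hU w).1 hwU).2.2
      rw [dn, Finset.card_eq_zero] at h6
      have h7 : v ∈ X.filter (fun z => S z w) := Finset.mem_filter.2 ⟨hv, hw.2⟩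
      rw [h6] at h7
      exact Finset.notMem_empty _ h7
    obtain ⟨x, hx, hxg⟩ := ih (X \ U).card (by omega) (X \ U) rfl hne (by
      intro g x hx
      rw [Finset.mem_sdiff] at hx ⊢
      refine ⟨(hgX g x).2 hx.1, fun h5 => hx.2 ?_⟩
      rw [hU] at h5 ⊢
      rw [hup, hdn] at h5
      exact ⟨hx.1, h5.2⟩) (by
      rw [← hSR]
      have := hSR X
      omega)
    exact ⟨x, (Finset.mem_sdiff.1 hx).1, hxg⟩
  have hv2 := hpos v hv
  rcases Nat.eq_zero_or_pos (dn R X v) with h0 | h0
  · exact key R hR (fun _ => rfl) ⟨by omega, h0⟩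
  · exact key (fun x y => R y x) (fun g x y h => hR g y x h) (ed_swap R) ⟨by
      change dn R X v = 1
      omega, by
      change up R X v = 0
      omega⟩

end

end Vale.Agent.P240.R2.H775.Rk
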