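import Vale.Agent.P240.R2.H775.Rk2a
import Vale.Agent.P240.K.Defs

set_option autoImplicit false
set_option linter.all false

namespace Vale.Agent.P240.R2.H775.Rk

open Finsupp hiding cons
open Vale.Agent.P240.K

universe u v

section
variable {𝕜 : Type v} [Field 𝕜] {α : Type u}

/-- chains of length one -/
noncomputable def em1 : (α →₀ 𝕜) →ₗ[𝕜] (List α →₀ 𝕜) := Finsupp.lmapDomain 𝕜 𝕜 (fun x => [x])

/-- chains of length two -/
noncomputable def em2 : (α × α →₀ 𝕜) →ₗ[𝕜] (List α →₀ 𝕜) :=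
  Finsupp.lmapDomain 𝕜 𝕜 (fun e => [e.1, e.2])

/-- the boundary -/
noncomputable def dd : (α × α →₀ 𝕜) →ₗ[𝕜] (α →₀ 𝕜) :=
  Finsupp.linearCombination 𝕜 (fun e : α × α => single e.2 (1 : 𝕜) - single e.1 (1 : 𝕜))

/-- the augmentation -/
noncomputable def ag : (α →₀ 𝕜) →ₗ[𝕜] 𝕜 := Finsupp.linearCombination 𝕜 (fun _ : α => (1 : 𝕜))

lemma em1_inj : Function.Injective (em1 : (α →₀ 𝕜) →ₗ[𝕜] (List α →₀ 𝕜)) :=
  Finsupp.mapDomain_injective fun x y h => List.head_eq_of_cons_eq h

lemma em2_inj' : Function.Injective (fun e : α × α => [e.1, e.2]) := by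
  rintro ⟨a, b⟩ ⟨c, d⟩ h
  simp only [List.cons.injEq, and_true] at h
  exact Prod.ext h.1 h.2

lemma em2_inj : Function.Injective (em2 : (α × α →₀ 𝕜) →ₗ[𝕜] (List α →₀ 𝕜)) :=
  Finsupp.mapDomain_injective em2_inj'

lemma bd_em2 (c : α × α →₀ 𝕜) : bd (em2 c) = em1 (dd c) := by
  have h : (bd (𝕜 := 𝕜) (α := α)).comp em2 = em1.comp dd := by
    refine Finsupp.lhom_ext fun e b => ?_
    simp only [LinearMap.comp_apply, em1, em2, dd, bd, Finsupp.lmapDomain_apply,
      Finsupp.mapDomain_single, Finsupp.linearCombination_single, map_smul, map_sub]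
    congr 1
    simp [Finset.sum_range_succ, sub_eq_add_neg]
  exact LinearMap.congr_fun h c

lemma bd_em1 (c : α →₀ 𝕜) : bd (em1 c) = single [] (ag c) := by
  have h : (bd (𝕜 := 𝕜) (α := α)).comp em1 = (Finsupp.lsingle []).comp ag := by
    refine Finsupp.lhom_ext fun e b => ?_
    simp only [LinearMap.comp_apply, em1, ag, bd, Finsupp.lmapDomain_apply,
      Finsupp.mapDomain_single, Finsupp.linearCombination_single, map_smul,
      Finsupp.lsingle_apply]
    congr 1
    simp
  exact LinearMap.congr_fun h c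

lemma ag_dd (c : α × α →₀ 𝕜) : ag (dd c) = 0 := by
  have h : (ag (𝕜 := 𝕜) (α := α)).comp dd = 0 := by
    refine Finsupp.lhom_ext fun e b => ?_
    simp only [LinearMap.comp_apply, ag, dd, Finsupp.linearCombination_single, map_smul, map_sub,
      sub_self, smul_zero, LinearMap.zero_apply, one_smul]
  exact LinearMap.congr_fun h c

variable [PartialOrder α]

/-- all homology groups vanish -/
def Acy (𝕜 : Type v) [Field 𝕜] (α : Type u) [Preorder α] : Prop :=
  ∀ (n : ℕ) (z : List α →₀ 𝕜), IsChain n z → bd z = 0 → ∃ c : List α →₀ 𝕜, IsChain (n + 1) c ∧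
    bd c = z

lemma acy_of_not (h : ¬ HomologyNonzero 𝕜 α) : Acy 𝕜 α := by
  intro n z hz hz0
  by_contra hcon
  push Not at hcon
  exact h ⟨n, z, hz, hz0, hcon⟩

lemma isChain_em2 {c : α × α →₀ 𝕜} (hc : ∀ e ∈ c.support, e.1 < e.2) : IsChain 2 (em2 c) := by
  classical
  intro l hl
  have h1 := Finsupp.mapDomain_support hl
  rw [Finset.mem_image] at h1
  obtain ⟨e, he, rfl⟩ := h1
  exact ⟨rfl, by simp [hc e he]⟩

lemma isChain_em1 (c : α →₀ 𝕜) : IsChain 1 (em1 c) := by
  classical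
  intro l hl
  have h1 := Finsupp.mapDomain_support hl
  rw [Finset.mem_image] at h1
  obtain ⟨e, he, rfl⟩ := h1
  exact ⟨rfl, by simp⟩

/-- no chains with three terms: the boundary is injective -/
lemma dd_inj (hA : Acy 𝕜 α) (hh : ∀ x y z : α, x < y → ¬ y < z) {c : α × α →₀ 𝕜}
    (hc : ∀ e ∈ c.support, e.1 < e.2) (h0 : dd c = 0) : c = 0 := by
  obtain ⟨c', h1, h2⟩ := hA 2 (em2 c) (isChain_em2 hc) (by rw [bd_em2, h0, map_zero])
  have h3 : c' = 0 := by
    rw [← Finsupp.support_eq_empty, Finset.eq_empty_iff_forall_notMem]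
    intro l hl
    obtain ⟨h4, h5⟩ := h1 l hl
    obtain ⟨a, b, c, rfl⟩ := List.length_eq_three.1 h4
    simp only [List.pairwise_cons, List.mem_cons] at h5
    exact hh a b c (h5.1 b (Or.inl rfl)) (h5.2.1 c (Or.inl rfl))
  rw [h3, map_zero] at h2
  exact em2_inj (by rw [← h2, map_zero])

/-- the poset is connected -/
lemma dd_surj (hA : Acy 𝕜 α) {a : α →₀ 𝕜} (ha : ag a = 0) :
    ∃ c : α × α →₀ 𝕜, (∀ e ∈ c.support, e.1 < e.2) ∧ dd c = a := by
  classical
  obtain ⟨c', h1, h2⟩ := hA 1 (em1 a) (isChain_em1 a) (by rw [bd_em1, ha, single_zero])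
  have hr : (c'.support : Set (List α)) ⊆ Set.range (fun e : α × α => [e.1, e.2]) := by
    intro l hl
    obtain ⟨h4, h5⟩ := h1 l hl
    obtain ⟨a, b, rfl⟩ := List.length_eq_two.1 h4
    exact ⟨(a, b), rfl⟩
  let c : α × α →₀ 𝕜 := Finsupp.comapDomain (fun e : α × α => [e.1, e.2]) c'
    (em2_inj'.injOn)
  have h3 : em2 c = c' := Finsupp.mapDomain_comapDomain _ em2_inj' c' hr
  refine ⟨c, fun e he => ?_, em1_inj ?_⟩
  · have h4 : [e.1, e.2] ∈ c'.support := by
      rw [Finsupp.mem_support_iff] at he ⊢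
      exact he
    have h5 := (h1 _ h4).2
    simp only [List.pairwise_cons, List.mem_singleton] at h5
    exact h5.1 e.2 rfl
  · rw [← bd_em2, h3, h2]

lemma nonempty_of_acy (hA : Acy 𝕜 α) : Nonempty α := by
  classical
  obtain ⟨c, h1, h2⟩ := hA 0 (single [] 1) (by
    intro l hl
    have h3 := Finsupp.support_single_subset hl
    rw [Finset.mem_singleton] at h3
    subst h3
    exact ⟨rfl, List.Pairwise.nil⟩) (by simp [bd])
  by_contra hcon
  have hc : c = 0 := by
    rw [← Finsupp.support_eq_empty, Finset.eq_empty_iff_forall_notMem]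
    intro l hl
    obtain ⟨a, rfl⟩ := List.length_eq_one_iff.1 (h1 l hl).1
    exact hcon ⟨a⟩
  rw [hc, map_zero] at h2
  have h3 := congrArg (fun f => f []) h2
  simp at h3

open Classical in
/-- the edges -/
noncomputable def ES (Y : Finset α) : Finset (α × α) :=
  (Y ×ˢ Y).filter (fun e => e.1 < e.2)

lemma card_ES (Y : Finset α) : (ES Y).card = ed (fun x y : α => x < y) Y := by
  classical
  rw [ES, Finset.card_filter, Finset.sum_product, ed]
  refine Finset.sum_congr rfl fun x _ => ?_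
  rw [up, Finset.card_filter]

lemma finrank_supp {β : Type*} (s : Finset β) :
    Module.finrank 𝕜 (Finsupp.supported 𝕜 𝕜 (s : Set β)) = s.card := by
  classical
  rw [LinearEquiv.finrank_eq (Finsupp.supportedEquivFinsupp (s : Set β)),
    Module.finrank_finsupp_self]
  simp

lemma edge_lt (hA : Acy 𝕜 α) (hh : ∀ x y z : α, x < y → ¬ y < z) (Y : Finset α)
    (hY : Y.Nonempty) : ed (fun x y : α => x < y) Y + 1 ≤ Y.card := by
  classical
  obtain ⟨y, hy⟩ := hY
  let T := Finsupp.supported 𝕜 𝕜 ((ES Y : Finset (α × α)) : Set (α × α))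
  let S := Finsupp.supported 𝕜 𝕜 ((Y : Finset α) : Set α)
  let f : T →ₗ[𝕜] (α →₀ 𝕜) := dd.domRestrict T
  have hfT : ∀ c ∈ T, ∀ e ∈ c.support, e.1 < e.2 ∧ e.1 ∈ Y ∧ e.2 ∈ Y := by
    intro c hc e he
    have h1 := hc he
    rw [ES, Finset.mem_coe, Finset.mem_filter, Finset.mem_product] at h1
    exact ⟨h1.2, h1.1⟩
  have hf : Function.Injective f := by
    rintro ⟨c, hc⟩ ⟨c', hc'⟩ h
    have h0 : dd (c - c') = 0 := by
      rw [map_sub]
      exact sub_eq_zero.2 h
    have h5 : c - c' ∈ T := Submodule.sub_mem _ hc hc'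
    exact Subtype.ext (sub_eq_zero.1 (dd_inj hA hh (fun e he => (hfT _ h5 e he).1) h0))
  have h1 : Module.finrank 𝕜 (LinearMap.range f) = Module.finrank 𝕜 T :=
    LinearMap.finrank_range_of_inj hf
  have hfin : Module.Finite 𝕜 S :=
    Module.Finite.equiv (Finsupp.supportedEquivFinsupp (M := 𝕜) (R := 𝕜) (Y : Set α)).symm
  have hle : LinearMap.range f ≤ S := by
    rintro _ ⟨⟨c, hc⟩, rfl⟩
    change dd c ∈ S
    rw [dd, Finsupp.linearCombination_apply]
    refine Submodule.sum_mem _ fun e he => Submodule.smul_mem _ _ (Submodule.sub_mem _ ?_ ?_)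
    · exact Finsupp.single_mem_supported 𝕜 1 (hfT c hc e he).2.2
    · exact Finsupp.single_mem_supported 𝕜 1 (hfT c hc e he).2.1
  have hlt : LinearMap.range f < S := by
    refine lt_of_le_of_ne hle fun heq => ?_
    have h2 : single y (1 : 𝕜) ∈ S := Finsupp.single_mem_supported 𝕜 1 hy
    rw [← heq] at h2
    obtain ⟨⟨c, hc⟩, h3⟩ := h2
    have h4 : ag (dd c) = (1 : 𝕜) := by
      change dd c = single y 1 at h3
      rw [h3, ag, Finsupp.linearCombination_single, one_smul]
    rw [ag_dd] at h4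
    exact zero_ne_one h4
  have h2 := Submodule.finrank_lt_finrank_of_lt hlt
  rw [h1, finrank_supp, finrank_supp, card_ES] at h2
  exact h2

lemma edge_univ [Fintype α] (hA : Acy 𝕜 α) (hh : ∀ x y z : α, x < y → ¬ y < z) :
    ed (fun x y : α => x < y) Finset.univ + 1 = (Finset.univ : Finset α).card := by
  classical
  obtain ⟨y⟩ := nonempty_of_acy hA
  refine le_antisymm (edge_lt hA hh _ ⟨y, Finset.mem_univ y⟩) ?_
  let T := Finsupp.supported 𝕜 𝕜 ((ES Finset.univ : Finset (α × α)) : Set (α × α))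
  let f : T →ₗ[𝕜] (α →₀ 𝕜) := dd.domRestrict T
  have hT : Module.Finite 𝕜 T :=
    Module.Finite.equiv (Finsupp.supportedEquivFinsupp (M := 𝕜) (R := 𝕜)
      ((ES Finset.univ : Finset (α × α)) : Set (α × α))).symm
  have htop : (⊤ : Submodule 𝕜 (α →₀ 𝕜)) ≤ Submodule.span 𝕜 {single y (1 : 𝕜)} ⊔
      LinearMap.range f := by
    intro a _
    have h1 : ag (a - ag a • single y (1 : 𝕜)) = 0 := by
      rw [map_sub, map_smul, ag, Finsupp.linearCombination_single, one_smul, smul_eq_mul, mul_one,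
        sub_self]
    obtain ⟨c, hc, hca⟩ := dd_surj hA h1
    have h2 : a = ag a • single y (1 : 𝕜) + dd c := by rw [hca]; abel
    rw [h2]
    refine Submodule.add_mem_sup (Submodule.smul_mem _ _ (Submodule.mem_span_singleton_self _))
      ⟨⟨c, fun e he => ?_⟩, rfl⟩
    rw [ES, Finset.mem_coe, Finset.mem_filter, Finset.mem_product]
    exact ⟨⟨Finset.mem_univ _, Finset.mem_univ _⟩, hc e he⟩
  have h1 := Submodule.finrank_mono htop
  have h2 := Submodule.finrank_add_le_finrank_add_finrank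
    (Submodule.span 𝕜 {single y (1 : 𝕜)}) (LinearMap.range f)
  have h3 : Module.finrank 𝕜 (Submodule.span 𝕜 {single y (1 : 𝕜)}) ≤ 1 :=
    (finrank_span_le_card _).trans (by simp)
  have h4 : Module.finrank 𝕜 (LinearMap.range f) ≤ Module.finrank 𝕜 T :=
    LinearMap.finrank_range_le f
  rw [finrank_top, Module.finrank_finsupp_self] at h1
  rw [finrank_supp, card_ES] at h4
  rw [Finset.card_univ]
  omega

/-- **an acyclic poset of dimension at most one**: a group of automorphisms has a fixed point -/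
theorem acy_fix [Finite α] {H : Type*} [Group H] [MulAction H α]
    (hR : ∀ (g : H) (x y : α), x < y → g • x < g • y) (hA : Acy 𝕜 α)
    (hh : ∀ x y z : α, x < y → ¬ y < z) : ∃ x : α, ∀ g : H, g • x = x := by
  have := Fintype.ofFinite α
  obtain ⟨y⟩ := nonempty_of_acy hA
  obtain ⟨x, -, hx⟩ := tree_fix (R := fun x y : α => x < y) hR (edge_lt hA hh) _
    (Finset.univ : Finset α) rfl ⟨y, Finset.mem_univ y⟩ (fun g x _ => Finset.mem_univ _)
    (edge_univ hA hh)
  exact ⟨x, hx⟩

end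

end Vale.Agent.P240.R2.H775.Rk
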