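import Vale.Agent.P240.H195.CF
import Vale.Agent.P240.R2.H487.AD2
import Vale.Agent.P240.R2.H775.Rk2b

/-!
`HQ` for groups of `p`-rank at most `2`, and almost simple groups of `p`-rank at most `2`.
-/

set_option autoImplicit false
set_option linter.all false

namespace Vale.Agent.P240.R2.H775.Rk

open Subgroup Vale.Agent.P240 Vale.Agent.P240.H195 Vale.Agent.P240.K Vale.Agent.P240.R2.H487

universe u v

/-- The elementary abelian `p`-subgroups of `X` have order at most `p ^ 2`. -/
def RankTwo (p : ℕ) (X : Type*) [Group X] : Prop :=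
  ∀ E : Subgroup X, (∀ x ∈ E, ∀ y ∈ E, x * y = y * x) → (∀ x ∈ E, x ^ p = 1) →
    Nat.card E ≤ p ^ 2

section
variable {p : ℕ}

lemma isPGroup_of_exp {X : Type*} [Group X] {E : Subgroup X} (h : ∀ x ∈ E, x ^ p = 1) :
    IsPGroup p E := fun ⟨x, hx⟩ => ⟨1, Subtype.ext (by rw [pow_one]; exact h x hx)⟩

/-- proper inclusions of `p`-groups -/
lemma card_mul_le [hp : Fact p.Prime] {X : Type*} [Group X] [Finite X] {A B : Subgroup X}
    (hB : IsPGroup p B) (hAB : A < B) : p * Nat.card A ≤ Nat.card B := by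
  have hA : IsPGroup p A := hB.to_le hAB.le
  obtain ⟨a, ha⟩ := IsPGroup.iff_card.1 hA
  obtain ⟨b, hb⟩ := IsPGroup.iff_card.1 hB
  have h1 : Nat.card A < Nat.card B := by
    refine lt_of_le_of_ne (Subgroup.card_le_of_le hAB.le) fun h => ?_
    exact hAB.ne (Subgroup.eq_of_le_of_card_ge hAB.le h.ge)
  rw [ha, hb] at h1 ⊢
  have h2 : a < b := (Nat.pow_lt_pow_iff_right hp.out.one_lt).1 h1
  calc p * p ^ a = p ^ (a + 1) := by ring
    _ ≤ p ^ b := Nat.pow_le_pow_right hp.out.pos h2

/-- no chains with three terms -/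
lemma rank_height [hp : Fact p.Prime] {X : Type*} [Group X] [Finite X] (h : RankTwo p X)
    (A B C : Ap p X) (h1 : A < B) : ¬ B < C := by
  intro h2
  have hA := isPGroup_of_exp A.2.2.2
  have hB := isPGroup_of_exp B.2.2.2
  have hC := isPGroup_of_exp C.2.2.2
  have h3 : p * Nat.card A.1 ≤ Nat.card B.1 := card_mul_le hB h1
  have h4 : p * Nat.card B.1 ≤ Nat.card C.1 := card_mul_le hC h2
  have h5 : p * Nat.card (⊥ : Subgroup X) ≤ Nat.card A.1 :=
    card_mul_le hA (bot_lt_iff_ne_bot.2 A.2.1)
  rw [Subgroup.card_bot, mul_one] at h5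
  have h6 := h C.1 C.2.2.1 C.2.2.2
  have h7 : p * (p * p) ≤ p ^ 2 :=
    ((Nat.mul_le_mul_left p ((Nat.mul_le_mul_left p h5).trans h3)).trans h4).trans h6
  have h8 : 0 < p * p := Nat.mul_pos hp.out.pos hp.out.pos
  have h9 : p * p < p * (p * p) := lt_mul_of_one_lt_left h8 hp.out.one_lt
  rw [pow_two] at h7
  omega

/-- conjugation on the poset -/
def conjAp {X : Type*} [Group X] (g : X) (A : Ap p X) : Ap p X :=
  ⟨A.1.map (MulAut.conj g).toMonoidHom, by
    refine ⟨fun h0 => A.2.1 ?_, ?_, ?_⟩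
    · exact (Subgroup.map_eq_bot_iff_of_injective _ (MulAut.conj g).injective).1 h0
    · rintro _ ⟨x, hx, rfl⟩ _ ⟨y, hy, rfl⟩
      rw [← map_mul, ← map_mul, A.2.2.1 x hx y hy]
    · rintro _ ⟨x, hx, rfl⟩
      rw [← map_pow, A.2.2.2 x hx, map_one]⟩

/-- the action on the poset -/
@[instance_reducible] def actAp (p : ℕ) (X : Type*) [Group X] : MulAction X (Ap p X) where
  smul g A := conjAp g A
  one_smul A := Subtype.ext (by
    change A.1.map (MulAut.conj (1 : X)).toMonoidHom = A.1
    rw [map_one]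
    exact Subgroup.map_id _)
  mul_smul g h A := Subtype.ext (by
    change A.1.map (MulAut.conj (g * h)).toMonoidHom =
      (A.1.map (MulAut.conj h).toMonoidHom).map (MulAut.conj g).toMonoidHom
    rw [Subgroup.map_map, map_mul]
    rfl)

/-- **groups of `p`-rank at most two** -/
theorem hq_rank [hp : Fact p.Prime] {X : Type*} [Group X] [Finite X] (h : RankTwo p X)
    (hO : OpTrivial p X) (𝕜 : Type*) [Field 𝕜] : HQ 𝕜 p X := by
  by_contra hcon
  letI := actAp p X
  obtain ⟨E, hE⟩ := acy_fix (H := X) (α := Ap p X) (𝕜 := 𝕜) (fun g A B hAB => by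
      change conjAp g A < conjAp g B
      change A.1 < B.1 at hAB
      change A.1.map (MulAut.conj g).toMonoidHom < B.1.map (MulAut.conj g).toMonoidHom
      exact (Subgroup.map_lt_map_iff_of_injective (MulAut.conj g).injective).2 hAB)
    (acy_of_not hcon) (rank_height h)
  refine E.2.1 (hO E.1 ⟨fun n hn g => ?_⟩ (isPGroup_of_exp E.2.2.2))
  have h1 : E.1.map (MulAut.conj g).toMonoidHom = E.1 := congrArg Subtype.val (hE g)
  rw [← h1]
  exact ⟨n, hn, rfl⟩

/-- almost simple groups -/
lemma op_almost [hp : Fact p.Prime] {L : Type u} [Group L] [Finite L] (hs : IsSimpleGroup L)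
    (hn : ∃ x y : L, x * y ≠ y * x) {A : Subgroup (MulAut L)} (hA : ∀ x, MulAut.conj x ∈ A) :
    OpTrivial p A := by
  intro N hN hNp
  -- the preimage in `L`
  let φ : L →* A := (MulAut.conj (G := L)).codRestrict A hA
  have hZ : ∀ x : L, (∀ y, x * y = y * x) → x = 1 := by
    intro x hx
    have h1 : x ∈ center L := mem_center_iff.2 fun y => (hx y).symm
    rcases hs.eq_bot_or_eq_top_of_normal (center L) inferInstance with h2 | h2
    · rw [h2, mem_bot] at h1
      exact h1
    · obtain ⟨a, b, hab⟩ := hn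
      have h3 : b ∈ center L := by rw [h2]; trivial
      exact absurd (mem_center_iff.1 h3 a) hab
  have hφ : Function.Injective φ := by
    rw [injective_iff_map_eq_one]
    intro x hx
    refine hZ x fun y => ?_
    have h1 : MulAut.conj x = 1 := congrArg Subtype.val hx
    have h2 := congrArg (fun f : MulAut L => f y) h1
    change x * y * x⁻¹ = y at h2
    exact (mul_inv_eq_iff_eq_mul.1 h2)
  have hM : (N.comap φ).Normal := inferInstance
  have hbot : N.comap φ = ⊥ := by
    rcases hs.eq_bot_or_eq_top_of_normal _ hM with h1 | h1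
    · exact h1
    · exfalso
      have h2 : IsPGroup p (N.comap φ) := hNp.comap_of_injective φ hφ
      rw [h1] at h2
      have h3 : IsPGroup p L := h2.of_equiv Subgroup.topEquiv
      have h4 : Nontrivial (center L) := by
        have := hs.toNontrivial
        exact h3.center_nontrivial
      obtain ⟨z, hz⟩ := exists_ne (1 : center L)
      exact hz (Subtype.ext (hZ z fun y => (mem_center_iff.1 z.2 y).symm))
  rw [eq_bot_iff]
  intro n hn'
  rw [mem_bot]
  refine Subtype.ext (MulEquiv.ext fun x => ?_)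
  -- the commutator of `n` and `x`
  have h1 : φ (n.1 x * x⁻¹) ∈ N := by
    have h2 : φ (n.1 x * x⁻¹) = n * (φ x * n⁻¹ * (φ x)⁻¹) := by
      refine Subtype.ext (MulEquiv.ext fun y => ?_)
      change n.1 x * x⁻¹ * y * (n.1 x * x⁻¹)⁻¹ = n.1 (x * (n.1⁻¹ (x⁻¹ * y * x)) * x⁻¹)
      rw [map_mul, map_mul, MulAut.apply_inv_self, map_inv]
      group
    rw [h2]
    exact N.mul_mem hn' (hN.conj_mem _ (N.inv_mem hn') _)
  have h2 : n.1 x * x⁻¹ ∈ N.comap φ := h1
  rw [hbot, mem_bot] at h2
  change n.1 x = x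
  exact mul_inv_eq_one.1 h2

/-- rank and subgroups -/
lemma RankTwo.sub {X : Type*} [Group X] (h : RankTwo p X) (A : Subgroup X) : RankTwo p A := by
  intro E hE hEp
  have h1 := h (E.map A.subtype) (by
      rintro _ ⟨x, hx, rfl⟩ _ ⟨y, hy, rfl⟩
      rw [← map_mul, ← map_mul, hE x hx y hy]) (by
      rintro _ ⟨x, hx, rfl⟩
      rw [← map_pow, hEp x hx, map_one])
  rwa [Subgroup.card_map_of_injective A.subtype_injective] at h1

/-- **almost simple groups of `p`-rank at most two** -/
theorem alm_rank [hp : Fact p.Prime] {L : Type u} [Group L] [Finite L] (hs : IsSimpleGroup L)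
    (hn : ∃ x y : L, x * y ≠ y * x) (h : RankTwo p (MulAut L)) (𝕜 : Type*) [Field 𝕜] :
    AlmHQ 𝕜 p L := fun A hA => hq_rank (h.sub A) (op_almost hs hn hA) 𝕜

/-- **simple groups of `p`-rank at most two** -/
theorem other_of_rank [hp : Fact p.Prime] {L : Type u} [Group L] [Finite L]
    (hs : IsSimpleGroup L) (hn : ∃ x y : L, x * y ≠ y * x) (hf : FewAut p L)
    (h : RankTwo p (MulAut L)) (𝕜 : Type*) [Field 𝕜] (l : ℕ) : Other 𝕜 p l L :=
  Or.inr ⟨hf, alm_rank hs hn h 𝕜⟩

/-- no outer automorphisms of order `p`: the condition on `L` -/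
lemma rank_aut {L : Type u} [Group L] [Finite L] (hZ : ∀ x : L, (∀ y, x * y = y * x) → x = 1)
    (hno : ∀ f : MulAut L, f ^ p = 1 → f ∈ (MulAut.conj (G := L)).range) (h : RankTwo p L) :
    RankTwo p (MulAut L) := by
  intro E hE hEp
  have hinj : Function.Injective (MulAut.conj : L →* MulAut L) := by
    rw [injective_iff_map_eq_one]
    intro x hx
    refine hZ x fun y => ?_
    have h2 := congrArg (fun f : MulAut L => f y) hx
    change x * y * x⁻¹ = y at h2
    exact (mul_inv_eq_iff_eq_mul.1 h2)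
  have hle : E ≤ (MulAut.conj (G := L)).range := fun f hf => hno f (hEp f hf)
  have h1 : (E.comap (MulAut.conj (G := L))).map MulAut.conj = E :=
    Subgroup.map_comap_eq_self hle
  have h2 := h (E.comap (MulAut.conj (G := L))) (by
      intro x hx y hy
      apply hinj
      rw [map_mul, map_mul]
      exact hE _ hx _ hy) (by
      intro x hx
      apply hinj
      rw [map_pow, map_one]
      exact hEp _ hx)
  rwa [← Subgroup.card_map_of_injective hinj, h1] at h2

/-- **simple groups of `p`-rank at most two without outer automorphisms of order `p`** -/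
theorem other_of_rank' [hp : Fact p.Prime] {L : Type u} [Group L] [Finite L]
    (hs : IsSimpleGroup L) (hn : ∃ x y : L, x * y ≠ y * x)
    (hno : ∀ f : MulAut L, f ^ p = 1 → f ∈ (MulAut.conj (G := L)).range)
    (h : RankTwo p L) (𝕜 : Type*) [Field 𝕜] (l : ℕ) : Other 𝕜 p l L := by
  have hZ : ∀ x : L, (∀ y, x * y = y * x) → x = 1 := by
    intro x hx
    have h1 : x ∈ center L := mem_center_iff.2 fun y => (hx y).symm
    rcases hs.eq_bot_or_eq_top_of_normal (center L) inferInstance with h2 | h2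
    · rw [h2, mem_bot] at h1
      exact h1
    · obtain ⟨a, b, hab⟩ := hn
      have h3 : b ∈ center L := by rw [h2]; trivial
      exact absurd (mem_center_iff.1 h3 a) hab
  refine other_of_rank hs hn ⟨fun f g k hf _ _ => absurd (hno f hf.1) hf.2,
    Or.inl fun f g hf _ => absurd (hno f hf.1) hf.2⟩ (rank_aut hZ hno h) 𝕜 l

end

end Vale.Agent.P240.R2.H775.Rk
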