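import Mathlib.LinearAlgebra.Matrix.Notation
import Mathlib.LinearAlgebra.Matrix.GeneralLinearGroup.Defs
import Mathlib.Tactic.FinCases
import Mathlib.Tactic.FieldSimp
import Mathlib.Tactic.LinearCombination
import Mathlib.Tactic.Ring

/-!
The Suzuki groups, part 1: the matrices.
-/

set_option autoImplicit false
set_option linter.all false

namespace Vale.Agent.P240.R2.H775.Sz

open Matrix

section
variable {F : Type*} [Field F]

/-- the function of the Suzuki-Tits ovoid -/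
def ov (θ : F →+* F) (a b : F) : F := a ^ 2 * θ a + a * b + θ b

/-- the lower unitriangular matrices `S(a, b)` -/
def SU (θ : F →+* F) (a b : F) : Matrix (Fin 4) (Fin 4) F :=
  !![1, 0, 0, 0; a, 1, 0, 0; b, θ a, 1, 0; ov θ a b, a * θ a + b, a, 1]

/-- the diagonal matrices -/
def SH (θ : F →+* F) (μ : F) : Matrix (Fin 4) (Fin 4) F :=
  !![μ * θ μ, 0, 0, 0; 0, μ, 0, 0; 0, 0, μ⁻¹, 0; 0, 0, 0, (μ * θ μ)⁻¹]

/-- the antidiagonal matrix -/
def SW (F : Type*) [Field F] : Matrix (Fin 4) (Fin 4) F :=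
  !![0, 0, 0, 1; 0, 0, 1, 0; 0, 1, 0, 0; 1, 0, 0, 0]

variable {θ : F →+* F}

lemma two_zero (hθ : ∀ x, θ (θ x) = x ^ 2) : (2 : F) = 0 := by
  have h1 := hθ (1 + 1)
  rw [map_add, map_one, map_add, map_one] at h1
  linear_combination -h1

lemma SU_mul (hθ : ∀ x, θ (θ x) = x ^ 2) (a b c d : F) :
    SU θ a b * SU θ c d = SU θ (a + c) (b + d + θ a * c) := by
  have h2 := two_zero hθ
  unfold SU ov
  ext i j
  fin_cases i <;> fin_cases j <;>
    simp [Matrix.mul_apply, Fin.sum_univ_succ, hθ]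
  all_goals first
    | ring1
    | (rw [← sub_eq_zero]; ring_nf; simp [h2]; done)

lemma ov_map (hθ : ∀ x, θ (θ x) = x ^ 2) (a b : F) :
    θ (ov θ a b) = θ a ^ 2 * a ^ 2 + θ a * θ b + b ^ 2 := by
  unfold ov
  simp only [map_add, map_mul, map_pow, hθ]

/-- the polynomial identity of the ovoid -/
lemma ov_key (h2 : (2 : F) = 0) (a A b B : F) :
    (a * A + b) ^ 2 * (a ^ 2 * A + B) + (a * A + b) * a * (A ^ 2 * a ^ 2 + A * B + b ^ 2) +
      (a ^ 2 * A + a * b + B) ^ 2 * A =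
    (a ^ 2 * A + a * b + B) * (A ^ 2 * a ^ 2 + A * B + b ^ 2) := by
  have h4 : (4 : F) = 0 := by linear_combination 2 * h2
  have h6 : (6 : F) = 0 := by linear_combination 3 * h2
  rw [← sub_eq_zero]
  ring_nf
  simp [h2, h4, h6]

lemma ov_key' (h2 : (2 : F) = 0) (a A b B : F) :
    b ^ 2 * B + a * b * (A ^ 2 * a ^ 2 + A * B + b ^ 2) + (a ^ 2 * A + a * b + B) ^ 2 * A =
    (a ^ 2 * A + a * b + B) * (A ^ 2 * a ^ 2 + A * B + b ^ 2) := by
  have h4 : (4 : F) = 0 := by linear_combination 2 * h2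
  have h6 : (6 : F) = 0 := by linear_combination 3 * h2
  rw [← sub_eq_zero]
  ring_nf
  simp [h2, h4, h6]

/-- the relation, with free parameters -/
lemma rel_aux (h2 : (2 : F) = 0) {a A b B f e : F} (hf : f ≠ 0) (he : e ≠ 0)
    (ef : f = a ^ 2 * A + a * b + B) (ee : e = A ^ 2 * a ^ 2 + A * B + b ^ 2) :
    (!![1, a, a * A + b, f; 0, 1, A, b; 0, 0, 1, a; 0, 0, 0, 1] : Matrix (Fin 4) (Fin 4) F) *
      !![1, 0, 0, 0; (a * A + b) / f, 1, 0, 0; a / f, (a ^ 2 * A + B) / e, 1, 0;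
        1 / f, (a * A + b) / f * ((a ^ 2 * A + B) / e) + a / f, (a * A + b) / f, 1] =
    !![0, 0, 0, f; 0, 0, e / f, b; 0, f / e, B / f, a;
        1 / f, b / e, (a * A + b) / f, 1] := by
  have h4 : (4 : F) = 0 := by linear_combination 2 * h2
  have h6 : (6 : F) = 0 := by linear_combination 3 * h2
  ext i j
  fin_cases i <;> fin_cases j <;> simp [Matrix.mul_apply, Fin.sum_univ_succ]
  all_goals field_simp
  all_goals (try rw [ef])
  all_goals (try rw [ee])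
  all_goals rw [← sub_eq_zero]
  all_goals ring_nf
  all_goals simp [h2, h4, h6]

lemma SW_SU_SW (a b : F) : SW F * SU θ a b * SW F =
    !![1, a, a * θ a + b, ov θ a b; 0, 1, θ a, b; 0, 0, 1, a; 0, 0, 0, 1] := by
  unfold SW SU
  ext i j
  fin_cases i <;> fin_cases j <;> simp [Matrix.mul_apply, Fin.sum_univ_succ]

lemma ov_eq (hθ : ∀ x, θ (θ x) = x ^ 2) {a b : F} (hf : ov θ a b ≠ 0) :
    ov θ ((a * θ a + b) / ov θ a b) (a / ov θ a b) = 1 / ov θ a b := by
  have h2 := two_zero hθ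
  have he : θ (ov θ a b) ≠ 0 := (map_ne_zero θ).2 hf
  have ee := ov_map hθ a b
  have ef : ov θ a b = a ^ 2 * θ a + a * b + θ b := rfl
  have hk := ov_key h2 a (θ a) b (θ b)
  rw [← ef, ← ee] at hk
  have h1 : ov θ ((a * θ a + b) / ov θ a b) (a / ov θ a b) =
      ((a * θ a + b) / ov θ a b) ^ 2 * ((a ^ 2 * θ a + θ b) / θ (ov θ a b)) +
        (a * θ a + b) / ov θ a b * (a / ov θ a b) + θ a / θ (ov θ a b) := by
    conv_lhs => rw [ov]
    rw [map_div₀, map_div₀, map_add, map_mul, hθ]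
    ring
  rw [h1]
  field_simp
  linear_combination hk

lemma ov_eq' (hθ : ∀ x, θ (θ x) = x ^ 2) {a b : F} (hf : ov θ a b ≠ 0) :
    ov θ (b / ov θ a b) (a / ov θ a b) = 1 / ov θ a b := by
  have h2 := two_zero hθ
  have he : θ (ov θ a b) ≠ 0 := (map_ne_zero θ).2 hf
  have ee := ov_map hθ a b
  have ef : ov θ a b = a ^ 2 * θ a + a * b + θ b := rfl
  have hk := ov_key' h2 a (θ a) b (θ b)
  rw [← ef, ← ee] at hk
  have h1 : ov θ (b / ov θ a b) (a / ov θ a b) =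
      (b / ov θ a b) ^ 2 * (θ b / θ (ov θ a b)) +
        b / ov θ a b * (a / ov θ a b) + θ a / θ (ov θ a b) := by
    conv_lhs => rw [ov]
    rw [map_div₀, map_div₀]
  rw [h1]
  field_simp
  linear_combination hk

/-- **The main relation.** -/
lemma SW_rel (hθ : ∀ x, θ (θ x) = x ^ 2) {a b : F} (hf : ov θ a b ≠ 0) :
    SW F * SU θ a b * SW F * SU θ ((a * θ a + b) / ov θ a b) (a / ov θ a b) =
      SU θ (b / ov θ a b) (a / ov θ a b) * SH θ (θ (ov θ a b) / ov θ a b) * SW F := by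
  have h2 := two_zero hθ
  have he : θ (ov θ a b) ≠ 0 := (map_ne_zero θ).2 hf
  have ee := ov_map hθ a b
  have ef : ov θ a b = a ^ 2 * θ a + a * b + θ b := rfl
  have e1 := ov_eq hθ hf
  have e2 := ov_eq' hθ hf
  have hm : θ (θ (ov θ a b) / ov θ a b) = ov θ a b ^ 2 / θ (ov θ a b) := by
    rw [map_div₀, hθ]
  have hg : θ ((a * θ a + b) / ov θ a b) = (a ^ 2 * θ a + θ b) / θ (ov θ a b) := by
    rw [map_div₀, map_add, map_mul, hθ]
    ring
  have hb : θ (b / ov θ a b) = θ b / θ (ov θ a b) := map_div₀ _ _ _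
  have h1 := rel_aux h2 hf he ef ee
  have h3 : SU θ ((a * θ a + b) / ov θ a b) (a / ov θ a b) =
      !![1, 0, 0, 0; (a * θ a + b) / ov θ a b, 1, 0, 0;
        a / ov θ a b, (a ^ 2 * θ a + θ b) / θ (ov θ a b), 1, 0;
        1 / ov θ a b, (a * θ a + b) / ov θ a b * ((a ^ 2 * θ a + θ b) / θ (ov θ a b)) +
          a / ov θ a b, (a * θ a + b) / ov θ a b, 1] := by
    rw [SU, e1, hg]
  rw [SW_SU_SW, h3, h1]
  have h4 : SU θ (b / ov θ a b) (a / ov θ a b) =
      !![1, 0, 0, 0; b / ov θ a b, 1, 0, 0; a / ov θ a b, θ b / θ (ov θ a b), 1, 0;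
        1 / ov θ a b, b / ov θ a b * (θ b / θ (ov θ a b)) + a / ov θ a b, b / ov θ a b, 1] := by
    rw [SU, e2, hb]
  have h5 : SH θ (θ (ov θ a b) / ov θ a b) =
      !![ov θ a b, 0, 0, 0; 0, θ (ov θ a b) / ov θ a b, 0, 0; 0, 0, ov θ a b / θ (ov θ a b), 0;
        0, 0, 0, 1 / ov θ a b] := by
    rw [SH, hm]
    have e3 : θ (ov θ a b) / ov θ a b * (ov θ a b ^ 2 / θ (ov θ a b)) = ov θ a b := by
      field_simp
    rw [e3, inv_div, one_div]
  rw [h4, h5, SW]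
  generalize θ (ov θ a b) = e at *
  generalize ov θ a b = f at *
  have hlast : (b * θ b + a * e) = (a * θ a + b) * f := by
    rw [ef, ee, ← sub_eq_zero]
    ring_nf
    simp [h2]
  ext i j
  fin_cases i <;> fin_cases j <;> simp [Matrix.mul_apply, Fin.sum_univ_succ]
  all_goals field_simp
  exact hlast.symm

/-! ### products -/

lemma SU_zero (θ : F →+* F) : SU θ 0 0 = 1 := by
  unfold SU ov
  ext i j
  fin_cases i <;> fin_cases j <;> simp

lemma SH_one (θ : F →+* F) : SH θ 1 = 1 := by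
  unfold SH
  ext i j
  fin_cases i <;> fin_cases j <;> simp

lemma SH_mul (θ : F →+* F) (μ ν : F) : SH θ μ * SH θ ν = SH θ (μ * ν) := by
  unfold SH
  ext i j
  fin_cases i <;> fin_cases j <;> simp [Matrix.mul_apply, Fin.sum_univ_succ]
  all_goals ring

lemma SW_mul : SW F * SW F = 1 := by
  unfold SW
  ext i j
  fin_cases i <;> fin_cases j <;> simp [Matrix.mul_apply, Fin.sum_univ_succ]

lemma SW_SH {μ : F} (hμ : μ ≠ 0) (θ : F →+* F) : SW F * SH θ μ = SH θ μ⁻¹ * SW F := by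
  unfold SW SH
  ext i j
  fin_cases i <;> fin_cases j <;> simp [Matrix.mul_apply, Fin.sum_univ_succ]
  all_goals ring

lemma SH_SU (hθ : ∀ x, θ (θ x) = x ^ 2) {μ : F} (hμ : μ ≠ 0) (c d : F) :
    SH θ μ * SU θ c d = SU θ (c / θ μ) (d / (μ ^ 2 * θ μ)) * SH θ μ := by
  have hm : θ μ ≠ 0 := (map_ne_zero θ).2 hμ
  have e1 : θ (c / θ μ) = θ c / μ ^ 2 := by rw [map_div₀, hθ]
  have e2 : ov θ (c / θ μ) (d / (μ ^ 2 * θ μ)) = ov θ c d / (μ * θ μ) ^ 2 := by
    unfold ov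
    rw [e1, map_div₀, map_mul, map_pow, hθ]
    field_simp
  unfold SH SU
  rw [e1, e2]
  ext i j
  fin_cases i <;> fin_cases j <;> simp [Matrix.mul_apply, Fin.sum_univ_succ]
  all_goals field_simp

end

end Vale.Agent.P240.R2.H775.Sz
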