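import Vale.Agent.P240.R2.H727.O1
import Vale.Agent.P240.R2.H775.Sz1

/-!
The Suzuki groups, part 2: the split BN-pair.
-/

set_option autoImplicit false
set_option linter.all false

namespace Vale.Agent.P240.R2.H775.Sz

open Subgroup Matrix Vale.Agent.P240.H195

section
variable {F : Type*} [Field F]

/-- **The Suzuki group** `Sz(θ)`: the subgroup of `GL_4(F)` generated by the matrices `S(a, b)`, the
diagonal matrices and the antidiagonal matrix. -/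
def SzG (θ : F →+* F) : Subgroup (GL (Fin 4) F) :=
  closure {g | (∃ a b : F, g.1 = SU θ a b) ∨ (∃ μ : F, μ ≠ 0 ∧ g.1 = SH θ μ) ∨ g.1 = SW F}

variable {θ : F →+* F}

/-- the elements of `U` -/
def su (hθ : ∀ x, θ (θ x) = x ^ 2) (a b : F) : GL (Fin 4) F where
  val := SU θ a b
  inv := SU θ a (b + a * θ a)
  val_inv := by
    have h2 := two_zero hθ
    rw [SU_mul hθ]
    have e1 : a + a = 0 := by linear_combination a * h2
    have e2 : b + (b + a * θ a) + θ a * a = 0 := by linear_combination (b + a * θ a) * h2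
    rw [e1, e2, SU_zero]
  inv_val := by
    have h2 := two_zero hθ
    rw [SU_mul hθ]
    have e1 : a + a = 0 := by linear_combination a * h2
    have e2 : b + a * θ a + b + θ a * a = 0 := by linear_combination (b + a * θ a) * h2
    rw [e1, e2, SU_zero]

/-- the diagonal elements -/
def sh (θ : F →+* F) {μ : F} (hμ : μ ≠ 0) : GL (Fin 4) F where
  val := SH θ μ
  inv := SH θ μ⁻¹
  val_inv := by rw [SH_mul, mul_inv_cancel₀ hμ, SH_one]
  inv_val := by rw [SH_mul, inv_mul_cancel₀ hμ, SH_one]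

/-- the antidiagonal element -/
def sw (F : Type*) [Field F] : GL (Fin 4) F where
  val := SW F
  inv := SW F
  val_inv := SW_mul
  inv_val := SW_mul

lemma gl_ext {x y : GL (Fin 4) F} (h : x.1 = y.1) : x = y := Units.ext h

section
variable (hθ : ∀ x, θ (θ x) = x ^ 2)
include hθ

lemma su_mul (a b c d : F) : su hθ a b * su hθ c d = su hθ (a + c) (b + d + θ a * c) :=
  gl_ext (SU_mul hθ a b c d)

lemma su_zero : su hθ 0 0 = 1 := gl_ext (SU_zero θ)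

lemma su_inv (a b : F) : (su hθ a b)⁻¹ = su hθ a (b + a * θ a) := gl_ext rfl

lemma su_inj {a b c d : F} (h : su hθ a b = su hθ c d) : a = c ∧ b = d := by
  have h1 : SU θ a b = SU θ c d := congrArg Units.val h
  have h2 := congrFun (congrFun h1 1) 0
  have h3 := congrFun (congrFun h1 2) 0
  unfold SU at h2 h3
  simp at h2 h3
  exact ⟨h2, h3⟩

lemma sh_su {μ : F} (hμ : μ ≠ 0) (c d : F) :
    sh θ hμ * su hθ c d = su hθ (c / θ μ) (d / (μ ^ 2 * θ μ)) * sh θ hμ :=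
  gl_ext (SH_SU hθ hμ c d)

end

lemma sh_mul {μ ν : F} (hμ : μ ≠ 0) (hν : ν ≠ 0) :
    sh θ hμ * sh θ hν = sh θ (mul_ne_zero hμ hν) := gl_ext (SH_mul θ μ ν)

lemma sh_one : sh θ (one_ne_zero (α := F)) = 1 := gl_ext (SH_one θ)

lemma sh_inv {μ : F} (hμ : μ ≠ 0) : (sh θ hμ)⁻¹ = sh θ (inv_ne_zero hμ) := gl_ext rfl

lemma sw_inv : (sw F)⁻¹ = sw F := gl_ext rfl

lemma sw_mul : sw F * sw F = 1 := gl_ext SW_mul

lemma sw_sh {μ : F} (hμ : μ ≠ 0) : sw F * sh θ hμ = sh θ (inv_ne_zero hμ) * sw F :=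
  gl_ext (SW_SH hμ θ)

/-- the group `U` -/
def U (hθ : ∀ x, θ (θ x) = x ^ 2) : Subgroup (GL (Fin 4) F) where
  carrier := {g | ∃ a b : F, g = su hθ a b}
  mul_mem' := by
    rintro _ _ ⟨a, b, rfl⟩ ⟨c, d, rfl⟩
    exact ⟨_, _, su_mul hθ a b c d⟩
  one_mem' := ⟨0, 0, (su_zero hθ).symm⟩
  inv_mem' := by
    rintro _ ⟨a, b, rfl⟩
    exact ⟨_, _, su_inv hθ a b⟩

/-- the group `T` -/
def T (θ : F →+* F) : Subgroup (GL (Fin 4) F) where
  carrier := {g | ∃ (μ : F) (hμ : μ ≠ 0), g = sh θ hμ}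
  mul_mem' := by
    rintro _ _ ⟨μ, hμ, rfl⟩ ⟨ν, hν, rfl⟩
    exact ⟨_, _, sh_mul hμ hν⟩
  one_mem' := ⟨1, one_ne_zero, sh_one.symm⟩
  inv_mem' := by
    rintro _ ⟨μ, hμ, rfl⟩
    exact ⟨_, _, sh_inv hμ⟩

/-- the group `B` -/
def B (hθ : ∀ x, θ (θ x) = x ^ 2) : Subgroup (GL (Fin 4) F) where
  carrier := {g | ∃ u ∈ U hθ, ∃ t ∈ T θ, g = u * t}
  mul_mem' := by
    rintro _ _ ⟨_, ⟨a, b, rfl⟩, _, ⟨μ, hμ, rfl⟩, rfl⟩ ⟨_, ⟨c, d, rfl⟩, _, ⟨ν, hν, rfl⟩, rfl⟩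
    refine ⟨su hθ a b * su hθ (c / θ μ) (d / (μ ^ 2 * θ μ)), mul_mem ⟨a, b, rfl⟩ ⟨_, _, rfl⟩,
      sh θ hμ * sh θ hν, mul_mem ⟨μ, hμ, rfl⟩ ⟨ν, hν, rfl⟩, ?_⟩
    calc su hθ a b * sh θ hμ * (su hθ c d * sh θ hν)
        = su hθ a b * (sh θ hμ * su hθ c d) * sh θ hν := by group
      _ = _ := by rw [sh_su]; group
  one_mem' := ⟨1, one_mem _, 1, one_mem _, (mul_one 1).symm⟩
  inv_mem' := by
    rintro _ ⟨_, ⟨a, b, rfl⟩, _, ⟨μ, hμ, rfl⟩, rfl⟩
    rw [_root_.mul_inv_rev, su_inv, sh_inv, sh_su]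
    exact ⟨_, ⟨_, _, rfl⟩, _, ⟨_, _, rfl⟩, rfl⟩

/-- the group `N` -/
def N (θ : F →+* F) : Subgroup (GL (Fin 4) F) where
  carrier := {g | g ∈ T θ ∨ ∃ t ∈ T θ, g = t * sw F}
  mul_mem' := by
    have key : ∀ t ∈ T θ, sw F * t ∈ {g | ∃ t ∈ T θ, g = t * sw F} := by
      rintro _ ⟨μ, hμ, rfl⟩
      exact ⟨_, ⟨_, _, rfl⟩, sw_sh hμ⟩
    rintro x y (hx | ⟨t, ht, rfl⟩) (hy | ⟨t', ht', rfl⟩)
    · exact Or.inl (mul_mem hx hy)
    · exact Or.inr ⟨x * t', mul_mem hx ht', (mul_assoc _ _ _).symm⟩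
    · obtain ⟨t'', ht'', e⟩ := key y hy
      exact Or.inr ⟨t * t'', mul_mem ht ht'', by rw [mul_assoc, e, mul_assoc]⟩
    · obtain ⟨t'', ht'', e⟩ := key t' ht'
      refine Or.inl ?_
      have e2 : t * sw F * (t' * sw F) = t * t'' := by
        calc t * sw F * (t' * sw F) = t * (sw F * t') * sw F := by group
          _ = t * t'' * (sw F * sw F) := by rw [e]; group
          _ = t * t'' := by rw [sw_mul, mul_one]
      rw [e2]
      exact mul_mem ht ht''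
  one_mem' := Or.inl (one_mem _)
  inv_mem' := by
    rintro x (hx | ⟨_, ⟨μ, hμ, rfl⟩, rfl⟩)
    · exact Or.inl (inv_mem hx)
    · refine Or.inr ⟨sh θ hμ, ⟨_, _, rfl⟩, ?_⟩
      rw [_root_.mul_inv_rev, sw_inv, sh_inv, sw_sh]
      exact congrArg (· * sw F) (gl_ext (by
        change SH θ μ⁻¹⁻¹ = SH θ μ
        rw [inv_inv]))

lemma T_le_B (hθ : ∀ x, θ (θ x) = x ^ 2) : T θ ≤ B hθ :=
  fun t ht => ⟨1, one_mem _, t, ht, (one_mul t).symm⟩

lemma U_le_B (hθ : ∀ x, θ (θ x) = x ^ 2) : U hθ ≤ B hθ :=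
  fun u hu => ⟨u, hu, 1, one_mem _, (mul_one u).symm⟩

lemma T_le_N : T θ ≤ N θ := fun _ ht => Or.inl ht

lemma sw_mem : sw F ∈ N θ := Or.inr ⟨1, one_mem _, (one_mul _).symm⟩

/-- elements of `B` are lower triangular -/
lemma B_low {hθ : ∀ x, θ (θ x) = x ^ 2} {g : GL (Fin 4) F} (hg : g ∈ B hθ) : g.1 0 3 = 0 := by
  obtain ⟨_, ⟨a, b, rfl⟩, _, ⟨μ, hμ, rfl⟩, rfl⟩ := hg
  change (SU θ a b * SH θ μ) 0 3 = 0
  unfold SU SH
  simp [Matrix.mul_apply, Fin.sum_univ_succ]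

lemma BN_eq (hθ : ∀ x, θ (θ x) = x ^ 2) : B hθ ⊓ N θ = T θ := by
  apply le_antisymm
  · rintro g ⟨hgB, hgN | ⟨_, ⟨μ, hμ, rfl⟩, rfl⟩⟩
    · exact hgN
    · exfalso
      have h1 := B_low hgB
      change (SH θ μ * SW F) 0 3 = 0 at h1
      unfold SH SW at h1
      simp [Matrix.mul_apply, Fin.sum_univ_succ] at h1
      exact hμ h1
  · exact le_inf (T_le_B hθ) T_le_N

/-- conjugation by `T` preserves `U` -/
lemma T_norm (hθ : ∀ x, θ (θ x) = x ^ 2) {t u : GL (Fin 4) F} (ht : t ∈ T θ) (hu : u ∈ U hθ) :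
    t * u * t⁻¹ ∈ U hθ := by
  obtain ⟨μ, hμ, rfl⟩ := ht
  obtain ⟨a, b, rfl⟩ := hu
  rw [sh_su, mul_inv_cancel_right]
  exact ⟨_, _, rfl⟩

/-- zeros of the function of the ovoid -/
lemma ov_ne (hθ : ∀ x, θ (θ x) = x ^ 2) {a b : F} (h : ¬ (a = 0 ∧ b = 0)) : ov θ a b ≠ 0 := by
  intro h0
  have h2 := two_zero hθ
  by_cases ha : a = 0
  · apply h
    refine ⟨ha, ?_⟩
    rw [ov, ha] at h0
    have h1 : θ b = 0 := by linear_combination h0
    exact (map_eq_zero θ).1 h1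
  · have hA : θ a ≠ 0 := (map_ne_zero θ).2 ha
    obtain ⟨t, ht⟩ : ∃ t, t = b / (a * θ a) := ⟨_, rfl⟩
    have h1 : 1 + t + θ t = 0 := by
      rw [ht, map_div₀, map_mul, hθ]
      field_simp
      unfold ov at h0
      linear_combination h0
    have h3 := congrArg θ h1
    rw [map_add, map_add, map_one, map_zero, hθ] at h3
    have h4 : t ^ 2 = t := by linear_combination h3 - h1
    have h5 : t = 0 ∨ t = 1 := by
      have : t * (t - 1) = 0 := by linear_combination h4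
      rcases mul_eq_zero.1 this with h6 | h6
      · exact Or.inl h6
      · exact Or.inr (sub_eq_zero.1 h6)
    rcases h5 with h5 | h5
    · rw [h5, map_zero] at h1
      exact one_ne_zero (by linear_combination h1)
    · rw [h5, map_one] at h1
      exact one_ne_zero (by linear_combination h1 - h2)

/-- the relation of rank one -/
lemma sw_rel (hθ : ∀ x, θ (θ x) = x ^ 2) {x : GL (Fin 4) F} (hx : x ∈ U hθ) (h1 : x ≠ 1) :
    ∃ b ∈ B hθ, ∃ z ∈ U hθ, sw F * x = b * (sw F * z * (sw F)⁻¹) := by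
  obtain ⟨a, b, rfl⟩ := hx
  have hf : ov θ a b ≠ 0 := ov_ne hθ (by
    rintro ⟨rfl, rfl⟩
    exact h1 (su_zero hθ))
  have he : θ (ov θ a b) ≠ 0 := (map_ne_zero θ).2 hf
  have h3 : sw F * su hθ a b * sw F * su hθ ((a * θ a + b) / ov θ a b) (a / ov θ a b) =
      su hθ (b / ov θ a b) (a / ov θ a b) * sh θ (div_ne_zero he hf) * sw F :=
    gl_ext (SW_rel hθ hf)
  obtain ⟨v, hv⟩ : ∃ v, v = su hθ ((a * θ a + b) / ov θ a b) (a / ov θ a b) := ⟨_, rfl⟩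
  obtain ⟨b', hb'⟩ : ∃ b', b' = su hθ (b / ov θ a b) (a / ov θ a b) *
    sh θ (div_ne_zero he hf) := ⟨_, rfl⟩
  rw [← hv, ← hb'] at h3
  refine ⟨b', ?_, v⁻¹, inv_mem ⟨_, _, hv⟩, ?_⟩
  · rw [hb']
    exact ⟨_, ⟨_, _, rfl⟩, _, ⟨_, _, rfl⟩, rfl⟩
  · calc sw F * su hθ a b = (sw F * su hθ a b * sw F * v) * v⁻¹ * (sw F)⁻¹ := by group
      _ = _ := by rw [h3]; group

/-- `U` and its opposite -/
lemma sw_opp (hθ : ∀ x, θ (θ x) = x ^ 2) {x : GL (Fin 4) F} (hx : x ∈ U hθ)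
    (h : sw F * x * (sw F)⁻¹ ∈ U hθ) : x = 1 := by
  obtain ⟨a, b, rfl⟩ := hx
  obtain ⟨c, d, h⟩ := h
  rw [sw_inv] at h
  have h1 : SW F * SU θ a b * SW F = SU θ c d := congrArg Units.val h
  rw [SW_SU_SW] at h1
  have h3 := congrFun (congrFun h1 0) 1
  have h4 := congrFun (congrFun h1 1) 3
  unfold SU at h3 h4
  simp at h3 h4
  rw [h3, h4, su_zero]

/-- the set of representatives -/
abbrev S0 (F : Type*) [Field F] : Set (GL (Fin 4) F) := {sw F}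

theorem sz_BN0 (hθ : ∀ x, θ (θ x) = x ^ 2) : BN0 (B hθ) (N θ) (S0 F) := by
  refine Vale.Agent.P240.R2.H727.O.bn0_of_root (U := U hθ) (fun _ => U hθ) ?_ ?_ ?_ ?_
    (U_le_B hθ) ?_ ?_ ?_ ?_ ?_
  · intro n hn t ht htN
    have ht' : t ∈ T θ := by
      rw [← BN_eq hθ]
      exact ⟨ht, htN⟩
    obtain ⟨μ, hμ, rfl⟩ := ht'
    rcases hn with ⟨ν, hν, rfl⟩ | ⟨_, ⟨ν, hν, rfl⟩, rfl⟩
    · exact mul_mem (mul_mem (T_le_B hθ ⟨_, _, rfl⟩) ht) (inv_mem (T_le_B hθ ⟨_, _, rfl⟩))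
    · have e : sh θ hν * sw F * sh θ hμ * (sh θ hν * sw F)⁻¹ =
          sh θ hν * sh θ (inv_ne_zero hμ) * (sh θ hν)⁻¹ := by
        calc sh θ hν * sw F * sh θ hμ * (sh θ hν * sw F)⁻¹
            = sh θ hν * (sw F * sh θ hμ) * (sw F)⁻¹ * (sh θ hν)⁻¹ := by group
          _ = _ := by rw [sw_sh]; group
      rw [e]
      exact T_le_B hθ (mul_mem (mul_mem ⟨_, _, rfl⟩ ⟨_, _, rfl⟩) (inv_mem ⟨_, _, rfl⟩))
  · rintro s rfl
    exact sw_mem
  · rw [BN_eq]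
    apply le_antisymm
    · rintro g (hg | ⟨t, ht, rfl⟩)
      · exact (le_sup_right : T θ ≤ closure (S0 F) ⊔ T θ) hg
      · exact mul_mem ((le_sup_right : T θ ≤ closure (S0 F) ⊔ T θ) ht)
          ((le_sup_left : closure (S0 F) ≤ closure (S0 F) ⊔ T θ) (subset_closure rfl))
    · refine sup_le ?_ T_le_N
      rw [closure_le]
      rintro s rfl
      exact sw_mem
  · rintro s rfl
    rw [sw_mul]
    exact one_mem _
  · rintro b ⟨u, hu, t, ht, rfl⟩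
    exact ⟨u, hu, t, T_le_B hθ ht, T_le_N ht, rfl⟩
  · rintro s rfl u hu
    exact ⟨1, one_mem _, u, hu, by rw [mul_one, mul_inv_cancel]; exact one_mem _,
      (one_mul u).symm⟩
  · rintro s rfl x hx hx1
    exact sw_rel hθ hx hx1
  · rintro n hn s rfl
    rcases hn with hn | ⟨t, ht, rfl⟩
    · refine Or.inl fun x hx => ?_
      have := T_norm hθ (inv_mem hn) hx
      rwa [inv_inv] at this
    · refine Or.inr fun x hx => ?_
      have h1 := T_norm hθ (inv_mem ht) hx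
      have e2 : ∀ y : GL (Fin 4) F, (t * sw F)⁻¹ * (sw F * x * (sw F)⁻¹) * (t * sw F) =
          (sw F * (t⁻¹ * sw F)) * x * (sw F * (t⁻¹ * sw F))⁻¹ := by
        intro _
        rw [_root_.mul_inv_rev, _root_.mul_inv_rev, _root_.mul_inv_rev, sw_inv, inv_inv]
        group
      obtain ⟨μ, hμ, rfl⟩ := ht
      have e3 : sw F * ((sh θ hμ)⁻¹ * sw F) ∈ T θ := by
        rw [sh_inv, ← mul_assoc, sw_sh, mul_assoc, sw_mul, mul_one]
        exact ⟨_, _, rfl⟩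
      rw [e2 1]
      exact T_norm hθ e3 hx
  · rintro s rfl
    refine ⟨su hθ 1 0, U_le_B hθ ⟨_, _, rfl⟩, fun hcon => ?_⟩
    rw [sw_inv] at hcon
    have h1 := B_low hcon
    change (SW F * SU θ 1 0 * SW F) 0 3 = 0 at h1
    rw [SW_SU_SW] at h1
    simp [ov] at h1

end

end Vale.Agent.P240.R2.H775.Sz
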