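import Vale.Agent.P240.H195.RIso
import Vale.Agent.P240.R2.H195.RigB
import Vale.Agent.P240.R2.H775.Sz2

/-!
The Suzuki groups, part 3: rigidity.
-/

set_option autoImplicit false
set_option linter.all false

namespace Vale.Agent.P240.R2.H775.Sz

open Subgroup Matrix Vale.Agent.P240.H195

universe u

section
variable {F : Type*} [Field F] {θ : F →+* F}

lemma szG_eq (hθ : ∀ x, θ (θ x) = x ^ 2) : SzG θ = B hθ ⊔ N θ := by
  apply le_antisymm
  · unfold SzG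
    rw [closure_le]
    rintro g (⟨a, b, h⟩ | ⟨μ, hμ, h⟩ | h)
    · have : g = su hθ a b := gl_ext h
      rw [this]
      exact (le_sup_left : B hθ ≤ B hθ ⊔ N θ) (U_le_B hθ ⟨_, _, rfl⟩)
    · have : g = sh θ hμ := gl_ext h
      rw [this]
      exact (le_sup_left : B hθ ≤ B hθ ⊔ N θ) (T_le_B hθ ⟨_, _, rfl⟩)
    · have : g = sw F := gl_ext h
      rw [this]
      exact (le_sup_right : N θ ≤ B hθ ⊔ N θ) sw_mem
  · have hU : U hθ ≤ SzG θ := by
      rintro _ ⟨a, b, rfl⟩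
      exact subset_closure (Or.inl ⟨a, b, rfl⟩)
    have hT : T θ ≤ SzG θ := by
      rintro _ ⟨μ, hμ, rfl⟩
      exact subset_closure (Or.inr (Or.inl ⟨μ, hμ, rfl⟩))
    have hw : sw F ∈ SzG θ := subset_closure (Or.inr (Or.inr rfl))
    refine sup_le ?_ ?_
    · rintro _ ⟨u, hu, t, ht, rfl⟩
      exact mul_mem (hU hu) (hT ht)
    · rintro _ (ht | ⟨t, ht, rfl⟩)
      · exact hT ht
      · exact mul_mem (hT ht) hw

lemma U_four (hθ : ∀ x, θ (θ x) = x ^ 2) {x : GL (Fin 4) F} (hx : x ∈ U hθ) : x ^ 2 ^ 2 = 1 := by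
  obtain ⟨a, b, rfl⟩ := hx
  have h2 := two_zero hθ
  have e : (su hθ a b) ^ 2 ^ 2 = (su hθ a b * su hθ a b) * (su hθ a b * su hθ a b) := by
    rw [show (2 : ℕ) ^ 2 = 4 from rfl]
    simp only [pow_succ, pow_zero, one_mul, mul_assoc]
  rw [e, su_mul, su_mul]
  have e1 : a + a = 0 := by linear_combination a * h2
  rw [e1, map_zero, zero_mul, add_zero, add_zero]
  have e2 : b + b + θ a * a + (b + b + θ a * a) = 0 := by
    linear_combination (b + b + θ a * a) * h2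
  rw [e2, su_zero]

variable [Finite F]

lemma T_odd (hθ : ∀ x, θ (θ x) = x ^ 2) : ¬ 2 ∣ Nat.card (T θ) := by
  intro h
  obtain ⟨⟨x, hx⟩, hx2⟩ := exists_prime_orderOf_dvd_card' 2 h
  have h2 := two_zero hθ
  have h1 : x ^ 2 = 1 := by
    have := pow_orderOf_eq_one (⟨x, hx⟩ : T θ)
    rw [hx2] at this
    exact congrArg Subtype.val this
  obtain ⟨μ, hμ, rfl⟩ := hx
  have h3 : sh θ hμ * sh θ hμ = 1 := by rw [← sq]; exact h1
  rw [sh_mul] at h3
  have h4 : SH θ (μ * μ) = 1 := congrArg Units.val h3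
  have h5 := congrFun (congrFun h4 1) 1
  unfold SH at h5
  simp at h5
  have h6 : μ = 1 := by
    have : (μ - 1) ^ 2 = 0 := by linear_combination h5 + (1 - μ) * h2
    exact sub_eq_zero.1 (pow_eq_zero_iff two_ne_zero |>.1 this)
  subst h6
  have h7 : (⟨sh θ hμ, ⟨1, hμ, rfl⟩⟩ : T θ) = 1 := Subtype.ext (gl_ext (SH_one θ))
  rw [h7, orderOf_one] at hx2
  exact absurd hx2 (by norm_num)

/-- the split BN-pair -/
theorem sz_SB (hθ : ∀ x, θ (θ x) = x ^ 2) :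
    SB 2 ((B hθ).subgroupOf (B hθ ⊔ N θ)) ((N θ).subgroupOf (B hθ ⊔ N θ))
      ((U hθ).subgroupOf (B hθ ⊔ N θ)) {s : ↥(B hθ ⊔ N θ) | (s : GL (Fin 4) F) ∈ S0 F} := by
  refine Vale.Agent.P240.R2.H727.O.sb_gen (sz_BN0 hθ) (U_le_B hθ) ?_ ?_ ?_ ?_ ?_ ?_ ?_
  · rintro ⟨x, hx⟩
    exact ⟨2, Subtype.ext (U_four hθ hx)⟩
  · rintro _ ⟨v, hv, t, ht, rfl⟩ u hu
    have h1 := mul_mem (mul_mem hv (T_norm hθ ht hu)) (inv_mem hv)
    have e : v * t * u * (v * t)⁻¹ = v * (t * u * t⁻¹) * v⁻¹ := by group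
    rw [e]
    exact h1
  · rintro _ ⟨u, hu, t, ht, rfl⟩
    exact ⟨u, hu, t, T_le_B hθ ht, T_le_N ht, rfl⟩
  · rw [BN_eq]
    exact T_odd hθ
  · rintro s rfl x hx hsx u hu
    rw [sw_opp hθ hx hsx]
    have e : sw F * (u * 1 * u⁻¹) * (sw F)⁻¹ = 1 := by group
    rw [e]
    exact one_mem _
  · exact ⟨sw F, sw_mem, fun x hx hsx => sw_opp hθ hx hsx⟩
  · exact ⟨_, rfl⟩

/-- an automorphism of order two of `U` that commutes with `T` is trivial -/
lemma U_rigid (hθ : ∀ x, θ (θ x) = x ^ 2) (hne : ∃ x, θ x ≠ x) {g : GL (Fin 4) F → GL (Fin 4) F}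
    (hgU : ∀ u ∈ U hθ, g u ∈ U hθ) (hmul : ∀ u ∈ U hθ, ∀ v ∈ U hθ, g (u * v) = g u * g v)
    (hgg : ∀ u ∈ U hθ, g (g u) = u)
    (hT : ∀ t ∈ T θ, ∀ u ∈ U hθ, g (t * u * t⁻¹) = t * g u * t⁻¹) :
    ∀ u ∈ U hθ, g u = u := by
  have h2 := two_zero hθ
  have hm : ∀ a b : F, su hθ a b ∈ U hθ := fun a b => ⟨a, b, rfl⟩
  have hsurj : Function.Surjective θ := Finite.injective_iff_surjective.1 θ.injective
  have hex : ∀ a b : F, ∃ c d, g (su hθ a b) = su hθ c d := fun a b => hgU _ (hm a b)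
  choose α β hαβ using hex
  -- squares
  have hsq : ∀ a b : F, su hθ a b * su hθ a b = su hθ 0 (a * θ a) := by
    intro a b
    rw [su_mul]
    congr 1
    · linear_combination a * h2
    · linear_combination b * h2
  have hα : ∀ a b c d : F, g (su hθ a b) = su hθ c d →
      g (su hθ 0 (a * θ a)) = su hθ 0 (c * θ c) := by
    intro a b c d h
    rw [← hsq a b, hmul _ (hm _ _) _ (hm _ _), h, hsq]
  have hroot : ∀ c : F, ∃ a : F, c = a * θ a := by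
    intro c
    by_cases hc : c = 0
    · exact ⟨0, by rw [hc, zero_mul]⟩
    · have hc' : θ c ≠ 0 := (map_ne_zero θ).2 hc
      refine ⟨θ c / c, ?_⟩
      rw [map_div₀, hθ]
      field_simp
  -- the centre
  have hψ : ∀ c : F, ∃ d, g (su hθ 0 c) = su hθ 0 d := by
    intro c
    obtain ⟨a, rfl⟩ := hroot c
    exact ⟨_, hα a 0 _ _ (hαβ a 0)⟩
  choose ψ hψ using hψ
  have hTs : ∀ {ν : F} (hν : ν ≠ 0) (a b : F),
      sh θ hν * su hθ a b * (sh θ hν)⁻¹ = su hθ (a / θ ν) (b / (ν ^ 2 * θ ν)) := by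
    intro ν hν a b
    rw [sh_su, mul_inv_cancel_right]
  have hψT : ∀ {ν : F} (hν : ν ≠ 0) (c : F), ψ (c / (ν ^ 2 * θ ν)) = ψ c / (ν ^ 2 * θ ν) := by
    intro ν hν c
    have h1 := hT _ ⟨ν, hν, rfl⟩ _ (hm 0 c)
    rw [hTs, hψ, hTs, zero_div, hψ] at h1
    exact (su_inj hθ h1).2
  have hψm : ∀ c : F, ψ c = c * ψ 1 := by
    intro c
    by_cases hc : c = 0
    · have h1 : g (su hθ 0 0) = su hθ 0 0 := by
        have h3 := hmul (su hθ 0 0) (hm 0 0) (su hθ 0 0) (hm 0 0)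
        rw [su_zero, mul_one] at h3
        rw [su_zero]
        exact (mul_eq_left.1 h3.symm)
      rw [hψ] at h1
      rw [hc, zero_mul]
      exact (su_inj hθ h1).2
    · obtain ⟨a, ha⟩ := hroot c⁻¹
      have ha0 : a ≠ 0 := by
        rintro rfl
        rw [zero_mul] at ha
        exact inv_ne_zero hc ha
      obtain ⟨ν, hν⟩ := hsurj a
      have hν0 : ν ≠ 0 := by
        rintro rfl
        rw [map_zero] at hν
        exact ha0 hν.symm
      have h1 := hψT hν0 1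
      have e : ν ^ 2 * θ ν = c⁻¹ := by
        rw [ha, ← hν, hθ]
        ring
      rw [e, one_div, inv_inv, div_inv_eq_mul] at h1
      rw [h1, mul_comm]
  have hψ1 : ψ 1 = 1 := by
    have h1 := hgg _ (hm 0 1)
    rw [hψ, hψ] at h1
    have h3 := (su_inj hθ h1).2
    rw [hψm] at h3
    have h4 : (ψ 1 - 1) ^ 2 = 0 := by linear_combination h3 + (1 - ψ 1) * h2
    exact sub_eq_zero.1 (pow_eq_zero_iff two_ne_zero |>.1 h4)
  have hcen : ∀ c : F, g (su hθ 0 c) = su hθ 0 c := by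
    intro c
    rw [hψ, hψm, hψ1, mul_one]
  -- the first coordinate
  have hfix : ∀ a b : F, α a b = a := by
    intro a b
    have h1 := hα a b _ _ (hαβ a b)
    rw [hcen] at h1
    have h3 := (su_inj hθ h1).2
    by_cases ha : a = 0
    · rw [ha, zero_mul] at h3
      rcases mul_eq_zero.1 h3.symm with h4 | h4
      · rw [ha]
        exact h4
      · rw [ha]
        exact (map_eq_zero θ).1 h4
    · have hA : θ a ≠ 0 := (map_ne_zero θ).2 ha
      obtain ⟨k, hk⟩ : ∃ k, k = α a b / a := ⟨_, rfl⟩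
      have h4 : k * θ k = 1 := by
        rw [hk, map_div₀]
        field_simp
        exact h3.symm
      have h5 := congrArg θ h4
      rw [map_mul, hθ, map_one] at h5
      have hk0 : k ≠ 0 := by
        rintro rfl
        rw [zero_mul] at h4
        exact zero_ne_one h4
      have h6 : k = 1 := by
        have h7 : k ^ 2 * θ k = k := by linear_combination k * h4
        have h8 : k = 1 := by
          rw [← h7]
          linear_combination h5
        exact h8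
      rw [h6] at hk
      field_simp at hk
      exact hk.symm
  -- the second coordinate
  obtain ⟨δ, hδ⟩ : ∃ δ : F → F, ∀ a, g (su hθ a 0) = su hθ a (δ a) :=
    ⟨fun a => β a 0, fun a => by rw [hαβ, hfix]⟩
  have hδadd : ∀ a c : F, δ (a + c) = δ a + δ c := by
    intro a c
    have h1 : su hθ a 0 * su hθ c 0 = su hθ (a + c) 0 * su hθ 0 (θ a * c) := by
      rw [su_mul, su_mul]
      congr 1 <;> ring
    have h3 := congrArg g h1
    rw [hmul _ (hm _ _) _ (hm _ _), hmul _ (hm _ _) _ (hm _ _), hδ, hδ, hδ, hcen, su_mul,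
      su_mul] at h3
    have h4 := (su_inj hθ h3).2
    linear_combination -h4
  have hδT : ∀ {k : F}, k ≠ 0 → δ k = k * θ k * δ 1 := by
    intro k hk
    obtain ⟨ν, hν⟩ := hsurj k⁻¹
    have hν0 : ν ≠ 0 := by
      rintro rfl
      rw [map_zero] at hν
      exact inv_ne_zero hk hν.symm
    have h1 := hT _ ⟨ν, hν0, rfl⟩ _ (hm 1 0)
    rw [hTs, hδ, hTs, zero_div, hν, one_div, inv_inv, hδ] at h1
    have h3 := (su_inj hθ h1).2
    have h4 : ν ^ 2 = (θ k)⁻¹ := by rw [← hθ ν, hν, map_inv₀]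
    have hk' : θ k ≠ 0 := (map_ne_zero θ).2 hk
    rw [h3, h4]
    field_simp
  have hδ1 : δ 1 = 0 := by
    obtain ⟨x, hx⟩ := hne
    by_contra hcon
    have hx0 : x ≠ 0 := by
      rintro rfl
      exact hx (map_zero θ)
    have hx1 : 1 + x ≠ 0 := by
      intro h
      have : x = 1 := by linear_combination h - h2
      rw [this, map_one] at hx
      exact hx rfl
    have h1 := hδadd 1 x
    rw [hδT hx1, hδT hx0, map_add, map_one] at h1
    have h3 : (x + θ x) * δ 1 = 0 := by linear_combination h1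
    rcases mul_eq_zero.1 h3 with h4 | h4
    · exact hx (by linear_combination h4 - x * h2)
    · exact hcon h4
  have hδ0 : ∀ a, δ a = 0 := by
    intro a
    by_cases ha : a = 0
    · have h1 := hδadd 0 0
      rw [add_zero] at h1
      rw [ha]
      linear_combination -h1
    · rw [hδT ha, hδ1, mul_zero]
  rintro _ ⟨a, b, rfl⟩
  have h1 : su hθ a b = su hθ a 0 * su hθ 0 b := by
    rw [su_mul]
    congr 1 <;> ring
  rw [h1, hmul _ (hm _ _) _ (hm _ _), hcen, hδ, hδ0]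

end

section
variable {F : Type u} [Field F] [Finite F] {θ : F →+* F}

/-- **rigidity** -/
theorem sz_RigidBN (hθ : ∀ x, θ (θ x) = x ^ 2) (hne : ∃ x, θ x ≠ x)
    (hs : IsSimpleGroup ↥(B hθ ⊔ N θ)) :
    RigidBN 2 ((B hθ).subgroupOf (B hθ ⊔ N θ)) ((N θ).subgroupOf (B hθ ⊔ N θ))
      ((U hθ).subgroupOf (B hθ ⊔ N θ)) {s : ↥(B hθ ⊔ N θ) | (s : GL (Fin 4) F) ∈ S0 F} := by
  have hB := sz_SB hθ
  have hBG : B hθ ≤ B hθ ⊔ N θ := le_sup_left
  have hNG : N θ ≤ B hθ ⊔ N θ := le_sup_right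
  have hUG : U hθ ≤ B hθ ⊔ N θ := (U_le_B hθ).trans hBG
  have hTG : T θ ≤ B hθ ⊔ N θ := T_le_N.trans hNG
  have hTmem : ∀ {x : GL (Fin 4) F}, x ∈ B hθ → x ∈ N θ → x ∈ T θ := fun h1 h2 => by
    rw [← BN_eq hθ]
    exact ⟨h1, h2⟩
  have hsw : sw F ∈ B hθ ⊔ N θ := hNG sw_mem
  refine hB.rigid_of_roots hs Nat.prime_two ?_ ?_
  · rintro ⟨x, hx⟩ hxB hxN ⟨y, hy⟩ hyB hyN
    obtain ⟨μ, hμ, rfl⟩ := hTmem hxB hxN
    obtain ⟨ν, hν, rfl⟩ := hTmem hyB hyN
    refine Subtype.ext ?_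
    change sh θ hμ * sh θ hν = sh θ hν * sh θ hμ
    rw [sh_mul, sh_mul]
    exact gl_ext (by
      change SH θ (μ * ν) = SH θ (ν * μ)
      rw [mul_comm])
  · rintro n hn hopp f hf2 hfT ⟨s, hs'⟩ hss hfX y hyP hyU
    obtain rfl : s = sw F := hss
    -- the element `n` is in the nontrivial coset
    have hnT : n.1 ∉ T θ := by
      intro hnT
      have h1 := hopp ⟨su hθ 1 0, hUG ⟨1, 0, rfl⟩⟩ ⟨1, 0, rfl⟩ (T_norm hθ hnT ⟨1, 0, rfl⟩)
      have h3 : su hθ 1 0 = 1 := congrArg Subtype.val h1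
      rw [← su_zero hθ] at h3
      exact one_ne_zero (su_inj hθ h3).1
    obtain ⟨t, ht, hnt⟩ : ∃ t ∈ T θ, n.1 = t * sw F := by
      rcases (show n.1 ∈ T θ ∨ ∃ t ∈ T θ, n.1 = t * sw F from hn) with h | h
      · exact absurd h hnT
      · exact h
    have hnP : n ∈ Par ((B hθ).subgroupOf (B hθ ⊔ N θ)) (⟨sw F, hs'⟩ : ↥(B hθ ⊔ N θ)) := by
      have e : n = (⟨t, hTG ht⟩ : ↥(B hθ ⊔ N θ)) * ⟨sw F, hs'⟩ := Subtype.ext hnt
      rw [e]
      exact mul_mem (le_Par (show t ∈ B hθ from T_le_B hθ ht)) self_mem_Par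
    have hall : ∀ (u : ↥(B hθ ⊔ N θ)), u.1 ∈ U hθ →
        n * u * n⁻¹ ∈ Par ((B hθ).subgroupOf (B hθ ⊔ N θ)) (⟨sw F, hs'⟩ : ↥(B hθ ⊔ N θ)) :=
      fun u hu => mul_mem (mul_mem hnP (le_Par (show u.1 ∈ B hθ from U_le_B hθ hu)))
        (inv_mem hnP)
    have hgU : ∀ (u : ↥(B hθ ⊔ N θ)), u.1 ∈ U hθ → (n⁻¹ * f (n * u * n⁻¹) * n).1 ∈ U hθ := by
      intro u hu
      refine (hfX _ (hall u hu) ?_).2
      have e : n⁻¹ * (n * u * n⁻¹) * n = u := by group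
      rw [e]
      exact hu
    classical
    let g : GL (Fin 4) F → GL (Fin 4) F := fun u =>
      if h : u ∈ B hθ ⊔ N θ then (n⁻¹ * f (n * ⟨u, h⟩ * n⁻¹) * n).1 else 1
    have hg : ∀ u : ↥(B hθ ⊔ N θ), g u.1 = (n⁻¹ * f (n * u * n⁻¹) * n).1 := fun u => dif_pos u.2
    have hff : ∀ x, f (f x) = x := by
      intro x
      have h1 := congrArg (fun h : MulAut _ => h x) hf2
      rw [sq] at h1
      exact h1
    have key := U_rigid hθ hne (g := g) ?_ ?_ ?_ ?_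
    · have hu : (n⁻¹ * y * n).1 ∈ U hθ := hyU
      have h1 := key _ hu
      rw [hg] at h1
      have h3 : n⁻¹ * f (n * (n⁻¹ * y * n) * n⁻¹) * n = n⁻¹ * y * n := Subtype.ext h1
      have e : n * (n⁻¹ * y * n) * n⁻¹ = y := by group
      rw [e] at h3
      exact mul_left_cancel (mul_right_cancel h3)
    · intro u hu
      have h1 := hg ⟨u, hUG hu⟩
      change g u = _ at h1
      rw [h1]
      exact hgU ⟨u, hUG hu⟩ hu
    · intro u hu v hv
      have h1 := hg ⟨u, hUG hu⟩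
      have h3 := hg ⟨v, hUG hv⟩
      have h4 := hg (⟨u, hUG hu⟩ * ⟨v, hUG hv⟩)
      change g u = _ at h1
      change g v = _ at h3
      change g (u * v) = _ at h4
      rw [h1, h3, h4, ← Subgroup.coe_mul]
      congr 1
      simp only [map_mul, map_inv]
      group
    · intro u hu
      have h1 := hg ⟨u, hUG hu⟩
      change g u = _ at h1
      rw [h1, hg]
      have e : n * (n⁻¹ * f (n * ⟨u, hUG hu⟩ * n⁻¹) * n) * n⁻¹ =
          f (n * ⟨u, hUG hu⟩ * n⁻¹) := by group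
      rw [e, hff]
      change (n⁻¹ * (n * ⟨u, hUG hu⟩ * n⁻¹) * n : ↥(B hθ ⊔ N θ)).1 = u
      have e' : (n⁻¹ * (n * ⟨u, hUG hu⟩ * n⁻¹) * n : ↥(B hθ ⊔ N θ)) = ⟨u, hUG hu⟩ := by group
      rw [e']
    · intro t' ht' u hu
      have h1 := hg ⟨u, hUG hu⟩
      have h3 := hg (⟨t', hTG ht'⟩ * ⟨u, hUG hu⟩ * ⟨t', hTG ht'⟩⁻¹)
      change g u = _ at h1
      change g (t' * u * t'⁻¹) = _ at h3
      have hc : (n * ⟨t', hTG ht'⟩ * n⁻¹ : ↥(B hθ ⊔ N θ)).1 ∈ T θ := by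
        refine hTmem (hB.norm n hn ⟨t', hTG ht'⟩ (T_le_B hθ ht') (T_le_N ht')) ?_
        exact mul_mem (mul_mem (show n.1 ∈ N θ from hn) (T_le_N ht'))
          (inv_mem (show n.1 ∈ N θ from hn))
      have hfc : f (n * ⟨t', hTG ht'⟩ * n⁻¹) = n * ⟨t', hTG ht'⟩ * n⁻¹ :=
        hfT _ (T_le_B hθ hc) (T_le_N hc)
      rw [h1, h3]
      have e : n⁻¹ * f (n * (⟨t', hTG ht'⟩ * ⟨u, hUG hu⟩ * ⟨t', hTG ht'⟩⁻¹) * n⁻¹) * n =
          (⟨t', hTG ht'⟩ : ↥(B hθ ⊔ N θ)) * (n⁻¹ * f (n * ⟨u, hUG hu⟩ * n⁻¹) * n) *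
            (⟨t', hTG ht'⟩ : ↥(B hθ ⊔ N θ))⁻¹ := by
        have e1 : n * (⟨t', hTG ht'⟩ * ⟨u, hUG hu⟩ * ⟨t', hTG ht'⟩⁻¹) * n⁻¹ =
            (n * ⟨t', hTG ht'⟩ * n⁻¹) * (n * ⟨u, hUG hu⟩ * n⁻¹) *
              (n * ⟨t', hTG ht'⟩ * n⁻¹)⁻¹ := by group
        rw [e1, map_mul, map_mul, map_inv, hfc]
        group
      rw [e]
      rfl

end

end Vale.Agent.P240.R2.H775.Sz
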