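import Vale.Agent.P240.R2.H775.CT

/-!
T2: a top cycle of `C_L(x)`, `x` acting as the entrywise field automorphism `s`.
-/

set_option autoImplicit false

namespace Vale.Agent.P240.R2.H775

open Subgroup Matrix
open Vale.Agent.P240.R2 Vale.Agent.P240.R2.AS Vale.Agent.P240.R2.H275 Vale.Agent.P240.R2.H38

universe u v w

/-- `Comb` for a smaller set of words, closed under permutations -/
theorem Comb.sub {G : Type*} [Group G] {X : Type*} {p n : ℕ} {F F' : Finset (List X)}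
    {e : List X → G} (hc : Comb p n F e) (h : F' ⊆ F) (hp : ∀ w ∈ F', ∀ w', w.Perm w' → w' ∈ F') :
    Comb p n F' e where
  len w hw := hc.len w (h hw)
  nodup w hw := hc.nodup w (h hw)
  perm := hp
  plane u a b c d v w h1 h2 := hc.plane u a b c d v w (h h1) (h h2)
  comm u v w h1 := hc.comm u v w (h h1)
  pow u v h1 := hc.pow u v (h h1)
  nil := hc.nil
  full w hw := hc.full w (h hw)
  card w hw := hc.card w (h hw)
  sep A u v B l g h1 h2 hu hv := hc.sep A u v B l g (h h1) (h h2) hu hv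

/-- an automorphism of order `p` fixes the `p`-th roots of unity -/
theorem fix_zeta {K : Type u} [Field K] {p : ℕ} [hp : Fact p.Prime] {ζ : K} (hζ : ζ ^ p = 1)
    (h1 : ζ ≠ 1) (s : K ≃+* K) (hs : ∀ a, s^[p] a = a) : s ζ = ζ := by
  have hζ0 : ζ ≠ 0 := by
    rintro rfl
    rw [zero_pow hp.out.ne_zero] at hζ
    exact zero_ne_one hζ
  have ho : orderOf ζ = p := orderOf_eq_prime hζ h1
  have hprim : IsPrimitiveRoot ζ p := ho ▸ IsPrimitiveRoot.orderOf ζ
  have h2 : (s ζ) ^ p = 1 := by rw [← map_pow, hζ, map_one]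
  obtain ⟨k, -, hk⟩ := hprim.eq_pow_of_pow_eq_one h2
  have h3 : ∀ j : ℕ, s^[j] ζ = ζ ^ k ^ j := by
    intro j
    induction j with
    | zero => simp
    | succ j ih =>
      rw [Function.iterate_succ_apply', ih, map_pow, ← hk, ← pow_mul, pow_succ, mul_comm]
  have h4 : ζ ^ k ^ p = ζ ^ 1 := by rw [← h3, hs, pow_one]
  obtain ⟨z, hz⟩ : ∃ z : Kˣ, (z : K) = ζ := ⟨Units.mk0 ζ hζ0, rfl⟩
  have hoz : orderOf z = p := by rw [← orderOf_units, hz, ho]
  have key : ∀ a b : ℕ, ζ ^ a = ζ ^ b ↔ a ≡ b [MOD p] := by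
    intro a b
    have h5 : z ^ a = z ^ b ↔ a ≡ b [MOD orderOf z] := pow_eq_pow_iff_modEq
    rw [hoz] at h5
    rw [← h5, ← hz]
    constructor
    · intro h; exact Units.ext (by push_cast; exact h)
    · intro h; have := congrArg (fun y : Kˣ => (y : K)) h; push_cast at this; exact this
  have h5 : k ^ p ≡ 1 [MOD p] := (key _ _).1 h4
  have h7 : k ^ p ≡ k [MOD p] := by
    have h8 : ((k : ZMod p)) ^ p = k := ZMod.pow_card _
    exact (ZMod.natCast_eq_natCast_iff _ _ _).1 (by push_cast; exact h8)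
  have h9 : k ≡ 1 [MOD p] := h7.symm.trans h5
  have h10 : ζ ^ k = ζ ^ 1 := (key _ _).2 h9
  rw [← hk, h10, pow_one]

section unitary

variable {K : Type u} [Field K] [Fintype K] [StarRing K] {n : ℕ}

theorem sm_map {s : K ≃+* K} {w : List (Ln K n)} (h : ∀ P ∈ w, P.1.map s = P.1) :
    (sm w).map s = sm w := by
  induction w with
  | nil => rw [H275.sm_nil]; exact Matrix.map_zero _ (map_zero s)
  | cons a w ih =>
    rw [H275.sm_cons, Matrix.map_add _ (map_add s), h a (by simp),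
      ih fun P hP => h P (by simp [hP])]

variable {G : Type v} [Group G]

/-- scalar multiples in `SU` have the same image -/
theorem ep_smul {ε : SU K n →* G}
    (hε : ∀ g : SU K n, ε g = 1 ↔ ∃ c : K, mt g = c • (1 : Matrix (Fin n) (Fin n) K))
    {g h : SU K n} {c : K} (hgh : mt g = c • mt h) : ε g = ε h := by
  have h1 : ε (g * h⁻¹) = 1 := by
    rw [hε]
    refine ⟨c, ?_⟩
    have h2 : mt (g * h⁻¹) = mt g * star (mt h) := rfl
    have h3 : mt h * star (mt h) = 1 := by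
      have := h.1.2
      rw [Matrix.mem_unitaryGroup_iff] at this
      exact this
    rw [h2, hgh, smul_mul_assoc, h3]
  rw [map_mul, map_inv, mul_inv_eq_one] at h1
  exact h1

/-- `x` commutes with the elements of the words of fixed letters -/
theorem acts_comm {ε : SU K n →* G}
    (hε : ∀ g : SU K n, ε g = 1 ↔ ∃ c : K, mt g = c • (1 : Matrix (Fin n) (Fin n) K))
    {ζ c : K} (hζ : ζ * star ζ = 1) (hc : c * star c = 1) (hcn : c ^ n * ζ = 1)
    {x : G} {s : K ≃+* K} (hx : Acts ε x 1 s) (hs : s ζ = ζ) {u : List (Ln K n)} (hu : Orth u)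
    (hf : ∀ P ∈ u, P.1.map s = P.1) : x * ε (sW ζ c u) = ε (sW ζ c u) * x := by
  have hc0 : c ≠ 0 := left_ne_zero_of_mul_eq_one hc
  have h1 : (mt (sW ζ c u)).map s = (s c * c⁻¹) ^ u.length • mt (sW ζ c u) := by
    have h2 : (c ^ u.length • (1 + (ζ - 1) • sm u)).map s =
        (s c) ^ u.length • (1 + (ζ - 1) • sm u) := by
      ext i j
      have h3 : s (sm u i j) = sm u i j := by
        have := congrFun (congrFun (sm_map hf) i) j
        simpa using this
      simp only [Matrix.map_apply, Matrix.smul_apply, Matrix.add_apply, smul_eq_mul, map_mul,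
        map_add, map_pow, map_sub, hs, map_one, h3, Matrix.one_apply]
      split_ifs <;> simp
    rw [mt_sW hζ hc hcn hu, sM, h2, smul_smul, ← mul_pow, mul_assoc, inv_mul_cancel₀ hc0, mul_one]
  have hsc : s c * star (s c) = 1 := by rw [← hx.1, ← map_mul, hc, map_one]
  have hcc : (s c * c⁻¹) * star (s c * c⁻¹) = 1 := by
    rw [star_mul, star_inv₀, mul_mul_mul_comm]
    have : c⁻¹ * (star c)⁻¹ = 1 := by rw [← _root_.mul_inv_rev, mul_comm, hc, inv_one]
    calc s c * (star c)⁻¹ * (c⁻¹ * star (s c)) = (s c * star (s c)) * (c⁻¹ * (star c)⁻¹) := by ring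
      _ = 1 := by rw [hsc, this, mul_one]
  have hcn2 : (s c * c⁻¹) ^ n = 1 := by
    have h4 : (s c) ^ n * ζ = 1 := by rw [← map_pow, ← hs, ← map_mul, hcn, map_one]
    have hζ0 : ζ ≠ 0 := left_ne_zero_of_mul_eq_one hζ
    have h5 : (s c) ^ n = c ^ n := mul_right_cancel₀ hζ0 (h4.trans hcn.symm)
    rw [mul_pow, h5, ← mul_pow, mul_inv_cancel₀ hc0, one_pow]
  -- the element with the mapped matrix
  have h6 : ∃ h' : SU K n, mt h' = (s c * c⁻¹) ^ u.length • mt (sW ζ c u) := by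
    have h7 : (s c * c⁻¹) ^ u.length • mt (sW ζ c u) ∈ Matrix.unitaryGroup (Fin n) K := by
      have h8 := (sW ζ c u).1.2
      rw [Matrix.mem_unitaryGroup_iff] at h8 ⊢
      show (_ • mt (sW ζ c u)) * star (_ • mt (sW ζ c u)) = 1
      rw [star_smul, smul_mul_smul_comm, star_pow, ← mul_pow, hcc, one_pow, one_smul]
      exact h8
    refine ⟨⟨⟨_, h7⟩, ?_⟩, rfl⟩
    show ((s c * c⁻¹) ^ u.length • mt (sW ζ c u)).det = 1
    have h9 : (mt (sW ζ c u)).det = 1 := (sW ζ c u).2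
    rw [det_smul, h9, mul_one, Fintype.card_fin, ← pow_mul, mul_comm u.length n, pow_mul, hcn2,
      one_pow]
  obtain ⟨h', hh'⟩ := h6
  have h10 := hx.2 (sW ζ c u) h' (by
    rw [hh', h1]
    have : ((1 : GU K n) : Matrix (Fin n) (Fin n) K) = 1 := rfl
    rw [this, star_one, one_mul, mul_one])
  rw [ep_smul hε hh', mul_inv_eq_iff_eq_mul] at h10
  exact h10

/-- **T2.** -/
theorem T2 {p : ℕ} [Fact p.Prime] [Finite G] {L : Subgroup G} {ε : SU K n →* G}
    (hL : PSUHom p n L ε) {ζ c : K}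
    (hζp : ζ ^ p = 1) (h1 : ζ ≠ 1) (hζ : ζ * star ζ = 1) (hc : c * star c = 1)
    (hcn : c ^ n * ζ = 1) (hn : 1 ≤ n) {x : G} {s : K ≃+* K} (hx : Acts ε x 1 s)
    (hs : s ζ = ζ) {F' : Finset (List (Ln K n))} (hF : F' ⊆ Fr K n)
    (hperm : ∀ w ∈ F', ∀ w', w.Perm w' → w' ∈ F') (hfix : ∀ w ∈ F', ∀ P ∈ w, P.1.map s = P.1)
    (ht : 0 < t F') (𝕜 : Type w) [Field 𝕜] :
    ∃ w ∈ F', (∀ a ∈ De (fun u => ε (sW ζ c u)) w, x * a = a * x) ∧
      ∃ (α : Vale.Agent.P240.K.Ch 𝕜 (Subgroup G)) (φ : List (Subgroup G)),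
      Vale.Agent.P240.K.TopCycle 𝕜 p (L ⊓ centralizer ({x} : Set G))
        (De (fun u => ε (sW ζ c u)) w) α φ := by
  have hcomm : ∀ u v : List (Ln K n), u ++ v ∈ F' → x * ε (sW ζ c u) = ε (sW ζ c u) * x := by
    intro u v huv
    refine acts_comm hL.ker hζ hc hcn hx hs (o_append.1 ((mem_Fr K).1 (hF huv)).2).1 ?_
    exact fun P hP => hfix _ huv P (by simp [hP])
  obtain ⟨w, hw, α, φ, hT⟩ := top_of_comb hn
    (Comb.sub (comb_ep hL.ker hζp h1 hζ hc hcn hn) hF hperm) ht 𝕜 (L ⊓ centralizer ({x} : Set G))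
    (fun u v huv => ⟨by rw [← hL.range]; exact ⟨_, rfl⟩, Subgroup.mem_centralizer_iff.2 (by
      rintro y rfl
      exact hcomm u v huv)⟩)
  refine ⟨w, hw, ?_, α, φ, hT⟩
  intro a ha
  unfold De at ha
  have h3 : closure {y | ∃ u v, w = u ++ v ∧ y = (fun u => ε (sW ζ c u)) u} ≤
      centralizer ({x} : Set G) := by
    rw [closure_le]
    rintro _ ⟨u, v, huv, rfl⟩
    refine Subgroup.mem_centralizer_iff.2 ?_
    rintro y rfl
    exact hcomm u v (huv ▸ hw)
  exact (Subgroup.mem_centralizer_iff.1 (h3 ha)) x rfl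

end unitary

end Vale.Agent.P240.R2.H775
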