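import Vale.Agent.P240.R2.H775.T2s
import Vale.Agent.P240.R2.H775.GX
import Vale.Agent.P240.R2.H387.Fs
import Vale.Agent.P240.R2.H472.R4b

/-!
T1 and T2 for a homomorphism defined on a subgroup `S` of `GU K n` (any star), and the numbers for
the frames fixed by a field automorphism.
-/

set_option autoImplicit false

namespace Vale.Agent.P240.R2.H775

open Subgroup Matrix
open Vale.Agent.P240.R2 Vale.Agent.P240.R2.AS Vale.Agent.P240.R2.H275

universe u v w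

section general

variable {K : Type u} [Field K] [Fintype K] [StarRing K] {n : ℕ} {G : Type v} [Group G]

open scoped Classical in
/-- the image of `eU ζ (sm w)` under a homomorphism defined on `S` -/
noncomputable def eS {S : Subgroup (GU K n)} (ε : S →* G) (ζ : K) (w : List (Ln K n)) : G :=
  if h : eU ζ (sm w) ∈ S then ε ⟨eU ζ (sm w), h⟩ else 1

omit [Fintype K] in
theorem eS_eq {S : Subgroup (GU K n)} {ε : S →* G} {ζ : K} {w : List (Ln K n)}
    (h : eU ζ (sm w) ∈ S) : eS ε ζ w = ε ⟨eU ζ (sm w), h⟩ := by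
  unfold eS
  rw [dif_pos h]

/-- **`Comb` for `ε` on `S`** -/
theorem comb_S {p : ℕ} [Fact p.Prime] {S : Subgroup (GU K n)} {ε : S →* G}
    (hε : ∀ g : S, ε g = 1 ↔ ∃ c : K, (g.1 : Matrix (Fin n) (Fin n) K) =
      c • (1 : Matrix (Fin n) (Fin n) K))
    {ζ : K} (hζp : ζ ^ p = 1) (h1 : ζ ≠ 1) (hζ : ζ * star ζ = 1)
    (hS : ∀ w : List (Ln K n), Orth w → eU ζ (sm w) ∈ S) (hn : 1 ≤ n) :
    Comb p n (Fr K n) (eS ε ζ) := by
  classical
  let f : S →* PGU K n := (QuotientGroup.mk' _).comp S.subtype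
  let e' : List (Ln K n) → S := fun w => if h : eU ζ (sm w) ∈ S then ⟨eU ζ (sm w), h⟩ else 1
  have he' : ∀ w, Orth w → (e' w).1 = eU ζ (sm w) := by
    intro w hw
    show (dite _ _ _ : S).1 = _
    rw [dif_pos (hS w hw)]
  have hker : f.ker = ε.ker := by
    ext g
    rw [MonoidHom.mem_ker, MonoidHom.mem_ker, hε]
    exact mk_one_iff h1 hζ g.1
  have h2 : Comb p n (Fr K n) (fun w => f (e' w)) := by
    refine Comb.congr (O := Orth) (comb_eW hζp h1 hζ hn) her_orth (fun w hw => ?_) ?_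
    · show QuotientGroup.mk (eU ζ (sm w)) = QuotientGroup.mk (e' w).1
      rw [he' w hw]
    · show QuotientGroup.mk (eU ζ (sm [])) = QuotientGroup.mk (e' []).1
      rw [he' [] List.Pairwise.nil]
  have h3 := Comb.of_ker hker h2
  have h4 : (fun w => ε (e' w)) = eS ε ζ := by
    funext w
    by_cases h : eU ζ (sm w) ∈ S
    · rw [eS_eq h]
      show ε (dite _ _ _) = _
      rw [dif_pos h]
    · show ε (dite _ _ _) = _
      unfold eS
      rw [dif_neg h, dif_neg h, map_one]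
  rw [h4] at h3
  exact h3

omit [Fintype K] in
theorem eS_mem {S : Subgroup (GU K n)} (ε : S →* G) (ζ : K) (w : List (Ln K n)) :
    eS ε ζ w ∈ ε.range := by
  classical
  unfold eS
  split_ifs with h
  · exact ⟨_, rfl⟩
  · exact one_mem _

/-- **T1** for `S`. -/
theorem T1_S {p : ℕ} [Fact p.Prime] [Finite G] {S : Subgroup (GU K n)} {ε : S →* G}
    (hε : ∀ g : S, ε g = 1 ↔ ∃ c : K, (g.1 : Matrix (Fin n) (Fin n) K) =
      c • (1 : Matrix (Fin n) (Fin n) K))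
    {ζ : K} (hζp : ζ ^ p = 1) (h1 : ζ ≠ 1) (hζ : ζ * star ζ = 1)
    (hS : ∀ w : List (Ln K n), Orth w → eU ζ (sm w) ∈ S) (hn : 1 ≤ n)
    (ht : 0 < AS.t (Fr K n)) (𝕜 : Type w) [Field 𝕜] :
    ∃ w ∈ Fr K n, ∃ (α : Vale.Agent.P240.K.Ch 𝕜 (Subgroup G)) (φ : List (Subgroup G)),
      Vale.Agent.P240.K.TopCycle 𝕜 p ε.range (H38.De (eS ε ζ) w) α φ :=
  top_of_comb hn (comb_S hε hζp h1 hζ hS hn) ht 𝕜 ε.range (fun u _ _ => eS_mem ε ζ u)

/-- `x` commutes with the elements of the words of fixed letters -/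
theorem acts_comm_S {S : Subgroup (GU K n)} {ε : S →* G} {ζ : K} (hζ : ζ * star ζ = 1)
    (hS : ∀ w : List (Ln K n), Orth w → eU ζ (sm w) ∈ S) {x : G} {s : K ≃+* K}
    (hx : ∀ h h' : S, (h'.1 : Matrix (Fin n) (Fin n) K) = (h.1 : Matrix (Fin n) (Fin n) K).map s →
      x * ε h * x⁻¹ = ε h') (hs : s ζ = ζ) {u : List (Ln K n)} (hu : Orth u)
    (hf : ∀ P ∈ u, P.1.map s = P.1) : x * eS ε ζ u = eS ε ζ u * x := by
  rw [eS_eq (hS u hu)]
  have h1 := hx ⟨eU ζ (sm u), hS u hu⟩ ⟨eU ζ (sm u), hS u hu⟩ (by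
    show ((eU ζ (sm u) : GU K n) : Matrix (Fin n) (Fin n) K) =
      ((eU ζ (sm u) : GU K n) : Matrix (Fin n) (Fin n) K).map s
    rw [eU_coe hζ (o_isP hu)]
    ext i j
    have h3 : s (sm u i j) = sm u i j := by
      have := congrFun (congrFun (sm_map hf) i) j
      simpa using this
    simp only [Matrix.map_apply, Matrix.smul_apply, Matrix.add_apply, smul_eq_mul, map_mul,
      map_add, map_sub, hs, map_one, h3, Matrix.one_apply]
    split_ifs <;> simp)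
  rw [mul_inv_eq_iff_eq_mul] at h1
  exact h1

/-- **T2** for `S`. -/
theorem T2_S {p : ℕ} [Fact p.Prime] [Finite G] {S : Subgroup (GU K n)} {ε : S →* G}
    (hε : ∀ g : S, ε g = 1 ↔ ∃ c : K, (g.1 : Matrix (Fin n) (Fin n) K) =
      c • (1 : Matrix (Fin n) (Fin n) K))
    {ζ : K} (hζp : ζ ^ p = 1) (h1 : ζ ≠ 1) (hζ : ζ * star ζ = 1)
    (hS : ∀ w : List (Ln K n), Orth w → eU ζ (sm w) ∈ S) (hn : 1 ≤ n) {x : G} {s : K ≃+* K}
    (hx : ∀ h h' : S, (h'.1 : Matrix (Fin n) (Fin n) K) = (h.1 : Matrix (Fin n) (Fin n) K).map s →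
      x * ε h * x⁻¹ = ε h') (hs : s ζ = ζ) {F' : Finset (List (Ln K n))} (hF : F' ⊆ Fr K n)
    (hperm : ∀ w ∈ F', ∀ w', w.Perm w' → w' ∈ F') (hfix : ∀ w ∈ F', ∀ P ∈ w, P.1.map s = P.1)
    (ht : 0 < AS.t F') (𝕜 : Type w) [Field 𝕜] :
    ∃ w ∈ F', (∀ a ∈ H38.De (eS ε ζ) w, x * a = a * x) ∧
      ∃ (α : Vale.Agent.P240.K.Ch 𝕜 (Subgroup G)) (φ : List (Subgroup G)),
      Vale.Agent.P240.K.TopCycle 𝕜 p (ε.range ⊓ centralizer ({x} : Set G))
        (H38.De (eS ε ζ) w) α φ := by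
  have hcomm : ∀ u v : List (Ln K n), u ++ v ∈ F' → x * eS ε ζ u = eS ε ζ u * x := by
    intro u v huv
    refine acts_comm_S hζ hS hx hs (o_append.1 ((mem_Fr K).1 (hF huv)).2).1 ?_
    exact fun P hP => hfix _ huv P (by simp [hP])
  obtain ⟨w, hw, α, φ, hT⟩ := top_of_comb hn
    (Comb.sub (comb_S hε hζp h1 hζ hS hn) hF hperm) ht 𝕜 (ε.range ⊓ centralizer ({x} : Set G))
    (fun u v huv => ⟨eS_mem ε ζ u, Subgroup.mem_centralizer_iff.2 (by
      rintro y rfl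
      exact hcomm u v huv)⟩)
  refine ⟨w, hw, ?_, α, φ, hT⟩
  intro a ha
  unfold H38.De at ha
  have h3 : closure {y | ∃ u v, w = u ++ v ∧ y = eS ε ζ u} ≤ centralizer ({x} : Set G) := by
    rw [closure_le]
    rintro _ ⟨u, v, huv, rfl⟩
    refine Subgroup.mem_centralizer_iff.2 ?_
    rintro y rfl
    exact hcomm u v (huv ▸ hw)
  exact (Subgroup.mem_centralizer_iff.1 (h3 ha)) x rfl

end general

section numbers

variable {K : Type u} [Field K] [Fintype K] [StarRing K]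

/-- **the numbers for the frames fixed by the field automorphism of order `2`**, trivial star -/
theorem tFs_gsX {s : K ≃+* K} {q : ℕ} (hs : ∀ x : K, star x = x) (hodd : Odd q)
    (hK : Nat.card K = q ^ 2) (hsq : ∀ x : K, s x = x ^ q) {n : ℕ} (hn : Odd n) (hn2 : 2 ≤ n)
    (x : ℚ) (hx : 0 < x) (hq : 2 ≤ q) (hc : 0 ≤ 1 - x - 1 / ((q - 1 : ℕ) * x)) :
    (1 - x - 1 / ((q - 1 : ℕ) * x)) * x ^ (n - 1) * ((H387.Fs s n).card : ℚ) <
      (AS.t (H387.Fs s n) : ℚ) := by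
  classical
  obtain ⟨k0, hk⟩ := X.gsX.{u} (q - 1) n x (by omega) hn2 hx hc
  obtain ⟨g, hg, hw, hlt⟩ := hk (Ln K k0) (H387.Fs s k0) k0 le_rfl
    (H387.good_Fs_triv hs hodd hK hsq k0) (H387.Fs_nonempty fun x => by rw [hs, hs])
  obtain ⟨e1, e2⟩ := H472.r4b hs hodd hK hsq hn hg hw
  rwa [e1, e2] at hlt

/-- `t > 0` for `q ≥ 5` -/
theorem tFs_pos {s : K ≃+* K} {q : ℕ} (hs : ∀ x : K, star x = x) (hodd : Odd q)
    (hK : Nat.card K = q ^ 2) (hsq : ∀ x : K, s x = x ^ q) {n : ℕ} (hn : Odd n) (hn2 : 2 ≤ n)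
    (hq : 5 ≤ q) : 0 < AS.t (H387.Fs s n) := by
  have h4 : (4 : ℚ) ≤ ((q - 1 : ℕ) : ℚ) := by exact_mod_cast (by omega : 4 ≤ q - 1)
  have hc : (0 : ℚ) ≤ 1 - 1 / 2 - 1 / ((q - 1 : ℕ) * (1 / 2)) := by
    have h5 : 1 / (((q - 1 : ℕ) : ℚ) * (1 / 2)) ≤ 1 / (4 * (1 / 2)) :=
      one_div_le_one_div_of_le (by norm_num) (by linarith)
    have h6 : (1 : ℚ) / (4 * (1 / 2)) = 1 / 2 := by norm_num
    rw [h6] at h5
    linarith
  have h := tFs_gsX hs hodd hK hsq hn hn2 (1 / 2) (by norm_num) (by omega) hc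
  have h0 : (0 : ℚ) ≤ (1 - 1 / 2 - 1 / ((q - 1 : ℕ) * (1 / 2))) * (1 / 2) ^ (n - 1) *
      ((H387.Fs s n).card : ℚ) := by positivity
  have h1 : (0 : ℚ) < (AS.t (H387.Fs s n) : ℚ) := lt_of_le_of_lt h0 h
  exact_mod_cast h1

end numbers

end Vale.Agent.P240.R2.H775
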